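import Crest.Agent.R176.BDefs

/-!
# Row 176: the interface between part A (the algebra) and part B (the group)
Complete file (no sorry).
-/

set_option autoImplicit false
set_option linter.unusedSectionVars false

open Matrix

namespace Crest.Agent.R176

/-- `R` is presented by words in `Y` with relations of length two (`Z`: zero pairs, `Mv`: moves) -/
structure WordPres (Y : Type) {R : Type} [Ring R] (I : Ideal R) where
  wd : List Y → R
  wd_nil : wd [] = 1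
  wd_append : ∀ u v, wd (u ++ v) = wd u * wd v
  Z : Y → Y → Prop
  Mv : Y → Y → Y → Y → Prop
  hZ : ∀ a b, Z a b → wd [a, b] = 0
  hM : ∀ a b c d, Mv a b c d → wd [a, b] = wd [c, d]
  mem_I : ∀ w, w ≠ [] → wd w ∈ I
  spanI : ∀ r ∈ I, r ∈ AddSubgroup.closure {r | ∃ w, w ≠ [] ∧ r = wd w}
  spanR : ∀ r, r ∈ AddSubgroup.closure (Set.range wd)
  univ : ∀ (A : Type) [AddCommGroup A] (_ : ∀ a : A, a + a = 0) (f : List Y → A),
    (∀ u v a b, Z a b → f (u ++ a :: b :: v) = 0) →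
    (∀ u v a b c d, Mv a b c d → f (u ++ a :: b :: v) = f (u ++ c :: d :: v)) →
    ∃ F : R →+ A, ∀ w, F (wd w) = f w

variable {R : Type} [Ring R] [Algebra (ZMod 2) R] (𝒜 : ℕ → Submodule (ZMod 2) R)
  [GradedAlgebra 𝒜]

/-- elements of degree `≥ M` -/
def J (M : ℕ) : Ideal R where
  carrier := {r | ∀ d < M, GradedRing.proj 𝒜 d r = 0}
  add_mem' := fun ha hb d hd => by rw [map_add, ha d hd, hb d hd, add_zero]
  zero_mem' := fun d _ => map_zero _
  smul_mem' := fun s r hr d hd => by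
    classical
    rw [smul_eq_mul, GradedRing.proj_apply, DirectSum.decompose_mul, DirectSum.coe_mul_apply]
    refine Finset.sum_eq_zero fun p hp => ?_
    have h1 := (Finset.mem_filter.1 hp).2
    have h2 := hr p.2 (by omega)
    rw [GradedRing.proj_apply] at h2
    rw [h2, mul_zero]

theorem mem_J {M : ℕ} {r : R} : r ∈ J 𝒜 M ↔ ∀ d < M, GradedRing.proj 𝒜 d r = 0 := Iff.rfl

instance (M : ℕ) : (J 𝒜 M).IsTwoSided :=
  ⟨fun {r} s hr d hd => by
    classical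
    rw [GradedRing.proj_apply, DirectSum.decompose_mul, DirectSum.coe_mul_apply]
    refine Finset.sum_eq_zero fun p hp => ?_
    have h1 := (Finset.mem_filter.1 hp).2
    have h2 := hr p.1 (by omega)
    rw [GradedRing.proj_apply] at h2
    rw [h2, zero_mul]⟩

theorem J_anti {M M' : ℕ} (h : M ≤ M') : J 𝒜 M' ≤ J 𝒜 M :=
  fun _ hr d hd => hr d (lt_of_lt_of_le hd h)

theorem mem_J_of_mem {M d : ℕ} {r : R} (hr : r ∈ 𝒜 d) (h : M ≤ d) : r ∈ J 𝒜 M :=
  fun e he => by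
    rw [GradedRing.proj_apply, DirectSum.decompose_of_mem_ne 𝒜 hr (by omega)]

/-- the transfer `r ↦ ∑_a r_d E_{a, a+d}` -/
noncomputable def theta (m : ℕ) : R →+ Matrix (ZMod m) (ZMod m) R :=
  (DirectSum.toAddMonoid fun d : ℕ =>
    ({ toFun := fun r : 𝒜 d => Matrix.of fun a b : ZMod m => if b = a + d then (r : R) else 0
       map_zero' := by ext a b; simp
       map_add' := fun r s => by
         ext a b; by_cases h : b = a + d <;> simp [h] } : 𝒜 d →+ Matrix (ZMod m) (ZMod m) R)).comp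
    (DirectSum.decomposeAddEquiv 𝒜).toAddMonoidHom

theorem theta_of_mem (m : ℕ) {d : ℕ} {r : R} (hr : r ∈ 𝒜 d) (a b : ZMod m) :
    theta 𝒜 m r a b = if b = a + d then r else 0 := by
  simp [theta, DirectSum.decompose_of_mem 𝒜 hr]

/-- a linking datum at level `M` for the map `al` -/
structure Datum (M : ℕ) (A B : Type) [Fintype A] [Fintype B] [DecidableEq B]
    (al : R → Matrix A A R) where
  lam : R →+ Matrix A B R
  rho : R →+ Matrix B A R
  lam_mem : ∀ j ∈ J 𝒜 M, ∀ a b, lam j a b ∈ J 𝒜 1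
  rho_mem : ∀ j ∈ J 𝒜 M, ∀ b a, rho j b a ∈ J 𝒜 1
  lam_rho : ∀ j ∈ J 𝒜 M, ∀ j' ∈ J 𝒜 M, lam j * rho j' = al (j * j')
  rho_lam : ∀ j ∈ J 𝒜 M, ∀ j' ∈ J 𝒜 M, rho j * lam j' = Matrix.diagonal fun _ => j * j'
  lam_mul : ∀ j ∈ J 𝒜 M, ∀ r a b, lam (j * r) a b = lam j a b * r
  rho_mul : ∀ j ∈ J 𝒜 M, ∀ r b a, rho (r * j) b a = r * rho j b a
  al_add : ∀ j j', al (j + j') = al j + al j'

/-- finitely many generators `w` of the right ideal `J M`, finitely many syzygies `Z` -/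
structure Syz (M : ℕ) (W Zi : Type) [Fintype W] [Fintype Zi] where
  w : W → R
  Z : W → Zi → R
  w_mem : ∀ o, w o ∈ J 𝒜 M
  Z_mem : ∀ o z, Z o z ∈ J 𝒜 1
  wZ : ∀ z, ∑ o, w o * Z o z = 0
  gen : ∀ r ∈ J 𝒜 (2 * M + 1), ∃ G : W → R, (∀ o, G o ∈ J 𝒜 (M + 1)) ∧ r = ∑ o, w o * G o
  syz : ∀ G : W → R, (∀ o, G o ∈ J 𝒜 (M + 1)) → ∑ o, w o * G o = 0 →
    ∃ T : Zi → R, (∀ z, T z ∈ J 𝒜 M) ∧ ∀ o, G o = ∑ z, Z o z * T z

/-- the odometer property for `m` -/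
def OdoD (m : ℕ) [NeZero m] : Prop :=
  ∃ M, 1 ≤ M ∧ Nonempty (Datum 𝒜 M (ZMod m) (ZMod m) (theta 𝒜 m))

/-- everything part B needs from the algebra -/
structure Nice : Prop where
  inf : Infinite R
  nil : MNil (J 𝒜 1)
  fin : ∀ d, Finite (𝒜 d)
  prod : ∀ M, ∀ r ∈ J 𝒜 (2 * M),
    r ∈ AddSubgroup.closure {r | ∃ b ∈ J 𝒜 M, ∃ c ∈ J 𝒜 M, r = b * c}
  syz : ∀ M, ∃ (W Zi : Type) (_ : Fintype W) (_ : Fintype Zi), Nonempty (Syz 𝒜 M W Zi)
  odo2 : ∀ k, OdoD 𝒜 (2 ^ k)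
  odo3 : ∀ k, OdoD 𝒜 (3 ^ k)
  pres : ∃ (Y : Type) (_ : Finite Y), Nonempty (WordPres Y (J 𝒜 1))

end Crest.Agent.R176
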