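import Crest.Agent.R176.ASys
import Crest.Agent.R176.Iface

/-!
# Row 176 A: the algebra of a rewriting system  (subtask AAlg1)

`exists_bAlg`.  `Y = {a // S.ok a} ≃ Fin m`; `rel` = the finite set of pairs `(ι a * ι b, 0)`
(`S.zero a b`) and `(ι a * ι b, ι c * ι d)` (`S.move a b c d`), `a b c d ∈ Y`; `R = RingQuot`;
`wd w = (w.map g).prod` with `g a = mk (ι a)` if `S.ok a`, else `0`.
`univ`: let `T` be the submodule of functions `g : List α → V` that vanish on null words and are
`Eqv`-invariant; `a` acts on `T` by `(ρ a g) w = g (w ++ [a])`, so a word `u` acts by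
`g ↦ g (· ++ u)`; this respects `rel` (`Null.ctx`, `Eqv.ctx`), giving `R →ₐ Module.End T`
(`FreeAlgebra.lift`, `RingQuot.liftAlgHom`); `F r = (ρ r f) []`.
Grading: `𝒜 d = span {wd w | |w| = d}`; the decomposition `R →ₗ ⨁ d, 𝒜 d` comes from `univ` with
`f w = of |w| ⟨wd w, _⟩`; use `DirectSum.Decomposition.ofLinearMap` (or `ofAddHom`), and
`SetLike.GradedMonoid`.
-/

set_option autoImplicit false
set_option linter.unusedSectionVars false

namespace Crest.Agent.R176

/-- `R` is the contracted semigroup algebra of `S` -/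
structure BAlg {α : Type} (S : Sys α) {R : Type} [Ring R] [Algebra (ZMod 2) R]
    (𝒜 : ℕ → Submodule (ZMod 2) R) where
  wd : List α → R
  wd_nil : wd [] = 1
  wd_append : ∀ u v, wd (u ++ v) = wd u * wd v
  wd_null : ∀ w, S.Null w → wd w = 0
  wd_eqv : ∀ w w', S.Eqv w w' → wd w = wd w'
  grade : ∀ d, 𝒜 d = Submodule.span (ZMod 2) {r | ∃ w : List α, w.length = d ∧ r = wd w}
  univ : ∀ (V : Type) [AddCommGroup V] [Module (ZMod 2) V] (f : List α → V),
    (∀ w, S.Null w → f w = 0) → (∀ w w', S.Eqv w w' → f w = f w') →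
    ∃ F : R →ₗ[ZMod 2] V, ∀ w, F (wd w) = f w

theorem a1_eqv {α V : Type} {S : Sys α} {f : List α → V} (h : ∀ w w', S.Step w w' → f w = f w')
    {w w' : List α} (hw : S.Eqv w w') : f w = f w' := by
  induction hw with
  | rel _ _ h1 => exact h _ _ h1
  | refl => rfl
  | symm _ _ _ ih => exact ih.symm
  | trans _ _ _ _ _ ih ih' => exact ih.trans ih'

/-- the grading from the universal property -/
theorem a1_graded {α R : Type} {S : Sys α} [Ring R] [Algebra (ZMod 2) R]
    {𝒜 : ℕ → Submodule (ZMod 2) R} (P : BAlg S 𝒜)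
    (hspan : Submodule.span (ZMod 2) (Set.range P.wd) = ⊤) : Nonempty (GradedAlgebra 𝒜) := by
  have hm : ∀ w : List α, ∀ d, w.length = d → P.wd w ∈ 𝒜 d := fun w d h => by
    rw [P.grade]; exact Submodule.subset_span ⟨w, h, rfl⟩
  obtain ⟨F, hF⟩ := P.univ (DirectSum ℕ fun d => 𝒜 d)
    (fun w => DirectSum.lof (ZMod 2) ℕ (fun d => 𝒜 d) w.length ⟨P.wd w, hm w _ rfl⟩)
    (fun w hw => by
      rw [show (⟨P.wd w, hm w _ rfl⟩ : 𝒜 w.length) = 0 from Subtype.ext (P.wd_null w hw), map_zero])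
    (fun w w' hw => by
      have h1 := hw.length_eq
      have h2 := P.wd_eqv _ _ hw
      have : ∀ d d' (x x' : R) (hx : x ∈ 𝒜 d) (hx' : x' ∈ 𝒜 d'), d = d' → x = x' →
          DirectSum.lof (ZMod 2) ℕ (fun d => 𝒜 d) d ⟨x, hx⟩ =
          DirectSum.lof (ZMod 2) ℕ (fun d => 𝒜 d) d' ⟨x', hx'⟩ := by
        rintro _ _ _ _ _ _ rfl rfl; rfl
      exact this _ _ _ _ _ _ h1 h2)
  have hG : SetLike.GradedMonoid 𝒜 :=
    { one_mem := by rw [← P.wd_nil]; exact hm _ _ rfl
      mul_mem := fun i j x y hx hy => by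
        rw [P.grade] at hx hy
        refine (Submodule.mul_le.1 (?_ : _ * _ ≤ 𝒜 (i + j))) x hx y hy
        rw [Submodule.span_mul_span, Submodule.span_le]
        rintro _ ⟨_, ⟨u, rfl, rfl⟩, _, ⟨v, rfl, rfl⟩, rfl⟩
        show P.wd u * P.wd v ∈ _
        rw [← P.wd_append]
        exact hm _ _ (List.length_append) }
  have hD : DirectSum.Decomposition 𝒜 := DirectSum.Decomposition.ofLinearMap 𝒜 F
    (LinearMap.ext_on_range hspan fun w => by
      rw [LinearMap.comp_apply, hF, DirectSum.lof_eq_of, DirectSum.coeLinearMap_of]; rfl)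
    (DirectSum.linearMap_ext _ fun d => LinearMap.ext fun ⟨x, hx⟩ => by
      simp only [LinearMap.comp_apply, DirectSum.lof_eq_of, DirectSum.coeLinearMap_of,
        LinearMap.id_apply]
      have hx' := hx
      rw [P.grade] at hx'
      induction hx' using Submodule.span_induction with
      | mem _ h => obtain ⟨w, rfl, rfl⟩ := h; exact hF w
      | zero => rw [map_zero]; exact (map_zero (DirectSum.of (fun d => 𝒜 d) d)).symm
      | add x y hx1 hy1 ihx ihy =>
        rw [← P.grade] at hx1 hy1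
        rw [map_add, ihx hx1, ihy hy1, ← map_add]; rfl
      | smul c x hx1 ih =>
        rw [← P.grade] at hx1
        rw [map_smul, ih hx1, ← DirectSum.lof_eq_of (ZMod 2), ← DirectSum.lof_eq_of (ZMod 2),
          ← map_smul]; rfl)
  exact ⟨{ hG, hD with }⟩

/-- functions on words that factor through the contracted semigroup -/
def a1T {α : Type} (S : Sys α) (V : Type) [AddCommGroup V] [Module (ZMod 2) V] :
    Submodule (ZMod 2) (List α → V) where
  carrier := {g | (∀ w, S.Null w → g w = 0) ∧ ∀ w w', S.Eqv w w' → g w = g w'}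
  add_mem' := fun {f g} hf hg => ⟨fun w hw => by simp [hf.1 w hw, hg.1 w hw],
    fun w w' hw => by simp [hf.2 w w' hw, hg.2 w w' hw]⟩
  zero_mem' := ⟨fun _ _ => rfl, fun _ _ _ => rfl⟩
  smul_mem' := fun c f hf => ⟨fun w hw => by simp [hf.1 w hw],
    fun w w' hw => by simp [hf.2 w w' hw]⟩

/-- right translation -/
def a1R {α : Type} (S : Sys α) (V : Type) [AddCommGroup V] [Module (ZMod 2) V] (u : List α) :
    Module.End (ZMod 2) (a1T S V) where
  toFun g := ⟨fun w => g.1 (w ++ u), fun w hw => g.2.1 _ (by simpa using hw.ctx [] u),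
    fun w w' hw => g.2.2 _ _ (by simpa using hw.ctx [] u)⟩
  map_add' _ _ := rfl
  map_smul' _ _ := rfl

theorem a1R_mul {α : Type} (S : Sys α) (V : Type) [AddCommGroup V] [Module (ZMod 2) V]
    (u v : List α) : a1R S V (u ++ v) = a1R S V u * a1R S V v := by
  ext g w
  show g.1 (w ++ (u ++ v)) = g.1 (w ++ u ++ v)
  rw [List.append_assoc]

theorem a1R_null {α : Type} (S : Sys α) (V : Type) [AddCommGroup V] [Module (ZMod 2) V]
    {u : List α} (hu : S.Null u) : a1R S V u = 0 := by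
  ext g w
  exact g.2.1 _ (by simpa using hu.ctx w [])

theorem a1R_eqv {α : Type} (S : Sys α) (V : Type) [AddCommGroup V] [Module (ZMod 2) V]
    {u v : List α} (hu : S.Eqv u v) : a1R S V u = a1R S V v := by
  ext g w
  exact g.2.2 _ _ (by simpa using hu.ctx w [])

theorem exists_bAlg {α : Type} (S : Sys α) (hfin : {a | S.ok a}.Finite) :
    ∃ (R : Type) (_ : Ring R) (_ : Algebra (ZMod 2) R) (𝒜 : ℕ → Submodule (ZMod 2) R)
      (_ : GradedAlgebra 𝒜), Nonempty (BAlg S 𝒜) ∧
      ∃ (m : ℕ) (rel : Finset (FreeAlgebra (ZMod 2) (Fin m) × FreeAlgebra (ZMod 2) (Fin m))),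
        Nonempty (R ≃ₐ[ZMod 2] RingQuot fun x y : FreeAlgebra (ZMod 2) (Fin m) => (x, y) ∈ rel) := by
  classical
  have : Finite {a // S.ok a} := hfin.to_subtype
  obtain ⟨m, ⟨e⟩⟩ := Finite.exists_equiv_fin {a // S.ok a}
  let j : {a // S.ok a} → FreeAlgebra (ZMod 2) (Fin m) := fun a => FreeAlgebra.ι (ZMod 2) (e a)
  let T : Set (FreeAlgebra (ZMod 2) (Fin m) × FreeAlgebra (ZMod 2) (Fin m)) :=
    ((fun t : {a // S.ok a} × {a // S.ok a} => (j t.1 * j t.2, 0)) '' {t | S.zero t.1 t.2}) ∪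
    ((fun t : ({a // S.ok a} × {a // S.ok a}) × {a // S.ok a} × {a // S.ok a} =>
      (j t.1.1 * j t.1.2, j t.2.1 * j t.2.2)) '' {t | S.move t.1.1 t.1.2 t.2.1 t.2.2})
  have hT : T.Finite := ((Set.toFinite _).image _).union ((Set.toFinite _).image _)
  let r : FreeAlgebra (ZMod 2) (Fin m) → FreeAlgebra (ZMod 2) (Fin m) → Prop :=
    fun x y => (x, y) ∈ hT.toFinset
  let π := RingQuot.mkAlgHom (ZMod 2) r
  let g : α → RingQuot r := fun a => if h : S.ok a then π (j ⟨a, h⟩) else 0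
  have hg : ∀ a : {a // S.ok a}, g a = π (j a) := fun a => dif_pos a.2
  have hg0 : ∀ a, ¬ S.ok a → g a = 0 := fun a h => dif_neg h
  have hstep : ∀ w w', S.Step w w' → wt g w = wt g w' := by
    rintro _ _ ⟨u, v, a, b, c, d, ⟨h, ha, hb, hc, hd⟩, rfl, rfl⟩
    have h1 : g a * g b = g c * g d := by
      rw [hg ⟨a, ha⟩, hg ⟨b, hb⟩, hg ⟨c, hc⟩, hg ⟨d, hd⟩, ← map_mul, ← map_mul]
      exact RingQuot.mkAlgHom_rel _ (hT.mem_toFinset.2
        (Or.inr ⟨((⟨a, ha⟩, ⟨b, hb⟩), ⟨c, hc⟩, ⟨d, hd⟩), h, rfl⟩))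
    simp only [wt, List.map_append, List.map_cons, List.prod_append, List.prod_cons, ← mul_assoc]
    rw [mul_assoc _ (g a), mul_assoc _ (g c), h1]
  have hbad : ∀ w, S.Bad w → wt g w = 0 := by
    rintro w (⟨a, ha, h⟩ | ⟨u, v, a, b, h, rfl⟩)
    · exact List.prod_eq_zero (List.mem_map.2 ⟨a, ha, hg0 a h⟩)
    · have h1 : g a * g b = 0 := by
        by_cases ha : S.ok a
        · by_cases hb : S.ok b
          · rw [hg ⟨a, ha⟩, hg ⟨b, hb⟩, ← map_mul, ← map_zero π]
            exact RingQuot.mkAlgHom_rel _ (hT.mem_toFinset.2 (Or.inl ⟨(⟨a, ha⟩, ⟨b, hb⟩), h, rfl⟩))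
          · rw [hg0 b hb, mul_zero]
        · rw [hg0 a ha, zero_mul]
      simp only [wt, List.map_append, List.map_cons, List.prod_append, List.prod_cons, ← mul_assoc]
      rw [mul_assoc _ (g a), h1, mul_zero, zero_mul]
  let P : BAlg S fun d => Submodule.span (ZMod 2)
      {r | ∃ w : List α, w.length = d ∧ r = wt g w} :=
    { wd := wt g
      wd_nil := rfl
      wd_append := wt_append g
      wd_null := fun w ⟨w', h1, h2⟩ => (a1_eqv hstep h1).trans (hbad _ h2)
      wd_eqv := fun w w' => a1_eqv hstep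
      grade := fun _ => rfl
      univ := fun V _ _ f h1 h2 => by
        let L := FreeAlgebra.lift (ZMod 2) fun i => a1R S V [(e.symm i).1]
        have hL : ∀ a b, L (j a * j b) = a1R S V [a.1, b.1] := fun a b => by
          simp only [L, j, map_mul, FreeAlgebra.lift_ι_apply, Equiv.symm_apply_apply, ← a1R_mul]
          rfl
        have hr : ∀ ⦃x y⦄, r x y → L x = L y := by
          intro x y h
          rcases hT.mem_toFinset.1 h with ⟨⟨a, b⟩, h1, h2⟩ | ⟨⟨⟨a, b⟩, c, d⟩, h1, h2⟩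
          · obtain ⟨rfl, rfl⟩ := Prod.mk.inj h2
            rw [hL, map_zero]
            exact a1R_null _ _ (Sys.Bad.null (Or.inr ⟨[], [], _, _, h1, rfl⟩))
          · obtain ⟨rfl, rfl⟩ := Prod.mk.inj h2
            rw [hL, hL]
            exact a1R_eqv _ _ (Sys.Step.eqv ⟨[], [], _, _, _, _, ⟨h1, a.2, b.2, c.2, d.2⟩, rfl, rfl⟩)
        let Φ := RingQuot.liftAlgHom (ZMod 2) ⟨L, hr⟩
        have hΦ : ∀ a, Φ (g a) = a1R S V [a] := fun a => by
          by_cases ha : S.ok a
          · rw [hg ⟨a, ha⟩, RingQuot.liftAlgHom_mkAlgHom_apply]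
            simp only [L, j, FreeAlgebra.lift_ι_apply, Equiv.symm_apply_apply]
          · rw [hg0 a ha, map_zero,
              a1R_null _ _ (Sys.Bad.null (Or.inl ⟨a, List.mem_singleton_self a, ha⟩))]
        have hΦw : ∀ w, Φ (wt g w) = a1R S V w := fun w => by
          induction w with
          | nil => rw [show wt g [] = 1 from rfl, map_one]; ext f w; simp [a1R]
          | cons a w ih =>
            rw [show wt g (a :: w) = g a * wt g w from rfl, map_mul, hΦ, ih, ← a1R_mul]; rfl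
        refine ⟨{ toFun := fun x => (Φ x ⟨f, h1, h2⟩).1 []
                  map_add' := fun x y => by rw [map_add]; rfl
                  map_smul' := fun c x => by rw [map_smul]; rfl }, fun w => ?_⟩
        show (Φ (wt g w) ⟨f, h1, h2⟩).1 [] = _
        rw [hΦw]; rfl }
  have hspan : Submodule.span (ZMod 2) (Set.range P.wd) = ⊤ := by
    rw [eq_top_iff]
    rintro x -
    obtain ⟨x, rfl⟩ := RingQuot.mkAlgHom_surjective (ZMod 2) r x
    induction x using FreeAlgebra.induction with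
    | grade0 c =>
      rw [AlgHom.commutes, Algebra.algebraMap_eq_smul_one]
      exact Submodule.smul_mem _ _ (Submodule.subset_span ⟨[], rfl⟩)
    | grade1 i =>
      refine Submodule.subset_span ⟨[(e.symm i).1], ?_⟩
      show g _ * 1 = _
      rw [mul_one, hg]; simp only [j, Equiv.apply_symm_apply]; rfl
    | mul x y hx hy =>
      rw [map_mul]
      refine (Submodule.mul_le.1 ?_) _ hx _ hy
      rw [Submodule.span_mul_span]
      refine Submodule.span_mono ?_
      rintro _ ⟨_, ⟨u, rfl⟩, _, ⟨v, rfl⟩, rfl⟩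
      exact ⟨u ++ v, P.wd_append u v⟩
    | add x y hx hy => rw [map_add]; exact add_mem hx hy
  obtain ⟨G⟩ := a1_graded P hspan
  exact ⟨RingQuot r, inferInstance, inferInstance, _, G, ⟨P⟩, m, hT.toFinset, ⟨AlgEquiv.refl⟩⟩

variable {α : Type} {S : Sys α} {R : Type} [Ring R] [Algebra (ZMod 2) R]
  {𝒜 : ℕ → Submodule (ZMod 2) R} [GradedAlgebra 𝒜] (P : BAlg S 𝒜)

theorem BAlg.wd_mem (w : List α) : P.wd w ∈ 𝒜 w.length := by
  rw [P.grade]; exact Submodule.subset_span ⟨w, rfl, rfl⟩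

include P in
theorem BAlg.zero_eq_one : 𝒜 0 = 1 := by
  rw [P.grade, Submodule.one_eq_span]
  congr 1
  ext r
  simp [P.wd_nil]

/-- `J M` is spanned by the words of length `≥ M` (decompose `r`, `DirectSum.sum_support_decompose`) -/
theorem BAlg.J_induction {M : ℕ} {Q : R → Prop} (h0 : Q 0) (hadd : ∀ r s, Q r → Q s → Q (r + s))
    (hw : ∀ w : List α, M ≤ w.length → ¬ S.Null w → Q (P.wd w)) {r : R} (hr : r ∈ J 𝒜 M) : Q r := by
  classical
  have key : ∀ d, M ≤ d → ∀ x ∈ 𝒜 d, Q x := by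
    intro d hd x hx
    rw [P.grade] at hx
    induction hx using Submodule.span_induction with
    | mem _ h =>
      obtain ⟨w, rfl, rfl⟩ := h
      by_cases hn : S.Null w
      · rwa [P.wd_null w hn]
      · exact hw w hd hn
    | zero => exact h0
    | add x y _ _ hx hy => exact hadd _ _ hx hy
    | smul c x _ hx =>
      rcases (by decide : ∀ c : ZMod 2, c = 0 ∨ c = 1) c with rfl | rfl
      · rwa [zero_smul]
      · rwa [one_smul]
  rw [← DirectSum.sum_support_decompose 𝒜 r]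
  refine Finset.sum_induction _ Q hadd h0 fun d _ => ?_
  by_cases hd : M ≤ d
  · exact key d hd _ (Subtype.prop _)
  · have := hr d (not_le.1 hd)
    rw [GradedRing.proj_apply] at this
    rwa [this]

theorem BAlg.wd_mem_J {M : ℕ} {w : List α} (h : M ≤ w.length) : P.wd w ∈ J 𝒜 M :=
  mem_J_of_mem 𝒜 (P.wd_mem w) h

theorem BAlg.wd_ne_zero {w : List α} (h : ¬ S.Null w) : P.wd w ≠ 0 := by
  classical
  obtain ⟨F, hF⟩ := P.univ (ZMod 2) (fun w => if S.Null w then 0 else 1) (fun w hw => if_pos hw)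
    fun w w' hw => by
      rw [show S.Null w ↔ S.Null w' from ⟨Sys.Null.of_eqv hw.symm, Sys.Null.of_eqv hw⟩]
  intro h0
  have := hF w
  rw [h0, map_zero, if_neg h] at this
  exact zero_ne_one this

include P in
theorem BAlg.infinite (hinf : ∀ n, ∃ w : List α, n ≤ w.length ∧ ¬ S.Null w) : Infinite R := by
  choose w hw hn using hinf
  by_contra hfin
  rw [not_infinite_iff_finite] at hfin
  obtain ⟨r, hr⟩ := Finite.exists_infinite_fiber fun n => P.wd (w n)
  obtain ⟨⟨n, hn1⟩⟩ := (inferInstance : Nonempty ((fun n => P.wd (w n)) ⁻¹' {r}))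
  obtain ⟨n', hn', hlt⟩ := (Set.infinite_coe_iff.1 hr).exists_gt (w n).length
  have h1 : P.wd (w n') = P.wd (w n) := hn'.trans (Set.mem_singleton_iff.1 hn1).symm
  have h2 := P.wd_mem_J (hlt.trans_le (hw n') : (w n).length + 1 ≤ _) _ (Nat.lt_succ_self _)
  rw [h1, GradedRing.proj_apply, DirectSum.decompose_of_mem_same 𝒜 (P.wd_mem _)] at h2
  exact P.wd_ne_zero (hn n) h2

include P in
theorem BAlg.finite (hfin : {a | S.ok a}.Finite) (d : ℕ) : Finite (𝒜 d) := by
  have h1 : {r | ∃ w : List α, w.length = d ∧ r = P.wd w}.Finite := by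
    refine (((Sys.okWords_finite hfin d).image P.wd).insert 0).subset ?_
    rintro _ ⟨w, hw, rfl⟩
    by_cases h : ∀ a ∈ w, S.ok a
    · exact Or.inr ⟨w, ⟨hw, h⟩, rfl⟩
    · push Not at h
      exact Or.inl (P.wd_null _ (Sys.Bad.null (Or.inl h)))
  rw [P.grade]
  have := Module.Finite.span_of_finite (ZMod 2) h1
  exact Module.finite_of_finite (ZMod 2)

include P in
theorem BAlg.prod (M : ℕ) (r : R) (hr : r ∈ J 𝒜 (2 * M)) :
    r ∈ AddSubgroup.closure {r | ∃ b ∈ J 𝒜 M, ∃ c ∈ J 𝒜 M, r = b * c} := by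
  refine P.J_induction (Q := fun r => r ∈ AddSubgroup.closure _) (zero_mem _)
    (fun _ _ => add_mem) (fun w hw _ => AddSubgroup.subset_closure ?_) hr
  exact ⟨_, P.wd_mem_J (w := w.take M) (by simp; omega), _,
    P.wd_mem_J (w := w.drop M) (by simp; omega), by rw [← P.wd_append, List.take_append_drop]⟩

include P in
/-- `Y = {a // S.ok a}`, `Z = S.zero`, `Mv = S.move`; extend `f` by `0` to words with a letter that
is not `ok`; `AddCommGroup.zmodModule` -/
theorem BAlg.pres (hfin : {a | S.ok a}.Finite) :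
    ∃ (Y : Type) (_ : Finite Y), Nonempty (WordPres Y (J 𝒜 1)) := by
  classical
  have lift : ∀ w : List α, ¬ S.Null w → ∃ w' : List {a // S.ok a}, w'.map Subtype.val = w := by
    intro w hw
    have h : ∀ a ∈ w, S.ok a := fun a ha => by
      by_contra h
      exact hw (Sys.Bad.null (Or.inl ⟨a, ha, h⟩))
    exact ⟨w.attachWith S.ok h, by simp⟩
  have dec : ∀ (w : List {a // S.ok a}) (u v : List α) (a b : α),
      w.map Subtype.val = u ++ a :: b :: v → ∃ (u' v' : List {a // S.ok a}) (a' b' : {a // S.ok a}),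
        w = u' ++ a' :: b' :: v' ∧ u = u'.map Subtype.val ∧ v = v'.map Subtype.val ∧ a = a' ∧
          b = b' := by
    intro w u v a b h
    obtain ⟨u', w1, rfl, rfl, h1⟩ := List.map_eq_append_iff.1 h
    obtain ⟨a', w2, rfl, rfl, h2⟩ := List.map_eq_cons_iff.1 h1
    obtain ⟨b', v', rfl, rfl, rfl⟩ := List.map_eq_cons_iff.1 h2
    exact ⟨u', v', a', b', rfl, rfl, rfl, rfl, rfl⟩
  refine ⟨{a // S.ok a}, hfin.to_subtype, ⟨
    { wd := fun w => P.wd (w.map Subtype.val)
      wd_nil := P.wd_nil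
      wd_append := fun u v => by rw [List.map_append, P.wd_append]
      Z := fun a b => S.zero a b
      Mv := fun a b c d => S.move a b c d
      hZ := fun a b h => P.wd_null _ (Sys.Bad.null (Or.inr ⟨[], [], _, _, h, rfl⟩))
      hM := fun a b c d h => P.wd_eqv _ _
        (Sys.Step.eqv ⟨[], [], _, _, _, _, ⟨h, a.2, b.2, c.2, d.2⟩, rfl, rfl⟩)
      mem_I := fun w hw => P.wd_mem_J (by rw [List.length_map]; exact List.length_pos_iff.2 hw)
      spanI := fun r hr => ?_
      spanR := fun r => ?_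
      univ := fun A _ h2 f hZ hM => ?_ }⟩⟩
  · refine P.J_induction (Q := fun r => r ∈ AddSubgroup.closure _) (zero_mem _)
      (fun _ _ => add_mem) (fun w hw hn => AddSubgroup.subset_closure ?_) hr
    obtain ⟨w', rfl⟩ := lift w hn
    exact ⟨w', by rintro rfl; simp at hw, rfl⟩
  · refine P.J_induction (M := 0) (Q := fun r => r ∈ AddSubgroup.closure _) (zero_mem _)
      (fun _ _ => add_mem) (fun w _ hn => AddSubgroup.subset_closure ?_)
      fun d hd => absurd hd (Nat.not_lt_zero d)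
    obtain ⟨w', rfl⟩ := lift w hn
    exact ⟨w', rfl⟩
  · let _ : Module (ZMod 2) A := AddCommGroup.zmodModule fun x => by rw [two_nsmul, h2]
    let f' : List α → A := Function.extend (List.map Subtype.val) f 0
    have h1 : ∀ w, f' (w.map Subtype.val) = f w := fun w =>
      (List.map_injective_iff.2 Subtype.val_injective).extend_apply f 0 w
    have h0 : ∀ w, (¬ ∃ w' : List {a // S.ok a}, w'.map Subtype.val = w) → f' w = 0 :=
      fun w h => Function.extend_apply' _ _ _ h
    have hstep : ∀ w w', S.Step w w' → f' w = f' w' := by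
      rintro _ _ ⟨u, v, a, b, c, d, ⟨h, ha, hb, hc, hd⟩, rfl, rfl⟩
      by_cases hw : ∃ w' : List {a // S.ok a}, w'.map Subtype.val = u ++ a :: b :: v
      · obtain ⟨w, hw⟩ := hw
        obtain ⟨u', v', a', b', rfl, rfl, rfl, rfl, rfl⟩ := dec w u v a b hw
        rw [← hw, h1, hM u' v' a' b' ⟨c, hc⟩ ⟨d, hd⟩ h, ← h1]
        simp
      · rw [h0 _ hw, h0]
        rintro ⟨w, hw'⟩
        obtain ⟨u', v', a', b', rfl, rfl, rfl, rfl, rfl⟩ := dec w u v c d hw'
        exact hw ⟨u' ++ ⟨a, ha⟩ :: ⟨b, hb⟩ :: v', by simp⟩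
    have hbad : ∀ w, S.Bad w → f' w = 0 := by
      intro w hb
      by_cases hw : ∃ w' : List {a // S.ok a}, w'.map Subtype.val = w
      · obtain ⟨w, rfl⟩ := hw
        rcases hb with ⟨a, ha, h⟩ | ⟨u, v, a, b, h, hw⟩
        · obtain ⟨a', -, rfl⟩ := List.mem_map.1 ha
          exact absurd a'.2 h
        · obtain ⟨u', v', a', b', rfl, rfl, rfl, rfl, rfl⟩ := dec w u v a b hw
          rw [h1, hZ u' v' a' b' h]
      · exact h0 _ hw
    obtain ⟨F, hF⟩ := P.univ A f' (fun w ⟨w', h1, h2⟩ => (a1_eqv hstep h1).trans (hbad _ h2))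
      fun w w' => a1_eqv hstep
    exact ⟨F.toAddMonoidHom, fun w => (hF _).trans (h1 w)⟩

end Crest.Agent.R176
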