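import Crest.Agent.R176.AAlg1

/-!
# Row 176 A: matrices over the augmentation ideal are nilpotent  (subtask AAlg2)

`lin_nil`: `X ^ n = ∑_{w ∈ Y^n} (wt C w).map (mapRingHom ..) * C (wd w)` (sum over words of length
`n` in the finite set `Y` of admissible letters); group the words by `Eqv`-classes
(`van_partition` with `r w w' := Eqv w w'` on non-null words; null words contribute `0`; or a
fibrewise sum), `A = Matrix κ κ KK` has finite rank, `S.Nil` gives vanishing class sums.
`BAlg.mnil`: write `A = ∑_{u ∈ T} C_u · wd u` with a finite set `T` of nonempty non-null words and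
`C_u : Matrix l l (ZMod 2)` (`J_induction` entrywise).  `Pf` = finite set of proper prefixes of words
of `T` together with `[]`, `V_p = ∑_{u ∈ T, u = p ++ u', u' ≠ []} C_u · wd u'`, `V_[] = A`, and
`V_p = ∑_a wd [a] · ([p++[a] ∈ Pf] V_{p++[a]} + [p++[a] ∈ T] C_{p++[a]})`.
On `κ = Pf × Fin l` let `X = N + t Y` with `N ((p,i),(p',j)) = ∑_a [p' = p++[a], i = j] wd [a]`,
`Y ((p,i),(p',j)) = ∑_a [p' = [], p++[a] ∈ T] C_{p++[a]} i j * wd [a]`.  With `y k = (V_p A^k)_p`:
`y (k+1) = N y (k+1) + Y y k`.  `X ^ n = 0` (`lin_nil`), and then `nil_of_pencil` gives `y k = 0`.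
`nil_of_pencil`: in `End M [t]`-free form: define `c j k` = coefficient of `t^k` in `X^j`; by
induction on `j`, `y k = ∑_{i ≤ j} c j i • y (k - i)` for `k ≥ j`.
-/

set_option autoImplicit false
set_option linter.unusedSectionVars false

open Polynomial

namespace Crest.Agent.R176

variable {α : Type} {S : Sys α} {R : Type} [Ring R] [Algebra (ZMod 2) R]
  {𝒜 : ℕ → Submodule (ZMod 2) R} [GradedAlgebra 𝒜] (P : BAlg S 𝒜)

theorem aa2_comm (p : KK) (r : R) :
    Polynomial.C r * p.map (algebraMap (ZMod 2) R) = p.map (algebraMap (ZMod 2) R) * Polynomial.C r := by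
  ext n
  rw [coeff_C_mul, coeff_mul_C, coeff_map, Algebra.commutes]

/-- `M ⊗ r` -/
noncomputable def aa2F {κ : Type} (r : R) : Matrix κ κ KK →+ Matrix κ κ R[X] where
  toFun M := Matrix.of fun i j => (M i j).map (algebraMap (ZMod 2) R) * Polynomial.C r
  map_zero' := by refine Matrix.ext fun i j => ?_; simp
  map_add' M M' := by refine Matrix.ext fun i j => ?_; simp [Polynomial.map_add, add_mul]

theorem aa2F_apply {κ : Type} (r : R) (M : Matrix κ κ KK) (i j : κ) :
    aa2F r M i j = (M i j).map (algebraMap (ZMod 2) R) * Polynomial.C r := rfl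

theorem aa2F_mul {κ : Type} [Fintype κ] (r r' : R) (M M' : Matrix κ κ KK) :
    aa2F r M * aa2F r' M' = aa2F (r * r') (M * M') := by
  refine Matrix.ext fun i j => ?_
  rw [Matrix.mul_apply, aa2F_apply, Matrix.mul_apply, Polynomial.map_sum, Finset.sum_mul]
  simp only [aa2F_apply, Polynomial.map_mul, C_mul]
  refine Finset.sum_congr rfl fun k _ => ?_
  rw [mul_assoc, ← mul_assoc (Polynomial.C r), aa2_comm]
  simp only [mul_assoc]

theorem aa2F_one {κ : Type} [DecidableEq κ] : aa2F (1 : R) (1 : Matrix κ κ KK) = 1 := by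
  refine Matrix.ext fun i j => ?_
  rw [aa2F_apply, Matrix.one_apply, Matrix.one_apply]
  split_ifs <;> simp

theorem aa2F_zero {κ : Type} (M : Matrix κ κ KK) : aa2F (0 : R) M = 0 := by
  refine Matrix.ext fun i j => ?_
  simp [aa2F_apply]

theorem aa2_pow (hfin : {a | S.ok a}.Finite) {κ : Type} [Fintype κ] [DecidableEq κ]
    (C : α → Matrix κ κ KK) (n : ℕ) :
    (∑ a ∈ hfin.toFinset, aa2F (P.wd [a]) (C a)) ^ n =
      ∑ w ∈ (Sys.okWords_finite hfin n).toFinset, aa2F (P.wd w) (wt C w) := by
  induction n with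
  | zero =>
    have : (Sys.okWords_finite hfin 0).toFinset = {[]} := by
      ext w
      simp only [Set.Finite.mem_toFinset, Set.mem_ofPred_eq, List.length_eq_zero_iff,
        Finset.mem_singleton]
      exact ⟨fun h => h.1, fun h => ⟨h, by simp [h]⟩⟩
    rw [this, Finset.sum_singleton, pow_zero, P.wd_nil]
    simp [wt, aa2F_one]
  | succ n ih =>
    rw [pow_succ', ih, Finset.sum_mul_sum, ← Finset.sum_product']
    refine Finset.sum_bij (fun p _ => p.1 :: p.2) ?_ ?_ ?_ ?_
    · rintro ⟨a, w⟩ h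
      simp only [Finset.mem_product, Set.Finite.mem_toFinset, Set.mem_ofPred_eq] at h ⊢
      refine ⟨by simp [h.2.1], fun b hb => ?_⟩
      rcases List.mem_cons.1 hb with rfl | hb
      · exact h.1
      · exact h.2.2 b hb
    · rintro ⟨a, w⟩ _ ⟨a', w'⟩ _ h
      simpa using h
    · intro w hw
      simp only [Set.Finite.mem_toFinset, Set.mem_ofPred_eq] at hw
      rcases w with _ | ⟨a, w⟩
      · simp at hw
      · refine ⟨(a, w), ?_, rfl⟩
        simp only [Finset.mem_product, Set.Finite.mem_toFinset, Set.mem_ofPred_eq]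
        exact ⟨hw.2 a List.mem_cons_self, by simpa using hw.1,
          fun b hb => hw.2 b (List.mem_cons_of_mem _ hb)⟩
    · rintro ⟨a, w⟩ _
      rw [aa2F_mul, ← P.wd_append]
      simp [wt]

/-- linear matrices over `R[t]` are nilpotent -/
theorem BAlg.lin_nil (hfin : {a | S.ok a}.Finite) (hnil : ∀ D, S.Nil D) {κ : Type} [Fintype κ]
    [DecidableEq κ] (C : α → Matrix κ κ KK) :
    IsNilpotent (Matrix.of fun i j => ∑ a ∈ hfin.toFinset,
      (C a i j).map (algebraMap (ZMod 2) R) * Polynomial.C (P.wd [a]) : Matrix κ κ R[X]) := by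
  classical
  have e : (Matrix.of fun i j => ∑ a ∈ hfin.toFinset,
      (C a i j).map (algebraMap (ZMod 2) R) * Polynomial.C (P.wd [a]) : Matrix κ κ R[X]) =
      ∑ a ∈ hfin.toFinset, aa2F (P.wd [a]) (C a) := by
    refine Matrix.ext fun i j => ?_
    rw [Matrix.sum_apply]; rfl
  obtain ⟨n, hn⟩ := hnil _ (Matrix κ κ KK) le_rfl C
  refine ⟨n, ?_⟩
  have hC : {w : List α | (w.length = n ∧ ∀ a ∈ w, S.ok a) ∧ ¬ S.Null w}.Finite :=
    (Sys.okWords_finite hfin n).subset fun w h => h.1
  have key := van_partition hC (fun w => aa2F (P.wd w) (wt C w)) S.Eqv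
    (fun w _ => Sys.Eqv.refl w)
    (fun w hw w' h => by
      have h1 : ¬ S.Null w' := fun h' => hw.2 (Sys.Null.of_eqv h h')
      refine ⟨⟨h.length_eq ▸ hw.1.1, fun a ha => ?_⟩, h1⟩
      by_contra hna
      exact h1 (Sys.Bad.null (Or.inl ⟨a, ha, hna⟩)))
    (fun w _ w' h => h.symm) (fun w _ w' w'' h h' => h.trans h')
    (fun w hw => by
      have h1 := hn w hw.1.1.ge hw.2
      have h2 := AddMonoidHom.map_finsum_mem (wt C) (aa2F (κ := κ) (P.wd w))
        (Sys.class_finite hfin hw.2)
      unfold Sys.Van at h1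
      rw [h1, map_zero] at h2
      rw [h2]
      exact finsum_mem_congr rfl fun w' h => by rw [P.wd_eqv w w' h])
  rw [finsum_mem_eq_finite_toFinset_sum _ hC] at key
  rw [e, aa2_pow, ← key]
  symm
  refine Finset.sum_subset (fun w hw => ?_) fun w hw hw' => ?_
  · simp only [Set.Finite.mem_toFinset, Set.mem_ofPred_eq] at hw ⊢
    exact hw.1
  · simp only [Set.Finite.mem_toFinset, Set.mem_ofPred_eq] at hw hw'
    rw [P.wd_null w (by by_contra h; exact hw' ⟨hw, h⟩), aa2F_zero]

omit [Algebra (ZMod 2) R] in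
theorem aa2_cf_zero {κ : Type} [Fintype κ] (N Y : Matrix κ κ R) (Z : Matrix κ κ R[X]) :
    (Z * (N.map Polynomial.C + (Polynomial.X : R[X]) • Y.map Polynomial.C)).map (fun p => p.coeff 0) =
      Z.map (fun p => p.coeff 0) * N := by
  ext a b
  simp [Matrix.mul_apply, finsetSum_coeff, mul_add]

omit [Algebra (ZMod 2) R] in
theorem aa2_cf_succ {κ : Type} [Fintype κ] (N Y : Matrix κ κ R) (Z : Matrix κ κ R[X]) (i : ℕ) :
    (Z * (N.map Polynomial.C + (Polynomial.X : R[X]) • Y.map Polynomial.C)).map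
        (fun p => p.coeff (i + 1)) =
      Z.map (fun p => p.coeff (i + 1)) * N + Z.map (fun p => p.coeff i) * Y := by
  ext a b
  simp only [Matrix.map_apply, Matrix.mul_apply, finsetSum_coeff, Matrix.add_apply,
    Matrix.smul_apply, smul_eq_mul, mul_add, coeff_add, coeff_mul_C, ← mul_assoc, coeff_mul_X,
    Finset.sum_add_distrib]

theorem nil_of_pencil {κ μ : Type} [Fintype κ] [DecidableEq κ] (N Y : Matrix κ κ R)
    (h : IsNilpotent (N.map Polynomial.C + (Polynomial.X : R[X]) • Y.map Polynomial.C))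
    (y : ℕ → Matrix κ μ R) (hy : ∀ k, y (k + 1) = N * y (k + 1) + Y * y k) : ∃ k, y k = 0 := by
  obtain ⟨n, hn⟩ := h
  set Z := N.map Polynomial.C + (Polynomial.X : R[X]) • Y.map Polynomial.C with hZ
  have key : ∀ j, (∀ i, j < i → (Z ^ j).map (fun p => p.coeff i) = 0) ∧
      ∀ k, j ≤ k → y k = ∑ i ∈ Finset.range (j + 1), (Z ^ j).map (fun p => p.coeff i) * y (k - i) := by
    intro j
    induction j with
    | zero =>
      refine ⟨fun i hi => ?_, fun k _ => ?_⟩
      · ext a b
        rw [pow_zero, Matrix.map_apply, Matrix.one_apply]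
        split_ifs
        · rw [coeff_one, if_neg hi.ne']; rfl
        · rfl
      · have : ((1 : Matrix κ κ R[X]).map fun p => p.coeff 0) = 1 := by
          ext a b
          rw [Matrix.map_apply, Matrix.one_apply, Matrix.one_apply]
          split_ifs <;> simp
        simp [this]
    | succ j ih =>
      refine ⟨fun i hi => ?_, fun k hk => ?_⟩
      · obtain ⟨i, rfl⟩ : ∃ i', i = i' + 1 := ⟨i - 1, by omega⟩
        rw [pow_succ, hZ, aa2_cf_succ, ← hZ, ih.1 _ (by omega), ih.1 _ (by omega)]
        simp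
      · have e1 := Finset.sum_range_succ' (fun i => (Z ^ j).map (fun p => p.coeff i) * N * y (k - i))
          (j + 1)
        rw [Finset.sum_range_succ _ (j + 1), ih.1 _ (Nat.lt_succ_self j), Matrix.zero_mul,
          Matrix.zero_mul, add_zero] at e1
        have c0 := aa2_cf_zero N Y (Z ^ j)
        have c1 := aa2_cf_succ N Y (Z ^ j)
        rw [← hZ] at c0 c1
        rw [Finset.sum_range_succ', pow_succ, c0]
        simp only [c1, Matrix.add_mul, Finset.sum_add_distrib]
        rw [add_right_comm, ← e1, ← Finset.sum_add_distrib, ih.2 k (by omega)]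
        refine Finset.sum_congr rfl fun i hi => ?_
        have hi' := Finset.mem_range.1 hi
        obtain ⟨m, hm⟩ : ∃ m, k - i = m + 1 := ⟨k - i - 1, by omega⟩
        rw [hm, show k - (i + 1) = m by omega, Matrix.mul_assoc, Matrix.mul_assoc,
          ← Matrix.mul_add, ← hy]
  refine ⟨n, ?_⟩
  rw [(key n).2 n le_rfl, hn]
  refine Finset.sum_eq_zero fun i _ => ?_
  rw [Matrix.map_zero _ (by simp), Matrix.zero_mul]

include P in
theorem BAlg.mnil (hfin : {a | S.ok a}.Finite) (hnil : ∀ D, S.Nil D) : MNil (J 𝒜 1) := by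
  classical
  intro l A hA
  have h1 : ∀ i j, ∃ c : List α →₀ ZMod 2, (∀ u ∈ c.support, u ≠ [] ∧ ∀ a ∈ u, S.ok a) ∧
      Finsupp.linearCombination (ZMod 2) P.wd c = A i j := fun i j => by
    refine P.J_induction (Q := fun r => ∃ c : List α →₀ ZMod 2,
      (∀ u ∈ c.support, u ≠ [] ∧ ∀ a ∈ u, S.ok a) ∧
      Finsupp.linearCombination (ZMod 2) P.wd c = r) ⟨0, by simp, by simp⟩ ?_ ?_ (hA i j)
    · rintro _ _ ⟨c, hc, rfl⟩ ⟨c', hc', rfl⟩
      exact ⟨c + c', fun u hu => (Finset.mem_union.1 (Finsupp.support_add hu)).elim (hc u) (hc' u),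
        map_add _ _ _⟩
    · intro w hw hn
      refine ⟨Finsupp.single w 1, fun u hu => ?_, by simp⟩
      obtain rfl := Finset.mem_singleton.1 (Finsupp.support_single_subset hu)
      refine ⟨by rintro rfl; simp at hw, fun a ha => ?_⟩
      by_contra hna
      exact hn (Sys.Bad.null (Or.inl ⟨a, ha, hna⟩))
  choose c hc hcA using h1
  obtain ⟨T, hT⟩ : ∃ T : Finset (List α), ∀ w, w ∈ T ↔
      w ≠ [] ∧ ∃ i j, ∃ u ∈ (c i j).support, w <:+ u :=
    ⟨((Finset.univ : Finset (Fin l × Fin l)).biUnion fun p =>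
      (c p.1 p.2).support.biUnion fun u => u.tails.toFinset).erase [], fun w => by simp⟩
  have hAT : ∀ i j, A i j = ∑ v : T, c i j v • P.wd v := fun i j => by
    rw [← hcA, Finsupp.linearCombination_apply, Finsupp.sum_of_support_subset _ (s := T)
      (fun u hu => (hT u).2 ⟨(hc i j u hu).1, i, j, u, hu, List.suffix_refl u⟩) _ (by simp),
      Finset.sum_coe_sort T fun v => c i j v • P.wd v]
  let N : Matrix (T × Fin l) (T × Fin l) R := Matrix.of fun p q =>
    ∑ a ∈ hfin.toFinset, if (p.1 : List α) = a :: q.1 ∧ p.2 = q.2 then P.wd [a] else 0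
  let Y : Matrix (T × Fin l) (T × Fin l) R := Matrix.of fun p q =>
    ∑ a ∈ hfin.toFinset, if (p.1 : List α) = [a] then c p.2 q.2 q.1 • P.wd [a] else 0
  have hX := P.lin_nil hfin hnil (κ := T × Fin l) fun a => Matrix.of fun p q =>
    (if (p.1 : List α) = a :: q.1 ∧ p.2 = q.2 then 1 else 0) +
      if (p.1 : List α) = [a] then Polynomial.X * Polynomial.C (c p.2 q.2 q.1) else 0
  have hAk : ∀ (B : Matrix (Fin l) (Fin l) R) j m,
      (A * B) j m = ∑ q : T × Fin l, c j q.2 q.1 • (P.wd q.1 * B q.2 m) := fun B j m => by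
    rw [Matrix.mul_apply, Fintype.sum_prod_type_right]
    refine Finset.sum_congr rfl fun j' _ => ?_
    rw [hAT, Finset.sum_mul]
    simp only [smul_mul_assoc]
  obtain ⟨k, hk⟩ := nil_of_pencil N Y (by
      convert hX using 1
      refine Matrix.ext fun p q => ?_
      simp only [N, Y, Matrix.add_apply, Matrix.map_apply, Matrix.smul_apply, Matrix.of_apply,
        smul_eq_mul]
      rw [map_sum, map_sum, Finset.mul_sum, ← Finset.sum_add_distrib]
      refine Finset.sum_congr rfl fun a _ => ?_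
      rw [Polynomial.map_add, add_mul]
      congr 1
      · split_ifs <;> simp
      · split_ifs
        · rw [Polynomial.map_mul, map_X, map_C, mul_assoc, ← C_mul, Algebra.smul_def]
        · simp)
    (fun k => Matrix.of fun (p : T × Fin l) (m : Fin l) => P.wd p.1 * (A ^ k) p.2 m) (by
      intro k
      ext ⟨⟨u, hu⟩, j⟩ m
      obtain ⟨h0, i₀, j₀, u₀, hu₀, hs⟩ := (hT u).1 hu
      rcases u with _ | ⟨a, u⟩
      · exact absurd rfl h0
      have ha : a ∈ hfin.toFinset := by
        rw [Set.Finite.mem_toFinset]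
        exact (hc i₀ j₀ u₀ hu₀).2 a (hs.subset List.mem_cons_self)
      have hN : ∀ q : T × Fin l, N (⟨a :: u, hu⟩, j) q =
          if u = q.1 ∧ j = q.2 then P.wd [a] else 0 := fun q => by
        simp only [N, Matrix.of_apply]
        rw [Finset.sum_eq_single_of_mem a ha]
        · simp
        · intro b _ hb
          simp [hb.symm]
      have hY : ∀ q : T × Fin l, Y (⟨a :: u, hu⟩, j) q =
          if u = [] then c j q.2 q.1 • P.wd [a] else 0 := fun q => by
        simp only [Y, Matrix.of_apply]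
        rw [Finset.sum_eq_single_of_mem a ha]
        · simp
        · intro b _ hb
          simp [hb.symm]
      simp only [Matrix.add_apply, Matrix.mul_apply, Matrix.of_apply, hN, hY]
      by_cases hu' : u = []
      · subst hu'
        rw [Finset.sum_eq_zero, zero_add, pow_succ', hAk, Finset.mul_sum]
        · simp
        · intro q _
          rw [if_neg, zero_mul]
          exact fun h => ((hT _).1 q.1.2).1 h.1.symm
      · have hu2 : u ∈ T := (hT u).2 ⟨hu', i₀, j₀, u₀, hu₀, (List.suffix_cons a u).trans hs⟩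
        rw [Finset.sum_eq_single (⟨u, hu2⟩, j)]
        · simp only [hu', and_self, if_true, if_false, zero_mul, Finset.sum_const_zero, add_zero]
          rw [← mul_assoc, ← P.wd_append]; rfl
        · rintro ⟨⟨v, hv⟩, j'⟩ _ hq
          rw [if_neg, zero_mul]
          rintro ⟨rfl, rfl⟩
          exact hq rfl
        · simp)
  refine ⟨k + 1, ?_⟩
  ext i m
  rw [pow_succ', hAk]
  refine Finset.sum_eq_zero fun q _ => ?_
  have := congrFun (congrFun hk q) m
  rw [Matrix.of_apply] at this
  rw [this]; simp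

end Crest.Agent.R176
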