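import Crest.Agent.R176.AAlg2

/-!
# Row 176 A: syzygies and the odometer datum  (subtask AAlg3)

`BAlg.syz`: `W` = words of length `M` in admissible letters, `w o = wd o`; `Zi` = the finite set of
`ζ : W → 𝒜 1` with `∑ wd o * ζ o = 0`, `Z o ζ = ζ o`.  `gen`: `J_induction`, split `w = take M w ++ drop M w`.
`syz`: let `Nn ≤ (W → R)` be the `ZMod 2`-submodule of all `o ↦ ∑ Z o ζ * T ζ` with `T ζ ∈ J M`, and
`f w = [Pi.single (take M w) (wd (drop M w))] ∈ (W → R) ⧸ Nn` if `2M+1 ≤ |w|` and all letters are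
admissible, else `0`.  A move at a position `≥ M` does not change `f`; one at a position `< M`
changes it by `ζ * wd (drop (M+1) w)`, where `ζ = single o (wd [y]) + single o' (wd [y'])`,
`o ++ [y] = take (M+1) w`, `o' ++ [y'] = take (M+1) w'`; a zero pair likewise (`ζ = single o (wd [y])`).
So `univ` gives `F`, and `F (wd o * G) = [Pi.single o G]` for `G ∈ J (M+1)` (`J_induction`; for a
null `o ++ v` both sides vanish because `f` vanishes on null words).
`BAlg.odo`: `e a`, `e' b : R →ₗ R` from `univ`: `e a (wd w) = if M ≤ |w| ∧ φ w = a then wd w else 0`,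
`e' b (wd w) = if M ≤ |w| ∧ φ w + |w| = b then wd w else 0`; `lam j a β = e (a + β) j`,
`rho j β b = e' (b + β) j`.  All identities by `J_induction` in each variable; for non-null
`w ++ w'` with `|w'| ≥ M`: `φ w' = φ (w ++ w') + |w|`, and `φ (w ++ w') = φ w` if `|w| ≥ M`;
`theta_of_mem`.
-/

set_option autoImplicit false

namespace Crest.Agent.R176

variable {α : Type} {S : Sys α} {R : Type} [Ring R] [Algebra (ZMod 2) R]
  {𝒜 : ℕ → Submodule (ZMod 2) R} [GradedAlgebra 𝒜] (P : BAlg S 𝒜)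

namespace AAlg3

set_option linter.unusedSectionVars false

/-- admissible words of length `M` -/
abbrev Wd (S : Sys α) (M : ℕ) : Type := {w : List α // w.length = M ∧ ∀ a ∈ w, S.ok a}

open Classical in
/-- the vector with entry `r` at the word `u` -/
noncomputable def sg (S : Sys α) (M : ℕ) (u : List α) (r : R) : Wd S M → R :=
  fun o => if o.1 = u then r else 0

theorem sg_mem {σ : Type} [SetLike σ R] [ZeroMemClass σ R] {L : σ} {M : ℕ} (u : List α) {r : R}
    (hr : r ∈ L) (o : Wd S M) : sg S M u r o ∈ L := by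
  unfold sg; split_ifs
  exacts [hr, zero_mem _]

theorem sg_mul {M : ℕ} (u : List α) (r s : R) (o : Wd S M) :
    sg S M u (r * s) o = sg S M u r o * s := by
  unfold sg; split_ifs <;> simp

theorem sg_zero {M : ℕ} (u : List α) : sg S M u (0 : R) = 0 := by
  funext o; simp [sg]

theorem sg_add {M : ℕ} (u : List α) (r s : R) :
    sg S M u (r + s) = sg S M u r + sg S M u s := by
  funext o; simp only [sg, Pi.add_apply]; split_ifs <;> simp

theorem sg_bad {M : ℕ} {u : List α} {a : α} (ha : a ∈ u) (h : ¬ S.ok a) (r : R) :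
    sg S M u r = 0 := by
  funext o
  rw [sg, if_neg]
  · rfl
  · rintro rfl; exact h (o.2.2 a ha)

theorem sum_sg {M : ℕ} [Fintype (Wd S M)] (G : Wd S M → R) : ∑ o, sg S M o.1 (G o) = G := by
  funext o
  rw [Finset.sum_apply, Finset.sum_eq_single o]
  · simp [sg]
  · intro o' _ h
    rw [sg, if_neg fun h' => h (Subtype.ext h').symm]
  · simp

theorem sum_wd_sg {M : ℕ} [Fintype (Wd S M)] {u : List α} (hu : u.length = M) (r : R) :
    ∑ o : Wd S M, P.wd o.1 * sg S M u r o = P.wd u * r := by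
  by_cases h : ∀ a ∈ u, S.ok a
  · rw [Finset.sum_eq_single (⟨u, hu, h⟩ : Wd S M)]
    · simp [sg]
    · intro o' _ h'
      rw [sg, if_neg fun h'' => h' (Subtype.ext h''), mul_zero]
    · simp
  · push Not at h
    obtain ⟨a, ha, h⟩ := h
    rw [sg_bad ha h, P.wd_null u (Sys.Bad.null (Or.inl ⟨a, ha, h⟩))]
    simp

/-- split a word after `M` letters -/
noncomputable def gw (M : ℕ) (w : List α) : Wd S M → R := sg S M (w.take M) (P.wd (w.drop M))

theorem sum_gw {M : ℕ} [Fintype (Wd S M)] {w : List α} (hw : M ≤ w.length) :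
    ∑ o : Wd S M, P.wd o.1 * gw P M w o = P.wd w := by
  unfold gw
  rw [sum_wd_sg P (by simp [hw]), ← P.wd_append, List.take_append_drop]

theorem gw_append {M : ℕ} {p : List α} (hp : M ≤ p.length) (v : List α) (o : Wd S M) :
    gw P M (p ++ v) o = gw P M p o * P.wd v := by
  unfold gw
  rw [List.take_append_of_le_length hp, List.drop_append_of_le_length hp, P.wd_append, sg_mul]

theorem gw_mem {M : ℕ} {p : List α} (hp : p.length = M + 1) (o : Wd S M) : gw P M p o ∈ 𝒜 1 := by
  refine sg_mem _ ?_ o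
  have := P.wd_mem (p.drop M)
  rwa [List.length_drop, hp, Nat.add_sub_cancel_left] at this

/-- linear syzygies -/
abbrev Zs (M : ℕ) [Fintype (Wd S M)] : Type :=
  {ζ : Wd S M → 𝒜 1 // ∑ o : Wd S M, P.wd o.1 * (ζ o : R) = 0}

/-- the module generated by the linear syzygies -/
def Nn (M : ℕ) [Fintype (Wd S M)] [Fintype (Zs P M)] : Submodule (ZMod 2) (Wd S M → R) where
  carrier := {G | ∃ T : Zs P M → R, (∀ z, T z ∈ J 𝒜 M) ∧ ∀ o, G o = ∑ z : Zs P M, (z.1 o : R) * T z}
  add_mem' := by
    rintro G G' ⟨T, hT, h⟩ ⟨T', hT', h'⟩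
    refine ⟨T + T', fun z => add_mem (hT z) (hT' z), fun o => ?_⟩
    simp only [Pi.add_apply, h, h', mul_add, Finset.sum_add_distrib]
  zero_mem' := ⟨0, fun _ => zero_mem _, fun o => by simp⟩
  smul_mem' := by
    rintro c G ⟨T, hT, h⟩
    refine ⟨c • T, fun z => ?_, fun o => ?_⟩
    · rw [Pi.smul_apply, Algebra.smul_def]; exact Ideal.mul_mem_left _ _ (hT z)
    · simp only [Pi.smul_apply, h, Finset.smul_sum, mul_smul_comm]

section

variable {M : ℕ} [Fintype (Wd S M)] [Fintype (Zs P M)]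

theorem mem_Nn {G ζ : Wd S M → R} {t : R} (hζ : ∀ o, ζ o ∈ 𝒜 1)
    (h0 : ∑ o : Wd S M, P.wd o.1 * ζ o = 0) (ht : t ∈ J 𝒜 M) (hG : ∀ o, G o = ζ o * t) :
    G ∈ Nn P M := by
  classical
  let z₀ : Zs P M := ⟨fun o => ⟨ζ o, hζ o⟩, h0⟩
  refine ⟨fun z => if z = z₀ then t else 0, fun z => ?_, fun o => ?_⟩
  · beta_reduce
    split_ifs
    exacts [ht, zero_mem _]
  · beta_reduce
    rw [Finset.sum_eq_single z₀, if_pos rfl, hG]
    · intro z _ hz; rw [if_neg hz, mul_zero]
    · simp

theorem split_lt {u v : List α} (a b : α) (hu : u.length < M)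
    (hw : 2 * M + 1 ≤ (u ++ a :: b :: v).length) :
    ∃ v₁ v₂, v = v₁ ++ v₂ ∧ u.length + v₁.length + 1 = M ∧ M ≤ v₂.length := by
  simp only [List.length_append, List.length_cons] at hw
  refine ⟨v.take (M - 1 - u.length), v.drop (M - 1 - u.length), (List.take_append_drop _ _).symm,
    ?_, ?_⟩
  · rw [List.length_take]; omega
  · rw [List.length_drop]; omega

theorem gw_step {w w' : List α} (h : S.Step w w') (hw : 2 * M + 1 ≤ w.length) :
    gw P M w - gw P M w' ∈ Nn P M := by
  obtain ⟨u, v, a, b, c, d, hm, rfl, rfl⟩ := h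
  rcases lt_or_ge u.length M with hu | hu
  · obtain ⟨v₁, v₂, rfl, h1, h2⟩ := split_lt a b hu hw
    have e1 : (u ++ a :: b :: v₁).length = M + 1 := by simp; omega
    have e2 : (u ++ c :: d :: v₁).length = M + 1 := by simp; omega
    refine mem_Nn P (ζ := gw P M (u ++ a :: b :: v₁) - gw P M (u ++ c :: d :: v₁))
      (fun o => sub_mem (gw_mem P e1 o) (gw_mem P e2 o)) ?_ (P.wd_mem_J h2) fun o => ?_
    · simp only [Pi.sub_apply, mul_sub, Finset.sum_sub_distrib]
      rw [sum_gw P (by omega), sum_gw P (by omega),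
        P.wd_eqv _ _ (Sys.Step.eqv ⟨u, v₁, a, b, c, d, hm, rfl, rfl⟩), sub_self]
    · rw [Pi.sub_apply, Pi.sub_apply, sub_mul, ← gw_append P (by omega), ← gw_append P (by omega)]
      simp
  · have : gw P M (u ++ a :: b :: v) = gw P M (u ++ c :: d :: v) := by
      funext o
      rw [gw_append P hu, gw_append P hu,
        P.wd_eqv (a :: b :: v) (c :: d :: v) (Sys.Step.eqv ⟨[], v, a, b, c, d, hm, rfl, rfl⟩)]
    rw [this, sub_self]
    exact zero_mem _

theorem gw_bad {w : List α} (h : S.Bad w) (hw : 2 * M + 1 ≤ w.length) : gw P M w ∈ Nn P M := by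
  rcases h with ⟨a, ha, h⟩ | ⟨u, v, a, b, hz, rfl⟩
  · rw [← List.take_append_drop M w, List.mem_append] at ha
    unfold gw
    rcases ha with ha | ha
    · rw [sg_bad ha h]; exact zero_mem _
    · rw [P.wd_null _ (Sys.Bad.null (Or.inl ⟨a, ha, h⟩)), sg_zero]; exact zero_mem _
  · rcases lt_or_ge u.length M with hu | hu
    · obtain ⟨v₁, v₂, rfl, h1, h2⟩ := split_lt a b hu hw
      have e1 : (u ++ a :: b :: v₁).length = M + 1 := by simp; omega
      refine mem_Nn P (ζ := gw P M (u ++ a :: b :: v₁)) (gw_mem P e1) ?_ (P.wd_mem_J h2)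
        fun o => ?_
      · rw [sum_gw P (by omega), P.wd_null _ (Sys.Bad.null (Or.inr ⟨u, v₁, a, b, hz, rfl⟩))]
      · rw [← gw_append P (by omega)]
        simp
    · have : gw P M (u ++ a :: b :: v) = 0 := by
        funext o
        rw [gw_append P hu,
          P.wd_null (a :: b :: v) (Sys.Bad.null (Or.inr ⟨[], v, a, b, hz, rfl⟩)), mul_zero]
        rfl
      rw [this]
      exact zero_mem _

theorem exists_F : ∃ F : R →ₗ[ZMod 2] (Wd S M → R) ⧸ Nn P M,
    ∀ w, 2 * M + 1 ≤ w.length → F (P.wd w) = (Nn P M).mkQ (gw P M w) := by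
  have he : ∀ w w', S.Eqv w w' →
      (if 2 * M + 1 ≤ w.length then (Nn P M).mkQ (gw P M w) else 0) =
        if 2 * M + 1 ≤ w'.length then (Nn P M).mkQ (gw P M w') else 0 := by
    intro w w' h
    induction h with
    | rel w w' h =>
      rw [← h.length_eq]
      split_ifs with hw
      · exact (Submodule.Quotient.eq _).2 (gw_step P h hw)
      · rfl
    | refl => rfl
    | symm _ _ _ ih => exact ih.symm
    | trans _ _ _ _ _ ih ih' => exact ih.trans ih'
  obtain ⟨F, hF⟩ := P.univ _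
    (fun w => if 2 * M + 1 ≤ w.length then (Nn P M).mkQ (gw P M w) else 0) (by
      rintro w ⟨w', h, hb⟩
      rw [he w w' h]
      split_ifs with hw
      · exact (Submodule.Quotient.mk_eq_zero _).2 (gw_bad P hb hw)
      · rfl) he
  exact ⟨F, fun w hw => by rw [hF, if_pos hw]⟩

end

theorem J_ind2 {M M' : ℕ} {Q : R → R → Prop} (h0 : ∀ s, Q 0 s) (h0' : ∀ r, Q r 0)
    (ha : ∀ r r' s, Q r s → Q r' s → Q (r + r') s) (ha' : ∀ r s s', Q r s → Q r s' → Q r (s + s'))
    (hw : ∀ w w' : List α, M ≤ w.length → M' ≤ w'.length → Q (P.wd w) (P.wd w')) {r s : R}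
    (hr : r ∈ J 𝒜 M) (hs : s ∈ J 𝒜 M') : Q r s :=
  P.J_induction (Q := fun r => Q r s) (h0 s) (fun r r' => ha r r' s)
    (fun w hw' _ => P.J_induction (Q := fun s => Q (P.wd w) s) (h0' _) (ha' _)
      (fun w' hw'' _ => hw w w' hw' hw'') hs) hr

theorem exists_cut (p : List α → Prop) [DecidablePred p] (hp : ∀ w w', S.Eqv w w' → p w → p w') :
    ∃ e : R →ₗ[ZMod 2] R, ∀ w, e (P.wd w) = if p w then P.wd w else 0 :=
  P.univ R _ (fun w hw => by rw [P.wd_null w hw, ite_self]) fun w w' h => by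
    rw [P.wd_eqv w w' h]
    exact if_congr ⟨hp w w' h, hp w' w h.symm⟩ rfl rfl

theorem phase {m M : ℕ} {φ : List α → ZMod m}
    (h : ∀ a w, M ≤ w.length → ¬ S.Null (a :: w) → φ w = φ (a :: w) + 1) (v : List α)
    {w : List α} (hw : M ≤ w.length) (hn : ¬ S.Null (v ++ w)) : φ w = φ (v ++ w) + v.length := by
  induction v with
  | nil => simp
  | cons a v ih =>
    have hn' : ¬ S.Null (v ++ w) := fun h' => hn (by simpa using h'.ctx [a] [])
    rw [ih hn', h a (v ++ w) (by simp; omega) hn]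
    simp only [List.cons_append, List.length_cons]
    push_cast
    ring

end AAlg3

include P in
theorem BAlg.syz (hfin : {a | S.ok a}.Finite) (M : ℕ) :
    ∃ (W Zi : Type) (_ : Fintype W) (_ : Fintype Zi), Nonempty (Syz 𝒜 M W Zi) := by
  have : Finite (AAlg3.Wd S M) := (Sys.okWords_finite hfin M).to_subtype
  have := Fintype.ofFinite (AAlg3.Wd S M)
  have := P.finite hfin 1
  have := Fintype.ofFinite (AAlg3.Zs P M)
  refine ⟨AAlg3.Wd S M, AAlg3.Zs P M, inferInstance, inferInstance,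
    ⟨⟨fun o => P.wd o.1, fun o z => z.1 o, fun o => P.wd_mem_J o.2.1.ge,
      fun o z => mem_J_of_mem 𝒜 (z.1 o).2 le_rfl, fun z => z.2, fun r hr => ?_, fun G hG h0 => ?_⟩⟩⟩
  · refine P.J_induction (Q := fun r => ∃ G : AAlg3.Wd S M → R, (∀ o, G o ∈ J 𝒜 (M + 1)) ∧
      r = ∑ o, P.wd o.1 * G o) ⟨0, fun _ => zero_mem _, by simp⟩ ?_ (fun w hw _ => ?_) hr
    · rintro _ _ ⟨G, hG, rfl⟩ ⟨G', hG', rfl⟩
      exact ⟨G + G', fun o => add_mem (hG o) (hG' o), by simp [mul_add, Finset.sum_add_distrib]⟩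
    · exact ⟨AAlg3.gw P M w, AAlg3.sg_mem _ (P.wd_mem_J (by rw [List.length_drop]; omega)),
        (AAlg3.sum_gw P (by omega)).symm⟩
  · obtain ⟨F, hF⟩ := AAlg3.exists_F P (M := M)
    have key : ∀ (o : AAlg3.Wd S M), ∀ r ∈ J 𝒜 (M + 1),
        F (P.wd o.1 * r) = (AAlg3.Nn P M).mkQ (AAlg3.sg S M o.1 r) := by
      intro o r hr
      refine P.J_induction
        (Q := fun r => F (P.wd o.1 * r) = (AAlg3.Nn P M).mkQ (AAlg3.sg S M o.1 r))
        (by simp [AAlg3.sg_zero]) (fun r s h h' => ?_) (fun w hw _ => ?_) hr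
      · rw [mul_add, map_add, h, h', AAlg3.sg_add, map_add]
      · have ho := o.2.1
        rw [← P.wd_append, hF _ (by rw [List.length_append]; omega), AAlg3.gw,
          List.take_left' ho, List.drop_left' ho]
    have h1 : (AAlg3.Nn P M).mkQ G = 0 := by
      rw [← AAlg3.sum_sg G, map_sum, ← map_zero F, ← h0, map_sum]
      exact Finset.sum_congr rfl fun o _ => (key o _ (hG o)).symm
    exact (Submodule.Quotient.mk_eq_zero _).1 h1

include P in
theorem BAlg.odo {m : ℕ} [NeZero m] (h : S.Odo m) : OdoD 𝒜 m := by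
  classical
  obtain ⟨M, φ, hM, hφ, hr, hl⟩ := h
  choose e he using fun a : ZMod m => AAlg3.exists_cut P (fun w => φ w = a)
    fun w w' h h' => (hφ w w' h).symm.trans h'
  choose e' he' using fun a : ZMod m => AAlg3.exists_cut P (fun w => φ w + w.length = a)
    fun w w' h h' => by rw [← hφ w w' h, ← h.length_eq]; exact h'
  have hJ0 : ∀ r : R, r ∈ J 𝒜 0 := fun r d hd => absurd hd (Nat.not_lt_zero d)
  have hph : ∀ w w' : List α, M ≤ w.length → M ≤ w'.length → ¬ S.Null (w ++ w') →
      φ w' = φ w + w.length := fun w w' hw hw' hn => by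
    rw [AAlg3.phase hl w hw' hn, hr w w' hw]
  let lam : R →+ Matrix (ZMod m) (ZMod m) R :=
    { toFun := fun j => Matrix.of fun a β => e (a + β) j
      map_zero' := by ext; simp
      map_add' := fun _ _ => by ext; simp }
  let rho : R →+ Matrix (ZMod m) (ZMod m) R :=
    { toFun := fun j => Matrix.of fun β b => e' (b + β) j
      map_zero' := by ext; simp
      map_add' := fun _ _ => by ext; simp }
  have hlam : ∀ w a β, lam (P.wd w) a β = if φ w = a + β then P.wd w else 0 :=
    fun w a β => he _ w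
  have hrho : ∀ w β b, rho (P.wd w) β b = if φ w + w.length = b + β then P.wd w else 0 :=
    fun w β b => he' _ w
  refine ⟨M, hM, ⟨⟨lam, rho, fun j hj a b => ?_, fun j hj a b => ?_, fun j hj j' hj' => ?_,
    fun j hj j' hj' => ?_, fun j hj r a b => ?_, fun j hj r a b => ?_, map_add _⟩⟩⟩
  · refine P.J_induction (Q := fun j => lam j a b ∈ J 𝒜 1) (by simp) (fun r s h h' => ?_)
      (fun w hw _ => ?_) hj
    · rw [map_add]; exact add_mem h h'
    · rw [hlam]; split_ifs
      exacts [P.wd_mem_J (hM.trans hw), zero_mem _]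
  · refine P.J_induction (Q := fun j => rho j a b ∈ J 𝒜 1) (by simp) (fun r s h h' => ?_)
      (fun w hw _ => ?_) hj
    · rw [map_add]; exact add_mem h h'
    · rw [hrho]; split_ifs
      exacts [P.wd_mem_J (hM.trans hw), zero_mem _]
  · refine AAlg3.J_ind2 P (Q := fun j j' => lam j * rho j' = theta 𝒜 m (j * j')) (by simp) (by simp)
      (fun r r' s h h' => by rw [map_add, add_mul, add_mul, map_add, h, h'])
      (fun r s s' h h' => by rw [map_add, mul_add, mul_add, map_add, h, h'])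
      (fun w w' hw hw' => ?_) hj hj'
    ext a b
    rw [← P.wd_append, theta_of_mem 𝒜 m (P.wd_mem _), Matrix.mul_apply,
      Finset.sum_eq_single (φ w - a), hlam, hrho, if_pos (by ring), mul_ite, mul_zero,
      ← P.wd_append]
    · by_cases hn : S.Null (w ++ w')
      · rw [P.wd_null _ hn, ite_self, ite_self]
      · refine if_congr ?_ rfl rfl
        rw [hph w w' hw hw' hn, List.length_append, Nat.cast_add]
        constructor <;> intro h <;> linear_combination -h
    · intro β _ hβ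
      rw [hlam, if_neg fun h => hβ (by rw [h]; ring), zero_mul]
    · simp
  · refine AAlg3.J_ind2 P (Q := fun j j' => rho j * lam j' = Matrix.diagonal fun _ => j * j')
      (by simp) (by simp)
      (fun r r' s h h' => by rw [map_add, add_mul, add_mul, h, h', Matrix.diagonal_add])
      (fun r s s' h h' => by rw [map_add, mul_add, mul_add, h, h', Matrix.diagonal_add])
      (fun w w' hw hw' => ?_) hj hj'
    ext a b
    rw [← P.wd_append, Matrix.diagonal_apply, Matrix.mul_apply,
      Finset.sum_eq_single (φ w + w.length - a), hlam, hrho, if_pos (by ring), mul_ite, mul_zero,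
      ← P.wd_append]
    · by_cases hn : S.Null (w ++ w')
      · rw [P.wd_null _ hn, ite_self, ite_self]
      · refine if_congr ?_ rfl rfl
        rw [hph w w' hw hw' hn]
        constructor <;> intro h <;> linear_combination h
    · intro β _ hβ
      rw [hrho, if_neg fun h => hβ (by rw [h]; ring), zero_mul]
    · simp
  · refine AAlg3.J_ind2 P (Q := fun j r => lam (j * r) a b = lam j a b * r) (by simp) (by simp)
      (fun r r' s h h' => by
        rw [add_mul, map_add, map_add, Matrix.add_apply, Matrix.add_apply, add_mul, h, h'])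
      (fun r s s' h h' => by rw [mul_add, map_add, Matrix.add_apply, mul_add, h, h'])
      (fun w w' hw _ => ?_) hj (hJ0 r)
    rw [← P.wd_append, hlam, hlam, hr w w' hw, ite_mul, zero_mul, P.wd_append]
  · refine AAlg3.J_ind2 P (Q := fun r j => rho (r * j) a b = r * rho j a b) (by simp) (by simp)
      (fun r r' s h h' => by rw [add_mul, map_add, Matrix.add_apply, add_mul, h, h'])
      (fun r s s' h h' => by
        rw [mul_add, map_add, map_add, Matrix.add_apply, Matrix.add_apply, mul_add, h, h'])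
      (fun w w' _ hw' => ?_) (hJ0 r) hj
    rw [← P.wd_append, hrho, hrho, mul_ite, mul_zero, ← P.wd_append]
    by_cases hn : S.Null (w ++ w')
    · rw [P.wd_null _ hn, ite_self, ite_self]
    · refine if_congr ?_ rfl rfl
      rw [AAlg3.phase hl w hw' hn, List.length_append, Nat.cast_add, add_assoc]

theorem alg_main (S : Sys α) (hfin : {a | S.ok a}.Finite)
    (hinf : ∀ n, ∃ w : List α, n ≤ w.length ∧ ¬ S.Null w) (hnil : ∀ D, S.Nil D)
    (hodo : ∀ k, S.Odo (2 ^ k) ∧ S.Odo (3 ^ k)) :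
    ∃ (R : Type) (_ : Ring R) (_ : Algebra (ZMod 2) R) (𝒜 : ℕ → Submodule (ZMod 2) R)
      (_ : GradedAlgebra 𝒜), Nice 𝒜 ∧ 𝒜 0 = 1 ∧
      ∃ (m : ℕ) (rel : Finset (FreeAlgebra (ZMod 2) (Fin m) × FreeAlgebra (ZMod 2) (Fin m))),
        Nonempty (R ≃ₐ[ZMod 2] RingQuot fun x y : FreeAlgebra (ZMod 2) (Fin m) => (x, y) ∈ rel) := by
  obtain ⟨R, _, _, 𝒜, _, ⟨P⟩, h⟩ := exists_bAlg S hfin
  exact ⟨R, _, _, 𝒜, _, ⟨P.infinite hinf, P.mnil hfin hnil, P.finite hfin, P.prod, P.syz hfin,
    fun k => P.odo (hodo k).1, fun k => P.odo (hodo k).2, P.pres hfin⟩, P.zero_eq_one, h⟩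

end Crest.Agent.R176
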