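import Mathlib

/-!
# Row 176 A: automatic relations  (subtask AAut)

Numbers `ρ v < W = 2 ^ n` are written in binary, most significant bit first, on the tracks `v : V`
of a word of length `n`.  `Aut.exists_var`: subset construction (state = set of reachable states;
every `ρ'` with `ρ' v < 2^n` is the value of some word of length `n`: `exists_valB`).
`Aut.le`: a `LinE` difference is `e = V g w + cW + c0`, where `V g w = foldl (fun v c => 2 v + g c) 0 w`
and `g c = ∑ c_v [c v] + cW` (since `2^n - 1` is the value of the all-ones track); with `B` a bound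
for `|g|` and `|cW + c0|`, the state is `V g w` clamped to `[-(B+1), B+1]` (once `|V| > B` the sign
stays and `|V|` does not decrease).
-/

set_option autoImplicit false

namespace Crest.Agent.R176

/-- value of the track `π`, most significant bit first -/
def valB {σ : Type} (π : σ → Bool) (w : List σ) : ℕ := w.foldl (fun v c => 2 * v + (π c).toNat) 0

/-- `P W ρ` is recognised by a finite automaton, uniformly in `W = 2 ^ n` -/
def Aut {V : Type} (P : ℕ → (V → ℕ) → Prop) : Prop :=
  ∃ (Q : Type) (_ : Finite Q) (δ : Q → (V → Bool) → Q) (q₀ : Q) (acc : Q → Prop),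
    ∀ w : List (V → Bool), P (2 ^ w.length) (fun v => valB (fun c => c v) w) ↔ acc (w.foldl δ q₀)

/-- affine expressions -/
def LinE {V : Type} [Fintype V] (e : ℕ → (V → ℕ) → ℕ) : Prop :=
  ∃ (c : V → ℤ) (cW c0 : ℤ), ∀ W ρ, (e W ρ : ℤ) = ∑ v, c v * ρ v + cW * W + c0

theorem valB_append_single {σ : Type} (π : σ → Bool) (w : List σ) (c : σ) :
    valB π (w ++ [c]) = 2 * valB π w + (π c).toNat := by
  simp [valB]

theorem valB_lt {σ : Type} (π : σ → Bool) (w : List σ) : valB π w < 2 ^ w.length := by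
  induction w using List.reverseRecOn with
  | nil => simp [valB]
  | append_singleton w c ih =>
    rw [valB_append_single, List.length_append, List.length_singleton, pow_succ]
    have := Bool.toNat_le (π c)
    omega

theorem valB_map {σ τ : Type} (g : σ → τ) (π : τ → Bool) (w : List σ) :
    valB π (w.map g) = valB (fun c => π (g c)) w := by
  simp only [valB, List.foldl_map]

theorem exists_valB {V : Type} (n : ℕ) (ρ : V → ℕ) (h : ∀ v, ρ v < 2 ^ n) :
    ∃ w : List (V → Bool), w.length = n ∧ ∀ v, valB (fun c => c v) w = ρ v := by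
  induction n generalizing ρ with
  | zero => exact ⟨[], rfl, fun v => by have := h v; simp [valB]; omega⟩
  | succ n ih =>
    obtain ⟨w, hw, hv⟩ := ih (fun v => ρ v / 2) fun v => by have := h v; rw [pow_succ] at this; omega
    refine ⟨w ++ [fun v => decide (ρ v % 2 = 1)], by simp [hw], fun v => ?_⟩
    rw [valB_append_single, hv]
    by_cases h1 : ρ v % 2 = 1 <;> simp [h1] <;> omega

/-- bits of the value -/
theorem testBit_valB (n : ℕ) (f : ℕ → Bool) {j : ℕ} (hj : j < n) :
    (valB f (List.range n)).testBit (n - 1 - j) = f j := by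
  induction n with
  | zero => omega
  | succ n ih =>
    rw [List.range_succ, valB_append_single]
    rcases Nat.lt_or_eq_of_le (Nat.lt_succ_iff.1 hj) with h | h
    · rw [show n + 1 - 1 - j = (n - 1 - j) + 1 by omega, Nat.testBit_succ, ← ih h]
      congr 1
      have := Bool.toNat_le (f n)
      omega
    · subst h
      rw [show j + 1 - 1 - j = 0 by omega, Nat.testBit_zero]
      cases f j <;> simp

theorem valB_testBit {n v : ℕ} (hv : v < 2 ^ n) :
    valB (fun j => v.testBit (n - 1 - j)) (List.range n) = v := by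
  apply Nat.eq_of_testBit_eq
  intro i
  by_cases hi : i < n
  · have := testBit_valB n (fun j => v.testBit (n - 1 - j)) (j := n - 1 - i) (by omega)
    rwa [show n - 1 - (n - 1 - i) = i by omega] at this
  · have h1 : 2 ^ n ≤ 2 ^ i := Nat.pow_le_pow_right (by norm_num) (by omega)
    have h2 := valB_lt (fun j => v.testBit (n - 1 - j)) (List.range n)
    rw [List.length_range] at h2
    rw [Nat.testBit_lt_two_pow (h2.trans_le h1), Nat.testBit_lt_two_pow (hv.trans_le h1)]

theorem valB_congr {n : ℕ} {f g : ℕ → Bool} (h : ∀ j, j < n → f j = g j) :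
    valB f (List.range n) = valB g (List.range n) := by
  induction n with
  | zero => rfl
  | succ n ih =>
    rw [List.range_succ, valB_append_single, valB_append_single, ih fun j hj => h j (by omega),
      h n (by omega)]

theorem valB_eq_zero {n : ℕ} {f : ℕ → Bool} :
    valB f (List.range n) = 0 ↔ ∀ j, j < n → f j = false := by
  refine ⟨fun h j hj => by rw [← testBit_valB n f hj, h, Nat.zero_testBit], fun h => ?_⟩
  rw [valB_congr (g := fun j => (0 : ℕ).testBit (n - 1 - j)) fun j hj => by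
    rw [h j hj, Nat.zero_testBit], valB_testBit (Nat.two_pow_pos n)]

section

variable {V : Type} [Fintype V]

theorem LinE.var (v : V) : LinE fun _ ρ => ρ v := by
  classical
  exact ⟨Pi.single v 1, 0, 0, fun W ρ => by simp [Pi.single_apply]⟩
theorem LinE.const (k : ℕ) : LinE (V := V) fun _ _ => k :=
  ⟨0, 0, k, fun W ρ => by simp⟩
theorem LinE.W : LinE (V := V) fun W _ => W :=
  ⟨0, 1, 0, fun W ρ => by simp⟩
theorem LinE.add {e e' : ℕ → (V → ℕ) → ℕ} (h : LinE e) (h' : LinE e') :
    LinE fun W ρ => e W ρ + e' W ρ := by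
  obtain ⟨c, cW, c0, h⟩ := h
  obtain ⟨c', cW', c0', h'⟩ := h'
  refine ⟨c + c', cW + cW', c0 + c0', fun W ρ => ?_⟩
  simp only [Nat.cast_add, h, h', Pi.add_apply, add_mul, Finset.sum_add_distrib]
  ring
theorem LinE.const_mul (k : ℕ) {e : ℕ → (V → ℕ) → ℕ} (h : LinE e) :
    LinE fun W ρ => k * e W ρ := by
  obtain ⟨c, cW, c0, h⟩ := h
  refine ⟨fun v => k * c v, k * cW, k * c0, fun W ρ => ?_⟩
  simp only [Nat.cast_mul, h, mul_add, Finset.mul_sum, mul_assoc]
theorem LinE.mul_const (k : ℕ) {e : ℕ → (V → ℕ) → ℕ} (h : LinE e) :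
    LinE fun W ρ => e W ρ * k := by
  simpa only [mul_comm] using h.const_mul k

theorem Aut.le {e e' : ℕ → (V → ℕ) → ℕ} (h : LinE e) (h' : LinE e') :
    Aut fun W ρ => e W ρ ≤ e' W ρ := by
  obtain ⟨c, cW, c0, h⟩ := h
  obtain ⟨c', cW', c0', h'⟩ := h'
  let g : (V → Bool) → ℤ := fun b => ∑ v, (c' v - c v) * ((b v).toNat : ℤ) + (cW' - cW)
  let k : ℤ := cW' - cW + (c0' - c0)
  obtain ⟨B, hB, hk⟩ : ∃ B : ℤ, (∀ b, |g b| ≤ B) ∧ |k| ≤ B := by
    refine ⟨∑ v, |c' v - c v| + |cW' - cW| + |k|, fun b => ?_,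
      le_add_of_nonneg_left (by positivity)⟩
    refine (abs_add_le _ _).trans (le_trans ?_ (le_add_of_nonneg_right (abs_nonneg _)))
    refine add_le_add ((Finset.abs_sum_le_sum_abs _ _).trans (Finset.sum_le_sum fun v _ => ?_)) le_rfl
    cases b v <;> simp
  have hB0 : 0 ≤ B := (abs_nonneg _).trans hk
  let cl : ℤ → Set.Icc (-(B + 1)) (B + 1) := fun x =>
    ⟨max (-(B + 1)) (min x (B + 1)), le_max_left _ _, max_le (by omega) (min_le_right _ _)⟩
  refine ⟨Set.Icc (-(B + 1)) (B + 1), inferInstance, fun q b => cl (2 * q.1 + g b), cl 0,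
    fun q => 0 ≤ q.1 + k, fun w => ?_⟩
  have key : w.foldl (fun q b => cl (2 * q.1 + g b)) (cl 0) =
      cl (∑ v, (c' v - c v) * (valB (fun b => b v) w : ℤ) + (cW' - cW) * (2 ^ w.length - 1)) := by
    induction w using List.reverseRecOn with
    | nil => simp [valB]
    | append_singleton w b ih =>
      rw [List.foldl_append, ih, List.foldl_cons, List.foldl_nil]
      have e : ∑ v, (c' v - c v) * (valB (fun b => b v) (w ++ [b]) : ℤ) +
          (cW' - cW) * (2 ^ (w ++ [b]).length - 1) =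
          2 * (∑ v, (c' v - c v) * (valB (fun b => b v) w : ℤ) + (cW' - cW) * (2 ^ w.length - 1)) +
            g b := by
        simp only [valB_append_single, g, List.length_append, List.length_singleton, pow_succ,
          Nat.cast_add, Nat.cast_mul, Nat.cast_ofNat, mul_add, Finset.sum_add_distrib,
          Finset.mul_sum, mul_left_comm _ (2 : ℤ)]
        ring
      rw [e]
      have := abs_le.1 (hB b)
      apply Subtype.ext
      simp only [cl]
      omega
  rw [key]
  beta_reduce
  rw [← Nat.cast_le (α := ℤ), h, h']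
  simp only [sub_mul, Finset.sum_sub_distrib, cl, Nat.cast_pow, Nat.cast_ofNat, mul_sub, mul_one]
  have := abs_le.1 hk
  simp only [k] at this ⊢
  omega

end

variable {V : Type} {P P' : ℕ → (V → ℕ) → Prop}

theorem Aut.const (p : Prop) : Aut (V := V) fun _ _ => p :=
  ⟨Unit, inferInstance, fun _ _ => (), (), fun _ => p, fun _ => Iff.rfl⟩

theorem Aut.not (h : Aut P) : Aut fun W ρ => ¬ P W ρ := by
  obtain ⟨Q, _, δ, q₀, acc, h⟩ := h
  exact ⟨Q, inferInstance, δ, q₀, fun q => ¬ acc q, fun w => not_congr (h w)⟩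

theorem Aut.and (h : Aut P) (h' : Aut P') : Aut fun W ρ => P W ρ ∧ P' W ρ := by
  obtain ⟨Q, _, δ, q₀, acc, h⟩ := h
  obtain ⟨Q', _, δ', q₀', acc', h'⟩ := h'
  refine ⟨Q × Q', inferInstance, fun q c => (δ q.1 c, δ' q.2 c), (q₀, q₀'),
    fun q => acc q.1 ∧ acc' q.2, fun w => ?_⟩
  have : w.foldl (fun (q : Q × Q') c => (δ q.1 c, δ' q.2 c)) (q₀, q₀') =
      (w.foldl δ q₀, w.foldl δ' q₀') := by
    induction w using List.reverseRecOn with
    | nil => rfl
    | append_singleton w c ih => simp only [List.foldl_append, ih, List.foldl_cons, List.foldl_nil]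
  rw [this]
  exact and_congr (h w) (h' w)

/-- only the values at `W = 2^n`, `ρ < W` matter -/
theorem Aut.congr (h : Aut P) (e : ∀ n ρ, (∀ v, ρ v < 2 ^ n) → (P (2 ^ n) ρ ↔ P' (2 ^ n) ρ)) :
    Aut P' := by
  obtain ⟨Q, _, δ, q₀, acc, h⟩ := h
  exact ⟨Q, inferInstance, δ, q₀, acc, fun w => (e _ _ fun v => valB_lt _ w).symm.trans (h w)⟩

theorem Aut.or (h : Aut P) (h' : Aut P') : Aut fun W ρ => P W ρ ∨ P' W ρ :=
  (h.not.and h'.not).not.congr fun _ _ _ => by tauto

theorem Aut.imp (h : Aut P) (h' : Aut P') : Aut fun W ρ => P W ρ → P' W ρ :=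
  (h.not.or h').congr fun _ _ _ => by tauto

theorem Aut.iff (h : Aut P) (h' : Aut P') : Aut fun W ρ => P W ρ ↔ P' W ρ :=
  ((h.imp h').and (h'.imp h)).congr fun _ _ _ => by tauto

theorem Aut.eq [Fintype V] {e e' : ℕ → (V → ℕ) → ℕ} (h : LinE e) (h' : LinE e') :
    Aut fun W ρ => e W ρ = e' W ρ :=
  ((Aut.le h h').and (Aut.le h' h)).congr fun _ _ _ => le_antisymm_iff.symm

theorem Aut.lt [Fintype V] {e e' : ℕ → (V → ℕ) → ℕ} (h : LinE e) (h' : LinE e') :
    Aut fun W ρ => e W ρ < e' W ρ :=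
  (Aut.le h' h).not.congr fun _ _ _ => not_le

theorem Aut.forall_fin {τ : Type} [Finite τ] {P : τ → ℕ → (V → ℕ) → Prop} (h : ∀ t, Aut (P t)) :
    Aut fun W ρ => ∀ t, P t W ρ := by
  classical
  have := Fintype.ofFinite τ
  have key : ∀ s : Finset τ, Aut fun W ρ => ∀ t ∈ s, P t W ρ := by
    intro s
    induction s using Finset.induction_on with
    | empty => exact (Aut.const True).congr fun _ _ _ => by simp
    | insert a s _ ih => exact ((h a).and ih).congr fun _ _ _ => by simp
  exact (key Finset.univ).congr fun _ _ _ => by simp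

theorem Aut.exists_fin {τ : Type} [Finite τ] {P : τ → ℕ → (V → ℕ) → Prop} (h : ∀ t, Aut (P t)) :
    Aut fun W ρ => ∃ t, P t W ρ :=
  (Aut.forall_fin fun t => (h t).not).not.congr fun _ _ _ => by simp

theorem Aut.comap {V' : Type} (g : V → V') (h : Aut P) : Aut fun W (ρ : V' → ℕ) => P W (ρ ∘ g) := by
  obtain ⟨Q, _, δ, q₀, acc, h⟩ := h
  refine ⟨Q, inferInstance, fun q c => δ q (c ∘ g), q₀, acc, fun w => ?_⟩
  have := h (w.map (· ∘ g))
  simp only [List.length_map, valB_map, List.foldl_map] at this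
  exact this

theorem Aut.exists_var {V' : Type} {P : ℕ → (V ⊕ V' → ℕ) → Prop} (h : Aut P) :
    Aut fun W (ρ : V → ℕ) => ∃ ρ' : V' → ℕ, (∀ v, ρ' v < W) ∧ P W (Sum.elim ρ ρ') := by
  obtain ⟨Q, _, δ, q₀, acc, h⟩ := h
  let δ' : Set Q → (V → Bool) → Set Q := fun S c =>
    {q' | ∃ q ∈ S, ∃ c' : V' → Bool, q' = δ q (Sum.elim c c')}
  have key : ∀ (w : List (V → Bool)) (q : Q), q ∈ w.foldl δ' {q₀} ↔
      ∃ u : List (V ⊕ V' → Bool), u.map (· ∘ Sum.inl) = w ∧ q = u.foldl δ q₀ := by
    intro w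
    induction w using List.reverseRecOn with
    | nil => intro q; simp
    | append_singleton w c ih =>
      intro q
      rw [List.foldl_append, List.foldl_cons, List.foldl_nil]
      constructor
      · rintro ⟨q1, h1, c', rfl⟩
        obtain ⟨u, rfl, rfl⟩ := (ih q1).1 h1
        exact ⟨u ++ [Sum.elim c c'], by simp, by simp⟩
      · rintro ⟨u, hu, rfl⟩
        obtain ⟨u1, u2, rfl, h1, h2⟩ := List.map_eq_append_iff.1 hu
        obtain ⟨b, rfl, rfl⟩ := List.map_eq_singleton_iff.1 h2
        exact ⟨_, (ih _).2 ⟨u1, h1, rfl⟩, b ∘ Sum.inr, by simp⟩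
  have zip : ∀ (w : List (V → Bool)) (w' : List (V' → Bool)), w'.length = w.length →
      ∃ u : List (V ⊕ V' → Bool), u.map (· ∘ Sum.inl) = w ∧ u.map (· ∘ Sum.inr) = w' := by
    intro w
    induction w with
    | nil => intro w' hw'; exact ⟨[], rfl, (List.length_eq_zero_iff.1 hw').symm⟩
    | cons c w ih =>
      rintro (_ | ⟨c', w'⟩) hw'
      · simp at hw'
      · obtain ⟨u, rfl, rfl⟩ := ih w' (by simpa using hw')
        exact ⟨Sum.elim c c' :: u, by simp, by simp⟩
  have el : ∀ u : List (V ⊕ V' → Bool), (fun v => valB (fun c => c v) u) =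
      Sum.elim (fun v => valB (fun c => c v) (u.map (· ∘ Sum.inl)))
        fun v => valB (fun c => c v) (u.map (· ∘ Sum.inr)) := by
    intro u
    funext v
    cases v <;> simp [valB_map]
  refine ⟨Set Q, inferInstance, δ', {q₀}, fun S => ∃ q ∈ S, acc q, fun w => ⟨?_, ?_⟩⟩
  · rintro ⟨ρ', h1, h2⟩
    obtain ⟨w', hw', hv⟩ := exists_valB w.length ρ' h1
    obtain ⟨u, rfl, rfl⟩ := zip w w' hw'
    refine ⟨_, (key _ _).2 ⟨u, rfl, rfl⟩, (h u).1 ?_⟩
    rw [el u, funext hv]
    simpa only [List.length_map] using h2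
  · rintro ⟨q, h1, h2⟩
    obtain ⟨u, rfl, rfl⟩ := (key _ _).1 h1
    have h3 := (h u).2 h2
    rw [el u] at h3
    refine ⟨fun v => valB (fun c => c v) (u.map (· ∘ Sum.inr)), fun v => ?_, ?_⟩
    · simpa only [List.length_map] using valB_lt (fun c => c v) (u.map (· ∘ Sum.inr))
    · simpa only [List.length_map] using h3

/-- an automaton over an arbitrary alphabet with tracks `π` -/
theorem Aut.alphabet (h : Aut P) {σ : Type} (π : V → σ → Bool) :
    ∃ (Q : Type) (_ : Finite Q) (δ : Q → σ → Q) (q₀ : Q) (acc : Q → Prop),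
      ∀ w : List σ, P (2 ^ w.length) (fun v => valB (π v) w) ↔ acc (w.foldl δ q₀) := by
  obtain ⟨Q, _, δ, q₀, acc, h⟩ := h
  refine ⟨Q, inferInstance, fun q c => δ q fun v => π v c, q₀, acc, fun w => ?_⟩
  have := h (w.map fun c v => π v c)
  simp only [List.length_map, valB_map, List.foldl_map] at this
  exact this

end Crest.Agent.R176
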