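import Crest.Agent.R176.ASys
import Crest.Agent.R176.AAut

/-!
# Row 176 A: the self-simulating system `sys W P`  (definitions; complete file)

Level `W = 2^n`: a block has `N = 6 W` cells (zones `0` data/window, `1` tokens of the upper letter,
`2` table/window, `3` history, `4,5` padding) and represents one letter of level `2^W`, whose twelve
registers are written in binary along the `W` offsets (most significant bit first).
Idle block: `fw false … H … bw false`.  Two idle heads at a block border fuse into an active head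
`A h`, which checks the rules of level `2^W` by running a finite automaton given by the table `P`
(static values in zone 2): for each column `i` a left sweep `L` (no action) and a right sweep `R`
(read left data / left token / compare / read right data / right token / look up / dump);
then `F` (left), `S` (right, swaps real and guessed data), and `Commit` to the mirror process.
-/

set_option autoImplicit false

namespace Crest.Agent.R176.M

inductive STrk | tag | off | sv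
  deriving DecidableEq, Fintype

inductive DTrk | tag | hb | hq | i | q | r | x | s
  deriving DecidableEq, Fintype

abbrev SCol := STrk → Bool
abbrev DCol := DTrk → Bool
abbrev Part := SCol × DCol × DCol

def sz : SCol := fun _ => false
def dz : DCol := fun _ => false
def pz : Part := (sz, dz, dz)

@[ext] structure Sym where
  κ : Bool
  last : Bool
  tx : Bool
  ts : Bool
  eq : Bool
  pL : Part
  pR : Part
  tL : Bool × Bool
  tR : Bool × Bool

instance : Finite Sym :=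
  Finite.of_injective (fun σ : Sym => (σ.κ, σ.last, σ.tx, σ.ts, σ.eq, σ.pL, σ.pR, σ.tL, σ.tR))
    fun a b h => by cases a; cases b; simpa using h

def Sym.z : Sym := ⟨false, false, false, false, false, pz, pz, (false, false), (false, false)⟩

/-- code number of an element of a finite type -/
@[irreducible] noncomputable def cd {α : Type} [Finite α] (a : α) : ℕ := (Finite.equivFin α a).val

theorem cd_lt {α : Type} [Finite α] (a : α) : cd a < Nat.card α := by
  unfold cd; exact (Finite.equivFin α a).isLt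

theorem cd_inj {α : Type} [Finite α] {a b : α} (h : cd a = cd b) : a = b := by
  unfold cd at h; exact (Finite.equivFin α).injective (Fin.ext h)

/-- number of symbols -/
@[irreducible] noncomputable def cS : ℕ := Nat.card Sym

theorem cd_lt_cS (σ : Sym) : cd σ < cS := by unfold cS; exact cd_lt σ

inductive Ph | L | R | F | S
  deriving DecidableEq, Fintype

@[ext] structure Head where
  ph : Ph
  o : Bool
  κ : Bool
  sd : Bool
  σ : Sym
  i : ℕ
  q : ℕ
  r : ℕ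
  x : ℕ
  s : ℕ

inductive Fl | fw (p : Bool) | bw (p : Bool) | H | A (h : Head)

@[ext] structure Stat where
  zone : Fin 6
  scol : SCol
  off : ℕ
  sv : ℕ

@[ext] structure Cell where
  st : Stat
  mem : DCol
  gs : DCol
  tb : Bool
  tg : Bool
  hσ : Sym
  hq : ℕ

@[ext] structure Core where
  c : Cell
  f : Fl

@[ext] structure Let where
  k : Core
  tok : ℕ

instance : Inhabited Let := ⟨⟨⟨⟨⟨0, sz, 0, 0⟩, dz, dz, false, false, Sym.z, 0⟩, .H⟩, 0⟩⟩

def Head.Bdd (W : ℕ) (h : Head) : Prop := h.i < W ∧ h.q < W ∧ h.r < W ∧ h.x < W ∧ h.s < W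
def Cell.Bdd (W : ℕ) (c : Cell) : Prop := c.st.off < W ∧ c.st.sv < W ∧ c.hq < W
def Core.Bdd (W : ℕ) (k : Core) : Prop := k.c.Bdd W ∧ ∀ h, k.f = .A h → h.Bdd W
def Let.Bdd (W : ℕ) (y : Let) : Prop := y.k.Bdd W ∧ y.tok < W

def First (c : Cell) : Prop := c.st.zone = 0 ∧ c.st.off = 0
def Last (W : ℕ) (c : Cell) : Prop := c.st.zone = 5 ∧ c.st.off + 1 = W

instance (c : Cell) : Decidable (First c) := inferInstanceAs (Decidable (_ ∧ _))
instance (W : ℕ) (c : Cell) : Decidable (Last W c) := inferInstanceAs (Decidable (_ ∧ _))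

def Succ (W : ℕ) (a b : Stat) : Prop :=
  (b.zone = a.zone ∧ b.off = a.off + 1) ∨ (a.off + 1 = W ∧ b.off = 0 ∧ b.zone = a.zone + 1)

/-- left interface of a flag -/
def Fl.lI : Fl → Bool × Bool
  | .fw p => (false, p)
  | .bw p => (true, p)
  | .H => (false, false)
  | .A h => (false, h.sd)

/-- right interface of a flag -/
def Fl.rI : Fl → Bool × Bool
  | .fw p => (false, p)
  | .bw p => (true, p)
  | .H => (true, false)
  | .A h => (true, !h.sd)

def FlagOK (y y' : Core) : Prop :=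
  (¬ First y'.c ∧ y.f.rI = y'.f.lI) ∨
  (First y'.c ∧ ((y.f.rI = (true, false) ∧ y'.f.lI = (false, false)) ∨
    (y.f.rI = (true, true) ∧ y'.f.lI = (true, false)) ∨
    (y.f.rI = (false, false) ∧ y'.f.lI = (false, true))))

def Clean (c : Cell) : Prop :=
  c.gs = dz ∧ c.tg = false ∧ c.hσ = Sym.z ∧ c.hq = 0 ∧
  (c.st.zone ≠ 0 → c.st.scol = sz ∧ c.mem = dz) ∧ (c.st.zone ≠ 1 → c.tb = false) ∧
  (c.st.zone ≠ 2 → c.st.sv = 0)

def part (o : Bool) (sc : SCol) (m g : DCol) : Part :=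
  (sc, if o then g else m, if o then m else g)

def tpair (o b g : Bool) : Bool × Bool := (if o then g else b, if o then b else g)

def dbl (W x : ℕ) (b : Bool) : ℕ :=
  if W ≤ 2 * x + b.toNat then 2 * x + b.toNat - W else 2 * x + b.toNat

def ovf (W x : ℕ) (b : Bool) : Bool := decide (W ≤ 2 * x + b.toNat)

/-- some action of the right sweep applies -/
def Fire (h : Head) (c : Cell) : Prop :=
  (c.st.zone = 0 ∧ c.st.off = h.i) ∨ (c.st.zone = 1 ∧ c.st.off = h.i ∧ h.κ = true) ∨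
  (c.st.zone = 2 ∧ h.sd = false ∧ c.st.off = h.x) ∨
  (c.st.zone = 2 ∧ h.sd = true ∧ c.st.off = h.q * cS + cd h.σ) ∨
  (c.st.zone = 3 ∧ h.sd = true ∧ c.st.off = h.i)

/-- action of the right sweep when the head leaves the cell `c` -/
def ActR (W : ℕ) (h : Head) (c : Cell) (h' : Head) (c' : Cell) : Prop :=
  (c.st.zone = 0 ∧ c.st.off = h.i ∧ h.sd = false ∧ c.gs = dz ∧ h.σ.pL = pz ∧ h.σ.κ = false ∧
    h.σ.last = false ∧ h.σ.tx = false ∧ h.σ.ts = false ∧ ∃ g, c' = { c with gs := g } ∧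
    h' = { h with
      σ := { h.σ with
        κ := h.κ, last := decide (c.st.off + 1 = W), tx := ovf W h.x (c.st.scol .off),
        ts := ovf W h.s (c.st.scol .sv), pL := part h.o c.st.scol c.mem g },
      x := dbl W h.x (c.st.scol .off), s := dbl W h.s (c.st.scol .sv) }) ∨
  (c.st.zone = 0 ∧ c.st.off = h.i ∧ h.sd = true ∧ c.gs = dz ∧ h.σ.pR = pz ∧
    ∃ g, c' = { c with gs := g } ∧
    h' = { h with σ := { h.σ with pR := part h.o c.st.scol c.mem g } }) ∨
  (c.st.zone = 1 ∧ c.st.off = h.i ∧ h.κ = true ∧ h.sd = false ∧ c.tg = false ∧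
    h.σ.tL = (false, false) ∧ ∃ t, c' = { c with tg := t } ∧
    h' = { h with σ := { h.σ with tL := tpair h.o c.tb t } }) ∨
  (c.st.zone = 1 ∧ c.st.off = h.i ∧ h.κ = true ∧ h.sd = true ∧ c.tg = false ∧
    h.σ.tR = (false, false) ∧ ∃ t, c' = { c with tg := t } ∧
    h' = { h with σ := { h.σ with tR := tpair h.o c.tb t } }) ∨
  (c.st.zone = 2 ∧ h.sd = false ∧ c.st.off = h.x ∧ h.σ.eq = false ∧ c' = c ∧
    h' = { h with σ := { h.σ with eq := decide (c.st.sv = h.s) } }) ∨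
  (c.st.zone = 2 ∧ h.sd = true ∧ c.st.off = h.q * cS + cd h.σ ∧ h.r = 0 ∧ c' = c ∧
    h' = { h with r := c.st.sv }) ∨
  (c.st.zone = 3 ∧ h.sd = true ∧ c.st.off = h.i ∧ c.hq = 0 ∧ c.hσ = Sym.z ∧
    c' = { c with hq := h.q, hσ := h.σ } ∧ h' = { h with q := h.r, r := 0, σ := Sym.z }) ∨
  (¬ Fire h c ∧ c' = c ∧ h' = h)

def swp (κ : Bool) (c : Cell) : Cell :=
  if c.st.zone = 0 then { c with mem := c.gs, gs := c.mem }
  else if c.st.zone = 1 ∧ κ = true then { c with tb := c.tg, tg := c.tb } else c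

def ActH (W : ℕ) (h : Head) (c : Cell) (h' : Head) (c' : Cell) : Prop :=
  (h.ph = .R ∧ ActR W h c h' c') ∨ (h.ph = .S ∧ h' = h ∧ c' = swp h.κ c)

def adjR (W : ℕ) (h : Head) (c' : Cell) : Head :=
  if h.sd = true ∧ Last W c' then
    (if h.i + 1 = W then { h with ph := .F } else { h with ph := .L, i := h.i + 1 })
  else { h with sd := h.sd || decide (First c') }

def adjL (h : Head) (c c' : Cell) : Head :=
  if (h.sd && !decide (First c')) = false ∧ First c then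
    { h with ph := if h.ph = .L then .R else .S, sd := false }
  else { h with sd := h.sd && !decide (First c') }

def MvR (W : ℕ) (y y' z z' : Core) : Prop :=
  ∃ h h₁, y.f = .A h ∧ ActH W h y.c h₁ z.c ∧ (First y'.c → h.sd = false) ∧
    ¬ (h.ph = .S ∧ h.sd = true ∧ Last W y'.c) ∧ y'.f = .bw (!(h.sd || decide (First y'.c))) ∧
    z.f = .fw h.sd ∧ z'.c = y'.c ∧ z'.f = .A (adjR W h₁ y'.c)

def MvL (y y' z z' : Core) : Prop :=
  ∃ h, y'.f = .A h ∧ (h.ph = .L ∨ h.ph = .F) ∧ (First y'.c → h.sd = true) ∧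
    ¬ (h.ph = .L ∧ h.i = 0 ∧ First y'.c) ∧ y.f = .fw (h.sd && !decide (First y'.c)) ∧
    z.c = y.c ∧ z'.c = y'.c ∧ z'.f = .bw (!h.sd) ∧ z.f = .A (adjL h y.c y'.c)

def start (o κ : Bool) : Head := ⟨.L, o, κ, false, Sym.z, 0, 0, 0, 0, 0⟩

def Fuse (y y' z z' : Core) : Prop :=
  y.f = .H ∧ y'.f = .H ∧ First y'.c ∧ z.c = y.c ∧ z'.c = y'.c ∧ z'.f = .bw false ∧
    ∃ o κ, (κ = true → y'.c.mem .hb = true) ∧ z.f = .A (start o κ)

def Fwd (W : ℕ) (y y' z z' : Core) : Prop := MvR W y y' z z' ∨ MvL y y' z z' ∨ Fuse y y' z z'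

def Commit (W : ℕ) (y y' z z' : Core) : Prop :=
  ∃ h, y.f = .A h ∧ h.ph = .S ∧ h.o = false ∧ (h.q = 1 ∨ h.q = 3) ∧ h.sd = true ∧ Last W y'.c ∧
    y'.f = .bw false ∧ z.c = swp h.κ y.c ∧ z.f = .fw true ∧ z'.c = y'.c ∧
    z'.f = .A { h with ph := .F, o := true }

def Walk (y y' z z' : Core) : Prop :=
  y.f = .H ∧ y'.f = .bw false ∧ ¬ First y'.c ∧ z.c = y.c ∧ z'.c = y'.c ∧ z.f = .fw false ∧
    z'.f = .H

def Move0 (W : ℕ) (y y' z z' : Core) : Prop :=
  Fwd W y y' z z' ∨ Commit W y y' z z' ∨ Walk y y' z z'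

/-- the last forward step of the head came from the left -/
def DirLeft (W : ℕ) (h : Head) (c : Cell) : Prop :=
  ((h.ph = .R ∨ h.ph = .S) ∧ ¬ (h.sd = false ∧ First c)) ∨
  ((h.ph = .L ∨ h.ph = .F) ∧ h.sd = true ∧ Last W c)

def Charge (W : ℕ) (z z' : Core) : Prop :=
  (∃ h, z'.f = .A h ∧ DirLeft W h z'.c) ∨ ∃ h, z.f = .A h ∧ ¬ DirLeft W h z.c

def LBad (W : ℕ) (y : Core) : Prop :=
  (First y.c ∧ y.f = .bw true) ∨ (Last W y.c ∧ y.f = .fw true) ∨ (y.f = .H ∧ ¬ Clean y.c) ∨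
  ∃ h, y.f = .A h ∧ h.ph = .F ∧ h.o = false ∧ (h.q = 2 ∨ h.q = 3)

def Zero0 (W : ℕ) (y y' : Core) : Prop :=
  ¬ Succ W y.c.st y'.c.st ∨ ¬ FlagOK y y' ∨ LBad W y ∨ LBad W y' ∨
  (Charge W y y' ∧ ¬ ∃ a a' : Core, a.Bdd W ∧ a'.Bdd W ∧ Fwd W a a' y y')

def TabBad (P : ℕ → ℕ) (y : Core) : Prop := y.c.st.zone = 2 ∧ y.c.st.sv ≠ P y.c.st.off

def InWin (c : Cell) : Prop := c.st.zone = 0 ∨ c.st.zone = 2

def Win (c c' : Cell) : Prop := c.st.zone = c'.st.zone ∧ InWin c'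

def Move1 (y y' z z' : Let) : Prop :=
  y'.k.f = .H ∧ Win y.k.c y'.k.c ∧ z = ⟨y.k, y'.tok⟩ ∧ z' = ⟨y'.k, y.tok⟩

def Zero1 (y y' : Let) : Prop :=
  y'.k.f = .H ∧ ((Win y.k.c y'.k.c ∧ y.tok = y'.tok) ∨ (¬ InWin y'.k.c ∧ y'.tok ≠ 0))

/-- the system of level `W` with table `P` -/
def sys (W : ℕ) (P : ℕ → ℕ) : Sys Let where
  ok y := y.Bdd W
  zero y y' := Zero0 W y.k y'.k ∨ TabBad P y.k ∨ Zero1 y y'
  move y y' z z' := (Move0 W y.k y'.k z.k z'.k ∧ z.tok = y.tok ∧ z'.tok = y'.tok) ∨ Move1 y y' z z'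

/-! ### encoding of letters by twelve numbers -/

abbrev STag := Fin 6 × SCol
abbrev FTag := (Bool × Bool) ⊕ Option (Ph × Bool × Bool × Bool × Sym)
abbrev DTag := DCol × DCol × Bool × Bool × Sym × FTag

def Fl.tag : Fl → FTag
  | .fw p => .inl (false, p)
  | .bw p => .inl (true, p)
  | .H => .inr none
  | .A h => .inr (some (h.ph, h.o, h.κ, h.sd, h.σ))

def Fl.isH : Fl → Bool
  | .H => true
  | _ => false

/-- the head of a flag (zero registers if there is none) -/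
def Fl.hd : Fl → Head
  | .A h => h
  | _ => start false false

def Stat.tag (st : Stat) : STag := (st.zone, st.scol)
def Core.tag (k : Core) : DTag := (k.c.mem, k.c.gs, k.c.tb, k.c.tg, k.c.hσ, k.f.tag)

noncomputable def encS (st : Stat) : STrk → ℕ
  | .tag => cd st.tag
  | .off => st.off
  | .sv => st.sv

noncomputable def encD (W : ℕ) (k : Core) : DTrk → ℕ
  | .tag => cd k.tag
  | .hb => if k.f.isH then W - 1 else 0
  | .hq => k.c.hq
  | .i => k.f.hd.i
  | .q => k.f.hd.q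
  | .r => k.f.hd.r
  | .x => k.f.hd.x
  | .s => k.f.hd.s

/-- bound for the codes of tags -/
@[irreducible] noncomputable def cT : ℕ := Nat.card STag + Nat.card DTag + 2

theorem cd_stag_lt (t : STag) : cd t < cT := by
  unfold cT; have := cd_lt t; omega

theorem cd_dtag_lt (t : DTag) : cd t < cT := by
  unfold cT; have := cd_lt t; omega

theorem two_le_cT : 2 ≤ cT := by unfold cT; omega

/-- the columns stored in a block -/
structure Raw where
  sc : ℕ → SCol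
  dc : ℕ → DCol
  tc : ℕ → Bool

def Raw.Eq (W : ℕ) (ρ ρ' : Raw) : Prop :=
  ∀ j, j < W → ρ.sc j = ρ'.sc j ∧ ρ.dc j = ρ'.dc j ∧ ρ.tc j = ρ'.tc j

noncomputable def cols (W : ℕ) (Y : Let) : Raw where
  sc j t := (encS Y.k.c.st t).testBit (W - 1 - j)
  dc j t := (encD (2 ^ W) Y.k t).testBit (W - 1 - j)
  tc j := Y.tok.testBit (W - 1 - j)

/-- `ρ` is the code of the upper letter `Y` -/
def Dec (W : ℕ) (ρ : Raw) (Y : Let) : Prop := Y.Bdd (2 ^ W) ∧ ρ.Eq W (cols W Y)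

/-! ### the rules of the upper level as predicates on track values -/

inductive Tr | κ | ts | eq | s (sd : Bool) (t : STrk) | d (idx sd : Bool) (t : DTrk)
    | t (idx sd : Bool)
  deriving DecidableEq, Fintype

def Tr.bit : Tr → Sym → Bool
  | .κ, σ => σ.κ
  | .ts, σ => σ.ts
  | .eq, σ => σ.eq
  | .s sd u, σ => (if sd then σ.pR else σ.pL).1 u
  | .d idx sd u, σ =>
      (if idx then (if sd then σ.pR else σ.pL).2.2 else (if sd then σ.pR else σ.pL).2.1) u
  | .t idx sd, σ => if idx then (if sd then σ.tR else σ.tL).2 else (if sd then σ.tR else σ.tL).1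

/-- track values of the word `σ 0, …, σ (W-1)` -/
def tv (W : ℕ) (σ : ℕ → Sym) (v : Tr) : ℕ := valB v.bit (mkW W σ)

def DecL (W : ℕ) (ρ : Tr → ℕ) (idx sd : Bool) (Y : Let) : Prop :=
  (∀ t, encS Y.k.c.st t = ρ (.s sd t)) ∧ (∀ t, encD W Y.k t = ρ (.d idx sd t)) ∧
  Y.tok = ρ (.t idx sd)

def DecP (W : ℕ) (ρ : Tr → ℕ) (idx : Bool) (Y Y' : Let) : Prop :=
  DecL W ρ idx false Y ∧ DecL W ρ idx true Y'

def ZeroP (W : ℕ) (ρ : Tr → ℕ) : Prop :=
  (¬ ∃ Y Y', DecP W ρ false Y Y') ∨ ∃ Y Y', DecP W ρ false Y Y' ∧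
    ((ρ .κ = 0 ∧ (Zero0 W Y.k Y'.k ∨ (Y.k.c.st.zone = 2 ∧ (ρ .ts ≠ 0 ∨ ρ .eq % 2 = 0)))) ∨
      (ρ .κ ≠ 0 ∧ Zero1 Y Y'))

def OkP (W : ℕ) (ρ : Tr → ℕ) : Prop :=
  ∃ Y Y' Z Z', DecP W ρ false Y Y' ∧ DecP W ρ true Z Z' ∧
    ((ρ .κ = 0 ∧ Move0 W Y.k Y'.k Z.k Z'.k) ∨ (ρ .κ ≠ 0 ∧ Move1 Y Y' Z Z'))

/-- run of the table -/
noncomputable def run (P : ℕ → ℕ) (σ : ℕ → Sym) : ℕ → ℕ
  | 0 => 0
  | j + 1 => P (run P σ j * cS + cd (σ j))

/-- the table `P` is correct for level `W` -/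
structure Good (W : ℕ) (P : ℕ → ℕ) : Prop where
  big : cT ≤ W
  lt : ∀ a, P a < W
  per : ∀ a, P (a % W) = P a
  addr : ∀ σ : ℕ → Sym, (∀ j, j < W → (σ j).last = decide (j + 1 = W)) →
    ∀ j, j < W → run P σ j * cS + cd (σ j) < W
  zero : ∀ σ : ℕ → Sym, (∀ j, j < W → (σ j).last = decide (j + 1 = W)) →
    (run P σ W = 2 ∨ run P σ W = 3 ↔ ZeroP (2 ^ W) (tv W σ))
  ok : ∀ σ : ℕ → Sym, (∀ j, j < W → (σ j).last = decide (j + 1 = W)) →
    (run P σ W = 1 ∨ run P σ W = 3 ↔ OkP (2 ^ W) (tv W σ))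

/-! ### idle blocks -/

/-- clean cell at position `z < 6 W` of a block with content `ρ` -/
def bc (P : ℕ → ℕ) (W : ℕ) (ρ : Raw) (z : ℕ) : Cell where
  st := ⟨Fin.ofNat 6 (z / W), if z / W = 0 then ρ.sc (z % W) else sz, z % W,
    if z / W = 2 then P (z % W) else 0⟩
  mem := if z / W = 0 then ρ.dc (z % W) else dz
  gs := dz
  tb := if z / W = 1 then ρ.tc (z % W) else false
  tg := false
  hσ := Sym.z
  hq := 0

def flM (p z : ℕ) : Fl := if z < p then .fw false else if z = p then .H else .bw false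

/-- idle block with cells `c`, head at `p`, tokens `τ` -/
def monoG (W : ℕ) (c : ℕ → Cell) (p : ℕ) (τ : ℕ → ℕ) : List Let :=
  mkW (6 * W) fun z => ⟨⟨c z, flM p z⟩, τ z⟩

def TokOK (W : ℕ) (τ : ℕ → ℕ) : Prop :=
  (∀ z, z < 6 * W → τ z < W) ∧ (∀ z, z < 6 * W → z / W ≠ 0 → z / W ≠ 2 → τ z = 0) ∧
  ∀ z z', z / W = z' / W → (z / W = 0 ∨ z / W = 2) → τ z = τ z' → z = z'

def MonoRaw (P : ℕ → ℕ) (W : ℕ) (b : List Let) (ρ : Raw) : Prop :=
  ∃ p τ, p < 6 * W ∧ TokOK W τ ∧ b = monoG W (bc P W ρ) p τ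

/-! ### trajectories of a pair of fused blocks -/

structure Dat where
  ρ : Bool → Raw
  γ : Bool → Raw
  o : Bool
  κ : Bool

def xs (W : ℕ) (D : Dat) (t : STrk) : ℕ → ℕ
  | 0 => 0
  | j + 1 => dbl W (xs W D t j) ((D.ρ false).sc j t)

def sym (P : ℕ → ℕ) (W : ℕ) (D : Dat) (j : ℕ) : Sym where
  κ := D.κ
  last := decide (j + 1 = W)
  tx := ovf W (xs W D .off j) ((D.ρ false).sc j .off)
  ts := ovf W (xs W D .sv j) ((D.ρ false).sc j .sv)
  eq := decide (P (xs W D .off (j + 1)) = xs W D .sv (j + 1))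
  pL := part D.o ((D.ρ false).sc j) ((D.ρ false).dc j) ((D.γ false).dc j)
  pR := part D.o ((D.ρ true).sc j) ((D.ρ true).dc j) ((D.γ true).dc j)
  tL := if D.κ then tpair D.o ((D.ρ false).tc j) ((D.γ false).tc j) else (false, false)
  tR := if D.κ then tpair D.o ((D.ρ true).tc j) ((D.γ true).tc j) else (false, false)

noncomputable def qs (P : ℕ → ℕ) (W : ℕ) (D : Dat) : ℕ → ℕ := run P (sym P W D)

/-- cell at position `z < 12 W` after the columns `< i`, and column `i` left of `p`, are done -/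
noncomputable def tc (P : ℕ → ℕ) (W : ℕ) (D : Dat) (i p z : ℕ) : Cell :=
  { bc P W (D.ρ (decide (6 * W ≤ z))) (z % (6 * W)) with
    gs := if z % (6 * W) / W = 0 ∧ (z % W < i ∨ (z % W = i ∧ z < p))
      then (D.γ (decide (6 * W ≤ z))).dc (z % W) else dz
    tg := if z % (6 * W) / W = 1 ∧ D.κ = true ∧ (z % W < i ∨ (z % W = i ∧ z < p))
      then (D.γ (decide (6 * W ≤ z))).tc (z % W) else false
    hσ := if z / W = 9 ∧ (z % W < i ∨ (z % W = i ∧ z < p)) then sym P W D (z % W) else Sym.z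
    hq := if z / W = 9 ∧ (z % W < i ∨ (z % W = i ∧ z < p)) then qs P W D (z % W) else 0 }

noncomputable def cellAt (P : ℕ → ℕ) (W : ℕ) (D : Dat) (ph : Ph) (i p z : ℕ) : Cell :=
  match ph with
  | .L => tc P W D i 0 z
  | .R => tc P W D i p z
  | .F => tc P W D W 0 z
  | .S => if z < p then swp D.κ (tc P W D W 0 z) else tc P W D W 0 z

/-- the part of the symbol of column `i` collected left of `p` -/
def symAt (P : ℕ → ℕ) (W : ℕ) (D : Dat) (i p : ℕ) : Sym :=
  if 9 * W + i < p then Sym.z else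
  { κ := if i < p then (sym P W D i).κ else false
    last := if i < p then (sym P W D i).last else false
    tx := if i < p then (sym P W D i).tx else false
    ts := if i < p then (sym P W D i).ts else false
    eq := if 2 * W + xs W D .off (i + 1) < p then (sym P W D i).eq else false
    pL := if i < p then (sym P W D i).pL else pz
    pR := if 6 * W + i < p then (sym P W D i).pR else pz
    tL := if W + i < p then (sym P W D i).tL else (false, false)
    tR := if 7 * W + i < p then (sym P W D i).tR else (false, false) }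

noncomputable def headAt (P : ℕ → ℕ) (W : ℕ) (D : Dat) (ph : Ph) (i p : ℕ) : Head :=
  match ph with
  | .L => ⟨.L, D.o, D.κ, decide (6 * W ≤ p), Sym.z, i, qs P W D i, 0, xs W D .off i, xs W D .sv i⟩
  | .R => ⟨.R, D.o, D.κ, decide (6 * W ≤ p), symAt P W D i p, i,
      if 9 * W + i < p then qs P W D (i + 1) else qs P W D i,
      if 8 * W + (qs P W D i * cS + cd (sym P W D i)) < p ∧ ¬ 9 * W + i < p
        then qs P W D (i + 1) else 0,
      if i < p then xs W D .off (i + 1) else xs W D .off i,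
      if i < p then xs W D .sv (i + 1) else xs W D .sv i⟩
  | .F => ⟨.F, D.o, D.κ, decide (6 * W ≤ p), Sym.z, W - 1, qs P W D W, 0, xs W D .off W,
      xs W D .sv W⟩
  | .S => ⟨.S, D.o, D.κ, decide (6 * W ≤ p), Sym.z, W - 1, qs P W D W, 0, xs W D .off W,
      xs W D .sv W⟩

def flD (W : ℕ) (h : Head) (p z : ℕ) : Fl :=
  if z < p then .fw (decide (6 * W ≤ z)) else if z = p then .A h else .bw (!decide (6 * W ≤ z))

noncomputable def dcore (P : ℕ → ℕ) (W : ℕ) (D : Dat) (ph : Ph) (i p z : ℕ) : Core :=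
  ⟨cellAt P W D ph i p z, flD W (headAt P W D ph i p) p z⟩

def TimeOK (W : ℕ) (ph : Ph) (i p : ℕ) : Prop :=
  match ph with
  | .L => i < W ∧ 0 < p ∧ p < 12 * W ∧ (i = 0 → p < 6 * W)
  | .R => i < W ∧ p + 1 < 12 * W
  | .F => 0 < p ∧ p < 12 * W
  | .S => p + 1 < 12 * W

noncomputable def dimW (P : ℕ → ℕ) (W : ℕ) (D : Dat) (ph : Ph) (i p : ℕ) (τ : ℕ → ℕ) : List Let :=
  mkW (12 * W) fun z => ⟨dcore P W D ph i p z, τ z⟩

def DimRaw (P : ℕ → ℕ) (W : ℕ) (κ : Bool) (d : List Let) (ρ₀ ρ₁ : Raw) : Prop :=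
  ∃ (D : Dat) (ph : Ph) (i p : ℕ) (τ : ℕ → ℕ), D.κ = κ ∧ D.ρ false = ρ₀ ∧ D.ρ true = ρ₁ ∧
    (κ = true → ρ₁.dc 0 .hb = true) ∧ TimeOK W ph i p ∧ TokOK W τ ∧
    TokOK W (fun z => τ (6 * W + z)) ∧ d = dimW P W D ph i p τ

/-- time on a trajectory -/
def meas (W : ℕ) (ph : Ph) (i p : ℕ) : ℕ :=
  match ph with
  | .L => i * (24 * W) + (12 * W - p)
  | .R => i * (24 * W) + 12 * W + p
  | .F => W * (24 * W) + (12 * W - p)
  | .S => W * (24 * W) + 12 * W + p

/-- the mirror datum (after the swap sweep) -/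
def Dat.mir (D : Dat) : Dat where
  ρ sd := ⟨(D.ρ sd).sc, (D.γ sd).dc, if D.κ then (D.γ sd).tc else (D.ρ sd).tc⟩
  γ sd := D.ρ sd
  o := !D.o
  κ := D.κ

/-- the first (`idx = false`) and second letter pair read by the automaton -/
def Dat.pair (D : Dat) (idx sd : Bool) : Raw where
  sc := (D.ρ sd).sc
  dc := if idx = D.o then (D.ρ sd).dc else (D.γ sd).dc
  tc := if D.κ then (if idx = D.o then (D.ρ sd).tc else (D.γ sd).tc) else fun _ => false

/-! ### representation of upper words -/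

def DimR (P : ℕ → ℕ) (W : ℕ) (d : List Let) (ρ₀ ρ₁ : Raw) : Prop := ∃ κ, DimRaw P W κ d ρ₀ ρ₁

def RepR (P : ℕ → ℕ) (W : ℕ) : List Let → List Raw → Prop := Parse (MonoRaw P W) (DimR P W)

def MonoL (P : ℕ → ℕ) (W : ℕ) (b : List Let) (Y : Let) : Prop :=
  ∃ ρ, MonoRaw P W b ρ ∧ Dec W ρ Y

def DimK (P : ℕ → ℕ) (W : ℕ) (κ : Bool) (d : List Let) (Y Y' : Let) : Prop :=
  ∃ ρ ρ', DimRaw P W κ d ρ ρ' ∧ Dec W ρ Y ∧ Dec W ρ' Y'

def DimL (P : ℕ → ℕ) (W : ℕ) (d : List Let) (Y Y' : Let) : Prop := ∃ κ, DimK P W κ d Y Y'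

def Rep (P : ℕ → ℕ) (W : ℕ) : List Let → List Let → Prop := Parse (MonoL P W) (DimL P W)

/-- `(ρ₀, ρ₁) → (ρ₀', ρ₁')` codes a move of the upper level -/
def Com (P : ℕ → ℕ) (W : ℕ) (ρ₀ ρ₁ ρ₀' ρ₁' : Raw) : Prop :=
  ∀ Y Y', Dec W ρ₀ Y → Dec W ρ₁ Y' → ∃ Z Z', Dec W ρ₀' Z ∧ Dec W ρ₁' Z' ∧
    ((sys (2 ^ W) P).Mv Y Y' Z Z' ∨ (sys (2 ^ W) P).Mv Z Z' Y Y')

/-- whole blocks, not tied to the outside -/
def Closed (W : ℕ) (w : List Let) : Prop :=
  6 * W ∣ w.length ∧ (∃ a, w.head? = some a ∧ First a.k.c ∧ a.k.f.lI = (false, false)) ∧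
    ∃ a, w.getLast? = some a ∧ a.k.f.rI = (true, false)

/-- the cells carry the addresses of consecutive blocks -/
def AddrOK (W n : ℕ) (c : ℕ → Cell) : Prop :=
  ∀ z, z < n → (c z).st.zone = Fin.ofNat 6 (z / W) ∧ (c z).st.off = z % W

def MonoSh (W : ℕ) (b : List Let) : Prop :=
  ∃ c p τ, p < 6 * W ∧ AddrOK W (6 * W) c ∧ b = monoG W c p τ

def DimSh (W : ℕ) (d : List Let) : Prop :=
  ∃ (c : ℕ → Cell) (h : Head) (p : ℕ) (τ : ℕ → ℕ), p < 12 * W ∧ h.sd = decide (6 * W ≤ p) ∧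
    AddrOK W (12 * W) c ∧ d = mkW (12 * W) fun z => ⟨⟨c z, flD W h p z⟩, τ z⟩

/-- overwrite the upper token stored in a block -/
def put (W τ : ℕ) (b : List Let) : List Let :=
  b.map fun y => if y.k.c.st.zone = 1 then
    ⟨⟨{ y.k.c with tb := τ.testBit (W - 1 - y.k.c.st.off) }, y.k.f⟩, y.tok⟩ else y

/-- the weights depend on the token through a module of rank `≤ D` -/
def LowRank (W : ℕ) {A : Type} [Ring A] [Algebra KK A] (B : Let → A) (D : ℕ) : Prop :=
  ∃ (V : Type) (_ : AddCommGroup V) (_ : Module KK V) (_ : Module.Free KK V)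
    (_ : Module.Finite KK V) (v : ℕ → V) (Φ : Core → V →ₗ[KK] A), Module.finrank KK V ≤ D ∧
    ∀ Y Y' : Let, Y.Bdd W → Y'.Bdd W → Y.k.f ≠ .H → Y'.k.f ≠ .H →
      B Y * B Y' = Φ Y.k (v Y.tok) * B Y'

def gam (W : ℕ) : ℕ := (1 + 2 * (W ^ 12) ^ (12 * W)) ^ 2

def om (W : ℕ) : ℕ := (W + 2) * 4 * W ^ 12

end Crest.Agent.R176.M
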