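import Crest.Agent.R176.ATraj

/-!
# Row 176 A: what the automaton sees on a trajectory  (subtask ASem)

`tv W (sym P W D) v = valB (fun j => v.bit (sym P W D j)) (List.range W)` (`valB_map`), and the bits
are the columns of `D.pair idx sd`.  `decL_iff`: `testBit_valB`, `valB_testBit`, `valB_lt`,
`bdd_of_enc`, `encS_lt`, `encD_lt` (at level `2^W ≥ W ≥ cT`).
`tab_iff`: with `v j` the value of the first `j` bits of a static track, `xs j = v j % W`, and an
overflow occurs at some column `< j` iff `W ≤ v j`; the last bit of the track `eq` is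
`decide (P (off % W) = sv % W)`; use `Good.per`, `Good.lt`, `valB_eq_zero`.
-/

set_option autoImplicit false

namespace Crest.Agent.R176.M

variable {W : ℕ} {P : ℕ → ℕ}

theorem sym_last (D : Dat) (j : ℕ) : (sym P W D j).last = decide (j + 1 = W) := rfl

theorem se_tv (σ : ℕ → Sym) (v : Tr) :
    tv W σ v = valB (fun j => v.bit (σ j)) (List.range W) := valB_map _ _ _

theorem se_bit_s (D : Dat) (idx sd : Bool) (t : STrk) (j : ℕ) :
    (Tr.s sd t).bit (sym P W D j) = (D.pair idx sd).sc j t := by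
  cases sd <;> rfl

theorem se_bit_d (D : Dat) (idx sd : Bool) (t : DTrk) (j : ℕ) :
    (Tr.d idx sd t).bit (sym P W D j) = (D.pair idx sd).dc j t := by
  rcases D with ⟨ρ, γ, o, κ⟩
  cases sd <;> cases idx <;> cases o <;> rfl

theorem se_bit_t (D : Dat) (idx sd : Bool) (j : ℕ) :
    (Tr.t idx sd).bit (sym P W D j) = (D.pair idx sd).tc j := by
  rcases D with ⟨ρ, γ, o, κ⟩
  cases sd <;> cases idx <;> cases o <;> cases κ <;> rfl

theorem se_val_iff {v : ℕ} {f : ℕ → Bool} : v = valB f (List.range W) ↔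
    v < 2 ^ W ∧ ∀ j, j < W → f j = v.testBit (W - 1 - j) := by
  constructor
  · rintro rfl
    exact ⟨by simpa using valB_lt f (List.range W), fun j hj => (testBit_valB W f hj).symm⟩
  · rintro ⟨h1, h2⟩
    rw [valB_congr h2, valB_testBit h1]

theorem se_big (hW : cT ≤ W) : cT ≤ 2 ^ W := hW.trans Nat.lt_two_pow_self.le

theorem tv_kappa (hW : 1 ≤ W) (D : Dat) : tv W (sym P W D) .κ = 0 ↔ D.κ = false := by
  rw [se_tv, valB_eq_zero]
  exact ⟨fun h => h 0 hW, fun h _ _ => h⟩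

theorem decL_iff (hW : cT ≤ W) (D : Dat) (idx sd : Bool) (Y : Let) :
    DecL (2 ^ W) (tv W (sym P W D)) idx sd Y ↔ Dec W (D.pair idx sd) Y := by
  unfold DecL
  simp only [se_tv, se_bit_s D idx, se_bit_d, se_bit_t, se_val_iff]
  constructor
  · rintro ⟨h1, h2, h3⟩
    exact ⟨⟨bdd_of_enc (fun t => (h1 t).1) fun t => (h2 t).1, h3.1⟩, fun j hj =>
      ⟨funext fun t => (h1 t).2 j hj, funext fun t => (h2 t).2 j hj, h3.2 j hj⟩⟩
  · rintro ⟨⟨h1, h2⟩, h3⟩
    exact ⟨fun t => ⟨encS_lt (se_big hW) h1 t, fun j hj => congrFun (h3 j hj).1 t⟩,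
      fun t => ⟨encD_lt (se_big hW) h1 t, fun j hj => congrFun (h3 j hj).2.1 t⟩,
      h2, fun j hj => (h3 j hj).2.2⟩

theorem se_xs (hW : 1 ≤ W) (D : Dat) (t : STrk) (j : ℕ) :
    xs W D t j = valB (fun j => (D.ρ false).sc j t) (List.range j) % W := by
  induction j with
  | zero => simp [xs, valB]
  | succ j ih =>
    rw [xs, List.range_succ, valB_append_single, ih]
    clear ih
    generalize valB (fun j => (D.ρ false).sc j t) (List.range j) = v
    have hb := Bool.toNat_le ((D.ρ false).sc j t)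
    have e : (2 * v + ((D.ρ false).sc j t).toNat) % W =
        (2 * (v % W) + ((D.ρ false).sc j t).toNat) % W := by
      simp [Nat.add_mod, Nat.mul_mod]
    have hv := Nat.mod_lt v hW
    rw [e]
    clear e
    generalize v % W = u at hv ⊢
    unfold dbl
    split_ifs with h
    · rw [Nat.mod_eq_sub_mod h, Nat.mod_eq_of_lt (by omega)]
    · rw [Nat.mod_eq_of_lt (not_le.1 h)]

theorem se_ovf (hW : 1 ≤ W) (D : Dat) (t : STrk) (j : ℕ) :
    (∀ j', j' < j → ovf W (xs W D t j') ((D.ρ false).sc j' t) = false) ↔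
      valB (fun j => (D.ρ false).sc j t) (List.range j) < W := by
  induction j with
  | zero => simp [valB]; omega
  | succ j ih =>
    rw [Nat.forall_lt_succ_right, ih, se_xs hW, List.range_succ, valB_append_single]
    generalize valB (fun j => (D.ρ false).sc j t) (List.range j) = v
    unfold ovf
    constructor
    · rintro ⟨h1, h2⟩
      rw [Nat.mod_eq_of_lt h1] at h2
      simpa using h2
    · intro h
      have h1 : v < W := by omega
      rw [Nat.mod_eq_of_lt h1]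
      exact ⟨h1, by simpa using h⟩

theorem tab_iff (hG : Good W P) (D : Dat) {idx : Bool} {Y : Let} (h : Dec W (D.pair idx false) Y) :
    (tv W (sym P W D) .ts ≠ 0 ∨ tv W (sym P W D) .eq % 2 = 0) ↔ Y.k.c.st.sv ≠ P Y.k.c.st.off := by
  have hW : 1 ≤ W := le_trans one_le_two hG.two_le
  have hv : ∀ t, valB (fun j => (D.ρ false).sc j t) (List.range W) = encS Y.k.c.st t := fun t =>
    (se_val_iff.2 ⟨encS_lt (se_big hG.big) h.1.1 t, fun j hj => congrFun (h.2 j hj).1 t⟩).symm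
  have h1 : tv W (sym P W D) .ts = 0 ↔ Y.k.c.st.sv < W := by
    rw [se_tv, valB_eq_zero]
    exact (se_ovf hW D .sv W).trans (by rw [hv]; rfl)
  have h2 : tv W (sym P W D) .eq % 2 = 0 ↔ P Y.k.c.st.off ≠ Y.k.c.st.sv % W := by
    have e1 : xs W D .off W = Y.k.c.st.off % W := by rw [se_xs hW, hv]; rfl
    have e2 : xs W D .sv W = Y.k.c.st.sv % W := by rw [se_xs hW, hv]; rfl
    have e3 : Tr.eq.bit (sym P W D (W - 1)) = decide (P Y.k.c.st.off = Y.k.c.st.sv % W) := by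
      show decide (P (xs W D .off (W - 1 + 1)) = xs W D .sv (W - 1 + 1)) = _
      rw [Nat.sub_add_cancel hW, e1, e2, hG.per]
    rw [se_tv]
    conv_lhs => rw [show List.range W = List.range (W - 1) ++ [W - 1] by
      rw [← List.range_succ, Nat.succ_eq_add_one, Nat.sub_add_cancel hW]]
    rw [valB_append_single, e3]
    by_cases h : P Y.k.c.st.off = Y.k.c.st.sv % W
    · simp [h]
    · simp [h]
  rw [Ne, h1, h2]
  have h3 := hG.lt Y.k.c.st.off
  by_cases h4 : Y.k.c.st.sv < W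
  · rw [Nat.mod_eq_of_lt h4]
    simp [h4, eq_comm]
  · simp only [h4, not_false_eq_true, true_or, true_iff]
    omega

/-- the real pair as seen by the automaton -/
theorem dec_pair_real (D : Dat) {sd : Bool} {Y : Let} (h : Dec W (D.ρ sd) Y) :
    Dec W (D.pair D.o sd) (if D.κ then Y else ⟨Y.k, 0⟩) := by
  rcases D with ⟨ρ, γ, o, κ⟩
  cases κ <;> cases o
  · exact ⟨⟨h.1.1, Nat.two_pow_pos W⟩, fun j hj =>
      ⟨(h.2 j hj).1, (h.2 j hj).2.1, by simp [Dat.pair, cols]⟩⟩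
  · exact ⟨⟨h.1.1, Nat.two_pow_pos W⟩, fun j hj =>
      ⟨(h.2 j hj).1, (h.2 j hj).2.1, by simp [Dat.pair, cols]⟩⟩
  · exact h
  · exact h

theorem se_real_of_pair (D : Dat) {sd : Bool} {U : Let} (h : Dec W (D.pair D.o sd) U) :
    ∃ Y, Dec W (D.ρ sd) Y := by
  rcases D with ⟨ρ, γ, o, κ⟩
  cases o <;> exact ⟨⟨U.k, valB (ρ sd).tc (List.range W)⟩, ⟨h.1.1, (se_val_iff.1 rfl).1⟩,
    fun j hj => ⟨(h.2 j hj).1, (h.2 j hj).2.1, (se_val_iff.1 rfl).2 j hj⟩⟩

theorem se_mir_of_pair (D : Dat) {sd : Bool} {U Y : Let} (h : Dec W (D.pair (!D.o) sd) U)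
    (hY : Dec W (D.ρ sd) Y) : Dec W (D.mir.ρ sd) (if D.κ then U else ⟨U.k, Y.tok⟩) := by
  rcases D with ⟨ρ, γ, o, κ⟩
  cases κ <;> cases o
  · exact ⟨⟨h.1.1, hY.1.2⟩, fun j hj => ⟨(h.2 j hj).1, (h.2 j hj).2.1, (hY.2 j hj).2.2⟩⟩
  · exact ⟨⟨h.1.1, hY.1.2⟩, fun j hj => ⟨(h.2 j hj).1, (h.2 j hj).2.1, (hY.2 j hj).2.2⟩⟩
  · exact h
  · exact h

theorem se_zero (hG : Good W P) (D : Dat) :
    (qs P W D W = 2 ∨ qs P W D W = 3) ↔ ZeroP (2 ^ W) (tv W (sym P W D)) :=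
  hG.zero _ fun _ _ => rfl

theorem se_ok (hG : Good W P) (D : Dat) :
    (qs P W D W = 1 ∨ qs P W D W = 3) ↔ OkP (2 ^ W) (tv W (sym P W D)) :=
  hG.ok _ fun _ _ => rfl

theorem se_decP (hG : Good W P) (D : Dat) (idx : Bool) (Y Y' : Let) :
    DecP (2 ^ W) (tv W (sym P W D)) idx Y Y' ↔
      Dec W (D.pair idx false) Y ∧ Dec W (D.pair idx true) Y' :=
  and_congr (decL_iff hG.big D idx false Y) (decL_iff hG.big D idx true Y')

/-- code `2` or `3` at the end means that the real pair is zero -/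
theorem zero_of_qs (hG : Good W P) (D : Dat) (ho : D.o = false)
    (hq : qs P W D W = 2 ∨ qs P W D W = 3) {Y Y' : Let} (h : Dec W (D.ρ false) Y)
    (h' : Dec W (D.ρ true) Y') : (sys (2 ^ W) P).zero Y Y' := by
  have hW : 1 ≤ W := le_trans one_le_two hG.two_le
  have r := dec_pair_real D h
  have r' := dec_pair_real D h'
  rw [ho] at r r'
  rcases (se_zero hG D).1 hq with hz | ⟨Z, Z', hd, hz⟩
  · exact absurd ⟨_, _, (se_decP hG D _ _ _).2 ⟨r, r'⟩⟩ hz
  obtain ⟨d, d'⟩ := (se_decP hG D _ _ _).1 hd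
  have ht := tab_iff hG D d
  obtain rfl := dec_inj hG.big d r
  obtain rfl := dec_inj hG.big d' r'
  rw [ne_eq (tv W (sym P W D) .κ), tv_kappa hW] at hz
  rcases hz with ⟨hκ, hz⟩ | ⟨hκ, hz⟩
  · rw [hκ] at hz ht
    rcases hz with hz | ⟨h1, h2⟩
    · exact Or.inl hz
    · exact Or.inr (Or.inl ⟨h1, ht.1 h2⟩)
  · rw [Bool.not_eq_false] at hκ
    rw [hκ] at hz
    exact Or.inr (Or.inr hz)

/-- a zero pair (or a pair that is no code) is detected for a suitable `κ` -/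
theorem qs_of_zero (hG : Good W P) (ρ₀ ρ₁ : Raw)
    (h : ∀ Y Y', Dec W ρ₀ Y → Dec W ρ₁ Y' → (sys (2 ^ W) P).zero Y Y') :
    ∃ D : Dat, D.ρ false = ρ₀ ∧ D.ρ true = ρ₁ ∧ D.o = false ∧ (D.κ = true → ρ₁.dc 0 .hb = true) ∧
      (qs P W D W = 2 ∨ qs P W D W = 3) := by
  have hW : 1 ≤ W := le_trans one_le_two hG.two_le
  let D : Bool → Dat := fun κ => ⟨fun sd => cond sd ρ₁ ρ₀, fun sd => cond sd ρ₁ ρ₀, false, κ⟩
  by_cases hex : ∃ Y Y', Dec W ρ₀ Y ∧ Dec W ρ₁ Y'
  · obtain ⟨Y, Y', d, d'⟩ := hex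
    have r := fun κ => dec_pair_real (D κ) (sd := false) d
    have r' := fun κ => dec_pair_real (D κ) (sd := true) d'
    have hd := fun κ => (se_decP hG (D κ) false _ _).2 ⟨r κ, r' κ⟩
    rcases h Y Y' d d' with hz | hz | hz
    · exact ⟨D false, rfl, rfl, rfl, fun h => absurd h (by simp [D]), (se_zero hG _).2
        (Or.inr ⟨_, _, hd false, Or.inl ⟨(tv_kappa hW _).2 rfl, Or.inl hz⟩⟩)⟩
    · exact ⟨D false, rfl, rfl, rfl, fun h => absurd h (by simp [D]), (se_zero hG _).2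
        (Or.inr ⟨_, _, hd false, Or.inl ⟨(tv_kappa hW _).2 rfl,
          Or.inr ⟨hz.1, (tab_iff hG _ (r false)).2 hz.2⟩⟩⟩)⟩
    · exact ⟨D true, rfl, rfl, rfl, fun _ => (dec_hb hW d').2 hz.1, (se_zero hG _).2
        (Or.inr ⟨_, _, hd true, Or.inr ⟨fun h => absurd ((tv_kappa hW _).1 h) (by simp [D]), hz⟩⟩)⟩
  · refine ⟨D false, rfl, rfl, rfl, fun h => absurd h (by simp [D]), (se_zero hG _).2 (Or.inl ?_)⟩
    rintro ⟨Z, Z', hd⟩
    obtain ⟨d, d'⟩ := (se_decP hG _ _ _ _).1 hd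
    obtain ⟨Y, hY⟩ := se_real_of_pair (D false) d
    obtain ⟨Y', hY'⟩ := se_real_of_pair (D false) d'
    exact hex ⟨Y, Y', hY, hY'⟩

/-- code `1` or `3` means that the mirror datum is one upper move away -/
theorem com_of_qs (hG : Good W P) (D : Dat) (hq : qs P W D W = 1 ∨ qs P W D W = 3) :
    (D.κ = true → (D.mir.ρ true).dc 0 .hb = true) ∧
      Com P W (D.ρ false) (D.ρ true) (D.mir.ρ false) (D.mir.ρ true) := by
  have hW : 1 ≤ W := le_trans one_le_two hG.two_le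
  obtain ⟨A, A', B, B', hA, hB, hm⟩ := (se_ok hG D).1 hq
  obtain ⟨a, a'⟩ := (se_decP hG D _ _ _).1 hA
  obtain ⟨b, b'⟩ := (se_decP hG D _ _ _).1 hB
  rw [Ne, tv_kappa hW] at hm
  constructor
  · intro hκ
    rcases hm with ⟨h, -⟩ | ⟨-, hm⟩
    · rw [hκ] at h; exact absurd h (by simp)
    have h1 := (dec_hb hW a').2 hm.1
    have h2 := (dec_hb hW b').2 (by rw [hm.2.2.2]; exact hm.1)
    rcases D with ⟨ρ, γ, o, κ⟩
    cases o
    · exact h2
    · exact h1
  · intro Y Y' d d'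
    have r := dec_pair_real D d
    have r' := dec_pair_real D d'
    have m := fun U h => se_mir_of_pair D (U := U) h d
    have m' := fun U h => se_mir_of_pair D (U := U) h d'
    rcases D with ⟨ρ, γ, o, κ⟩
    cases o
    · obtain rfl := dec_inj hG.big a r
      obtain rfl := dec_inj hG.big a' r'
      refine ⟨_, _, m B b, m' B' b', Or.inl ⟨?_, d.1, d'.1, (m B b).1, (m' B' b').1⟩⟩
      cases κ
      · exact Or.inl ⟨(hm.resolve_right fun h => h.1 rfl).2, rfl, rfl⟩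
      · exact Or.inr (hm.resolve_left fun h => absurd h.1 (by simp)).2
    · obtain rfl := dec_inj hG.big b r
      obtain rfl := dec_inj hG.big b' r'
      refine ⟨_, _, m A a, m' A' a', Or.inr ⟨?_, (m A a).1, (m' A' a').1, d.1, d'.1⟩⟩
      cases κ
      · exact Or.inl ⟨(hm.resolve_right fun h => h.1 rfl).2, rfl, rfl⟩
      · exact Or.inr (hm.resolve_left fun h => absurd h.1 (by simp)).2

theorem qs_of_move (hG : Good W P) {ρ₀ ρ₁ : Raw} {Y Y' Z Z' : Let} (h : Dec W ρ₀ Y)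
    (h' : Dec W ρ₁ Y') (hm : (sys (2 ^ W) P).Mv Y Y' Z Z') :
    ∃ D : Dat, D.ρ false = ρ₀ ∧ D.ρ true = ρ₁ ∧ D.o = false ∧ (D.κ = true → ρ₁.dc 0 .hb = true) ∧
      (qs P W D W = 1 ∨ qs P W D W = 3) ∧ Dec W (D.mir.ρ false) Z ∧ Dec W (D.mir.ρ true) Z' := by
  have hW : 1 ≤ W := le_trans one_le_two hG.two_le
  let D : Bool → Dat := fun κ =>
    ⟨fun sd => cond sd ρ₁ ρ₀, fun sd => cond sd (cols W Z') (cols W Z), false, κ⟩
  obtain ⟨hm, -, -, hZ, hZ'⟩ := hm
  obtain ⟨s, s'⟩ := move_st hm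
  have e : ∀ j, j < W → ρ₀.sc j = (cols W Z).sc j := fun j hj => by
    rw [(h.2 j hj).1]; simp only [cols, s]
  have e' : ∀ j, j < W → ρ₁.sc j = (cols W Z').sc j := fun j hj => by
    rw [(h'.2 j hj).1]; simp only [cols, s']
  have r := fun κ => dec_pair_real (D κ) (sd := false) h
  have r' := fun κ => dec_pair_real (D κ) (sd := true) h'
  have hd := fun κ => (se_decP hG (D κ) false _ _).2 ⟨r κ, r' κ⟩
  rcases hm with ⟨hm, t, t'⟩ | hm
  · have b : Dec W ((D false).pair true false) ⟨Z.k, 0⟩ :=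
      ⟨⟨hZ.1, Nat.two_pow_pos W⟩, fun j hj => ⟨e j hj, rfl, by simp [Dat.pair, cols, D]⟩⟩
    have b' : Dec W ((D false).pair true true) ⟨Z'.k, 0⟩ :=
      ⟨⟨hZ'.1, Nat.two_pow_pos W⟩, fun j hj => ⟨e' j hj, rfl, by simp [Dat.pair, cols, D]⟩⟩
    have m := se_mir_of_pair (D false) b h
    have m' := se_mir_of_pair (D false) b' h'
    rw [← t] at m
    rw [← t'] at m'
    exact ⟨D false, rfl, rfl, rfl, fun h => absurd h (by simp [D]), (se_ok hG _).2
      ⟨_, _, _, _, hd false, (se_decP hG _ _ _ _).2 ⟨b, b'⟩, Or.inl ⟨(tv_kappa hW _).2 rfl, hm⟩⟩,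
      m, m'⟩
  · have b : Dec W ((D true).pair true false) Z := ⟨hZ, fun j hj => ⟨e j hj, rfl, rfl⟩⟩
    have b' : Dec W ((D true).pair true true) Z' := ⟨hZ', fun j hj => ⟨e' j hj, rfl, rfl⟩⟩
    exact ⟨D true, rfl, rfl, rfl, fun _ => (dec_hb hW h').2 hm.1, (se_ok hG _).2
      ⟨_, _, _, _, hd true, (se_decP hG _ _ _ _).2 ⟨b, b'⟩,
        Or.inr ⟨fun h => absurd ((tv_kappa hW _).1 h) (by simp [D]), hm⟩⟩,
      se_mir_of_pair (D true) b h, se_mir_of_pair (D true) b' h'⟩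

end Crest.Agent.R176.M
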