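import Crest.Agent.R176.AMono
import Crest.Agent.R176.ASem

/-!
# Row 176 A: fused blocks  (subtask ADim)

`dimW_eqv`: induction on `meas` with `traj_prev` (`Sys.step_mkW`, `dcore_bdd`); the initial time is one
`Fuse` step away from the two idle blocks (`dcore_start`, `mkW_add`).
`dim_step`: `Sys.step_mkW_inv` gives a position `p₀` and a move.  The only letter with a head is at
`p`, there is no `H`.  Forward `MvR`: `traj_nextR`; forward `MvL`: `stepL`, `mvL_det`; forward `Commit`: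
then `ph = S`, `p = 12W-2`, `commit_traj`, `commit_det`, `com_of_qs`.  Backward `Fwd`: if the time is
initial the move is at `p₀ = p` (a backward `MvR` would give `DirLeft`) and equals the reverse `Fuse`
(`fwd_inj`); otherwise `traj_prev` gives a predecessor on the same side (`mvR_dirLeft`,
`mvL_not_dirLeft`, `fuse_not_dirLeft`) and `fwd_inj` identifies it.  Backward `Commit`: `ph = F`,
`p = 12W-1`, `o = true`; apply `commit_traj` to `D.mir` (`dcore_mir_mir`, `sym_mir`), `commit_inj`.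
`dim_bad`: `Sys.bad_mkW`; all letters are bounded, `Succ` (`addr_succ`), `FlagOK`, table, `Zero1`
(no `H`), `Charge` (`traj_prev` or reverse `Fuse`), so only the last case of `LBad` remains:
`zero_of_qs`.
`border_*`: the last letter of a piece is `Last` with `rI = (true,false)`, the first letter is `First`
with `lI = (false,false)` (`piece_last`, `piece_first`), a head there is not in `Charge`.
`lift_zero`: `qs_of_zero`, the word `dimW D F 0 1 τ` is `Bad` and equivalent (`dimW_eqv`, `mono_eqv`).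
`lift_move`: `qs_of_move`, `dimW_eqv` for `D` at `(S, 12W-2)`, `commit_traj`, `dimW_eqv` for `D.mir`.
-/

set_option autoImplicit false

namespace Crest.Agent.R176.M

variable {W : ℕ} {P : ℕ → ℕ}

/-! ### auxiliary facts -/

theorem flD_eq_A {h h' : Head} {p z : ℕ} : flD W h p z = .A h' ↔ z = p ∧ h = h' := by
  unfold flD
  split_ifs with h1 h2
  · simp; omega
  · simp [h2]
  · simp [h2]

theorem flD_ne_H (h : Head) (p z : ℕ) : flD W h p z ≠ .H := by
  unfold flD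
  split_ifs <;> simp

theorem dcore_eq_A {D : Dat} {ph : Ph} {i p z : ℕ} {h : Head} :
    (dcore P W D ph i p z).f = .A h ↔ z = p ∧ headAt P W D ph i p = h := flD_eq_A

theorem dcore_ne_H (D : Dat) (ph : Ph) (i p z : ℕ) : (dcore P W D ph i p z).f ≠ .H :=
  flD_ne_H _ _ _

theorem TimeOK.lt {ph : Ph} {i p : ℕ} (ht : TimeOK W ph i p) : p < 12 * W := by
  cases ph <;> simp only [TimeOK] at ht <;> omega

theorem tokOK_congrD {τ τ' : ℕ → ℕ} (h : TokOK W τ) (e : ∀ z, z < 6 * W → τ' z = τ z)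
    (hW : 1 ≤ W) : TokOK W τ' := by
  refine ⟨fun z hz => by rw [e z hz]; exact h.1 z hz,
    fun z hz h0 h2 => by rw [e z hz]; exact h.2.1 z hz h0 h2, fun z z' h1 h2 h3 => ?_⟩
  have hz : z < 6 * W := by
    have : z / W < 6 := by omega
    rw [Nat.div_lt_iff_lt_mul hW] at this; omega
  have hz' : z' < 6 * W := by
    have : z' / W < 6 := by omega
    rw [Nat.div_lt_iff_lt_mul hW] at this; omega
  rw [e z hz, e z' hz'] at h3
  exact h.2.2 z z' h1 h2 h3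

theorem tok_lt {τ : ℕ → ℕ} (h : TokOK W τ) (h' : TokOK W fun z => τ (6 * W + z)) (z : ℕ)
    (hz : z < 12 * W) : τ z < W := by
  by_cases h6 : z < 6 * W
  · exact h.1 z h6
  · have : τ (6 * W + (z - 6 * W)) < W := h'.1 (z - 6 * W) (by omega)
    rwa [show 6 * W + (z - 6 * W) = z by omega] at this

/-- tokens of two adjacent blocks -/
def mrg (W : ℕ) (τ τ' : ℕ → ℕ) (z : ℕ) : ℕ := if z < 6 * W then τ z else τ' (z - 6 * W)

theorem mrg_left {τ τ' : ℕ → ℕ} {z : ℕ} (hz : z < 6 * W) : mrg W τ τ' z = τ z := if_pos hz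

theorem mrg_right (τ τ' : ℕ → ℕ) (z : ℕ) : mrg W τ τ' (6 * W + z) = τ' z := by
  simp [mrg]

theorem step_core {n p : ℕ} {f g : ℕ → Core} {τ : ℕ → ℕ} (hp : p + 1 < n)
    (hτ : ∀ z, z < n → τ z < W) (hf : ∀ z, (f z).Bdd W) (hg : ∀ z, (g z).Bdd W)
    (hm : Move0 W (f p) (f (p + 1)) (g p) (g (p + 1)))
    (h : ∀ z, z < n → z ≠ p → z ≠ p + 1 → f z = g z) :
    (sys W P).Step (mkW n fun z => ⟨f z, τ z⟩) (mkW n fun z => ⟨g z, τ z⟩) :=
  Sys.step_mkW hp ⟨Or.inl ⟨hm, rfl, rfl⟩, ⟨hf p, hτ p (by omega)⟩, ⟨hf _, hτ _ hp⟩,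
    ⟨hg p, hτ p (by omega)⟩, ⟨hg _, hτ _ hp⟩⟩ fun z hz h1 h2 => by rw [h z hz h1 h2]

theorem upd_core {n p : ℕ} {f g : ℕ → Core} {τ : ℕ → ℕ} {c e : Let} (hc : c.k = g p)
    (he : e.k = g (p + 1)) (tc : c.tok = τ p) (te : e.tok = τ (p + 1))
    (h : ∀ z, z < n → z ≠ p → z ≠ p + 1 → f z = g z) :
    mkW n (Function.update (Function.update (fun z => (⟨f z, τ z⟩ : Let)) p c) (p + 1) e) =
      mkW n fun z => ⟨g z, τ z⟩ := by
  refine mkW_congr fun z hz => ?_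
  by_cases h2 : z = p + 1
  · subst h2; rw [Function.update_self]; exact Let.ext he te
  · rw [Function.update_of_ne h2]
    by_cases h1 : z = p
    · subst h1; rw [Function.update_self]; exact Let.ext hc tc
    · rw [Function.update_of_ne h1, h z hz h1 h2]

/-- two idle blocks with adjacent heads -/
def icore (P : ℕ → ℕ) (W : ℕ) (D : Dat) (z : ℕ) : Core :=
  ⟨bc P W (D.ρ (decide (6 * W ≤ z))) (z % (6 * W)),
    if z + 1 < 6 * W then .fw false else if z ≤ 6 * W then .H else .bw false⟩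

theorem icore_bdd (hG : Good W P) (D : Dat) (z : ℕ) : (icore P W D z).Bdd W := by
  refine ⟨bc_bdd hG _ _, fun h hh => ?_⟩
  simp only [icore] at hh
  split_ifs at hh

theorem mono_icore (hW : 1 ≤ W) (D : Dat) (τ : ℕ → ℕ) :
    (monoG W (bc P W (D.ρ false)) (6 * W - 1) τ ++
      monoG W (bc P W (D.ρ true)) 0 fun z => τ (6 * W + z)) =
      mkW (12 * W) fun z => ⟨icore P W D z, τ z⟩ := by
  rw [show 12 * W = 6 * W + 6 * W by ring, mkW_add]
  unfold monoG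
  congr 1
  · refine mkW_congr fun z hz => ?_
    simp only [icore, flM, Nat.mod_eq_of_lt hz, decide_eq_false (not_le.2 hz)]
    congr 2
    split_ifs <;> first | rfl | omega
  · refine mkW_congr fun z hz => ?_
    simp only [icore, flM, Nat.add_mod_left, Nat.mod_eq_of_lt hz,
      decide_eq_true (Nat.le_add_right (6 * W) z)]
    congr 2
    split_ifs <;> first | rfl | omega

theorem fuse_start (hW : 1 ≤ W) (D : Dat) (hκ : D.κ = true → (D.ρ true).dc 0 .hb = true) :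
    Fuse (icore P W D (6 * W - 1)) (icore P W D (6 * W - 1 + 1))
      (dcore P W D .L 0 (6 * W - 1) (6 * W - 1)) (dcore P W D .L 0 (6 * W - 1) (6 * W - 1 + 1)) ∧
    ∀ z, z < 12 * W → z ≠ 6 * W - 1 → z ≠ 6 * W - 1 + 1 →
      icore P W D z = dcore P W D .L 0 (6 * W - 1) z := by
  have e : 6 * W - 1 + 1 = 6 * W := by omega
  refine ⟨?_, fun z hz h1 h2 => ?_⟩
  · rw [dcore_start hW D (by omega), dcore_start hW D (by omega), e]
    refine ⟨?_, ?_, ?_, rfl, rfl, ?_, D.o, D.κ, ?_, ?_⟩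
    · simp only [icore]; rw [if_neg (by omega), if_pos (by omega)]
    · simp only [icore]; rw [if_neg (by omega), if_pos (by omega)]
    · simp [icore, First, bc]
    · simp only [flD]; rw [if_neg (by omega), if_neg (by omega)]; simp
    · simpa [icore, bc] using hκ
    · simp [flD]
  · rw [dcore_start hW D hz]
    simp only [icore, flD]
    congr 1
    by_cases h3 : z < 6 * W - 1
    · rw [if_pos (by omega), if_pos h3, decide_eq_false (by omega)]
    · rw [if_neg (by omega), if_neg (by omega), if_neg h3, if_neg h1, decide_eq_true (by omega)]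
      rfl

theorem dcore_first (hW : 1 ≤ W) (D : Dat) (ph : Ph) (i p : ℕ) {z : ℕ} (hz : z < 12 * W) :
    First (dcore P W D ph i p z).c ↔ z = 0 ∨ z = 6 * W := by
  refine (addr_first hW (cellAt_addr hW D ph i p) hz).trans ?_
  by_cases h : z < 6 * W
  · rw [Nat.mod_eq_of_lt h]; omega
  · rw [Nat.mod_eq_sub_mod (by omega), Nat.mod_eq_of_lt (by omega)]; omega

theorem dcore_last (hW : 1 ≤ W) (D : Dat) (ph : Ph) (i p : ℕ) {z : ℕ} (hz : z < 12 * W) :
    Last W (dcore P W D ph i p z).c ↔ z + 1 = 6 * W ∨ z + 1 = 12 * W := by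
  refine (addr_last hW (cellAt_addr hW D ph i p) hz).trans ?_
  by_cases h : z < 6 * W
  · rw [Nat.mod_eq_of_lt h]; omega
  · rw [Nat.mod_eq_sub_mod (by omega), Nat.mod_eq_of_lt (by omega)]; omega

/-- the position of the last forward move is determined -/
def LastAt (P : ℕ → ℕ) (W : ℕ) (D : Dat) (ph : Ph) (i p p₀ : ℕ) : Prop :=
  (p = p₀ + 1 ∧ DirLeft W (headAt P W D ph i p) (dcore P W D ph i p p).c) ∨
    (p = p₀ ∧ ¬ DirLeft W (headAt P W D ph i p) (dcore P W D ph i p p).c)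

theorem LastAt.unique {D : Dat} {ph : Ph} {i p p₀ p₁ : ℕ} (h : LastAt P W D ph i p p₀)
    (h' : LastAt P W D ph i p p₁) : p₀ = p₁ := by
  rcases h with ⟨h1, h2⟩ | ⟨h1, h2⟩ <;> rcases h' with ⟨h3, h4⟩ | ⟨h3, h4⟩
  · omega
  · exact absurd h2 h4
  · exact absurd h4 h2
  · omega

theorem lastAt_of_charge {D : Dat} {ph : Ph} {i p p₀ : ℕ}
    (h : Charge W (dcore P W D ph i p p₀) (dcore P W D ph i p (p₀ + 1))) :
    LastAt P W D ph i p p₀ := by
  rcases h with ⟨h, h1, h2⟩ | ⟨h, h1, h2⟩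
  · obtain ⟨rfl, rfl⟩ := dcore_eq_A.1 h1
    exact Or.inl ⟨rfl, h2⟩
  · obtain ⟨rfl, rfl⟩ := dcore_eq_A.1 h1
    exact Or.inr ⟨rfl, h2⟩

theorem lastAt_of_fwd (hW : 1 ≤ W) {D : Dat} {ph : Ph} {i p p₀ : ℕ} (hp : p₀ + 1 < 12 * W)
    {y y' : Core} (h : Fwd W y y' (dcore P W D ph i p p₀) (dcore P W D ph i p (p₀ + 1))) :
    LastAt P W D ph i p p₀ := by
  refine lastAt_of_charge ?_
  rcases h with h | h | h
  · exact Or.inl (mvR_dirLeft h)
  · refine Or.inr (mvL_not_dirLeft h fun hl => ?_)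
    rw [dcore_last hW _ _ _ _ (by omega)] at hl
    rw [dcore_first hW _ _ _ _ hp]
    omega
  · exact Or.inr (fuse_not_dirLeft h)

theorem dim_prev (hG : Good W P) (D : Dat) (hκ : D.κ = true → (D.ρ true).dc 0 .hb = true)
    {ph : Ph} {i p : ℕ} (ht : TimeOK W ph i p) :
    ∃ (p₁ : ℕ) (g : ℕ → Core), p₁ + 1 < 12 * W ∧
      Fwd W (g p₁) (g (p₁ + 1)) (dcore P W D ph i p p₁) (dcore P W D ph i p (p₁ + 1)) ∧
      (∀ z, z < 12 * W → z ≠ p₁ → z ≠ p₁ + 1 → g z = dcore P W D ph i p z) ∧ (∀ z, (g z).Bdd W) ∧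
      (g = icore P W D ∨ ∃ ph' i' p', TimeOK W ph' i' p' ∧ meas W ph' i' p' < meas W ph i p ∧
        g = dcore P W D ph' i' p') := by
  have hW : 1 ≤ W := le_trans (by norm_num) hG.two_le
  by_cases hs : ph = .L ∧ i = 0 ∧ p + 1 = 6 * W
  · obtain ⟨rfl, rfl, hp⟩ := hs
    obtain rfl : p = 6 * W - 1 := by omega
    obtain ⟨h1, h2⟩ := fuse_start (P := P) hW D hκ
    exact ⟨6 * W - 1, icore P W D, by omega, Or.inr (Or.inr h1), h2, icore_bdd hG D, Or.inl rfl⟩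
  · obtain ⟨ph', i', p', ht', hm, h1, h2⟩ := traj_prev hG D ht hs
    rcases h1 with ⟨rfl, h1⟩ | ⟨rfl, h1⟩
    · exact ⟨p', _, ht.lt, Or.inl h1, fun z hz h3 h4 => h2 z hz h4 h3, dcore_bdd hG D ht',
        Or.inr ⟨ph', i', p', ht', hm, rfl⟩⟩
    · exact ⟨p, _, ht'.lt, Or.inr (Or.inl h1), h2, dcore_bdd hG D ht',
        Or.inr ⟨ph', i', p + 1, ht', hm, rfl⟩⟩

theorem mkW_cons {α : Type} {n : ℕ} {f : ℕ → α} {b : α} {v : List α} (h : b :: v = mkW n f) :
    0 < n ∧ b = f 0 := by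
  have h1 : 0 < n := by
    have := congrArg List.length h
    simp at this; omega
  refine ⟨h1, ?_⟩
  rw [← getD_mkW h1 f b, ← h]; rfl

theorem mkW_snoc {α : Type} {n : ℕ} {f : ℕ → α} {a : α} {u : List α} (h : u ++ [a] = mkW n f) :
    u.length + 1 = n ∧ a = f (n - 1) := by
  have h1 : u.length + 1 = n := by
    have := congrArg List.length h
    simpa using this
  refine ⟨h1, ?_⟩
  rw [← getD_mkW (show n - 1 < n by omega) f a, ← h, show n - 1 = u.length by omega]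
  simp

theorem cellAt_base (D : Dat) (ph : Ph) (i p z : ℕ) : ∃ c : Cell,
    c.st = (bc P W (D.ρ (decide (6 * W ≤ z))) (z % (6 * W))).st ∧
    c.mem = (bc P W (D.ρ (decide (6 * W ≤ z))) (z % (6 * W))).mem ∧
    c.tb = (bc P W (D.ρ (decide (6 * W ≤ z))) (z % (6 * W))).tb ∧
    cellAt P W D ph i p z = if ph = .S ∧ z < p then swp D.κ c else c := by
  cases ph
  · exact ⟨tc P W D i 0 z, rfl, rfl, rfl, by simp [cellAt]⟩
  · exact ⟨tc P W D i p z, rfl, rfl, rfl, by simp [cellAt]⟩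
  · exact ⟨tc P W D W 0 z, rfl, rfl, rfl, by simp [cellAt]⟩
  · exact ⟨tc P W D W 0 z, rfl, rfl, rfl, by simp [cellAt]⟩

theorem dcore_flagOK (hW : 1 ≤ W) (D : Dat) (ph : Ph) (i p : ℕ) {z : ℕ} (hz : z + 1 < 12 * W) :
    FlagOK (dcore P W D ph i p z) (dcore P W D ph i p (z + 1)) := by
  have hsd := (headAt_keep (P := P) (W := W) D ph i p).2.2.2
  unfold FlagOK
  rw [dcore_first hW _ _ _ _ hz]
  simp only [dcore, flD]
  by_cases h6 : z + 1 = 6 * W
  · refine Or.inr ⟨Or.inr h6, ?_⟩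
    have e1 : decide (6 * W ≤ z) = false := decide_eq_false (by omega)
    have e2 : decide (6 * W ≤ z + 1) = true := decide_eq_true (by omega)
    rw [e1, e2]
    by_cases h1 : z + 1 < p
    · rw [if_pos (by omega), if_pos h1]; simp [Fl.rI, Fl.lI]
    · by_cases h2 : z + 1 = p
      · rw [if_pos (by omega), if_neg h1, if_pos h2]
        rw [← h2, e2] at hsd
        simp [Fl.rI, Fl.lI, ← h2, hsd]
      · by_cases h3 : z = p
        · rw [if_neg (by omega), if_pos h3, if_neg h1, if_neg h2]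
          rw [← h3, e1] at hsd
          simp [Fl.rI, Fl.lI, ← h3, hsd]
        · rw [if_neg (by omega), if_neg h3, if_neg h1, if_neg h2]; simp [Fl.rI, Fl.lI]
  · refine Or.inl ⟨by omega, ?_⟩
    have e : decide (6 * W ≤ z + 1) = decide (6 * W ≤ z) := decide_eq_decide.2 (by omega)
    rw [e]
    by_cases h1 : z + 1 < p
    · rw [if_pos (by omega), if_pos h1]; rfl
    · by_cases h2 : z + 1 = p
      · rw [if_pos (by omega), if_neg h1, if_pos h2]
        simp only [Fl.rI, Fl.lI, hsd]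
        rw [← h2, e]
      · by_cases h3 : z = p
        · rw [if_neg (by omega), if_pos h3, if_neg h1, if_neg h2]
          simp only [Fl.rI, Fl.lI, hsd]
          rw [← h3]
        · rw [if_neg (by omega), if_neg h3, if_neg h1, if_neg h2]; rfl

theorem dcore_lbad (hW : 1 ≤ W) {D : Dat} {ph : Ph} {i p z : ℕ} (hp : p < 12 * W)
    (hz : z < 12 * W) (h : LBad W (dcore P W D ph i p z)) :
    z = p ∧ ph = .F ∧ D.o = false ∧ (qs P W D W = 2 ∨ qs P W D W = 3) := by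
  rcases h with ⟨h1, h2⟩ | ⟨h1, h2⟩ | ⟨h1, -⟩ | ⟨h, h1, h2, h3, h4⟩
  · rw [dcore_first hW _ _ _ _ hz] at h1
    simp only [dcore, flD] at h2
    split_ifs at h2 with h3 h4
    simp only [Fl.bw.injEq, Bool.not_eq_eq_eq_not, Bool.not_true, decide_eq_false_iff_not] at h2
    omega
  · rw [dcore_last hW _ _ _ _ hz] at h1
    simp only [dcore, flD] at h2
    split_ifs at h2 with h3 h4
    simp only [Fl.fw.injEq, decide_eq_true_eq] at h2
    omega
  · exact absurd h1 (dcore_ne_H _ _ _ _ _)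
  · obtain ⟨rfl, rfl⟩ := dcore_eq_A.1 h1
    obtain ⟨k1, k2, -⟩ := headAt_keep (P := P) (W := W) D ph i z
    rw [k1] at h2
    subst h2
    exact ⟨rfl, rfl, k2.symm.trans h3, h4⟩

theorem lbad_F (D : Dat) (i p : ℕ) (ho : D.o = false) (hq : qs P W D W = 2 ∨ qs P W D W = 3) :
    LBad W (dcore P W D .F i p p) :=
  Or.inr (Or.inr (Or.inr ⟨_, dcore_eq_A.2 ⟨rfl, rfl⟩, rfl, ho, hq⟩))

/-! ### the statements -/

theorem DimRaw.length {κ : Bool} {d : List Let} {ρ₀ ρ₁ : Raw} (h : DimRaw P W κ d ρ₀ ρ₁) :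
    d.length = 2 * (6 * W) := by
  obtain ⟨D, ph, i, p, τ, -, -, -, -, -, -, -, rfl⟩ := h
  rw [dimW, length_mkW]; ring

theorem dimW_eqv (hG : Good W P) (D : Dat) (hκ : D.κ = true → (D.ρ true).dc 0 .hb = true)
    {τ : ℕ → ℕ} (hτ : ∀ z, z < 12 * W → τ z < W) {ph : Ph} {i p : ℕ} (ht : TimeOK W ph i p) :
    (sys W P).Eqv (dimW P W D ph i p τ)
      (monoG W (bc P W (D.ρ false)) (6 * W - 1) τ ++
        monoG W (bc P W (D.ρ true)) 0 fun z => τ (6 * W + z)) := by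
  have hW : 1 ≤ W := le_trans (by norm_num) hG.two_le
  induction hm : meas W ph i p using Nat.strong_induction_on generalizing ph i p with
  | _ m ih =>
    obtain ⟨p₁, g, hp, h1, h2, h3, h4⟩ := dim_prev hG D hκ ht
    have hs := (step_core (P := P) hp hτ h3 (dcore_bdd hG D ht) (Or.inl h1) h2).eqv.symm
    rcases h4 with rfl | ⟨ph', i', p', ht', hlt, rfl⟩
    · rw [mono_icore hW]; exact hs
    · exact hs.trans (ih _ (hm ▸ hlt) ht' rfl)

theorem dim_eqv (hG : Good W P) {κ : Bool} {d : List Let} {ρ₀ ρ₁ : Raw}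
    (h : DimRaw P W κ d ρ₀ ρ₁) :
    ∃ b b', MonoRaw P W b ρ₀ ∧ MonoRaw P W b' ρ₁ ∧ (sys W P).Eqv d (b ++ b') := by
  have hW : 1 ≤ W := le_trans (by norm_num) hG.two_le
  obtain ⟨D, ph, i, p, τ, rfl, rfl, rfl, hκ, ht, t1, t2, rfl⟩ := h
  exact ⟨_, _, ⟨6 * W - 1, τ, by omega, t1, rfl⟩, ⟨0, _, by omega, t2, rfl⟩,
    dimW_eqv hG D hκ (tok_lt t1 t2) ht⟩

theorem dimRaw_fun (hW : 1 ≤ W) {κ κ' : Bool} {d : List Let} {ρ₀ ρ₁ ρ₀' ρ₁' : Raw}
    (h : DimRaw P W κ d ρ₀ ρ₁) (h' : DimRaw P W κ' d ρ₀' ρ₁') :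
    κ = κ' ∧ ρ₀.Eq W ρ₀' ∧ ρ₁.Eq W ρ₁' := by
  obtain ⟨D, ph, i, p, τ, rfl, rfl, rfl, -, ht, -, -, rfl⟩ := h
  obtain ⟨D', ph', i', p', τ', rfl, rfl, rfl, -, ht', -, -, e⟩ := h'
  have e1 : ∀ z, z < 12 * W → dcore P W D ph i p z = dcore P W D' ph' i' p' z := fun z hz =>
    congrArg Let.k (mkW_inj e hz)
  have e2 : (dcore P W D' ph' i' p' p).f = .A (headAt P W D ph i p) := by
    rw [← e1 p ht.lt]; exact dcore_eq_A.2 ⟨rfl, rfl⟩
  obtain ⟨rfl, e3⟩ := dcore_eq_A.1 e2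
  obtain ⟨k1, -, k2, -⟩ := headAt_keep (P := P) (W := W) D ph i p
  obtain ⟨k1', -, k2', -⟩ := headAt_keep (P := P) (W := W) D' ph' i' p
  rw [e3] at k1' k2'
  obtain rfl : ph = ph' := k1.symm.trans k1'
  have hκ : D.κ = D'.κ := k2.symm.trans k2'
  have key : ∀ z, z < 12 * W →
      (bc P W (D.ρ (decide (6 * W ≤ z))) (z % (6 * W))).st =
        (bc P W (D'.ρ (decide (6 * W ≤ z))) (z % (6 * W))).st ∧
      (bc P W (D.ρ (decide (6 * W ≤ z))) (z % (6 * W))).mem =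
        (bc P W (D'.ρ (decide (6 * W ≤ z))) (z % (6 * W))).mem ∧
      (bc P W (D.ρ (decide (6 * W ≤ z))) (z % (6 * W))).tb =
        (bc P W (D'.ρ (decide (6 * W ≤ z))) (z % (6 * W))).tb := by
    intro z hz
    obtain ⟨c, c1, c2, c3, c4⟩ := cellAt_base (P := P) (W := W) D ph i p z
    obtain ⟨c', c1', c2', c3', c4'⟩ := cellAt_base (P := P) (W := W) D' ph i' p z
    have e4 : cellAt P W D ph i p z = cellAt P W D' ph i' p z := congrArg Core.c (e1 z hz)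
    rw [c4, c4', ← hκ] at e4
    obtain rfl : c = c' := by
      split_ifs at e4
      · rw [← swp_swp D.κ c, e4, swp_swp]
      · exact e4
    exact ⟨c1.symm.trans c1', c2.symm.trans c2', c3.symm.trans c3'⟩
  refine ⟨hκ, raw_eq_of_bc (P := P) hW fun z hz => ?_, raw_eq_of_bc (P := P) hW fun z hz => ?_⟩
  · have := key z (by omega)
    rwa [decide_eq_false (not_le.2 hz), Nat.mod_eq_of_lt hz] at this
  · have := key (6 * W + z) (by omega)
    rwa [decide_eq_true (Nat.le_add_right _ _), Nat.add_mod_left, Nat.mod_eq_of_lt hz] at this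

/-- an idle block is not the first half of a fused pair (right interface at position `6W - 1`) -/
theorem mono_ne_dim (hW : 1 ≤ W) {κ : Bool} {b d w w' : List Let} {ρ ρ₀ ρ₁ : Raw}
    (h : MonoRaw P W b ρ) (h' : DimRaw P W κ d ρ₀ ρ₁) : b ++ w ≠ d ++ w' := by
  obtain ⟨p, τ, hp, -, rfl⟩ := h
  obtain ⟨D, ph, i, p', τ', -, -, -, -, -, -, -, rfl⟩ := h'
  intro e
  rw [dimW, show 12 * W = 6 * W + 6 * W by ring, mkW_add, List.append_assoc] at e
  have e1 := (List.append_inj e (by simp [monoG])).1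
  have e2 : flM p (6 * W - 1) = flD W (headAt P W D ph i p') p' (6 * W - 1) :=
    congrArg (fun y : Let => y.k.f) (mkW_inj e1 (show 6 * W - 1 < 6 * W by omega))
  have e3 : decide (6 * W ≤ 6 * W - 1) = false := decide_eq_false (by omega)
  simp only [flM, flD, e3] at e2
  split_ifs at e2 <;> first | omega | simp at e2

theorem dim_step (hG : Good W P) {κ : Bool} {d d' : List Let} {ρ₀ ρ₁ : Raw}
    (h : DimRaw P W κ d ρ₀ ρ₁) (hs : (sys W P).Step d d' ∨ (sys W P).Step d' d) :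
    DimRaw P W κ d' ρ₀ ρ₁ ∨ (∃ b b', d' = b ++ b' ∧ MonoRaw P W b ρ₀ ∧ MonoRaw P W b' ρ₁) ∨
      ∃ ρ₀' ρ₁', DimRaw P W κ d' ρ₀' ρ₁' ∧ Com P W ρ₀ ρ₁ ρ₀' ρ₁' := by
  have hW : 1 ≤ W := le_trans (by norm_num) hG.two_le
  obtain ⟨D, ph, i, p, τ, rfl, rfl, rfl, hκ, ht, t1, t2, rfl⟩ := h
  obtain ⟨p₀, c, e, hp, hm, rfl⟩ := Sys.step_mkW_inv hs
  obtain ⟨k1, k2, k3, k4⟩ := headAt_keep (P := P) (W := W) D ph i p
  rcases hm with ⟨⟨hm, tc, te⟩ | hm, -⟩ | ⟨⟨hm, tc, te⟩ | hm, -⟩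
  · rcases hm with (hm | hm | hm) | hm | hm
    · obtain rfl : p₀ = p := by
        obtain ⟨h, h₁, h1, -⟩ := hm
        exact (dcore_eq_A.1 h1).1
      obtain ⟨D', ph', i', e1, e2, e3, ht', hc, he, h4⟩ := traj_nextR hG D ht hm
      exact Or.inl ⟨D', ph', i', p₀ + 1, τ, e3, by rw [e1], by rw [e1], hκ, ht', t1, t2,
        upd_core hc he tc te h4⟩
    · obtain ⟨h, h1, h2, -⟩ := id hm
      obtain ⟨rfl, rfl⟩ := dcore_eq_A.1 h1
      rw [k1] at h2
      obtain ⟨ht', hm', h4⟩ := stepL hG D ht h2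
      obtain ⟨hc, he⟩ := mvL_det hm hm'
      exact Or.inl ⟨D, _, i, p₀, τ, rfl, rfl, rfl, hκ, ht', t1, t2, upd_core hc he tc te h4⟩
    · exact absurd hm.1 (dcore_ne_H _ _ _ _ _)
    · obtain ⟨h, h1, h2, h3, h4, h5, h6, -⟩ := id hm
      obtain ⟨rfl, rfl⟩ := dcore_eq_A.1 h1
      rw [k1] at h2
      subst h2
      rw [k4, decide_eq_true_eq] at h5
      have h7 := (dcore_last hW _ _ _ _ hp).1 h6
      obtain rfl : p₀ = 12 * W - 2 := by omega
      have e1 : 12 * W - 2 + 1 = 12 * W - 1 := by omega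
      obtain ⟨hm', h8⟩ := commit_traj hG D h3 h4 i 0
      rw [← e1] at hm' h8
      obtain ⟨hc, he⟩ := commit_det hm hm'
      obtain ⟨h9, h10⟩ := com_of_qs hG D h4
      refine Or.inr (Or.inr ⟨_, _, ⟨D.mir, .F, 0, 12 * W - 2 + 1, τ, rfl, rfl, rfl, h9, ?_, t1, t2,
        upd_core hc he tc te fun z hz h11 h12 => h8 z (by omega)⟩, h10⟩)
      exact ⟨by omega, by omega⟩
    · exact absurd hm.1 (dcore_ne_H _ _ _ _ _)
  · exact absurd hm.1 (dcore_ne_H _ _ _ _ _)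
  · rcases hm with hm | hm | hm
    · obtain ⟨p₁, g, hp₁, h1, h2, h3, h4⟩ := dim_prev hG D hκ ht
      obtain rfl : p₀ = p₁ := (lastAt_of_fwd hW hp hm).unique (lastAt_of_fwd hW hp₁ h1)
      obtain ⟨hc, he⟩ := fwd_inj hm h1
      have e1 := upd_core (n := 12 * W) (f := dcore P W D ph i p) hc he tc.symm te.symm
        fun z hz h5 h6 => (h2 z hz h5 h6).symm
      rcases h4 with rfl | ⟨ph', i', p', ht', -, rfl⟩
      · exact Or.inr (Or.inl ⟨_, _, e1.trans (mono_icore hW D τ).symm,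
          ⟨6 * W - 1, τ, by omega, t1, rfl⟩, ⟨0, _, by omega, t2, rfl⟩⟩)
      · exact Or.inl ⟨D, ph', i', p', τ, rfl, rfl, rfl, hκ, ht', t1, t2, e1⟩
    · obtain ⟨h, h1, h2, h3, h4, h5, h6, -, -, -, h7, h8⟩ := id hm
      obtain ⟨rfl, h9⟩ := dcore_eq_A.1 h8
      rw [h9] at k1 k2 k4
      obtain rfl : ph = .F := k1.symm
      have ho : D.o = true := k2.symm
      have hq : qs P W D W = 1 ∨ qs P W D W = 3 := by
        have : qs P W D W = h.q := congrArg Head.q h9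
        rwa [this]
      have h10 : decide (6 * W ≤ p₀ + 1) = true := k4.symm.trans h5
      rw [decide_eq_true_eq] at h10
      rw [← h7] at h6
      have h11 := (dcore_last hW _ _ _ _ hp).1 h6
      obtain rfl : p₀ = 12 * W - 2 := by omega
      have e1 : 12 * W - 2 + 1 = 12 * W - 1 := by omega
      obtain ⟨hm', h12⟩ := commit_traj hG D.mir (by simp [Dat.mir, ho]) (by rwa [qs_mir]) 0 i
      rw [← e1] at hm' h12
      simp only [dcore_mir_mir] at hm' h12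
      obtain ⟨hc, he⟩ := commit_inj hm hm'
      obtain ⟨h13, h14⟩ := com_of_qs hG D hq
      refine Or.inr (Or.inr ⟨_, _, ⟨D.mir, .S, 0, 12 * W - 2, τ, rfl, rfl, rfl, h13, ?_, t1, t2,
        upd_core hc he tc.symm te.symm fun z hz h15 h16 => (h12 z (by omega)).symm⟩, h14⟩)
      exact hp
    · exact absurd hm.2.2.2.2.2.2 (dcore_ne_H _ _ _ _ _)
  · obtain ⟨h1, -, -, h2⟩ := hm
    have h3 : dcore P W D ph i p (p₀ + 1) = e.k := congrArg Let.k h2
    rw [← h3] at h1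
    exact absurd h1 (dcore_ne_H _ _ _ _ _)

theorem dim_ok (hG : Good W P) {κ : Bool} {d : List Let} {ρ₀ ρ₁ : Raw} (h : DimRaw P W κ d ρ₀ ρ₁)
    {a : Let} (ha : a ∈ d) : a.Bdd W := by
  obtain ⟨D, ph, i, p, τ, -, -, -, -, ht, t1, t2, rfl⟩ := h
  obtain ⟨z, hz, rfl⟩ := mem_mkW.1 ha
  exact ⟨dcore_bdd hG D ht z, tok_lt t1 t2 z hz⟩

theorem dim_bad (hG : Good W P) {κ : Bool} {d : List Let} {ρ₀ ρ₁ : Raw} (h : DimRaw P W κ d ρ₀ ρ₁)
    (hb : (sys W P).Bad d) {Y Y' : Let} (h₀ : Dec W ρ₀ Y) (h₁ : Dec W ρ₁ Y') :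
    (sys (2 ^ W) P).zero Y Y' := by
  have hW : 1 ≤ W := le_trans (by norm_num) hG.two_le
  obtain ⟨D, ph, i, p, τ, rfl, rfl, rfl, hκ, ht, t1, t2, rfl⟩ := h
  rcases Sys.bad_mkW.1 hb with ⟨z, hz, h1⟩ | ⟨z, hz, (h1 | h1 | h1 | h1 | ⟨h1, h2⟩) | h1 | h1⟩
  · exact absurd ⟨dcore_bdd hG D ht z, tok_lt t1 t2 z hz⟩ h1
  · exact absurd (addr_succ hW (cellAt_addr hW D ph i p) hz) h1
  · exact absurd (dcore_flagOK hW D ph i p hz) h1
  · obtain ⟨-, -, h2, h3⟩ := dcore_lbad hW ht.lt (by omega) h1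
    exact zero_of_qs hG D h2 h3 h₀ h₁
  · obtain ⟨-, -, h2, h3⟩ := dcore_lbad hW ht.lt hz h1
    exact zero_of_qs hG D h2 h3 h₀ h₁
  · obtain ⟨p₁, g, hp₁, h3, -, h4, -⟩ := dim_prev hG D hκ ht
    obtain rfl : z = p₁ := (lastAt_of_charge h1).unique (lastAt_of_fwd hW hp₁ h3)
    exact absurd ⟨_, _, h4 _, h4 _, h3⟩ h2
  · obtain ⟨h2, h3⟩ := h1
    have e : (dcore P W D ph i p z).c.st = _ := cellAt_st D ph i p z
    simp only [e] at h2 h3
    exact absurd (bc_tab _ (Nat.mod_lt _ (by omega)) h2) h3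
  · exact absurd h1.1 (dcore_ne_H _ _ _ _ _)

theorem piece_first (hW : 1 ≤ W) {b : Let} {v : List Let} {U : List Raw}
    (h : Piece (MonoRaw P W) (DimR P W) (b :: v) U) :
    First b.k.c ∧ b.k.f.lI = (false, false) := by
  rcases h with ⟨ρ, ⟨p, τ, hp, -, e⟩, -⟩ | ⟨ρ, ρ', ⟨κ, D, ph, i, p, τ, -, -, -, -, -, -, -, e⟩, -⟩
  · obtain ⟨h1, rfl⟩ := mkW_cons e
    refine ⟨(addr_first hW (bc_addr hW ρ) h1).2 (by simp), ?_⟩
    simp only [flM]
    split_ifs <;> first | rfl | omega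
  · obtain ⟨h1, rfl⟩ := mkW_cons e
    refine ⟨(dcore_first hW _ _ _ _ h1).2 (Or.inl rfl), ?_⟩
    have hsd := (headAt_keep (P := P) (W := W) D ph i p).2.2.2
    have e3 : decide (6 * W ≤ 0) = false := decide_eq_false (by omega)
    simp only [dcore, flD, e3]
    split_ifs with h2 h3
    · rfl
    · simp only [Fl.lI, hsd]
      rw [← h3, e3]
    · omega

theorem piece_last (hW : 1 ≤ W) {a : Let} {u : List Let} {U : List Raw}
    (h : Piece (MonoRaw P W) (DimR P W) (u ++ [a]) U) :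
    Last W a.k.c ∧ a.k.f.rI = (true, false) := by
  rcases h with ⟨ρ, ⟨p, τ, hp, -, e⟩, -⟩ | ⟨ρ, ρ', ⟨κ, D, ph, i, p, τ, -, -, -, -, ht, -, -, e⟩, -⟩
  · obtain ⟨h1, rfl⟩ := mkW_snoc e
    refine ⟨(addr_last hW (bc_addr hW ρ) (by omega)).2 (by rw [Nat.mod_eq_of_lt] <;> omega), ?_⟩
    simp only [flM]
    split_ifs <;> first | rfl | omega
  · obtain ⟨h1, rfl⟩ := mkW_snoc e
    refine ⟨(dcore_last hW _ _ _ _ (by omega)).2 (Or.inr (by omega)), ?_⟩
    have hsd := (headAt_keep (P := P) (W := W) D ph i p).2.2.2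
    have e3 : decide (6 * W ≤ 12 * W - 1) = true := decide_eq_true (by omega)
    have := ht.lt
    simp only [dcore, flD, e3]
    split_ifs with h2 h3
    · omega
    · simp only [Fl.rI, hsd]
      rw [← h3, e3]; rfl
    · rfl

/-- a zero at a border comes from the left piece (a head in phase `F` on its last cell) -/
theorem border_zero (hG : Good W P) {a b : Let} {u v : List Let} {U U' : List Raw}
    (h : Piece (MonoRaw P W) (DimR P W) (u ++ [a]) U)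
    (h' : Piece (MonoRaw P W) (DimR P W) (b :: v) U') (hz : (sys W P).zero a b) :
    (sys W P).Bad (u ++ [a]) := by
  have hW : 1 ≤ W := le_trans (by norm_num) hG.two_le
  obtain ⟨⟨a1, a2⟩, a3⟩ := piece_last hW h
  obtain ⟨⟨b1, b2⟩, b3⟩ := piece_first hW h'
  rcases hz with (h1 | h1 | h1 | h1 | ⟨h1, -⟩) | h1 | ⟨-, ⟨h1, -⟩ | ⟨h1, -⟩⟩
  · exact absurd (Or.inr ⟨a2, b2, by rw [a1, b1]; rfl⟩) h1
  · exact absurd (Or.inr ⟨⟨b1, b2⟩, Or.inl ⟨a3, b3⟩⟩) h1
  · rcases h with ⟨ρ, ⟨p, τ, hp, -, e⟩, -⟩ |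
      ⟨ρ, ρ', ⟨κ, D, ph, i, p, τ, -, -, -, -, ht, -, -, e⟩, -⟩
    · exfalso
      obtain ⟨-, rfl⟩ := mkW_snoc e
      rcases h1 with ⟨-, h2⟩ | ⟨-, h2⟩ | ⟨-, h2⟩ | ⟨hd, h2, -⟩
      · rw [h2] at a3; simp [Fl.rI] at a3
      · rw [h2] at a3; simp [Fl.rI] at a3
      · exact h2 (bc_clean ρ _)
      · simp only [flM] at h2
        split_ifs at h2
    · obtain ⟨-, rfl⟩ := mkW_snoc e
      rw [e]
      refine Sys.bad_mkW.2 (Or.inr ⟨12 * W - 2, by omega, Or.inl (Or.inr (Or.inr (Or.inr (Or.inl ?_))))⟩)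
      rwa [show 12 * W - 2 + 1 = 12 * W - 1 by omega]
  · exfalso
    rcases h' with ⟨ρ, ⟨p, τ, hp, -, e⟩, -⟩ |
      ⟨ρ, ρ', ⟨κ, D, ph, i, p, τ, -, -, -, -, ht, -, -, e⟩, -⟩
    · obtain ⟨-, rfl⟩ := mkW_cons e
      rcases h1 with ⟨-, h2⟩ | ⟨-, h2⟩ | ⟨-, h2⟩ | ⟨hd, h2, -⟩
      · rw [h2] at b3; simp [Fl.lI] at b3
      · rw [h2] at b3; simp [Fl.lI] at b3
      · exact h2 (bc_clean ρ _)
      · simp only [flM] at h2
        split_ifs at h2
    · obtain ⟨h0, rfl⟩ := mkW_cons e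
      obtain ⟨rfl, rfl, -⟩ := dcore_lbad hW ht.lt h0 h1
      exact absurd ht.1 (lt_irrefl 0)
  · exfalso
    rcases h1 with ⟨hd, h2, h3⟩ | ⟨hd, h2, h3⟩
    · rcases h' with ⟨ρ, ⟨p, τ, hp, -, e⟩, -⟩ |
        ⟨ρ, ρ', ⟨κ, D, ph, i, p, τ, -, -, -, -, ht, -, -, e⟩, -⟩
      · obtain ⟨-, rfl⟩ := mkW_cons e
        simp only [flM] at h2
        split_ifs at h2
      · obtain ⟨-, rfl⟩ := mkW_cons e
        rw [h2] at b3
        have hsd : hd.sd = false := congrArg Prod.snd b3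
        rcases h3 with ⟨-, h4⟩ | ⟨-, h4, -⟩
        · exact h4 ⟨hsd, b1, b2⟩
        · rw [hsd] at h4; exact Bool.false_ne_true h4
    · rcases h with ⟨ρ, ⟨p, τ, hp, -, e⟩, -⟩ |
        ⟨ρ, ρ', ⟨κ, D, ph, i, p, τ, -, -, -, -, ht, -, -, e⟩, -⟩
      · obtain ⟨-, rfl⟩ := mkW_snoc e
        simp only [flM] at h2
        split_ifs at h2
      · obtain ⟨-, rfl⟩ := mkW_snoc e
        have hsd : hd.sd = true := by
          rw [h2] at a3
          simpa [Fl.rI] using a3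
        obtain ⟨rfl, rfl⟩ := dcore_eq_A.1 h2
        refine h3 (Or.inr ⟨?_, hsd, a1, a2⟩)
        rw [(headAt_keep D ph i _).1]
        cases ph <;> simp only [TimeOK] at ht <;> first | omega | simp
  · have := h1.1
    rw [a1] at this
    exact absurd this (by decide)
  · have := h1.1
    rw [a1, b1] at this
    exact absurd this (by decide)
  · exact absurd (Or.inl b1) h1

theorem border_step (hG : Good W P) {a b c d : Let} {u v : List Let} {U U' : List Raw}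
    (h : Piece (MonoRaw P W) (DimR P W) (u ++ [a]) U)
    (h' : Piece (MonoRaw P W) (DimR P W) (b :: v) U')
    (hm : (sys W P).Mv a b c d ∨ (sys W P).Mv c d a b) :
    ∃ ρ ρ', U = [ρ] ∧ U' = [ρ'] ∧ DimR P W (u ++ c :: d :: v) ρ ρ' := by
  have hW : 1 ≤ W := le_trans (by norm_num) hG.two_le
  obtain ⟨⟨a1, a2⟩, a3⟩ := piece_last hW h
  obtain ⟨⟨b1, b2⟩, b3⟩ := piece_first hW h'
  rcases hm with ⟨⟨hm, tc, te⟩ | hm, -⟩ | ⟨⟨hm, tc, te⟩ | hm, -⟩
  · rcases hm with (hm | hm | hm) | hm | hm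
    · obtain ⟨hd, h₁, h1, -, h2, -⟩ := hm
      rw [h1] at a3
      simp [Fl.rI, h2 ⟨b1, b2⟩] at a3
    · obtain ⟨hd, h1, -, h2, -⟩ := hm
      rw [h1] at b3
      simp [Fl.lI, h2 ⟨b1, b2⟩] at b3
    · obtain ⟨h1, h2, -, h3, h4, h5, o, κ, h6, h7⟩ := hm
      rcases h with ⟨ρ, ⟨p, τ, hp, t1, e⟩, rfl⟩ |
        ⟨ρ, ρ', ⟨κ, D, ph, i, p, τ, -, -, -, -, ht, -, -, e⟩, -⟩
      swap
      · obtain ⟨-, rfl⟩ := mkW_snoc e
        exact absurd h1 (dcore_ne_H _ _ _ _ _)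
      rcases h' with ⟨ρ', ⟨p', τ', hp', t2, e'⟩, rfl⟩ |
        ⟨ρ, ρ', ⟨κ, D, ph, i, p, τ, -, -, -, -, ht, -, -, e⟩, -⟩
      swap
      · obtain ⟨-, rfl⟩ := mkW_cons e
        exact absurd h2 (dcore_ne_H _ _ _ _ _)
      obtain ⟨hu, ha⟩ := mkW_snoc e
      obtain ⟨-, hb⟩ := mkW_cons e'
      obtain rfl : p = 6 * W - 1 := by
        rw [ha] at h1
        simp only [flM] at h1
        split_ifs at h1; omega
      obtain rfl : p' = 0 := by
        rw [hb] at h2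
        simp only [flM] at h2
        split_ifs at h2; omega
      let D : Dat := ⟨fun sd => if sd then ρ' else ρ, fun sd => if sd then ρ' else ρ, o, κ⟩
      have hκ : D.κ = true → (D.ρ true).dc 0 .hb = true := fun hk => by
        have := h6 hk
        rw [hb] at this
        simpa [bc, D] using this
      have e1 := mono_icore (P := P) hW D (mrg W τ τ')
      have e2 : monoG W (bc P W (D.ρ false)) (6 * W - 1) (mrg W τ τ') = u ++ [a] := by
        rw [e]; exact mkW_congr fun z hz => by rw [mrg_left hz]; rfl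
      have e3 : (monoG W (bc P W (D.ρ true)) 0 fun z => mrg W τ τ' (6 * W + z)) = b :: v := by
        rw [e']; exact mkW_congr fun z hz => by simp only [mrg_right]; rfl
      rw [e2, e3, List.append_assoc, List.singleton_append] at e1
      obtain ⟨g1, g2, g3, g4, g5⟩ := mkW_eq_append e1.symm
      have hu' : u.length = 6 * W - 1 := by omega
      obtain ⟨f1, f2⟩ := fuse_start (P := P) hW D hκ
      refine ⟨ρ, ρ', rfl, rfl, κ, D, .L, 0, 6 * W - 1, mrg W τ τ', rfl, rfl, rfl, hκ,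
        ⟨by omega, by omega, by omega, fun _ => by omega⟩,
        tokOK_congrD t1 (fun z hz => mrg_left hz) hW,
        tokOK_congrD t2 (fun z _ => mrg_right _ _ _) hW, ?_⟩
      rw [g2, g5, ← mkW_update g1, hu']
      rw [hu'] at g3 g4
      obtain ⟨-, -, -, f3, f4, f5, -⟩ := f1
      refine upd_core (Core.ext ?_ ?_) (Core.ext ?_ ?_) (by rw [tc, g3]) (by rw [te, g4]) f2
      · rw [h3, f3, g3]
      · rw [h7, dcore_start hW D (by omega)]; simp [flD, D]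
      · rw [h4, f4, g4]
      · rw [h5, f5]
    · obtain ⟨hd, -, -, -, -, -, ⟨h1, -⟩, -⟩ := hm
      rw [b1] at h1
      exact absurd h1 (by decide)
    · exact absurd ⟨b1, b2⟩ hm.2.2.1
  · have := hm.2.1.1
    rw [a1, b1] at this
    exact absurd this (by decide)
  · exfalso
    rcases hm with (hm | hm | hm) | hm | hm
    · obtain ⟨hd, h₁, -, -, -, -, -, h1, -⟩ := hm
      rw [h1] at a3; simp [Fl.rI] at a3
    · obtain ⟨hd, -, -, -, -, -, -, -, h1, -⟩ := hm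
      rw [h1] at b3; simp [Fl.lI] at b3
    · obtain ⟨-, -, -, -, -, h1, -⟩ := hm
      rw [h1] at b3; simp [Fl.lI] at b3
    · obtain ⟨hd, -, -, -, -, -, -, -, -, h1, -⟩ := hm
      rw [h1] at a3; simp [Fl.rI] at a3
    · obtain ⟨-, -, -, -, -, h1, -⟩ := hm
      rw [h1] at a3; simp [Fl.rI] at a3
  · obtain ⟨-, ⟨h1, -⟩, rfl, rfl⟩ := hm
    have : (5 : Fin 6) = 0 := a1.symm.trans (h1.trans b1)
    exact absurd this (by decide)

theorem mono2_eqv (hG : Good W P) (D : Dat) (hκ : D.κ = true → (D.ρ true).dc 0 .hb = true)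
    {τ : ℕ → ℕ} (t1 : TokOK W τ) (t2 : TokOK W fun z => τ (6 * W + z)) {ph : Ph} {i p : ℕ}
    (ht : TimeOK W ph i p) {b b' : List Let} {ρ ρ' : Raw} (h : MonoRaw P W b ρ)
    (h' : MonoRaw P W b' ρ') (e : ρ.Eq W (D.ρ false)) (e' : ρ'.Eq W (D.ρ true)) :
    (sys W P).Eqv (b ++ b') (dimW P W D ph i p τ) := by
  have hW : 1 ≤ W := le_trans (by norm_num) hG.two_le
  exact ((mono_eqv hG h ⟨6 * W - 1, τ, by omega, t1, rfl⟩ e).append
    (mono_eqv hG h' ⟨0, _, by omega, t2, rfl⟩ e')).trans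
    (dimW_eqv hG D hκ (tok_lt t1 t2) ht).symm

theorem exists_tokOK2 (hW : 1 ≤ W) : ∃ τ, TokOK W τ ∧ TokOK W fun z => τ (6 * W + z) := by
  obtain ⟨τ, hτ⟩ := exists_tokOK hW
  exact ⟨mrg W τ τ, tokOK_congrD hτ (fun z hz => mrg_left hz) hW,
    tokOK_congrD hτ (fun z _ => mrg_right _ _ _) hW⟩

theorem lift_zero (hG : Good W P) {b b' : List Let} {ρ ρ' : Raw} (h : MonoRaw P W b ρ)
    (h' : MonoRaw P W b' ρ') (hz : ∀ Y Y', Dec W ρ Y → Dec W ρ' Y' → (sys (2 ^ W) P).zero Y Y') :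
    (sys W P).Null (b ++ b') := by
  have hW : 1 ≤ W := le_trans (by norm_num) hG.two_le
  obtain ⟨D, rfl, rfl, ho, hκ, hq⟩ := qs_of_zero hG ρ ρ' hz
  obtain ⟨τ, t1, t2⟩ := exists_tokOK2 hW
  refine ⟨_, mono2_eqv hG D hκ t1 t2 (ph := .F) (i := 0) (p := 1) ⟨by omega, by omega⟩ h h'
    (Raw.Eq.refl _) (Raw.Eq.refl _), ?_⟩
  exact Sys.bad_mkW.2 (Or.inr ⟨1, by omega, Or.inl (Or.inr (Or.inr (Or.inl (lbad_F D 0 1 ho hq))))⟩)

theorem lift_move (hG : Good W P) {b b' e e' : List Let} {Y Y' Z Z' : Let} (hb : MonoL P W b Y)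
    (hb' : MonoL P W b' Y') (he : MonoL P W e Z) (he' : MonoL P W e' Z')
    (hm : (sys (2 ^ W) P).Mv Y Y' Z Z') : (sys W P).Eqv (b ++ b') (e ++ e') := by
  have hW : 1 ≤ W := le_trans (by norm_num) hG.two_le
  obtain ⟨ρ, m1, d1⟩ := hb
  obtain ⟨ρ', m2, d2⟩ := hb'
  obtain ⟨η, m3, d3⟩ := he
  obtain ⟨η', m4, d4⟩ := he'
  obtain ⟨D, rfl, rfl, ho, hκ, hq, d5, d6⟩ := qs_of_move hG d1 d2 hm
  obtain ⟨τ, t1, t2⟩ := exists_tokOK2 hW
  have tS : TimeOK W .S 0 (12 * W - 2) := show 12 * W - 2 + 1 < 12 * W by omega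
  have tF : TimeOK W .F 0 (12 * W - 2 + 1) := ⟨by omega, by omega⟩
  obtain ⟨c1, c2⟩ := commit_traj hG D ho hq 0 0
  rw [show 12 * W - 1 = 12 * W - 2 + 1 by omega] at c1 c2
  refine (mono2_eqv hG D hκ t1 t2 tS m1 m2 (Raw.Eq.refl _) (Raw.Eq.refl _)).trans
    (Sys.Eqv.trans (step_core tS (tok_lt t1 t2) (dcore_bdd hG D tS) (dcore_bdd hG D.mir tF)
      (Or.inr (Or.inl c1)) fun z hz h1 h2 => c2 z (by omega)).eqv ?_)
  exact (mono2_eqv hG D.mir (com_of_qs hG D hq).1 t1 t2 tF m3 m4 (d3.2.trans d5.2.symm)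
    (d4.2.trans d6.2.symm)).symm

end Crest.Agent.R176.M
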