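import Crest.Agent.R176.AAut

/-!
# Row 176 A: definable functions (for ATable)

`DF f`: a function with values in a finite type (or `Prop`) all of whose fibres are automatic.
`DR e`: a piecewise affine function with values in `ℕ`, the pieces being automatic.
-/

set_option autoImplicit false
set_option linter.unusedSectionVars false

namespace Crest.Agent.R176

variable {V : Type}

structure DF {T : Type} (f : ℕ → (V → ℕ) → T) : Prop where
  fin : ∃ s : Set T, s.Finite ∧ ∀ W ρ, f W ρ ∈ s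
  fib : ∀ t, Aut fun W ρ => f W ρ = t

theorem DF.aut {p : ℕ → (V → ℕ) → Prop} (h : DF p) : Aut p :=
  (h.fib True).congr fun _ _ _ => by simp

theorem Aut.df {p : ℕ → (V → ℕ) → Prop} (h : Aut p) : DF p :=
  ⟨⟨_, Set.finite_univ, fun _ _ => trivial⟩,
    fun t => (h.iff (Aut.const t)).congr fun _ _ _ => by simp⟩

theorem DF.const {T : Type} (t : T) : DF (V := V) fun _ _ => t :=
  ⟨⟨{t}, Set.finite_singleton t, fun _ _ => rfl⟩, fun _ => Aut.const _⟩

theorem DF.bind {T : Type} {f : ℕ → (V → ℕ) → T} (h : DF f) {p : T → ℕ → (V → ℕ) → Prop}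
    (hp : ∀ t, Aut (p t)) : Aut fun W ρ => p (f W ρ) W ρ := by
  obtain ⟨s, hs, h1⟩ := h.fin
  have := hs.to_subtype
  exact (Aut.exists_fin fun t : s => (h.fib t.1).and (hp t.1)).congr fun n ρ _ =>
    ⟨fun ⟨_, h2, h3⟩ => h2 ▸ h3, fun h2 => ⟨⟨_, h1 _ _⟩, rfl, h2⟩⟩

theorem DF.app {A B : Type} {F : ℕ → (V → ℕ) → A → B}
    {a : ℕ → (V → ℕ) → A} (hF : DF F) (ha : DF a) : DF fun W ρ => F W ρ (a W ρ) := by
  refine ⟨?_, fun t => hF.bind (p := fun g W ρ => g (a W ρ) = t) fun g =>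
    ha.bind (p := fun x _ _ => g x = t) fun x => Aut.const _⟩
  obtain ⟨s, hs, h1⟩ := hF.fin
  obtain ⟨s', hs', h2⟩ := ha.fin
  exact ⟨_, hs.image2 (fun g x => g x) hs', fun W ρ => Set.mem_image2_of_mem (h1 W ρ) (h2 W ρ)⟩

theorem DF.map {A B : Type} (g : A → B) {a : ℕ → (V → ℕ) → A} (ha : DF a) :
    DF fun W ρ => g (a W ρ) := DF.app (F := fun _ _ => g) (DF.const g) ha

theorem DF.congr {p q : ℕ → (V → ℕ) → Prop} (h : DF p) (e : ∀ W ρ, p W ρ ↔ q W ρ) : DF q :=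
  (h.aut.congr fun _ _ _ => e _ _).df

theorem DF.imp {p q : ℕ → (V → ℕ) → Prop} (hp : DF p) (hq : DF q) :
    DF fun W ρ => p W ρ → q W ρ := (hp.aut.imp hq.aut).df

theorem DF.and {p q : ℕ → (V → ℕ) → Prop} (hp : DF p) (hq : DF q) :
    DF fun W ρ => p W ρ ∧ q W ρ := (hp.aut.and hq.aut).df

theorem DF.or {p q : ℕ → (V → ℕ) → Prop} (hp : DF p) (hq : DF q) :
    DF fun W ρ => p W ρ ∨ q W ρ := (hp.aut.or hq.aut).df

theorem DF.not {p : ℕ → (V → ℕ) → Prop} (hp : DF p) : DF fun W ρ => ¬ p W ρ := hp.aut.not.df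

theorem DF.ex {τ : Type} [Finite τ] {p : τ → ℕ → (V → ℕ) → Prop} (h : ∀ t, DF (p t)) :
    DF fun W ρ => ∃ t, p t W ρ := (Aut.exists_fin fun t => (h t).aut).df

theorem DF.all {τ : Type} [Finite τ] {p : τ → ℕ → (V → ℕ) → Prop} (h : ∀ t, DF (p t)) :
    DF fun W ρ => ∀ t, p t W ρ := (Aut.forall_fin fun t => (h t).aut).df

theorem DF.ite {T : Type} {p : ℕ → (V → ℕ) → Prop} {_ : ∀ W ρ, Decidable (p W ρ)}
    {a b : ℕ → (V → ℕ) → T} (hp : DF p) (ha : DF a) (hb : DF b) :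
    DF fun W ρ => if p W ρ then a W ρ else b W ρ := by
  classical
  convert DF.app (DF.app (hp.map fun (q : Prop) (x y : T) => if q then x else y) ha) hb

theorem DF.decide {p : ℕ → (V → ℕ) → Prop} {_ : ∀ W ρ, Decidable (p W ρ)} (hp : DF p) :
    DF fun W ρ => decide (p W ρ) := by
  classical
  convert hp.map fun q : Prop => Decidable.decide q

theorem DF.comap {V' T : Type} (g : V → V') {f : ℕ → (V → ℕ) → T} (h : DF f) :
    DF fun W (ρ : V' → ℕ) => f W (ρ ∘ g) :=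
  ⟨let ⟨s, hs, h1⟩ := h.fin; ⟨s, hs, fun _ _ => h1 _ _⟩, fun t => (h.fib t).comap g⟩

theorem DF.even (v : V) : DF fun _ (ρ : V → ℕ) => ρ v % 2 = 0 :=
  Aut.df ⟨Bool, inferInstance, fun _ c => c v, false, fun q => q = false, fun w => by
    induction w using List.reverseRecOn with
    | nil => simp [valB]
    | append_singleton w c _ =>
      simp only [valB_append_single, List.foldl_append, List.foldl_cons, List.foldl_nil]
      cases c v <;> simp⟩

variable [Fintype V]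

theorem LinE.comap {V' : Type} [Fintype V'] (g : V → V') {e : ℕ → (V → ℕ) → ℕ} (h : LinE e) :
    LinE fun W (ρ : V' → ℕ) => e W (ρ ∘ g) := by
  classical
  obtain ⟨c, cW, c0, h⟩ := h
  refine ⟨fun v' => ∑ v, if g v = v' then c v else 0, cW, c0, fun W ρ => ?_⟩
  rw [h]
  simp only [Finset.sum_mul, ite_mul, zero_mul, Function.comp]
  rw [Finset.sum_comm]
  simp

def DR (e : ℕ → (V → ℕ) → ℕ) : Prop :=
  ∃ (T : Type) (f : ℕ → (V → ℕ) → T) (a b : T → ℕ → (V → ℕ) → ℕ), DF f ∧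
    (∀ t, LinE (a t)) ∧ (∀ t, LinE (b t)) ∧ ∀ W ρ, e W ρ + b (f W ρ) W ρ = a (f W ρ) W ρ

theorem LinE.dr {e : ℕ → (V → ℕ) → ℕ} (h : LinE e) : DR e :=
  ⟨Unit, fun _ _ => (), fun _ => e, fun _ _ _ => 0, DF.const _, fun _ => h,
    fun _ => LinE.const 0, fun _ _ => rfl⟩

theorem DR.const (k : ℕ) : DR (V := V) fun _ _ => k := (LinE.const k).dr
theorem DR.W : DR (V := V) fun W _ => W := LinE.W.dr
theorem DR.var (v : V) : DR fun _ ρ => ρ v := (LinE.var v).dr

theorem DF.prod {A B : Type} {a : ℕ → (V → ℕ) → A} {b : ℕ → (V → ℕ) → B}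
    (ha : DF a) (hb : DF b) : DF fun W ρ => (a W ρ, b W ρ) :=
  DF.app (ha.map Prod.mk) hb

theorem DR.fin {T : Type} (g : T → ℕ) {f : ℕ → (V → ℕ) → T} (h : DF f) :
    DR fun W ρ => g (f W ρ) :=
  ⟨T, f, fun t _ _ => g t, fun _ _ _ => 0, h, fun _ => LinE.const _,
    fun _ => LinE.const 0, fun _ _ => rfl⟩

theorem DR.toNat {f : ℕ → (V → ℕ) → Bool} (h : DF f) : DR fun W ρ => (f W ρ).toNat :=
  DR.fin Bool.toNat h

theorem DR.comap {V' : Type} [Fintype V'] (g : V → V') {e : ℕ → (V → ℕ) → ℕ} (h : DR e) :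
    DR fun W (ρ : V' → ℕ) => e W (ρ ∘ g) := by
  obtain ⟨T, f, a, b, hf, ha, hb, h⟩ := h
  exact ⟨T, fun W ρ => f W (ρ ∘ g), fun t W ρ => a t W (ρ ∘ g),
    fun t W ρ => b t W (ρ ∘ g), hf.comap g, fun t => (ha t).comap g, fun t => (hb t).comap g,
    fun W ρ => h W _⟩

variable {e e' : ℕ → (V → ℕ) → ℕ}

theorem DR.add (h : DR e) (h' : DR e') : DR fun W ρ => e W ρ + e' W ρ := by
  obtain ⟨T, f, a, b, hf, ha, hb, h⟩ := h
  obtain ⟨T', f', a', b', hf', ha', hb', h'⟩ := h'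
  exact ⟨T × T', _, fun t W ρ => a t.1 W ρ + a' t.2 W ρ,
    fun t W ρ => b t.1 W ρ + b' t.2 W ρ, hf.prod hf', fun t => (ha _).add (ha' _),
    fun t => (hb _).add (hb' _), fun W ρ => by have := h W ρ; have := h' W ρ; dsimp only; omega⟩

theorem DR.const_mul (k : ℕ) (h : DR e) : DR fun W ρ => k * e W ρ := by
  obtain ⟨T, f, a, b, hf, ha, hb, h⟩ := h
  exact ⟨T, f, fun t W ρ => k * a t W ρ, fun t W ρ => k * b t W ρ, hf,
    fun t => (ha _).const_mul k, fun t => (hb _).const_mul k,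
    fun W ρ => by rw [← mul_add, h]⟩

theorem DR.mul_const (k : ℕ) (h : DR e) : DR fun W ρ => e W ρ * k := by
  simpa only [mul_comm] using h.const_mul k

theorem DF.le (h : DR e) (h' : DR e') : DF fun W ρ => e W ρ ≤ e' W ρ := by
  obtain ⟨T, f, a, b, hf, ha, hb, h⟩ := h
  obtain ⟨T', f', a', b', hf', ha', hb', h'⟩ := h'
  refine Aut.df (((hf.prod hf').bind (p := fun t W ρ => a t.1 W ρ + b' t.2 W ρ ≤ a' t.2 W ρ + b t.1 W ρ)
    fun t => Aut.le ((ha _).add (hb' _)) ((ha' _).add (hb _))).congr fun n ρ _ => ?_)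
  have h1 := h (2 ^ n) ρ
  have h2 := h' (2 ^ n) ρ
  dsimp only
  omega

theorem DF.lt (h : DR e) (h' : DR e') : DF fun W ρ => e W ρ < e' W ρ :=
  (DF.le h' h).not.congr fun _ _ => not_le

theorem DF.eqN (h : DR e) (h' : DR e') : DF fun W ρ => e W ρ = e' W ρ :=
  ((DF.le h h').and (DF.le h' h)).congr fun _ _ => le_antisymm_iff.symm

theorem DF.neN (h : DR e) (h' : DR e') : DF fun W ρ => e W ρ ≠ e' W ρ := (DF.eqN h h').not

theorem DR.ite {p : ℕ → (V → ℕ) → Prop} {_ : ∀ W ρ, Decidable (p W ρ)} (hp : DF p) (h : DR e)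
    (h' : DR e') : DR fun W ρ => if p W ρ then e W ρ else e' W ρ := by
  classical
  obtain ⟨T, f, a, b, hf, ha, hb, h⟩ := h
  obtain ⟨T', f', a', b', hf', ha', hb', h'⟩ := h'
  refine ⟨Prop × T × T', _, fun t => if t.1 then a t.2.1 else a' t.2.2,
    fun t => if t.1 then b t.2.1 else b' t.2.2, hp.prod (hf.prod hf'), fun t => ?_, fun t => ?_,
    fun W ρ => ?_⟩
  · dsimp only; split_ifs; exacts [ha _, ha' _]
  · dsimp only; split_ifs; exacts [hb _, hb' _]
  · dsimp only; split_ifs; exacts [h _ _, h' _ _]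

theorem DR.sub (h : DR e) (h' : DR e') : DR fun W ρ => e W ρ - e' W ρ := by
  classical
  have hp := DF.le h' h
  obtain ⟨T, f, a, b, hf, ha, hb, h⟩ := h
  obtain ⟨T', f', a', b', hf', ha', hb', h'⟩ := h'
  refine ⟨Prop × T × T', _,
    fun t => if t.1 then fun W ρ => a t.2.1 W ρ + b' t.2.2 W ρ else fun _ _ => 0,
    fun t => if t.1 then fun W ρ => b t.2.1 W ρ + a' t.2.2 W ρ else fun _ _ => 0,
    hp.prod (hf.prod hf'), fun t => ?_, fun t => ?_, fun W ρ => ?_⟩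
  · dsimp only; split_ifs; exacts [(ha _).add (hb' _), LinE.const 0]
  · dsimp only; split_ifs; exacts [(hb _).add (ha' _), LinE.const 0]
  · have := h W ρ; have := h' W ρ
    dsimp only; split_ifs <;> dsimp only <;> omega

end Crest.Agent.R176
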