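import Crest.Agent.R176.ALocal
import Crest.Agent.R176.ATableA

/-!
# Row 176 A: the rules are automatic; the table  (subtask ATable)

Every core is `mkC t s d` for its tags `t` and registers (`mkC_self`).  A *family* is a core
`mkC t (ρ ∘ πs) (ρ ∘ πd)` with fixed tags `t` and variables `πs : STrk → V`, `πd : DTrk → V`.
Show for each rule (`Succ`, `First`, `Last`, `FlagOK`, `LBad`, `ActR`, `MvR`, `MvL`, `Fuse`, `Commit`,
`Walk`, `Charge`, `Core.Bdd`, ...) that it is `Aut` on families: after `rcases` on the flag tags and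
`simp only [..., Head.ext_iff / mk.injEq]` the rule is a boolean combination of constant
propositions (`Aut.const`), quantifiers over finite types (`Aut.exists_fin`) and linear
(in)equations (`Aut.eq`, `Aut.le`, `Aut.lt`; `dbl`, `ovf`, `decide`, `W - 1`, `% 2` are first rewritten,
`W = 2^n ≥ 1` by `Aut.congr`).  A convenient intermediate notion: a head / cell / core valued
function `F W ρ` is *simple* if its tags are constant and its registers are `LinE`; equality of two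
simple functions is `Aut`; the existential heads `h`, `h₁` in `MvR` are eliminated by
`Aut.exists_fin` (tags) and `Aut.exists_var` (registers; all registers of `h₁` are `< W` because
they occur in `y`, `z` or `z'`), or by case distinction on `adjR`.
`∃ a a' : Core, a.Bdd W ∧ a'.Bdd W ∧ Fwd W a a' y y'` is `Aut.exists_fin` over tags and
`Aut.exists_var` over `(STrk ⊕ DTrk) ⊕ (STrk ⊕ DTrk)`.
`∃ Y, DecL W ρ idx sd Y ∧ Φ Y ↔ ∃ t, DecL W ρ idx sd (Y t) ∧ Φ (Y t)`, `Y t = ⟨mkC t (ρ ∘ .s sd) (ρ ∘ .d idx sd), ρ (.t idx sd)⟩`.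

`exists_good`: product of the two automata over the alphabet `Sym` (`Aut.alphabet` with `Tr.bit`),
states `Q`, `e : Q ≃ Fin k`, `dec 0 = q₀`, `dec (e q + 1) = q`; for `a = n * cS + cd σ` put
`P₀ a = if σ.last then (1 if accOk) + (2 if accZero) else e (δ (dec n) σ) + 1`
(recover `σ` from `a % cS` with `Finite.equivFin`/`Function.invFun cd`), `P a = P₀ (a % 2^n₀)` with
`(k+1) * cS + 4 + cT ≤ 2^n₀`.  Then `dec (run P σ j) = foldl δ q₀ (mkW j σ)` and `run P σ j ≤ k` for `j < W`.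
-/

set_option autoImplicit false
set_option linter.unusedSectionVars false

namespace Crest.Agent.R176.M

def mkF (t : FTag) (d : DTrk → ℕ) : Fl :=
  match t with
  | .inl (false, p) => .fw p
  | .inl (true, p) => .bw p
  | .inr none => .H
  | .inr (some (ph, o, κ, sd, σ)) => .A ⟨ph, o, κ, sd, σ, d .i, d .q, d .r, d .x, d .s⟩

def mkC (t : STag × DTag) (s : STrk → ℕ) (d : DTrk → ℕ) : Core :=
  ⟨⟨⟨t.1.1, t.1.2, s .off, s .sv⟩, t.2.1, t.2.2.1, t.2.2.2.1, t.2.2.2.2.1, t.2.2.2.2.2.1, d .hq⟩,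
    mkF t.2.2.2.2.2.2 d⟩

theorem mkC_self (W : ℕ) (k : Core) : mkC (k.c.st.tag, k.tag) (encS k.c.st) (encD W k) = k := by
  obtain ⟨⟨⟨_, _, _, _⟩, _, _, _, _, _, _⟩, _ | _ | _ | _⟩ := k <;> rfl

section Definable

variable {V : Type} [Fintype V]

structure DSt (s : ℕ → (V → ℕ) → Stat) : Prop where
  zone : DF fun W ρ => (s W ρ).zone
  scol : DF fun W ρ => (s W ρ).scol
  off : DR fun W ρ => (s W ρ).off
  sv : DR fun W ρ => (s W ρ).sv

structure DCell (c : ℕ → (V → ℕ) → Cell) : Prop where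
  st : DSt fun W ρ => (c W ρ).st
  mem : DF fun W ρ => (c W ρ).mem
  gs : DF fun W ρ => (c W ρ).gs
  tb : DF fun W ρ => (c W ρ).tb
  tg : DF fun W ρ => (c W ρ).tg
  hσ : DF fun W ρ => (c W ρ).hσ
  hq : DR fun W ρ => (c W ρ).hq

structure DHead (h : ℕ → (V → ℕ) → Head) : Prop where
  ph : DF fun W ρ => (h W ρ).ph
  o : DF fun W ρ => (h W ρ).o
  κ : DF fun W ρ => (h W ρ).κ
  sd : DF fun W ρ => (h W ρ).sd
  σ : DF fun W ρ => (h W ρ).σ
  i : DR fun W ρ => (h W ρ).i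
  q : DR fun W ρ => (h W ρ).q
  r : DR fun W ρ => (h W ρ).r
  x : DR fun W ρ => (h W ρ).x
  s : DR fun W ρ => (h W ρ).s

structure DFl (f : ℕ → (V → ℕ) → Fl) : Prop where
  tag : DF fun W ρ => (f W ρ).tag
  hd : DHead fun W ρ => (f W ρ).hd

structure DCore (k : ℕ → (V → ℕ) → Core) : Prop where
  c : DCell fun W ρ => (k W ρ).c
  f : DFl fun W ρ => (k W ρ).f

structure DLet (y : ℕ → (V → ℕ) → Let) : Prop where
  k : DCore fun W ρ => (y W ρ).k
  tok : DR fun W ρ => (y W ρ).tok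

theorem DF.eqF {T : Type} {a b : ℕ → (V → ℕ) → T} (ha : DF a) (hb : DF b) :
    DF fun W ρ => a W ρ = b W ρ := DF.app (ha.map Eq) hb

theorem DF.neF {T : Type} {a b : ℕ → (V → ℕ) → T} (ha : DF a) (hb : DF b) :
    DF fun W ρ => a W ρ ≠ b W ρ := (DF.eqF ha hb).not

theorem DR.cd {T : Type} [Finite T] {f : ℕ → (V → ℕ) → T} (h : DF f) : DR fun W ρ => cd (f W ρ) :=
  DR.fin M.cd h

theorem DSt.eq {a b : ℕ → (V → ℕ) → Stat} (h : DSt a) (h' : DSt b) :
    DF fun W ρ => a W ρ = b W ρ :=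
  ((DF.eqF h.zone h'.zone).and ((DF.eqF h.scol h'.scol).and ((DF.eqN h.off h'.off).and
    (DF.eqN h.sv h'.sv)))).congr fun _ _ => Stat.ext_iff.symm

theorem DCell.eq {a b : ℕ → (V → ℕ) → Cell} (h : DCell a) (h' : DCell b) :
    DF fun W ρ => a W ρ = b W ρ :=
  ((h.st.eq h'.st).and ((DF.eqF h.mem h'.mem).and ((DF.eqF h.gs h'.gs).and
    ((DF.eqF h.tb h'.tb).and ((DF.eqF h.tg h'.tg).and ((DF.eqF h.hσ h'.hσ).and
    (DF.eqN h.hq h'.hq))))))).congr fun _ _ => Cell.ext_iff.symm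

theorem DHead.eq {a b : ℕ → (V → ℕ) → Head} (h : DHead a) (h' : DHead b) :
    DF fun W ρ => a W ρ = b W ρ :=
  ((DF.eqF h.ph h'.ph).and ((DF.eqF h.o h'.o).and ((DF.eqF h.κ h'.κ).and
    ((DF.eqF h.sd h'.sd).and ((DF.eqF h.σ h'.σ).and ((DF.eqN h.i h'.i).and ((DF.eqN h.q h'.q).and
    ((DF.eqN h.r h'.r).and ((DF.eqN h.x h'.x).and (DF.eqN h.s h'.s)))))))))).congr
    fun _ _ => Head.ext_iff.symm

theorem fl_ext {f g : Fl} : f.tag = g.tag ∧ f.hd = g.hd ↔ f = g := by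
  refine ⟨fun ⟨h1, h2⟩ => ?_, fun h => by rw [h]; exact ⟨rfl, rfl⟩⟩
  cases f <;> cases g <;> simp_all [Fl.tag, Fl.hd]

theorem DFl.eq {a b : ℕ → (V → ℕ) → Fl} (h : DFl a) (h' : DFl b) :
    DF fun W ρ => a W ρ = b W ρ :=
  ((DF.eqF h.tag h'.tag).and (h.hd.eq h'.hd)).congr fun _ _ => fl_ext

theorem DCore.eq {a b : ℕ → (V → ℕ) → Core} (h : DCore a) (h' : DCore b) :
    DF fun W ρ => a W ρ = b W ρ :=
  ((h.c.eq h'.c).and (h.f.eq h'.f)).congr fun _ _ => Core.ext_iff.symm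

theorem DLet.eq {a b : ℕ → (V → ℕ) → Let} (h : DLet a) (h' : DLet b) :
    DF fun W ρ => a W ρ = b W ρ :=
  ((h.k.eq h'.k).and (DF.eqN h.tok h'.tok)).congr fun _ _ => Let.ext_iff.symm

theorem DLet.mk' {k : ℕ → (V → ℕ) → Core} {t : ℕ → (V → ℕ) → ℕ} (h1 : DCore k) (h2 : DR t) :
    DLet fun W ρ => ⟨k W ρ, t W ρ⟩ := ⟨h1, h2⟩

theorem DCell.mk' {a : ℕ → (V → ℕ) → Stat} {b c : ℕ → (V → ℕ) → DCol} {d e : ℕ → (V → ℕ) → Bool}
    {f : ℕ → (V → ℕ) → Sym} {g : ℕ → (V → ℕ) → ℕ} (h1 : DSt a) (h2 : DF b) (h3 : DF c) (h4 : DF d)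
    (h5 : DF e) (h6 : DF f) (h7 : DR g) :
    DCell fun W ρ => ⟨a W ρ, b W ρ, c W ρ, d W ρ, e W ρ, f W ρ, g W ρ⟩ :=
  ⟨h1, h2, h3, h4, h5, h6, h7⟩

theorem DHead.mk' {a : ℕ → (V → ℕ) → Ph} {b c d : ℕ → (V → ℕ) → Bool}
    {e : ℕ → (V → ℕ) → Sym} {i q r x s : ℕ → (V → ℕ) → ℕ} (h1 : DF a) (h2 : DF b) (h3 : DF c)
    (h4 : DF d) (h5 : DF e) (h6 : DR i) (h7 : DR q) (h8 : DR r) (h9 : DR x) (h10 : DR s) :
    DHead fun W ρ => ⟨a W ρ, b W ρ, c W ρ, d W ρ, e W ρ, i W ρ, q W ρ, r W ρ, x W ρ, s W ρ⟩ :=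
  ⟨h1, h2, h3, h4, h5, h6, h7, h8, h9, h10⟩

theorem DHead.const (h : Head) : DHead (V := V) fun _ _ => h :=
  ⟨.const _, .const _, .const _, .const _, .const _, .const _, .const _, .const _, .const _,
    .const _⟩

theorem DFl.const (f : Fl) : DFl (V := V) fun _ _ => f := ⟨.const _, .const _⟩

theorem DFl.fw {b : ℕ → (V → ℕ) → Bool} (h : DF b) : DFl fun W ρ => .fw (b W ρ) :=
  ⟨h.map fun p => (Fl.fw p).tag, .const _⟩

theorem DFl.bw {b : ℕ → (V → ℕ) → Bool} (h : DF b) : DFl fun W ρ => .bw (b W ρ) :=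
  ⟨h.map fun p => (Fl.bw p).tag, .const _⟩

theorem DFl.A {a : ℕ → (V → ℕ) → Head} (h : DHead a) : DFl fun W ρ => .A (a W ρ) :=
  ⟨(h.ph.prod (h.o.prod (h.κ.prod (h.sd.prod h.σ)))).map fun p => (.inr (some p) : FTag), h⟩

theorem DFl.fin {T : Type} (g : Fl → T) (hg : ∀ f, g (mkF f.tag 0) = g f)
    {f : ℕ → (V → ℕ) → Fl} (h : DFl f) : DF fun W ρ => g (f W ρ) := by
  simpa only [hg] using h.tag.map fun t => g (mkF t 0)

theorem DFl.lI {f : ℕ → (V → ℕ) → Fl} (h : DFl f) : DF fun W ρ => (f W ρ).lI :=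
  h.fin Fl.lI fun f => by cases f <;> rfl

theorem DFl.rI {f : ℕ → (V → ℕ) → Fl} (h : DFl f) : DF fun W ρ => (f W ρ).rI :=
  h.fin Fl.rI fun f => by cases f <;> rfl

theorem DFl.isH {f : ℕ → (V → ℕ) → Fl} (h : DFl f) : DF fun W ρ => (f W ρ).isH :=
  h.fin Fl.isH fun f => by cases f <;> rfl

theorem DFl.exA {f : ℕ → (V → ℕ) → Fl} {Φ : ℕ → (V → ℕ) → Head → Prop} (h : DFl f)
    (H : ∀ a, DHead a → DF fun W ρ => Φ W ρ (a W ρ)) :
    DF fun W ρ => ∃ a, f W ρ = .A a ∧ Φ W ρ a :=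
  ((h.eq (DFl.A h.hd)).and (H _ h.hd)).congr fun W ρ =>
    ⟨fun h => ⟨_, h⟩, fun ⟨a, h1, h2⟩ => by rw [h1]; exact ⟨rfl, h2⟩⟩

theorem DFl.allA {f : ℕ → (V → ℕ) → Fl} {Φ : ℕ → (V → ℕ) → Head → Prop} (h : DFl f)
    (H : ∀ a, DHead a → DF fun W ρ => Φ W ρ (a W ρ)) :
    DF fun W ρ => ∀ a, f W ρ = .A a → Φ W ρ a :=
  (h.exA (Φ := fun W ρ a => ¬ Φ W ρ a) fun a ha => (H a ha).not).not.congr fun W ρ => by simp

section Ite

variable {p : ℕ → (V → ℕ) → Prop} {dp : ∀ W ρ, Decidable (p W ρ)}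

theorem DSt.ite {a b : ℕ → (V → ℕ) → Stat} (hp : DF p) (h : DSt a) (h' : DSt b) :
    DSt fun W ρ => if p W ρ then a W ρ else b W ρ :=
  ⟨by simpa only [apply_ite Stat.zone] using hp.ite h.zone h'.zone,
   by simpa only [apply_ite Stat.scol] using hp.ite h.scol h'.scol,
   by simpa only [apply_ite Stat.off] using DR.ite hp h.off h'.off,
   by simpa only [apply_ite Stat.sv] using DR.ite hp h.sv h'.sv⟩

theorem DCell.ite {a b : ℕ → (V → ℕ) → Cell} (hp : DF p) (h : DCell a) (h' : DCell b) :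
    DCell fun W ρ => if p W ρ then a W ρ else b W ρ :=
  ⟨by simpa only [apply_ite Cell.st] using DSt.ite hp h.st h'.st,
   by simpa only [apply_ite Cell.mem] using hp.ite h.mem h'.mem,
   by simpa only [apply_ite Cell.gs] using hp.ite h.gs h'.gs,
   by simpa only [apply_ite Cell.tb] using hp.ite h.tb h'.tb,
   by simpa only [apply_ite Cell.tg] using hp.ite h.tg h'.tg,
   by simpa only [apply_ite Cell.hσ] using hp.ite h.hσ h'.hσ,
   by simpa only [apply_ite Cell.hq] using DR.ite hp h.hq h'.hq⟩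

theorem DHead.ite {a b : ℕ → (V → ℕ) → Head} (hp : DF p) (h : DHead a) (h' : DHead b) :
    DHead fun W ρ => if p W ρ then a W ρ else b W ρ :=
  ⟨by simpa only [apply_ite Head.ph] using hp.ite h.ph h'.ph,
   by simpa only [apply_ite Head.o] using hp.ite h.o h'.o,
   by simpa only [apply_ite Head.κ] using hp.ite h.κ h'.κ,
   by simpa only [apply_ite Head.sd] using hp.ite h.sd h'.sd,
   by simpa only [apply_ite Head.σ] using hp.ite h.σ h'.σ,
   by simpa only [apply_ite Head.i] using DR.ite hp h.i h'.i,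
   by simpa only [apply_ite Head.q] using DR.ite hp h.q h'.q,
   by simpa only [apply_ite Head.r] using DR.ite hp h.r h'.r,
   by simpa only [apply_ite Head.x] using DR.ite hp h.x h'.x,
   by simpa only [apply_ite Head.s] using DR.ite hp h.s h'.s⟩

end Ite

/-- one step of the syntactic proof of definability -/
syntax "df_step" : tactic

macro "df" : tactic => `(tactic| repeat' with_reducible df_step)

macro_rules | `(tactic| df_step) => `(tactic| apply DF.app)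

macro_rules | `(tactic| df_step) => `(tactic| first
  | assumption
  | exact DF.const _ | exact DR.const _ | exact DR.W | exact DHead.const _ | exact DFl.const _
  | apply DF.and | apply DF.or | apply DF.not | apply DF.imp
  | apply DF.eqN | apply DF.neN | apply DF.le | apply DF.lt
  | apply DSt.eq | apply DCell.eq | apply DHead.eq | apply DFl.eq | apply DCore.eq | apply DLet.eq
  | apply DF.eqF | apply DF.neF | apply DF.decide
  | apply DF.ite | apply DR.ite | apply DCell.ite | apply DHead.ite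
  | apply DR.add | apply DR.sub | apply DR.const_mul | apply DR.mul_const | apply DR.toNat
  | apply DR.cd
  | apply DFl.exA | apply DFl.allA | apply DF.ex | intro _
  | apply DSt.zone | apply DSt.scol | apply DSt.off | apply DSt.sv
  | apply DCell.st | apply DCell.mem | apply DCell.gs | apply DCell.tb | apply DCell.tg
  | apply DCell.hσ | apply DCell.hq
  | apply DHead.ph | apply DHead.o | apply DHead.κ | apply DHead.sd | apply DHead.σ
  | apply DHead.i | apply DHead.q | apply DHead.r | apply DHead.x | apply DHead.s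
  | apply DFl.tag | apply DFl.hd | apply DFl.lI | apply DFl.rI | apply DFl.isH
  | apply DCore.c | apply DCore.f | apply DLet.k | apply DLet.tok
  | apply DCell.mk' | apply DHead.mk' | apply DLet.mk' | apply DFl.fw | apply DFl.bw | apply DFl.A)

variable {c c' : ℕ → (V → ℕ) → Cell} {h h' : ℕ → (V → ℕ) → Head}
  {y y' z z' : ℕ → (V → ℕ) → Core}

theorem d_first (hc : DCell c) : DF fun W ρ => First (c W ρ) := by unfold First; df
macro_rules | `(tactic| df_step) => `(tactic| apply d_first)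

theorem d_last (hc : DCell c) : DF fun W ρ => Last W (c W ρ) := by unfold Last; df
macro_rules | `(tactic| df_step) => `(tactic| apply d_last)

theorem d_succ {a b : ℕ → (V → ℕ) → Stat} (ha : DSt a) (hb : DSt b) :
    DF fun W ρ => Succ W (a W ρ) (b W ρ) := by
  have : DF fun W ρ => (a W ρ).zone + 1 := ha.zone.map fun t => t + 1
  unfold Succ; df
macro_rules | `(tactic| df_step) => `(tactic| apply d_succ)

theorem d_flagOK (hy : DCore y) (hy' : DCore y') : DF fun W ρ => FlagOK (y W ρ) (y' W ρ) := by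
  unfold FlagOK; df
macro_rules | `(tactic| df_step) => `(tactic| apply d_flagOK)

theorem d_clean (hc : DCell c) : DF fun W ρ => Clean (c W ρ) := by unfold Clean; df
macro_rules | `(tactic| df_step) => `(tactic| apply d_clean)

theorem d_dbl {x : ℕ → (V → ℕ) → ℕ} {b : ℕ → (V → ℕ) → Bool} (hx : DR x) (hb : DF b) :
    DR fun W ρ => dbl W (x W ρ) (b W ρ) := by unfold dbl; df
macro_rules | `(tactic| df_step) => `(tactic| apply d_dbl)

theorem d_ovf {x : ℕ → (V → ℕ) → ℕ} {b : ℕ → (V → ℕ) → Bool} (hx : DR x) (hb : DF b) :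
    DF fun W ρ => ovf W (x W ρ) (b W ρ) := by unfold ovf; df
macro_rules | `(tactic| df_step) => `(tactic| apply d_ovf)

theorem d_fire (hh : DHead h) (hc : DCell c) : DF fun W ρ => Fire (h W ρ) (c W ρ) := by
  unfold Fire; df
macro_rules | `(tactic| df_step) => `(tactic| apply d_fire)

theorem d_actR (hh : DHead h) (hc : DCell c) (hh' : DHead h') (hc' : DCell c') :
    DF fun W ρ => ActR W (h W ρ) (c W ρ) (h' W ρ) (c' W ρ) := by
  unfold ActR; dsimp only; df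
macro_rules | `(tactic| df_step) => `(tactic| apply d_actR)

theorem d_swp {κ : ℕ → (V → ℕ) → Bool} (hκ : DF κ) (hc : DCell c) :
    DCell fun W ρ => swp (κ W ρ) (c W ρ) := by unfold swp; df
macro_rules | `(tactic| df_step) => `(tactic| apply d_swp)

theorem d_actH (hh : DHead h) (hc : DCell c) (hh' : DHead h') (hc' : DCell c') :
    DF fun W ρ => ActH W (h W ρ) (c W ρ) (h' W ρ) (c' W ρ) := by
  unfold ActH; df
macro_rules | `(tactic| df_step) => `(tactic| apply d_actH)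

theorem d_adjR (hh : DHead h) (hc : DCell c) : DHead fun W ρ => adjR W (h W ρ) (c W ρ) := by
  unfold adjR; df
macro_rules | `(tactic| df_step) => `(tactic| apply d_adjR)

theorem d_adjL (hh : DHead h) (hc : DCell c) (hc' : DCell c') :
    DHead fun W ρ => adjL (h W ρ) (c W ρ) (c' W ρ) := by
  unfold adjL; df
macro_rules | `(tactic| df_step) => `(tactic| apply d_adjL)

theorem mvR_iff {W : ℕ} {y y' z z' : Core} : (∃ h, y.f = .A h ∧ ∃ g, z'.f = .A g ∧
    ActH W h y.c { g with ph := h.ph, sd := h.sd, i := h.i } z.c ∧ (First y'.c → h.sd = false) ∧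
    ¬ (h.ph = .S ∧ h.sd = true ∧ Last W y'.c) ∧ y'.f = .bw (!(h.sd || decide (First y'.c))) ∧
    z.f = .fw h.sd ∧ z'.c = y'.c ∧ g = adjR W { g with ph := h.ph, sd := h.sd, i := h.i } y'.c) ↔
    MvR W y y' z z' := by
  constructor
  · rintro ⟨h, h1, g, h2, h3, h4, h5, h6, h7, h8, h9⟩
    exact ⟨h, _, h1, h3, h4, h5, h6, h7, h8, by rw [h2, ← h9]⟩
  · rintro ⟨h, h₁, h1, h3, h4, h5, h6, h7, h8, h9⟩
    obtain ⟨k1, -, -, k2, k3, -⟩ := act_keep h3
    have e : ({ adjR W h₁ y'.c with ph := h.ph, sd := h.sd, i := h.i } : Head) = h₁ := by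
      rw [← k1, ← k2, ← k3]; unfold adjR; split_ifs <;> rfl
    exact ⟨h, h1, _, h9, by rw [e]; exact h3, h4, h5, h6, h7, h8, by rw [e]⟩

variable (hy : DCore y) (hy' : DCore y') (hz : DCore z) (hz' : DCore z')

section
include hy hy' hz hz'

theorem d_mvR : DF fun W ρ => MvR W (y W ρ) (y' W ρ) (z W ρ) (z' W ρ) := by
  refine DF.congr ?_ fun _ _ => mvR_iff
  df

theorem d_mvL : DF fun W ρ => MvL (y W ρ) (y' W ρ) (z W ρ) (z' W ρ) := by unfold MvL; df

theorem d_fuse : DF fun W ρ => Fuse (y W ρ) (y' W ρ) (z W ρ) (z' W ρ) := by unfold Fuse; df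

theorem d_fwd : DF fun W ρ => Fwd W (y W ρ) (y' W ρ) (z W ρ) (z' W ρ) :=
  (d_mvR hy hy' hz hz').or ((d_mvL hy hy' hz hz').or (d_fuse hy hy' hz hz'))

theorem d_commit : DF fun W ρ => Commit W (y W ρ) (y' W ρ) (z W ρ) (z' W ρ) := by
  unfold Commit; df

theorem d_walk : DF fun W ρ => Walk (y W ρ) (y' W ρ) (z W ρ) (z' W ρ) := by unfold Walk; df

theorem d_move0 : DF fun W ρ => Move0 W (y W ρ) (y' W ρ) (z W ρ) (z' W ρ) :=
  (d_fwd hy hy' hz hz').or ((d_commit hy hy' hz hz').or (d_walk hy hy' hz hz'))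

end

theorem d_dirLeft (hh : DHead h) (hc : DCell c) : DF fun W ρ => DirLeft W (h W ρ) (c W ρ) := by
  unfold DirLeft; df
macro_rules | `(tactic| df_step) => `(tactic| apply d_dirLeft)

theorem d_charge (hy : DCore y) (hy' : DCore y') : DF fun W ρ => Charge W (y W ρ) (y' W ρ) := by
  unfold Charge; df

theorem d_lBad (hy : DCore y) : DF fun W ρ => LBad W (y W ρ) := by unfold LBad; df

theorem DHead.comap {V' : Type} [Fintype V'] (g : V → V') (hh : DHead h) :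
    DHead fun W (ρ : V' → ℕ) => h W (ρ ∘ g) :=
  ⟨hh.ph.comap g, hh.o.comap g, hh.κ.comap g, hh.sd.comap g, hh.σ.comap g, hh.i.comap g,
    hh.q.comap g, hh.r.comap g, hh.x.comap g, hh.s.comap g⟩

theorem DCore.comap {V' : Type} [Fintype V'] (g : V → V') (hy : DCore y) :
    DCore fun W (ρ : V' → ℕ) => y W (ρ ∘ g) :=
  ⟨⟨⟨hy.c.st.zone.comap g, hy.c.st.scol.comap g, hy.c.st.off.comap g, hy.c.st.sv.comap g⟩,
    hy.c.mem.comap g, hy.c.gs.comap g, hy.c.tb.comap g, hy.c.tg.comap g, hy.c.hσ.comap g,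
    hy.c.hq.comap g⟩, hy.f.tag.comap g, hy.f.hd.comap g⟩

theorem d_mkC (t : STag × DTag) (πs : STrk → V) (πd : DTrk → V) :
    DCore fun _ ρ => mkC t (fun v => ρ (πs v)) fun v => ρ (πd v) := by
  refine ⟨⟨⟨.const _, .const _, .var _, .var _⟩, .const _, .const _, .const _, .const _, .const _,
    .var _⟩, ?_⟩
  obtain ⟨t₁, _, _, _, _, _, ⟨_ | _, p⟩ | _ | ⟨ph, o, κ, sd, σ⟩⟩ := t
  · exact .const _
  · exact .const _
  · exact .const _
  · exact .A ⟨.const _, .const _, .const _, .const _, .const _, .var _, .var _, .var _, .var _,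
      .var _⟩

theorem bdd_mkC {W : ℕ} {a : Core} : a.Bdd W ↔ ∃ (t : STag × DTag) (ρ : STrk ⊕ DTrk → ℕ),
    (∀ v, ρ v < W) ∧ a = mkC t (fun v => ρ (.inl v)) fun v => ρ (.inr v) := by
  constructor
  · rintro ⟨⟨h1, h2, h3⟩, h4⟩
    have h0 : 0 < W := by omega
    have h5 : a.f.hd.Bdd W := by
      cases hf : a.f with
      | A h => exact h4 h hf
      | _ => exact ⟨h0, h0, h0, h0, h0⟩
    obtain ⟨k1, k2, k3, k4, k5⟩ := h5
    refine ⟨(a.c.st.tag, a.tag), Sum.elim (Function.update (encS a.c.st) .tag 0)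
      (Function.update (encD 0 a) .tag 0), ?_, (mkC_self 0 a).symm.trans ?_⟩
    · rintro (v | v) <;> cases v <;> simp [encS, encD, *]
    · obtain ⟨_, _ | _ | _ | _⟩ := a <;> rfl
  · rintro ⟨⟨t₁, _, _, _, _, _, t⟩, ρ, h, rfl⟩
    refine ⟨⟨h _, h _, h _⟩, fun g hg => ?_⟩
    obtain ⟨_ | _, p⟩ | _ | ⟨ph, o, κ, sd, σ⟩ := t <;> cases hg
    exact ⟨h _, h _, h _, h _, h _⟩

theorem d_pred (hy : DCore y) (hy' : DCore y') :
    DF fun W ρ => ∃ a a' : Core, a.Bdd W ∧ a'.Bdd W ∧ Fwd W a a' (y W ρ) (y' W ρ) := by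
  refine (DF.ex fun t : STag × DTag => DF.ex fun t' : STag × DTag => (Aut.exists_var
    (V' := (STrk ⊕ DTrk) ⊕ (STrk ⊕ DTrk))
    (d_fwd (d_mkC t (fun v => .inr (.inl (.inl v))) fun v => .inr (.inl (.inr v)))
      (d_mkC t' (fun v => .inr (.inr (.inl v))) fun v => .inr (.inr (.inr v)))
      (hy.comap Sum.inl) (hy'.comap Sum.inl)).aut).df).congr fun W ρ => ⟨?_, ?_⟩
  · rintro ⟨t, t', ρ', h1, h2⟩
    exact ⟨_, _, bdd_mkC.2 ⟨t, fun v => ρ' (.inl v), fun _ => h1 _, rfl⟩,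
      bdd_mkC.2 ⟨t', fun v => ρ' (.inr v), fun _ => h1 _, rfl⟩, h2⟩
  · rintro ⟨a, a', h1, h2, h3⟩
    obtain ⟨t, ρ₁, k1, rfl⟩ := bdd_mkC.1 h1
    obtain ⟨t', ρ₂, k2, rfl⟩ := bdd_mkC.1 h2
    exact ⟨t, t', Sum.elim ρ₁ ρ₂, by rintro (v | v) <;> simp [k1, k2], h3⟩

theorem d_zero0 (hy : DCore y) (hy' : DCore y') : DF fun W ρ => Zero0 W (y W ρ) (y' W ρ) :=
  (d_succ hy.c.st hy'.c.st).not.or ((d_flagOK hy hy').not.or ((d_lBad hy).or ((d_lBad hy').or
    ((d_charge hy hy').and (d_pred hy hy').not))))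

variable {Y Y' Z Z' : ℕ → (V → ℕ) → Let}

theorem d_move1 (hY : DLet Y) (hY' : DLet Y') (hZ : DLet Z) (hZ' : DLet Z') :
    DF fun W ρ => Move1 (Y W ρ) (Y' W ρ) (Z W ρ) (Z' W ρ) := by unfold Move1 Win InWin; df

theorem d_zero1 (hY : DLet Y) (hY' : DLet Y') : DF fun W ρ => Zero1 (Y W ρ) (Y' W ρ) := by
  unfold Zero1 Win InWin; df

end Definable

theorem d_decL {Y : ℕ → (Tr → ℕ) → Let} (hY : DLet Y) (idx sd : Bool) :
    DF fun W ρ => DecL W ρ idx sd (Y W ρ) := by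
  refine (DF.all fun t => DF.eqN ?_ (.var _)).and
    ((DF.all fun t => DF.eqN ?_ (.var _)).and (DF.eqN hY.tok (.var _)))
  · cases t <;> simp only [encS, Stat.tag] <;> df
  · cases t <;> simp only [encD, Core.tag] <;> df

theorem d_exL (idx sd : Bool) {Φ : ℕ → (Tr → ℕ) → Let → Prop}
    (H : ∀ Y, DLet Y → DF fun W ρ => Φ W ρ (Y W ρ)) :
    DF fun W ρ => ∃ Y, DecL W ρ idx sd Y ∧ Φ W ρ Y := by
  have hY : ∀ t, DLet fun _ ρ => ⟨mkC t (fun v => ρ (Tr.s sd v)) fun v => ρ (Tr.d idx sd v),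
      ρ (.t idx sd)⟩ := fun t => ⟨d_mkC t _ _, .var _⟩
  refine (DF.ex fun t => (d_decL (hY t) idx sd).and (H _ (hY t))).congr fun W ρ =>
    ⟨fun ⟨t, h⟩ => ⟨_, h⟩, fun ⟨Y, h1, h2⟩ => ⟨(Y.k.c.st.tag, Y.k.tag), ?_⟩⟩
  rw [← funext h1.1, ← funext h1.2.1, ← h1.2.2, mkC_self]
  exact ⟨h1, h2⟩

theorem d_exP (idx : Bool) {Φ : ℕ → (Tr → ℕ) → Let → Let → Prop}
    (H : ∀ Y Y', DLet Y → DLet Y' → DF fun W ρ => Φ W ρ (Y W ρ) (Y' W ρ)) :
    DF fun W ρ => ∃ Y Y', DecP W ρ idx Y Y' ∧ Φ W ρ Y Y' :=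
  (d_exL idx false (Φ := fun W ρ Y => ∃ Y', DecL W ρ idx true Y' ∧ Φ W ρ Y Y') fun Y hY =>
    d_exL idx true (Φ := fun W ρ Y' => Φ W ρ (Y W ρ) Y') fun Y' hY' => H Y Y' hY hY').congr
    fun W ρ => by simp only [DecP, exists_and_left, and_assoc]

theorem aut_zeroP : Aut ZeroP := by
  refine DF.aut (DF.or (DF.not ?_) ?_)
  · simpa only [and_true] using d_exP false (Φ := fun _ _ _ _ => True) fun _ _ _ _ => DF.const True
  · apply d_exP
    exact fun Y Y' hY hY' => ((DF.eqN (.var .κ) (.const 0)).and ((d_zero0 hY.k hY'.k).or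
        ((DF.eqF hY.k.c.st.zone (.const 2)).and
          ((DF.neN (.var .ts) (.const 0)).or (DF.even Tr.eq))))).or
      ((DF.neN (.var .κ) (.const 0)).and (d_zero1 hY hY'))

theorem aut_okP : Aut OkP := by
  refine DF.aut (DF.congr (p := fun W ρ => ∃ Y Y', DecP W ρ false Y Y' ∧ ∃ Z Z',
    DecP W ρ true Z Z' ∧ ((ρ .κ = 0 ∧ Move0 W Y.k Y'.k Z.k Z'.k) ∨ (ρ .κ ≠ 0 ∧ Move1 Y Y' Z Z')))
    ?_ fun W ρ => by simp only [OkP, exists_and_left])
  apply d_exP
  intro Y Y' hY hY'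
  apply d_exP
  exact fun Z Z' hZ hZ' => ((DF.eqN (.var .κ) (.const 0)).and (d_move0 hY.k hY'.k hZ.k hZ'.k)).or
      ((DF.neN (.var .κ) (.const 0)).and (d_move1 hY hY' hZ hZ'))

theorem exists_good : ∃ (n₀ : ℕ) (P : ℕ → ℕ), ∀ n, n₀ ≤ n → Good (2 ^ n) P := by
  classical
  obtain ⟨Q₁, _, δ₁, q₁, acc₁, h₁⟩ := aut_zeroP.alphabet Tr.bit
  obtain ⟨Q₂, _, δ₂, q₂, acc₂, h₂⟩ := aut_okP.alphabet Tr.bit
  have : Nonempty (Q₁ × Q₂) := ⟨(q₁, q₂)⟩
  have : Nonempty Sym := ⟨Sym.z⟩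
  let k := Nat.card (Q₁ × Q₂)
  let dec : ℕ → Q₁ × Q₂ := fun m => if m = 0 then (q₁, q₂) else Function.invFun cd (m - 1)
  let nx : ℕ → Sym → Q₁ × Q₂ := fun m σ => (δ₁ (dec m).1 σ, δ₂ (dec m).2 σ)
  let val : ℕ → Sym → ℕ := fun m σ => if σ.last = true then
    (if acc₂ (nx m σ).2 then 1 else 0) + (if acc₁ (nx m σ).1 then 2 else 0) else cd (nx m σ) + 1
  have hval : ∀ m σ, val m σ ≤ k + 3 := fun m σ => by
    have := cd_lt (nx m σ)
    simp only [val]; split_ifs <;> omega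
  let n₀ := (k + 1) * cS + k + 4 + cT
  have hn₀ : n₀ < 2 ^ n₀ := Nat.lt_two_pow_self
  let P : ℕ → ℕ := fun a => val (a % 2 ^ n₀ / cS) (Function.invFun cd (a % 2 ^ n₀ % cS))
  have hlt : ∀ m σ, m ≤ k → m * cS + cd (σ : Sym) < 2 ^ n₀ := fun m σ hm => by
    have h1 := cd_lt_cS σ
    have h2 := Nat.mul_le_mul_right cS hm
    simp only [n₀, add_mul, one_mul] at hn₀ ⊢
    omega
  have hP : ∀ m σ, m ≤ k → P (m * cS + cd σ) = val m σ := fun m σ hm => by
    have h1 := cd_lt_cS σ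
    simp only [P]
    rw [Nat.mod_eq_of_lt (hlt m σ hm), Nat.mul_add_mod_of_lt h1,
      Function.leftInverse_invFun (fun _ _ => cd_inj) σ, add_comm, Nat.add_mul_div_right _ _ (by omega),
      Nat.div_eq_of_lt h1, zero_add]
  refine ⟨n₀, P, fun n hn => ?_⟩
  have hW : 2 ^ n₀ ≤ 2 ^ n := Nat.pow_le_pow_right (by norm_num) hn
  have key : ∀ σ : ℕ → Sym, (∀ j, j < 2 ^ n → (σ j).last = decide (j + 1 = 2 ^ n)) →
      ∀ j, j < 2 ^ n → run P σ j ≤ k ∧
        dec (run P σ j) = ((mkW j σ).foldl δ₁ q₁, (mkW j σ).foldl δ₂ q₂) := by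
    intro σ hσ j
    induction j with
    | zero => exact fun _ => ⟨Nat.zero_le _, rfl⟩
    | succ j ih =>
      intro hj
      obtain ⟨k1, k2⟩ := ih (by omega)
      have k3 : (σ j).last = false := by rw [hσ j (by omega)]; exact decide_eq_false (by omega)
      have k4 : run P σ (j + 1) = cd (nx (run P σ j) (σ j)) + 1 := by
        rw [run, hP _ _ k1]; simp only [val, k3, Bool.false_eq_true, if_false]
      rw [k4]
      refine ⟨cd_lt _, ?_⟩
      simp only [dec, Nat.succ_ne_zero, if_false, Nat.add_sub_cancel]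
      rw [Function.leftInverse_invFun (fun _ _ => cd_inj)]
      simp only [nx, k2, mkW, List.range_succ, List.map_append, List.foldl_append, List.map_cons,
        List.map_nil, List.foldl_cons, List.foldl_nil]
  have fin : ∀ σ : ℕ → Sym, (∀ j, j < 2 ^ n → (σ j).last = decide (j + 1 = 2 ^ n)) →
      run P σ (2 ^ n) = (if OkP (2 ^ 2 ^ n) (tv (2 ^ n) σ) then 1 else 0) +
        (if ZeroP (2 ^ 2 ^ n) (tv (2 ^ n) σ) then 2 else 0) := by
    intro σ hσ
    have e1 := h₁ (mkW (2 ^ n) σ)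
    have e2 := h₂ (mkW (2 ^ n) σ)
    rw [length_mkW] at e1 e2
    change ZeroP _ (tv _ σ) ↔ _ at e1
    change OkP _ (tv _ σ) ↔ _ at e2
    rw [e1, e2]
    obtain ⟨j, hj⟩ : ∃ j, 2 ^ n = j + 1 := ⟨2 ^ n - 1, by have := Nat.two_pow_pos n; omega⟩
    obtain ⟨k1, k2⟩ := key σ hσ j (by omega)
    have k3 : (σ j).last = true := by rw [hσ j (by omega)]; exact decide_eq_true hj.symm
    rw [hj, run, hP _ _ k1]
    simp only [val, k3, if_true, nx, k2, mkW, List.range_succ, List.map_append, List.foldl_append,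
      List.map_cons, List.map_nil, List.foldl_cons, List.foldl_nil]
  refine ⟨by omega, fun a => (hval _ _).trans_lt (by omega), fun a => ?_,
    fun σ hσ j hj => (hlt _ _ (key σ hσ j hj).1).trans_le hW, fun σ hσ => ?_, fun σ hσ => ?_⟩
  · simp only [P, Nat.mod_mod_of_dvd _ (pow_dvd_pow 2 hn)]
  · rw [fin σ hσ]; split_ifs <;> simp [*]
  · rw [fin σ hσ]; split_ifs <;> simp [*]

end Crest.Agent.R176.M
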