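import Crest.Agent.R176.AShape

/-!
# Row 176 A: the token lemma  (subtask AToken)

`rep_permW`: the first piece of the parse is `monoG .. τ` or `dimW .. τ`; `permW` replaces `τ` by
`permT W j σ τ` (`tokOK_permT`; positions `≥ 6W` are unchanged).
`nilAt_of_lowRank`: `nilAt_of_closed` with `m = 2`.  On the class of a closed non-null `w₀` (every
member `w` has `Rep w U` for some `U`: `exists_rep`, `rep_class`) use `van_partition` with
`r w w' :⇔ ∃ σ, w' = permW W (win W w) σ w`; `win` depends on the flags only, `permW` is an action,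
`permW σ w ~ w` by `rep_permW`, `rep_eqv`.  `σ ↦ permW W j σ w` is injective (`rep_tok_inj`).
With `j = win W w` no letter at the positions `jW, …, jW + W` is `H` (`rep_one_H`), so by `LowRank`
(applied from the right end of the window)
`wt B (permW σ w) = wt B pre * ∏_i Φ (core i) (v (tok (σ i))) * B (w[jW+W]) * wt B post`; `alt_sum`.
-/

set_option autoImplicit false

namespace Crest.Agent.R176.M

variable {W : ℕ} {P : ℕ → ℕ}

def permW (W j : ℕ) (σ : Equiv.Perm (Fin W)) (w : List Let) : List Let :=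
  mkW w.length fun z => ⟨(w.getD z default).k, permT W j σ (fun z => (w.getD z default).tok) z⟩

open Classical in
/-- a window of the first block without idle head -/
noncomputable def win (W : ℕ) (w : List Let) : ℕ :=
  if ∃ z, z ≤ W ∧ (w.getD z default).k.f = .H then 2 else 0

namespace AToken

theorem permT_out {j z : ℕ} (h : z / W ≠ j) (σ : Equiv.Perm (Fin W)) (τ : ℕ → ℕ) :
    permT W j σ τ z = τ z := dif_neg fun h' => h h'.1

theorem permT_in (j : ℕ) (σ : Equiv.Perm (Fin W)) (τ : ℕ → ℕ) (i : Fin W) :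
    permT W j σ τ (j * W + i) = τ (j * W + σ i) := by
  have hW : 0 < W := i.pos
  have h1 : (j * W + i) / W = j := by
    rw [add_comm, Nat.add_mul_div_right _ _ hW, Nat.div_eq_of_lt i.2, zero_add]
  have h2 : (j * W + i) % W = i := by
    rw [add_comm, Nat.add_mul_mod_self_right, Nat.mod_eq_of_lt i.2]
  unfold permT
  rw [dif_pos ⟨h1, h2.symm ▸ i.2⟩]
  simp only [h2]

theorem exists_in (hW : 1 ≤ W) {j z : ℕ} (h : z / W = j) : ∃ i : Fin W, z = j * W + i :=
  ⟨⟨z % W, Nat.mod_lt _ hW⟩, by rw [← h, mul_comm]; exact (Nat.div_add_mod z W).symm⟩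

theorem win_lt {j : ℕ} (hj : j = 0 ∨ j = 2) (i : Fin W) : j * W + i < 3 * W := by
  have := i.2
  rcases hj with rfl | rfl <;> omega

theorem permT_congr (hW : 1 ≤ W) {j : ℕ} (hj : j = 0 ∨ j = 2) (σ : Equiv.Perm (Fin W))
    {τ τ' : ℕ → ℕ} {n : ℕ} (hn : 3 * W ≤ n) (h : ∀ z, z < n → τ z = τ' z) {z : ℕ} (hz : z < n) :
    permT W j σ τ z = permT W j σ τ' z := by
  by_cases h1 : z / W = j
  · obtain ⟨i, rfl⟩ := exists_in hW h1
    rw [permT_in, permT_in, h _ ((win_lt hj _).trans_le hn)]
  · rw [permT_out h1, permT_out h1, h z hz]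

theorem permT_mul (hW : 1 ≤ W) (j : ℕ) (σ σ' : Equiv.Perm (Fin W)) (τ : ℕ → ℕ) (z : ℕ) :
    permT W j σ' (permT W j σ τ) z = permT W j (σ * σ') τ z := by
  by_cases h1 : z / W = j
  · obtain ⟨i, rfl⟩ := exists_in hW h1
    rw [permT_in, permT_in, permT_in, Equiv.Perm.mul_apply]
  · rw [permT_out h1, permT_out h1, permT_out h1]

theorem permT_one (hW : 1 ≤ W) (j : ℕ) (τ : ℕ → ℕ) (z : ℕ) : permT W j 1 τ z = τ z := by
  by_cases h1 : z / W = j
  · obtain ⟨i, rfl⟩ := exists_in hW h1
    rw [permT_in, Equiv.Perm.one_apply]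
  · rw [permT_out h1]

theorem out_of_le (hW : 1 ≤ W) {j z : ℕ} (h : (j + 1) * W ≤ z) : z / W ≠ j := by
  have := (Nat.le_div_iff_mul_le hW).2 h
  omega

theorem out_of_lt (hW : 1 ≤ W) {j z : ℕ} (h : z < j * W) : z / W ≠ j :=
  ((Nat.div_lt_iff_lt_mul hW).2 h).ne

theorem tokOK_congr (hW : 1 ≤ W) {τ τ' : ℕ → ℕ} (h : TokOK W τ) (e : ∀ z, z < 6 * W → τ' z = τ z) :
    TokOK W τ' := by
  refine ⟨fun z hz => e z hz ▸ h.1 z hz, fun z hz h1 h2 => e z hz ▸ h.2.1 z hz h1 h2,
    fun z z' h1 h2 h3 => h.2.2 z z' h1 h2 ?_⟩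
  have h4 : z < 6 * W := (Nat.div_lt_iff_lt_mul hW).1 (by omega)
  have h5 : z' < 6 * W := (Nat.div_lt_iff_lt_mul hW).1 (by omega)
  rwa [← e z h4, ← e z' h5]

theorem getD_app {n z : ℕ} (hz : z < n) (f : ℕ → Let) (rest : List Let) :
    (mkW n f ++ rest).getD z default = f z := by
  rw [List.getD_append _ _ _ _ (by simpa using hz), getD_mkW hz]

theorem rep_first {w U : List Let} (h : Rep P W w U) (hne : U ≠ []) :
    ∃ (n : ℕ) (g : ℕ → Core) (τ : ℕ → ℕ) (rest : List Let),
      w = mkW n (fun z => ⟨g z, τ z⟩) ++ rest ∧ 6 * W ≤ n ∧ TokOK W τ ∧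
      (∀ z z', (g z).f = .H → (g z').f = .H → z = z') ∧
      ∀ τ', TokOK W τ' → (∀ z, 6 * W ≤ z → τ' z = τ z) →
        Rep P W (mkW n (fun z => ⟨g z, τ' z⟩) ++ rest) U := by
  cases h with
  | nil => exact absurd rfl hne
  | mono h1 h2 =>
    obtain ⟨ρ, ⟨p, τ, hp, hτ, rfl⟩, hd⟩ := h1
    refine ⟨6 * W, fun z => ⟨bc P W ρ z, flM p z⟩, τ, _, rfl, le_rfl, hτ, fun z z' h3 h4 => ?_,
      fun τ' hτ' _ => Parse.mono ⟨ρ, ⟨p, τ', hp, hτ', rfl⟩, hd⟩ h2⟩
    have key : ∀ z, flM p z = .H → z = p := by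
      intro z hz
      unfold flM at hz
      split_ifs at hz
      assumption
    exact (key z h3).trans (key z' h4).symm
  | dim h1 h2 =>
    obtain ⟨κ, ρ, ρ', ⟨D, ph, i, p, τ, e1, e2, e3, e4, e5, hτ, hτ2, rfl⟩, hd, hd'⟩ := h1
    refine ⟨12 * W, dcore P W D ph i p, τ, _, rfl, by omega, hτ, fun z z' h3 _ => ?_,
      fun τ' hτ' e => Parse.dim ⟨κ, ρ, ρ', ⟨D, ph, i, p, τ', e1, e2, e3, e4, e5, hτ', ?_, rfl⟩,
        hd, hd'⟩ h2⟩
    · simp only [dcore, flD] at h3
      split_ifs at h3
    · have : (fun z => τ' (6 * W + z)) = fun z => τ (6 * W + z) :=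
        funext fun z => e _ (by omega)
      rwa [this]

theorem permW_app (hW : 1 ≤ W) {j : ℕ} (hj : j = 0 ∨ j = 2) (σ : Equiv.Perm (Fin W)) {n : ℕ}
    (hn : 3 * W ≤ n) (g : ℕ → Core) (τ : ℕ → ℕ) (rest : List Let) :
    permW W j σ (mkW n (fun z => ⟨g z, τ z⟩) ++ rest) =
      mkW n (fun z => ⟨g z, permT W j σ τ z⟩) ++ rest := by
  unfold permW
  rw [List.length_append, length_mkW, mkW_add]
  congr 1
  · refine mkW_congr fun z hz => ?_
    rw [getD_app hz, permT_congr hW hj σ hn (τ' := τ) (fun z hz => by rw [getD_app hz]) hz]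
  · refine (mkW_congr fun z hz => ?_).trans (mkW_getD rest default)
    rw [permT_out (out_of_le hW (by rcases hj with rfl | rfl <;> omega)),
      List.getD_append_right _ _ _ _ (by simp), length_mkW, Nat.add_sub_cancel_left]

theorem length_permW (j : ℕ) (σ : Equiv.Perm (Fin W)) (w : List Let) :
    (permW W j σ w).length = w.length := length_mkW _ _

theorem getD_permW (j : ℕ) (σ : Equiv.Perm (Fin W)) {w : List Let} {z : ℕ} (hz : z < w.length) :
    (permW W j σ w).getD z default =
      ⟨(w.getD z default).k, permT W j σ (fun z => (w.getD z default).tok) z⟩ := getD_mkW hz _ _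

theorem k_permW (j : ℕ) (σ : Equiv.Perm (Fin W)) (w : List Let) (z : ℕ) :
    ((permW W j σ w).getD z default).k = (w.getD z default).k := by
  rcases lt_or_ge z w.length with hz | hz
  · rw [getD_permW j σ hz]
  · rw [List.getD_eq_default _ _ hz, List.getD_eq_default _ _ (by rwa [length_permW])]

theorem win_permW (j : ℕ) (σ : Equiv.Perm (Fin W)) (w : List Let) :
    win W (permW W j σ w) = win W w := by
  have : (∃ z, z ≤ W ∧ ((permW W j σ w).getD z default).k.f = .H) =
      ∃ z, z ≤ W ∧ (w.getD z default).k.f = .H := by simp only [k_permW]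
  unfold win
  congr 1

theorem win_cases (w : List Let) : win W w = 0 ∨ win W w = 2 := by
  unfold win; split_ifs <;> simp

theorem permW_one (hW : 1 ≤ W) (j : ℕ) (w : List Let) : permW W j 1 w = w :=
  (mkW_congr fun z _ => by rw [permT_one hW]).trans (mkW_getD w default)

theorem permW_mul (hW : 1 ≤ W) {j : ℕ} (hj : j = 0 ∨ j = 2) (σ σ' : Equiv.Perm (Fin W))
    {w : List Let} (hw : 3 * W ≤ w.length) :
    permW W j σ' (permW W j σ w) = permW W j (σ * σ') w := by
  conv_lhs => unfold permW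
  rw [length_mkW]
  refine mkW_congr fun z hz => ?_
  rw [getD_mkW hz, ← permT_mul hW]
  congr 1
  exact permT_congr hW hj σ' hw (fun z hz => by rw [getD_mkW hz]) hz

theorem lowRank_prod {A : Type} [Ring A] {B : Let → A} {Ψ : Let → A}
    (h : ∀ Y Y' : Let, Y.Bdd W → Y'.Bdd W → Y.k.f ≠ .H → Y'.k.f ≠ .H → B Y * B Y' = Ψ Y * B Y')
    (L : List Let) (hL : ∀ Y ∈ L, Y.Bdd W ∧ Y.k.f ≠ .H) {Y' : Let} (h1 : Y'.Bdd W)
    (h2 : Y'.k.f ≠ .H) : wt B L * B Y' = wt Ψ L * B Y' := by
  induction L using List.reverseRecOn generalizing Y' with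
  | nil => rfl
  | append_singleton L Y ih =>
    obtain ⟨h3, h4⟩ := hL Y (by simp)
    have e : ∀ C : Let → A, wt C [Y] = C Y := fun C => by simp [wt]
    rw [wt_append, wt_append, e, e, ih (fun Z hZ => hL Z (by simp [hZ])) h3 h4, mul_assoc, mul_assoc,
      h Y Y' h3 h1 h4 h2]

theorem mkW_eq_ofFn {α : Type} (n : ℕ) (f : ℕ → α) : mkW n f = List.ofFn fun i : Fin n => f i := by
  apply List.ext_getElem <;> simp [mkW]

end AToken

theorem rep_permW (hG : Good W P) {w U : List Let} (h : Rep P W w U) (hne : U ≠ []) {j : ℕ}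
    (hj : j = 0 ∨ j = 2) (σ : Equiv.Perm (Fin W)) : Rep P W (permW W j σ w) U := by
  have hW : 1 ≤ W := le_trans one_le_two hG.two_le
  obtain ⟨n, g, τ, rest, rfl, hn, hτ, -, h1⟩ := AToken.rep_first h hne
  rw [AToken.permW_app hW hj σ (by omega)]
  exact h1 _ (tokOK_permT hW hτ hj σ) fun z hz =>
    AToken.permT_out (AToken.out_of_le hW (by rcases hj with rfl | rfl <;> omega)) _ _

theorem rep_tokOK (hG : Good W P) {w U : List Let} (h : Rep P W w U) (hne : U ≠ []) :
    TokOK W fun z => (w.getD z default).tok := by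
  have hW : 1 ≤ W := le_trans one_le_two hG.two_le
  obtain ⟨n, g, τ, rest, rfl, hn, hτ, -, -⟩ := AToken.rep_first h hne
  exact AToken.tokOK_congr hW hτ fun z hz => by rw [AToken.getD_app (hz.trans_le hn)]

theorem rep_one_H (hG : Good W P) {w U : List Let} (h : Rep P W w U) (hne : U ≠ []) {z z' : ℕ}
    (hz : z < 6 * W) (hz' : z' < 6 * W) (h1 : (w.getD z default).k.f = .H)
    (h2 : (w.getD z' default).k.f = .H) : z = z' := by
  have _ := hG
  obtain ⟨n, g, τ, rest, rfl, hn, -, h3, -⟩ := AToken.rep_first h hne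
  rw [AToken.getD_app (hz.trans_le hn)] at h1
  rw [AToken.getD_app (hz'.trans_le hn)] at h2
  exact h3 z z' h1 h2

theorem nilAt_of_lowRank (hG : Good W P) {A : Type} [Ring A] [Algebra KK A] {B : Let → A} {D : ℕ}
    (h : LowRank W B D) (hD : D < W) : (sys W P).NilAt B := by
  have hW : 1 ≤ W := le_trans one_le_two hG.two_le
  obtain ⟨V, _, _, _, _, v, Φ, hV, hB⟩ := h
  refine nilAt_of_closed hG B 2 fun w₀ hc hl hn => ?_
  obtain ⟨U₀, hU₀⟩ := exists_rep hG hc (by omega) hn
  have hcl : ∀ w, (sys W P).Eqv w₀ w → 12 * W ≤ w.length ∧ ∃ U, Rep P W w U ∧ U ≠ [] := by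
    intro w hw
    obtain ⟨U, -, hU⟩ := (rep_class hG hU₀ w).1 hw
    have h1 := hw.length_eq
    refine ⟨by omega, U, hU, ?_⟩
    rintro rfl
    have h2 := hU.length
    simp only [List.length_nil, zero_mul] at h2
    omega
  have hsub : ∀ w, (sys W P).Eqv w₀ w → ∀ σ, (sys W P).Eqv w₀ (permW W (win W w) σ w) := by
    intro w hw σ
    obtain ⟨-, U, hU, hne⟩ := hcl w hw
    exact hw.trans (rep_eqv hG hU (rep_permW hG hU hne (AToken.win_cases w) σ))
  refine van_partition (Sys.class_finite (ok_finite W P) hn) (wt B)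
    (fun w w' => ∃ σ, w' = permW W (win W w) σ w) (fun w _ => ⟨1, (AToken.permW_one hW _ w).symm⟩)
    ?_ ?_ ?_ ?_
  · rintro w hw _ ⟨σ, rfl⟩
    exact hsub w hw σ
  · rintro w hw _ ⟨σ, rfl⟩
    refine ⟨σ⁻¹, ?_⟩
    rw [AToken.win_permW, AToken.permW_mul hW (AToken.win_cases w) _ _ (by have := (hcl w hw).1; omega),
      mul_inv_cancel, AToken.permW_one hW]
  · rintro w hw _ _ ⟨σ, rfl⟩ ⟨σ', rfl⟩
    refine ⟨σ * σ', ?_⟩
    rw [AToken.win_permW, AToken.permW_mul hW (AToken.win_cases w) _ _ (by have := (hcl w hw).1; omega)]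
  · intro w hw
    obtain ⟨hlen, U, hU, hne⟩ := hcl w hw
    have hτ := rep_tokOK hG hU hne
    have hH : ∀ z, win W w * W ≤ z → z ≤ win W w * W + W → (w.getD z default).k.f ≠ .H := by
      intro z h1 h2 h3
      unfold win at h1 h2
      split_ifs at h1 h2 with h4
      · obtain ⟨z', h5, h6⟩ := h4
        have := rep_one_H hG hU hne (by omega) (by omega) h3 h6
        omega
      · exact h4 ⟨z, by omega, h3⟩
    have hb : ∀ σ, ∀ a ∈ permW W (win W w) σ w, a.Bdd W := fun σ a ha => by
      by_contra h1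
      exact hn (Sys.Null.of_eqv (hsub w hw σ) (Sys.Bad.null (Or.inl ⟨a, ha, h1⟩)))
    have hj := AToken.win_cases (W := W) w
    generalize win W w = j at hH hb hj
    have hinj : Function.Injective fun σ => permW W j σ w := by
      intro σ σ' h1
      ext i
      have h2 := AToken.win_lt hj i
      have h3 := congrArg Let.tok (mkW_inj h1 (z := j * W + i) (by omega))
      simp only [AToken.permT_in] at h3
      have h4 : ∀ i : Fin W, (j * W + i) / W = j := fun i => by
        rw [add_comm, Nat.add_mul_div_right _ _ hW, Nat.div_eq_of_lt i.2, zero_add]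
      have h5 := hτ.2.2 _ _ ((h4 _).trans (h4 _).symm) (by rw [h4]; exact hj) h3
      omega
    have e0 : {w' | ∃ σ, w' = permW W j σ w} = Set.range fun σ => permW W j σ w := by
      ext w'; simp [eq_comm]
    rw [e0, finsum_mem_range hinj, finsum_eq_sum_of_fintype]
    obtain ⟨m, hm⟩ : ∃ m, w.length = j * W + (W + (1 + m)) :=
      ⟨w.length - (j * W + W + 1), by rcases hj with rfl | rfl <;> omega⟩
    have e1 : ∀ σ : Equiv.Perm (Fin W), wt B (permW W j σ w) =
        wt B (mkW (j * W) fun z => w.getD z default) *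
          ((List.ofFn fun i : Fin W =>
            Φ (w.getD (j * W + i) default).k (v (w.getD (j * W + σ i) default).tok)).prod *
          (B (w.getD (j * W + W) default) *
            wt B (mkW m fun z => w.getD (j * W + (W + (1 + z))) default))) := by
      intro σ
      have hb' : ∀ z, z < w.length → Let.Bdd W
          ⟨(w.getD z default).k, permT W j σ (fun z => (w.getD z default).tok) z⟩ :=
        fun z hz => hb σ _ (mem_mkW.2 ⟨z, hz, rfl⟩)
      have ho : ∀ z, (j + 1) * W ≤ z → (⟨(w.getD z default).k,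
          permT W j σ (fun z => (w.getD z default).tok) z⟩ : Let) = w.getD z default :=
        fun z hz => by rw [AToken.permT_out (AToken.out_of_le hW hz)]
      unfold permW
      rw [hm, mkW_add, mkW_add, mkW_add, wt_append, wt_append, wt_append]
      congr 1
      · exact congrArg _ (mkW_congr fun z hz => by rw [AToken.permT_out (AToken.out_of_lt hW hz)])
      · have e2 : wt B (mkW 1 fun z => (⟨(w.getD (j * W + (W + z)) default).k,
            permT W j σ (fun z => (w.getD z default).tok) (j * W + (W + z))⟩ : Let)) =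
            B (w.getD (j * W + W) default) := by
          rw [← ho (j * W + W) (by rw [Nat.succ_mul])]
          simp [wt, mkW]
        rw [e2, ← mul_assoc, ← mul_assoc]
        congr 1
        · rw [AToken.lowRank_prod (Ψ := fun Y => Φ Y.k (v Y.tok)) hB _ _
            (ho (j * W + W) (by rw [Nat.succ_mul]) ▸ hb' _ (by omega)) (hH _ (by omega) le_rfl)]
          · congr 1
            rw [wt, AToken.mkW_eq_ofFn, List.map_ofFn]
            congr 2
            funext i
            simp only [Function.comp_apply, AToken.permT_in]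
          · intro Y hY
            obtain ⟨z, hz, rfl⟩ := mem_mkW.1 hY
            exact ⟨hb' _ (by omega), hH _ (by omega) (by omega)⟩
        · exact congrArg _ (mkW_congr fun z _ => ho _ (by rw [Nat.succ_mul]; omega))
    simp only [e1]
    rw [← Finset.mul_sum, ← Finset.sum_mul,
      alt_sum (hV.trans_lt hD) (fun i : Fin W => Φ (w.getD (j * W + i) default).k)
        (fun i : Fin W => v (w.getD (j * W + i) default).tok), zero_mul, mul_zero]

end Crest.Agent.R176.M
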