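import Crest.Agent.R176.AWeight
import Crest.Agent.R176.AToken
import Crest.Agent.R176.ATable
import Crest.Agent.R176.AAlg3

/-!
# Row 176 A: growth arithmetic, odometer, assembly  (subtask AFinal)

`nil_all`: with `W = 2^n`: `gam W ≤ 2^(300 n W)`, `om W ≤ 2^(16 n)` for `n ≥ 2`.  Show by induction on
`e` that `D ≤ 2^(e + n^2 * n)` implies `Nil D` at every level `n ≥ max n₀ 20` (or any such bound):
`e = 0`: `D * om W < 2^W` (`nil_of_small`); step: `D * gam W ≤ 2^(e + W^3)` since
`n^3 + 1 + 300 n W ≤ W^3`; `nil_of_upper`.  For the level `n₀` itself go up one more level if needed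
(`nil_of_upper` needs no size condition; or replace `n₀` by `max n₀ 20` at the start).
`odoS_step`: `M = 6W (M' + 4)`; for a list `l` of statics let `t = 6W - pos W l[0] ∈ [1, 6W]`,
`U l = (List.range M').map fun j => decS W (l.drop (t + 6W + j * 6W))` where `decS W l'` is
(classically chosen) the static part of a bounded upper letter whose static columns are those of
`l'[0..W)` (`dec_st_inj`, `rep_scol`), `ψ l = 6W * ψ' (U l) - t`.  If `t > 1` the tail has `t - 1` and
the same `U` (`pos_succ`).  If `t = 1` apply `closed_factor` to the `M' + 3` blocks starting at index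
`1`, `exists_rep`, `rep_null_iff`: blocks `2, …, M'+2` code a non-null upper word (`Null.ctx`) of
length `M' + 1`.
`odo_of_odoS`: `φ w = ψ ((w.take M).map st)`; `Eqv.map_eq`, `move_st`; `Null.ctx` for prefixes.
-/

set_option autoImplicit false

namespace Crest.Agent.R176.M

variable {W : ℕ} {P : ℕ → ℕ}

theorem nil_of_upper (hG : Good W P) {D : ℕ} (h : (sys (2 ^ W) P).Nil (D * gam W)) :
    (sys W P).Nil D := by
  intro A _ _ _ _ hA B
  obtain ⟨A', _, _, _, _, B', π, h1, h2, -⟩ := exists_upper hG B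
  exact nil_step hG B B' π h2 (h A' (h1.trans (Nat.mul_le_mul_right _ hA)) B')

theorem nil_of_small (hG : Good W P) (hG' : Good (2 ^ W) P) {D : ℕ} (h : D * om W < 2 ^ W) :
    (sys W P).Nil D := by
  intro A _ _ _ _ hA B
  obtain ⟨A', _, _, _, _, B', π, -, h2, h3⟩ := exists_upper hG B
  exact nil_step hG B B' π h2
    (nilAt_of_lowRank hG' h3 ((Nat.mul_le_mul_right _ hA).trans_lt h))

theorem fin_cube {n : ℕ} (h : 20 ≤ n) : n ^ 3 + 13 * n + 3 < 2 ^ n := by
  induction n, h using Nat.le_induction with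
  | base => norm_num
  | succ n h ih =>
    have h1 : 20 * n ^ 2 ≤ n ^ 3 := by
      rw [pow_succ' n 2]; exact Nat.mul_le_mul_right _ h
    have h2 : 20 * n ≤ n ^ 2 := by rw [sq]; exact Nat.mul_le_mul_right _ h
    have h3 : (n + 1) ^ 3 = n ^ 3 + 3 * n ^ 2 + 3 * n + 1 := by ring
    rw [pow_succ 2 n]
    omega

theorem fin_om {n : ℕ} (h : 1 ≤ n) : om (2 ^ n) ≤ 2 ^ (13 * n + 3) := by
  have h1 : 2 ≤ 2 ^ n := Nat.le_self_pow (by omega) 2
  calc om (2 ^ n) ≤ (2 ^ n + 2 ^ n) * 4 * (2 ^ n) ^ 12 :=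
        Nat.mul_le_mul_right _ (Nat.mul_le_mul_right _ (by omega))
    _ = 2 ^ (13 * n + 3) := by ring

theorem fin_gam (n : ℕ) : gam (2 ^ n) ≤ 2 ^ (288 * n * 2 ^ n + 4) := by
  unfold gam
  rw [← pow_mul, ← pow_mul]
  generalize 2 ^ n = V
  have h1 : 1 ≤ 2 ^ (n * (12 * (12 * V))) := Nat.one_le_two_pow
  calc (1 + 2 * 2 ^ (n * (12 * (12 * V)))) ^ 2 ≤ (4 * 2 ^ (n * (12 * (12 * V)))) ^ 2 :=
        Nat.pow_le_pow_left (by omega) 2
    _ = 2 ^ (288 * n * V + 4) := by
        rw [show (4 : ℕ) = 2 ^ 2 from rfl, ← pow_add, ← pow_mul]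
        congr 1
        ring

theorem nil_all {n₀ : ℕ} (hG : ∀ n, n₀ ≤ n → Good (2 ^ n) P) {n : ℕ} (hn : n₀ ≤ n) (D : ℕ) :
    (sys (2 ^ n) P).Nil D := by
  have up : ∀ {n}, n₀ ≤ n → n₀ ≤ 2 ^ n := fun h => h.trans Nat.lt_two_pow_self.le
  have key : ∀ e n, n₀ ≤ n → 20 ≤ n → ∀ D, D ≤ 2 ^ (e + n ^ 3) → (sys (2 ^ n) P).Nil D := by
    intro e
    induction e with
    | zero =>
      intro n hn h20 D hD
      refine nil_of_small (hG n hn) (hG _ (up hn)) ?_
      calc D * om (2 ^ n) ≤ 2 ^ (0 + n ^ 3) * 2 ^ (13 * n + 3) :=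
            Nat.mul_le_mul hD (fin_om (by omega))
        _ < 2 ^ 2 ^ n := by
            rw [← pow_add]
            exact Nat.pow_lt_pow_right (by norm_num) (by have := fin_cube h20; omega)
    | succ e ih =>
      intro n hn h20 D hD
      refine nil_of_upper (hG n hn) (ih _ (up hn) (h20.trans Nat.lt_two_pow_self.le) _ ?_)
      calc D * gam (2 ^ n) ≤ 2 ^ (e + 1 + n ^ 3) * 2 ^ (288 * n * 2 ^ n + 4) :=
            Nat.mul_le_mul hD (fin_gam n)
        _ ≤ 2 ^ (e + (2 ^ n) ^ 3) := by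
            rw [← pow_add]
            refine Nat.pow_le_pow_right (by norm_num) ?_
            have h1 := fin_cube h20
            have h2 : 20 ^ 3 ≤ n ^ 3 := Nat.pow_le_pow_left h20 3
            generalize 2 ^ n = V at *
            have h3 : n ≤ V := by omega
            have h4 : 300 ≤ V := by omega
            have h5 : 288 * n * V ≤ 288 * (V * V) := by
              rw [mul_assoc]; exact Nat.mul_le_mul_left _ (Nat.mul_le_mul_right _ h3)
            have h6 : 300 * (V * V) ≤ V ^ 3 := by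
              rw [pow_succ', sq]; exact Nat.mul_le_mul_right _ h4
            have h7 : V ≤ V * V := Nat.le_mul_self V
            omega
  have all : ∀ k n, n₀ ≤ n → 20 ≤ n + k → ∀ D, (sys (2 ^ n) P).Nil D := by
    intro k
    induction k with
    | zero =>
      intro n hn h20 D
      exact key D n hn h20 D (Nat.lt_two_pow_self.le.trans
        (Nat.pow_le_pow_right (by norm_num) (Nat.le_add_right _ _)))
    | succ k ih =>
      intro n hn h20 D
      have : n < 2 ^ n := Nat.lt_two_pow_self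
      exact nil_of_upper (hG n hn) (ih _ (up hn) (by omega) _)
  exact all 20 n hn (by omega) D

theorem fin_ok {w : List Let} (h : ¬ (sys W P).Null w) {a : Let} (ha : a ∈ w) : a.Bdd W := by
  by_contra h'
  exact h (Sys.Bad.null (Or.inl ⟨a, ha, h'⟩))

theorem long_words {n₀ : ℕ} (hG : ∀ n, n₀ ≤ n → Good (2 ^ n) P) (k : ℕ) {n : ℕ} (hn : n₀ ≤ n) :
    ∃ w : List Let, k ≤ w.length ∧ ¬ (sys (2 ^ n) P).Null w := by
  have key : ∀ k n, n₀ ≤ n → ∃ w : List Let, k + 1 ≤ w.length ∧ ¬ (sys (2 ^ n) P).Null w := by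
    intro k
    induction k with
    | zero =>
      intro n _
      exact ⟨[default], le_rfl, Sys.not_null_single (default_bdd Nat.one_le_two_pow)⟩
    | succ k ih =>
      intro n hn
      obtain ⟨U, h1, h2⟩ := ih (2 ^ n) (hn.trans Nat.lt_two_pow_self.le)
      obtain ⟨w, hw⟩ := exists_enc (hG n hn) (U := U) fun Y hY => fin_ok h2 hY
      refine ⟨w, ?_, fun h => h2 ((rep_null_iff (hG n hn) hw).1 h)⟩
      have h3 : 1 ≤ 2 ^ n := Nat.one_le_two_pow
      have h4 : U.length * 2 ≤ U.length * (6 * 2 ^ n) := Nat.mul_le_mul_left _ (by omega)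
      rw [hw.length]
      omega
  obtain ⟨w, h1, h2⟩ := key k n hn
  exact ⟨w, by omega, h2⟩

/-- sliding-block form of the odometer -/
def OdoS (W : ℕ) (P : ℕ → ℕ) (m : ℕ) : Prop :=
  ∃ (M : ℕ) (ψ : List Stat → ℤ), 1 ≤ M ∧ ∀ w : List Let, w.length = M + 1 → ¬ (sys W P).Null w →
    ψ (w.tail.map fun y => y.k.c.st) ≡ ψ (w.dropLast.map fun y => y.k.c.st) + 1 [ZMOD m]

theorem odoS_one : OdoS W P 1 := by
  exact ⟨1, fun _ => 0, le_rfl, fun _ _ _ => Int.modEq_one⟩

theorem fin_tail {α : Type} (n : ℕ) (f : ℕ → α) :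
    (mkW (n + 1) f).tail = mkW n fun z => f (z + 1) := by
  simp [mkW, List.range_succ_eq_map, Function.comp_def]

theorem fin_dropLast {α : Type} (n : ℕ) (f : ℕ → α) : (mkW (n + 1) f).dropLast = mkW n f := by
  simp [mkW, List.range_succ]

theorem fin_map {α β : Type} (n : ℕ) (f : ℕ → α) (g : α → β) :
    (mkW n f).map g = mkW n fun z => g (f z) := by
  simp [mkW, Function.comp_def]

theorem fin_factor {α : Type} {S : Sys α} {N a n : ℕ} {f : ℕ → α} (h : ¬ S.Null (mkW N f))
    (hl : a + n ≤ N) : ¬ S.Null (mkW n fun z => f (a + z)) := by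
  obtain ⟨r, rfl⟩ := Nat.exists_eq_add_of_le hl
  rw [mkW_add, mkW_add] at h
  exact fun h' => h (h'.ctx _ _)

open Classical in
/-- the static part of a letter with property `p` -/
noncomputable def pickS (p : Let → Prop) : Stat :=
  if h : ∃ Y, p Y then h.choose.k.c.st else (default : Let).k.c.st

/-- the static part coded by the static columns `g` -/
noncomputable def decS (W : ℕ) (g : ℕ → SCol) : Stat :=
  pickS fun Y => Y.Bdd (2 ^ W) ∧ ∀ i, i < W → (cols W Y).sc i = g i

theorem decS_eq (hW : cT ≤ W) {g : ℕ → SCol} {Y : Let} (hY : Y.Bdd (2 ^ W))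
    (h : ∀ i, i < W → g i = (cols W Y).sc i) : decS W g = Y.k.c.st := by
  have hex : ∃ Y : Let, Y.Bdd (2 ^ W) ∧ ∀ i, i < W → (cols W Y).sc i = g i :=
    ⟨Y, hY, fun i hi => (h i hi).symm⟩
  rw [decS, pickS, dif_pos hex]
  exact dec_st_inj hW hex.choose_spec.1 hY fun i hi => (hex.choose_spec.2 i hi).trans (h i hi)

theorem decS_congr {g g' : ℕ → SCol} (h : ∀ i, i < W → g i = g' i) : decS W g = decS W g' :=
  congrArg pickS <|
    funext fun Y => propext (and_congr_right fun _ => forall₂_congr fun i hi => by rw [h i hi])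

theorem odoS_step (hG : Good W P) {m : ℕ} (h : OdoS (2 ^ W) P m) : OdoS W P (6 * W * m) := by
  obtain ⟨M', ψ', hM', hψ⟩ := h
  have hW := hG.one_le
  let t : List Stat → ℕ := fun l => 6 * W - pos W (l.getD 0 (default : Let).k.c.st)
  let U : List Stat → List Stat := fun l => mkW M' fun j =>
    decS W fun i => (l.getD (t l + (j + 1) * (6 * W) + i) (default : Let).k.c.st).scol
  have hM : 1 ≤ (M' + 4) * (6 * W) := Nat.mul_pos (by omega) (by omega)
  refine ⟨(M' + 4) * (6 * W), fun l => 6 * W * ψ' (U l) - t l, hM, fun w hw hn => ?_⟩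
  obtain ⟨f, rfl⟩ : ∃ f, w = mkW ((M' + 4) * (6 * W) + 1) f :=
    ⟨_, by rw [← hw, mkW_getD w default]⟩
  clear hw
  have hb : ¬ (sys W P).Bad _ := fun h => hn h.null
  have hp0 : pos W (f 0).k.c.st < 6 * W := pos_lt (fin_ok hn (mem_mkW.2 ⟨0, by omega, rfl⟩))
  have hp1 := pos_succ hb (z := 1) (by omega)
  have hidx : ∀ j i, j < M' → i < W →
      6 * W + (j + 1) * (6 * W) + i < (M' + 4) * (6 * W) := by
    intro j i hj hi
    have : (j + 1 + 2) * (6 * W) ≤ (M' + 4) * (6 * W) := Nat.mul_le_mul_right _ (by omega)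
    rw [add_mul (j + 1)] at this
    omega
  rw [fin_tail, fin_dropLast, fin_map, fin_map]
  have t0 : t (mkW ((M' + 4) * (6 * W)) fun z => (f z).k.c.st) = 6 * W - pos W (f 0).k.c.st := by
    simp only [t]; rw [getD_mkW hM]
  have t1 : t (mkW ((M' + 4) * (6 * W)) fun z => (f (z + 1)).k.c.st) =
      6 * W - pos W (f 1).k.c.st := by
    simp only [t]; rw [getD_mkW hM]
  have U0 : U (mkW ((M' + 4) * (6 * W)) fun z => (f z).k.c.st) = mkW M' fun j => decS W fun i =>
      (f (6 * W - pos W (f 0).k.c.st + (j + 1) * (6 * W) + i)).k.c.st.scol := by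
    simp only [U]
    refine mkW_congr fun j hj => decS_congr fun i hi => ?_
    rw [t0, getD_mkW (by have := hidx j i hj hi; omega)]
  have U1 : U (mkW ((M' + 4) * (6 * W)) fun z => (f (z + 1)).k.c.st) = mkW M' fun j =>
      decS W fun i =>
        (f (6 * W - pos W (f 1).k.c.st + (j + 1) * (6 * W) + i + 1)).k.c.st.scol := by
    simp only [U]
    refine mkW_congr fun j hj => decS_congr fun i hi => ?_
    rw [t1, getD_mkW (by have := hidx j i hj hi; omega)]
  simp only []
  rw [t0, t1, U0, U1]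
  rcases Nat.lt_or_ge (pos W (f 0).k.c.st + 1) (6 * W) with hlt | hge
  · rw [Nat.mod_eq_of_lt hlt] at hp1
    have e : ∀ x i, 6 * W - pos W (f 1).k.c.st + x + i + 1 =
        6 * W - pos W (f 0).k.c.st + x + i := by intro x i; omega
    simp only [e]
    have e' : ((6 * W - pos W (f 0).k.c.st : ℕ) : ℤ) =
        ((6 * W - pos W (f 1).k.c.st : ℕ) : ℤ) + 1 := by omega
    rw [e']
    exact (Int.ModEq.refl _).trans (by rw [show ∀ a b : ℤ, a - (b + 1) + 1 = a - b by intros; ring])
  · have hp0' : pos W (f 0).k.c.st + 1 = 6 * W := by omega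
    rw [hp0', Nat.mod_self] at hp1
    have e0 : 6 * W - pos W (f 0).k.c.st = 1 := by omega
    rw [e0, hp1, Nat.sub_zero]
    have hlen : 1 + (M' + 3) * (6 * W) ≤ (M' + 4) * (6 * W) + 1 := by
      have : (M' + 3) * (6 * W) ≤ (M' + 4) * (6 * W) := Nat.mul_le_mul_right _ (by omega)
      omega
    have hn1 := fin_factor hn hlen
    obtain ⟨e, v, e', hs, hc, he, he'⟩ := closed_factor (P := P) hW (j := M' + 3) (by omega)
      (f := fun z => f (1 + z)) (fun h => hn1 h.null)
      ((first_iff_pos (fin_ok hn (mem_mkW.2 ⟨1, by omega, rfl⟩))).2 hp1)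
    have hv : ¬ (sys W P).Null v := fun h => hn1 (hs ▸ h.ctx e e')
    have hl := congrArg List.length hs
    simp only [length_mkW, List.length_append] at hl
    obtain ⟨a, ha, hea⟩ : ∃ a, a ≤ 1 ∧ e.length = a * (6 * W) := by
      split_ifs at he
      · exact ⟨0, by omega, by omega⟩
      · exact ⟨1, by omega, by omega⟩
    have he2 : e'.length ≤ 6 * W := by split_ifs at he' <;> omega
    have hv2 : (M' + 2 - a) * (6 * W) ≤ v.length := by
      have : (M' + 3) * (6 * W) = (M' + 2 - a) * (6 * W) + a * (6 * W) + 6 * W := by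
        rw [← add_mul, Nat.sub_add_cancel (by omega)]; ring
      omega
    obtain ⟨V, hV⟩ := exists_rep hG hc (by
      have : 2 * (6 * W) ≤ (M' + 2 - a) * (6 * W) := Nat.mul_le_mul_right _ (by omega)
      omega) hv
    have hVl : M' + 2 - a ≤ V.length := by
      rw [hV.length] at hv2
      exact Nat.le_of_mul_le_mul_right hv2 (by omega)
    have hVn : ¬ (sys (2 ^ W) P).Null (mkW V.length fun z => V.getD z default) := by
      rw [mkW_getD]; exact fun h => hv ((rep_null_iff hG hV).2 h)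
    have hdec : ∀ j, j ≤ M' → (decS W fun i => (f (1 + (j + 1) * (6 * W) + i)).k.c.st.scol) =
        (V.getD (1 - a + j) default).k.c.st := by
      intro j hj
      have hj' : 1 - a + j < V.length := by omega
      refine decS_eq hG.big (fin_ok hVn (mem_mkW.2 ⟨_, hj', rfl⟩)) fun i hi => ?_
      rw [← rep_scol hG hV hj' hi]
      have h1 : (j + 1) * (6 * W) = a * (6 * W) + (1 - a + j) * (6 * W) := by
        rw [← add_mul]; congr 1; omega
      have h2 : (1 - a + j + 1) * (6 * W) ≤ v.length := by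
        rw [hV.length]; exact Nat.mul_le_mul_right _ hj'
      rw [add_mul _ 1] at h2
      have h3 := congrArg (fun l => l.getD ((j + 1) * (6 * W) + i) default) hs
      rw [getD_mkW (by omega), List.getD_append _ _ _ _ (by rw [List.length_append]; omega),
        List.getD_append_right _ _ _ _ (by omega)] at h3
      rw [add_assoc, h3]
      congr 5
      omega
    have hq := hψ _ (length_mkW _ _) (fin_factor hVn (a := 1 - a) (n := M' + 1) (by omega))
    rw [fin_tail, fin_dropLast, fin_map, fin_map] at hq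
    have E0 : (mkW M' fun j => decS W fun i => (f (1 + (j + 1) * (6 * W) + i)).k.c.st.scol) =
        mkW M' fun z => (V.getD (1 - a + z) default).k.c.st :=
      mkW_congr fun j hj => hdec j hj.le
    have E1 : (mkW M' fun j => decS W fun i =>
        (f (6 * W + (j + 1) * (6 * W) + i + 1)).k.c.st.scol) =
        mkW M' fun z => (V.getD (1 - a + (z + 1)) default).k.c.st := by
      refine mkW_congr fun j hj => ?_
      rw [← hdec (j + 1) hj]
      refine decS_congr fun i _ => ?_
      rw [add_mul (j + 1) 1]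
      congr 5
      omega
    rw [E0, E1]
    have hq' := (Int.ModEq.mul_left' (c := 6 * (W : ℤ)) hq).sub_right (6 * (W : ℤ))
    push_cast
    refine hq'.trans ?_
    rw [show ∀ a b : ℤ, a * (b + 1) - a = a * b - 1 + 1 by intros; ring]

theorem odoS_pow {n₀ : ℕ} (hG : ∀ n, n₀ ≤ n → Good (2 ^ n) P) (k : ℕ) {n : ℕ} (hn : n₀ ≤ n) :
    ∃ m, 6 ^ k ∣ m ∧ OdoS (2 ^ n) P m := by
  induction k generalizing n with
  | zero => exact ⟨1, by simp, odoS_one⟩
  | succ k ih =>
    obtain ⟨m, h1, h2⟩ := ih (n := 2 ^ n) (hn.trans Nat.lt_two_pow_self.le)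
    refine ⟨_, ?_, odoS_step (hG n hn) h2⟩
    rw [pow_succ', mul_assoc]
    exact Nat.mul_dvd_mul_left _ (h1.mul_left _)

theorem odo_of_odoS {m m' : ℕ} (h : OdoS W P m) (hd : m' ∣ m) : (sys W P).Odo m' := by
  obtain ⟨M, ψ, hM, h⟩ := h
  refine ⟨M, fun w => ((ψ ((w.take M).map fun y => y.k.c.st) : ℤ) : ZMod m'), hM, ?_, ?_, ?_⟩
  · intro w w' hw
    simp only [List.map_take]
    rw [Sys.Eqv.map_eq (st := fun y : Let => y.k.c.st) (fun _ _ _ _ h => move_st h) hw]
  · intro w v hw
    simp only [List.take_append_of_le_length hw]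
  · intro a w hw hn
    have h1 := h (a :: w.take M) (by simp [hw]) fun h' => hn (by
      simpa using h'.ctx [] (w.drop M))
    have h2 : (a :: w.take M).dropLast = (a :: w).take M := by
      rw [← List.take_succ_cons, List.dropLast_eq_take, List.take_take]
      congr 1
      simp only [List.length_take, List.length_cons]
      omega
    rw [h2, List.tail_cons] at h1
    have h3 := (ZMod.intCast_eq_intCast_iff _ _ m').2 (h1.of_dvd (Int.natCast_dvd_natCast.2 hd))
    simpa using h3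

theorem algebra_main :
    ∃ (R : Type) (_ : Ring R) (_ : Algebra (ZMod 2) R) (𝒜 : ℕ → Submodule (ZMod 2) R)
      (_ : GradedAlgebra 𝒜), Nice 𝒜 ∧ 𝒜 0 = 1 ∧
      ∃ (m : ℕ) (rel : Finset (FreeAlgebra (ZMod 2) (Fin m) × FreeAlgebra (ZMod 2) (Fin m))),
        Nonempty (R ≃ₐ[ZMod 2] RingQuot fun x y : FreeAlgebra (ZMod 2) (Fin m) => (x, y) ∈ rel) := by
  obtain ⟨n₀, P, hG⟩ := exists_good
  refine alg_main (sys (2 ^ n₀) P) (ok_finite _ _) (fun k => long_words hG k le_rfl)
    (nil_all hG le_rfl) fun k => ?_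
  obtain ⟨m, hm, h⟩ := odoS_pow hG k (le_refl n₀)
  exact ⟨odo_of_odoS h ((pow_dvd_pow_of_dvd (by norm_num) k).trans hm),
    odo_of_odoS h ((pow_dvd_pow_of_dvd (by norm_num) k).trans hm)⟩

end Crest.Agent.R176.M
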