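import Crest.Agent.R176.ADefs

/-!
# Row 176 A: local facts about the rules and the encoding  (subtask ALocal)

`actR_inj`: the case of `ActR` is determined by `(h', c')` (zone, offset, `i`, `κ`, `sd` are never
changed; `x` is unchanged in the compare case, `q, σ` in the lookup case, so `Fire h c ↔ Fire h' c'`);
in the first case `dbl`, `ovf` determine `2 x + b`.  Work with `cases`/`Head.ext_iff`,
`Sym.ext_iff`, `Cell.ext_iff`; `cd`, `cS`, `cT` are irreducible, never unfold them.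
`card_ok`: `y ↦ (encS, encD W, tok)` is injective on letters, with values `< W`.
-/

set_option autoImplicit false

namespace Crest.Agent.R176.M

variable {W : ℕ} {P : ℕ → ℕ}

theorem swp_swp (κ : Bool) (c : Cell) : swp κ (swp κ c) = c := by
  by_cases h0 : c.st.zone = 0
  · simp [swp, h0]
  · by_cases h1 : c.st.zone = 1 ∧ κ = true
    · obtain ⟨h1, rfl⟩ := h1
      simp [swp, h1]
    · simp only [swp, h0, h1, if_false]

theorem swp_st (κ : Bool) (c : Cell) : (swp κ c).st = c.st := by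
  unfold swp; split_ifs <;> rfl

theorem loc_actR_keep {h h' : Head} {c c' : Cell} (ha : ActR W h c h' c') :
    h'.ph = h.ph ∧ h'.o = h.o ∧ h'.κ = h.κ ∧ h'.sd = h.sd ∧ h'.i = h.i ∧ c'.st = c.st := by
  rcases ha with ⟨-, -, -, -, -, -, -, -, -, g, rfl, rfl⟩ | ⟨-, -, -, -, -, g, rfl, rfl⟩ |
    ⟨-, -, -, -, -, -, g, rfl, rfl⟩ | ⟨-, -, -, -, -, -, g, rfl, rfl⟩ | ⟨-, -, -, -, rfl, rfl⟩ |
    ⟨-, -, -, -, rfl, rfl⟩ | ⟨-, -, -, -, -, rfl, rfl⟩ | ⟨-, rfl, rfl⟩ <;>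
  exact ⟨rfl, rfl, rfl, rfl, rfl, rfl⟩

theorem act_keep {h h' : Head} {c c' : Cell} (ha : ActH W h c h' c') :
    h'.ph = h.ph ∧ h'.o = h.o ∧ h'.κ = h.κ ∧ h'.sd = h.sd ∧ h'.i = h.i ∧ c'.st = c.st := by
  rcases ha with ⟨-, ha⟩ | ⟨-, rfl, rfl⟩
  · exact loc_actR_keep ha
  · exact ⟨rfl, rfl, rfl, rfl, rfl, swp_st _ _⟩

/-- inverse of `dbl` -/
def locUn (W x : ℕ) (t : Bool) : ℕ := (x + if t then W else 0) / 2

theorem locUn_dbl (x : ℕ) (b : Bool) : locUn W (dbl W x b) (ovf W x b) = x := by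
  unfold locUn dbl ovf
  have : b.toNat ≤ 1 := Bool.toNat_le b
  by_cases h : W ≤ 2 * x + b.toNat
  · simp only [h, if_true, decide_true]; omega
  · simp only [h, if_false, decide_false, Bool.false_eq_true]; omega

open Classical in
/-- inverse of the right action -/
noncomputable def locUnR (W : ℕ) (h : Head) (c : Cell) : Head × Cell :=
  if c.st.zone = 0 ∧ c.st.off = h.i then
    (if h.sd = false then
      ({ h with
        σ := { h.σ with κ := false, last := false, tx := false, ts := false, pL := pz },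
        x := locUn W h.x h.σ.tx, s := locUn W h.s h.σ.ts }, { c with gs := dz })
    else ({ h with σ := { h.σ with pR := pz } }, { c with gs := dz }))
  else if c.st.zone = 1 ∧ c.st.off = h.i ∧ h.κ = true then
    (if h.sd = false then ({ h with σ := { h.σ with tL := (false, false) } }, { c with tg := false })
    else ({ h with σ := { h.σ with tR := (false, false) } }, { c with tg := false }))
  else if c.st.zone = 2 ∧ h.sd = false ∧ c.st.off = h.x then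
    ({ h with σ := { h.σ with eq := false } }, c)
  else if c.st.zone = 2 ∧ h.sd = true ∧ c.st.off = h.q * cS + cd h.σ then ({ h with r := 0 }, c)
  else if c.st.zone = 3 ∧ h.sd = true ∧ c.st.off = h.i then
    ({ h with q := c.hq, r := h.q, σ := c.hσ }, { c with hq := 0, hσ := Sym.z })
  else (h, c)

theorem loc_unR {h h' : Head} {c c' : Cell} (a : ActR W h c h' c') : locUnR W h' c' = (h, c) := by
  obtain ⟨ph, o, κ, sd, ⟨a1, a2, a3, a4, a5, a6, a7, a8, a9⟩, i, q, r, x, s⟩ := h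
  obtain ⟨⟨zn, sc, off, sv⟩, mem, gs, tb, tg, hσ, hq⟩ := c
  rcases a with ⟨h1, h2, h3, h4, h5, h6, h7, h8, h9, g, rfl, rfl⟩ |
    ⟨h1, h2, h3, h4, h5, g, rfl, rfl⟩ |
    ⟨h1, h2, h3, h4, h5, h6, g, rfl, rfl⟩ | ⟨h1, h2, h3, h4, h5, h6, g, rfl, rfl⟩ |
    ⟨h1, h2, h3, h4, rfl, rfl⟩ |
    ⟨h1, h2, h3, h4, rfl, rfl⟩ | ⟨h1, h2, h3, h4, h5, rfl, rfl⟩ | ⟨h1, rfl, rfl⟩
  · simp only at h1 h2 h3 h4 h5 h6 h7 h8 h9
    subst h1 h2 h3 h4 h5 h6 h7 h8 h9
    simp [locUnR, locUn_dbl]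
  · simp only at h1 h2 h3 h4 h5
    subst h1 h2 h3 h4 h5
    simp [locUnR]
  · simp only at h1 h2 h3 h4 h5 h6
    subst h1 h2 h3 h4 h5 h6
    simp [locUnR]
  · simp only at h1 h2 h3 h4 h5 h6
    subst h1 h2 h3 h4 h5 h6
    simp [locUnR]
  · simp only at h1 h2 h3 h4
    subst h1 h2 h3 h4
    simp [locUnR]
  · simp only at h1 h2 h3 h4
    subst h1 h2 h3 h4
    simp [locUnR]
  · simp only at h1 h2 h3 h4 h5
    subst h1 h2 h3 h4 h5
    simp [locUnR]
  · simp only [Fire, not_or] at h1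
    obtain ⟨e1, e2, e3, e4, e5⟩ := h1
    simp only [locUnR, e1, e2, e3, e4, e5, if_false]

theorem actR_inj {h₁ h₂ h' : Head} {c₁ c₂ c' : Cell} (a₁ : ActR W h₁ c₁ h' c')
    (a₂ : ActR W h₂ c₂ h' c') : h₁ = h₂ ∧ c₁ = c₂ := by
  have := (loc_unR a₁).symm.trans (loc_unR a₂)
  exact ⟨congrArg Prod.fst this, congrArg Prod.snd this⟩

theorem act_inj {h₁ h₂ h' : Head} {c₁ c₂ c' : Cell} (a₁ : ActH W h₁ c₁ h' c')
    (a₂ : ActH W h₂ c₂ h' c') : h₁ = h₂ ∧ c₁ = c₂ := by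
  have k₁ := act_keep a₁
  have k₂ := act_keep a₂
  rcases a₁ with ⟨p₁, a₁⟩ | ⟨p₁, rfl, e₁⟩ <;> rcases a₂ with ⟨p₂, a₂⟩ | ⟨p₂, e, e₂⟩
  · exact actR_inj a₁ a₂
  · rw [← k₁.1, k₂.1, p₂] at p₁; cases p₁
  · rw [k₂.1, p₂] at p₁; cases p₁
  · subst e
    refine ⟨rfl, ?_⟩
    rw [← swp_swp h'.κ c₁, ← e₁, e₂, swp_swp]

open Classical in
/-- the right action as a function of the guesses -/
noncomputable def locFwR (W : ℕ) (h : Head) (c : Cell) (g : DCol) (t : Bool) : Head × Cell :=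
  if c.st.zone = 0 ∧ c.st.off = h.i then
    (if h.sd = false then
      ({ h with
        σ := { h.σ with
          κ := h.κ, last := decide (c.st.off + 1 = W), tx := ovf W h.x (c.st.scol .off),
          ts := ovf W h.s (c.st.scol .sv), pL := part h.o c.st.scol c.mem g },
        x := dbl W h.x (c.st.scol .off), s := dbl W h.s (c.st.scol .sv) }, { c with gs := g })
    else ({ h with σ := { h.σ with pR := part h.o c.st.scol c.mem g } }, { c with gs := g }))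
  else if c.st.zone = 1 ∧ c.st.off = h.i ∧ h.κ = true then
    (if h.sd = false then ({ h with σ := { h.σ with tL := tpair h.o c.tb t } }, { c with tg := t })
    else ({ h with σ := { h.σ with tR := tpair h.o c.tb t } }, { c with tg := t }))
  else if c.st.zone = 2 ∧ h.sd = false ∧ c.st.off = h.x then
    ({ h with σ := { h.σ with eq := decide (c.st.sv = h.s) } }, c)
  else if c.st.zone = 2 ∧ h.sd = true ∧ c.st.off = h.q * cS + cd h.σ then
    ({ h with r := c.st.sv }, c)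
  else if c.st.zone = 3 ∧ h.sd = true ∧ c.st.off = h.i then
    ({ h with q := h.r, r := 0, σ := Sym.z }, { c with hq := h.q, hσ := h.σ })
  else (h, c)

theorem loc_fwR {h h' : Head} {c c' : Cell} (a : ActR W h c h' c') :
    locFwR W h c c'.gs c'.tg = (h', c') := by
  rcases a with ⟨h1, h2, h3, -, -, -, -, -, -, g, rfl, rfl⟩ |
    ⟨h1, h2, h3, -, -, g, rfl, rfl⟩ |
    ⟨h1, h2, h3, h4, -, -, g, rfl, rfl⟩ | ⟨h1, h2, h3, h4, -, -, g, rfl, rfl⟩ |
    ⟨h1, h2, h3, -, rfl, rfl⟩ |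
    ⟨h1, h2, h3, -, rfl, rfl⟩ | ⟨h1, h2, h3, -, -, rfl, rfl⟩ | ⟨h1, rfl, rfl⟩
  · simp [locFwR, h1, h2, h3]
  · simp [locFwR, h1, h2, h3]
  · simp [locFwR, h1, h2, h3, h4]
  · simp [locFwR, h1, h2, h3, h4]
  · simp [locFwR, h1, h2, h3]
  · simp [locFwR, h1, h2, h3]
  · simp [locFwR, h1, h2, h3]
  · simp only [Fire, not_or] at h1
    obtain ⟨e1, e2, e3, e4, e5⟩ := h1
    simp only [locFwR, e1, e2, e3, e4, e5, if_false]

/-- forward determinism up to the guess -/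
theorem act_det {h h₁ h₂ : Head} {c c₁ c₂ : Cell} (a₁ : ActH W h c h₁ c₁) (a₂ : ActH W h c h₂ c₂)
    (hg : c₁.gs = c₂.gs) (ht : c₁.tg = c₂.tg) : h₁ = h₂ ∧ c₁ = c₂ := by
  rcases a₁ with ⟨p₁, a₁⟩ | ⟨p₁, rfl, e₁⟩ <;> rcases a₂ with ⟨p₂, a₂⟩ | ⟨p₂, e, e₂⟩
  · have e₁ := loc_fwR a₁
    rw [hg, ht, loc_fwR a₂] at e₁
    exact ⟨(congrArg Prod.fst e₁).symm, (congrArg Prod.snd e₁).symm⟩
  · rw [p₂] at p₁; cases p₁
  · rw [p₂] at p₁; cases p₁
  · exact ⟨e.symm, e₁.trans e₂.symm⟩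

theorem mvR_det {y y' z₁ z₁' z₂ z₂' : Core} (a₁ : MvR W y y' z₁ z₁') (a₂ : MvR W y y' z₂ z₂')
    (hg : z₁.c.gs = z₂.c.gs) (ht : z₁.c.tg = z₂.c.tg) : z₁ = z₂ ∧ z₁' = z₂' := by
  obtain ⟨h, h₁, e, a, -, -, -, f, c, f'⟩ := a₁
  obtain ⟨k, k₁, e', a', -, -, -, g, d, g'⟩ := a₂
  rw [e] at e'
  cases e'
  obtain ⟨rfl, ec⟩ := act_det a a' hg ht
  exact ⟨Core.ext ec (f.trans g.symm), Core.ext (c.trans d.symm) (f'.trans g'.symm)⟩

theorem mvL_det {y y' z₁ z₁' z₂ z₂' : Core} (a₁ : MvL y y' z₁ z₁') (a₂ : MvL y y' z₂ z₂') :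
    z₁ = z₂ ∧ z₁' = z₂' := by
  obtain ⟨h, e, -, -, -, -, c, c', f', f⟩ := a₁
  obtain ⟨k, e', -, -, -, -, d, d', g', g⟩ := a₂
  rw [e] at e'
  cases e'
  exact ⟨Core.ext (c.trans d.symm) (f.trans g.symm), Core.ext (c'.trans d'.symm) (f'.trans g'.symm)⟩

theorem commit_det {y y' z₁ z₁' z₂ z₂' : Core} (a₁ : Commit W y y' z₁ z₁')
    (a₂ : Commit W y y' z₂ z₂') : z₁ = z₂ ∧ z₁' = z₂' := by
  obtain ⟨h, e, -, -, -, -, -, -, c, f, c', f'⟩ := a₁
  obtain ⟨k, e', -, -, -, -, -, -, d, g, d', g'⟩ := a₂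
  rw [e] at e'
  cases e'
  exact ⟨Core.ext (c.trans d.symm) (f.trans g.symm), Core.ext (c'.trans d'.symm) (f'.trans g'.symm)⟩

theorem loc_adjR_inj {h k : Head} {c : Cell} (hs : h.sd = k.sd)
    (hh : h.sd = true ∧ Last W c → h.ph = .R) (hk : h.sd = true ∧ Last W c → k.ph = .R)
    (e : adjR W h c = adjR W k c) : h = k := by
  unfold adjR at e
  rw [← hs] at e
  by_cases h1 : h.sd = true ∧ Last W c
  · have p := (hh h1).trans (hk h1).symm
    rw [if_pos h1, if_pos h1] at e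
    split_ifs at e <;> simp only [Head.ext_iff] at e ⊢
    · exact ⟨p, e.2.1, e.2.2.1, hs, e.2.2.2.2⟩
    · cases e.1
    · cases e.1
    · exact ⟨p, e.2.1, e.2.2.1, hs, e.2.2.2.2.1, by omega, e.2.2.2.2.2.2⟩
  · rw [if_neg h1, if_neg h1] at e
    simp only [Head.ext_iff] at e ⊢
    exact ⟨e.1, e.2.1, e.2.2.1, hs, e.2.2.2.2⟩

theorem loc_adjL_inj {h k : Head} {c c' : Cell} (hs : h.sd = k.sd)
    (hh : h.ph = .L ∨ h.ph = .F) (hk : k.ph = .L ∨ k.ph = .F)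
    (e : adjL h c c' = adjL k c c') : h = k := by
  unfold adjL at e
  rw [← hs] at e
  by_cases h1 : (h.sd && !decide (First c')) = false ∧ First c
  · rw [if_pos h1, if_pos h1] at e
    simp only [Head.ext_iff] at e ⊢
    refine ⟨?_, e.2.1, e.2.2.1, hs, e.2.2.2.2⟩
    have := e.1
    rcases hh with hh | hh <;> rcases hk with hk | hk <;> simp [hh, hk] at this ⊢
  · rw [if_neg h1, if_neg h1] at e
    simp only [Head.ext_iff] at e ⊢
    exact ⟨e.1, e.2.1, e.2.2.1, hs, e.2.2.2.2⟩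

theorem loc_mvL_fuse {y₁ y₁' y₂ y₂' z z' : Core} (a₁ : MvL y₁ y₁' z z') (a₂ : Fuse y₂ y₂' z z') :
    False := by
  obtain ⟨h, -, -, hf, hn, -, -, c', -, f⟩ := a₁
  obtain ⟨-, -, F, -, d', -, o, κ, -, g⟩ := a₂
  rw [← d', c'] at F
  rw [f] at g
  have g := Fl.A.inj g
  unfold adjL at g
  split_ifs at g with h1 h2
  · cases congrArg Head.ph g
  · cases congrArg Head.ph g
  · exact hn ⟨congrArg Head.ph g, congrArg Head.i g, F⟩

/-- backward determinism -/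
theorem fwd_inj {y₁ y₁' y₂ y₂' z z' : Core} (a₁ : Fwd W y₁ y₁' z z') (a₂ : Fwd W y₂ y₂' z z') :
    y₁ = y₂ ∧ y₁' = y₂' := by
  rcases a₁ with a₁ | a₁ | a₁ <;> rcases a₂ with a₂ | a₂ | a₂
  · obtain ⟨h, h₁, e, a, -, hS, b, f, c, f'⟩ := a₁
    obtain ⟨k, k₁, e', a', -, kS, b', g, d, g'⟩ := a₂
    have hs : h.sd = k.sd := by rw [f] at g; exact Fl.fw.inj g
    have K := act_keep a
    have K' := act_keep a'
    have cc : y₁'.c = y₂'.c := c.symm.trans d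
    rw [f', ← cc] at g'
    rw [← cc] at kS b'
    have e₁ : h₁ = k₁ := by
      refine loc_adjR_inj (by rw [K.2.2.2.1, K'.2.2.2.1, hs]) ?_ ?_ (Fl.A.inj g')
      · rintro ⟨u, v⟩
        rw [K.1]
        rcases a with ⟨p, -⟩ | ⟨p, -⟩
        · exact p
        · exact (hS ⟨p, K.2.2.2.1 ▸ u, v⟩).elim
      · rintro ⟨u, v⟩
        rw [K'.1]
        rcases a' with ⟨p, -⟩ | ⟨p, -⟩
        · exact p
        · exact (kS ⟨p, hs ▸ K.2.2.2.1 ▸ u, v⟩).elim
    subst e₁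
    obtain ⟨rfl, ec⟩ := act_inj a a'
    exact ⟨Core.ext ec (e.trans e'.symm), Core.ext cc (b.trans b'.symm)⟩
  · obtain ⟨h, h₁, -, -, -, -, -, f, -⟩ := a₁
    obtain ⟨k, -, -, -, -, -, -, -, -, g⟩ := a₂
    rw [f] at g; cases g
  · obtain ⟨h, h₁, -, -, -, -, -, f, -⟩ := a₁
    obtain ⟨-, -, -, -, -, -, o, κ, -, g⟩ := a₂
    rw [f] at g; cases g
  · obtain ⟨h, h₁, -, -, -, -, -, f, -⟩ := a₂
    obtain ⟨k, -, -, -, -, -, -, -, -, g⟩ := a₁
    rw [f] at g; cases g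
  · obtain ⟨h, e, hp, -, -, b, c, c', f', f⟩ := a₁
    obtain ⟨k, e', kp, -, -, b', d, d', g', g⟩ := a₂
    have hs : h.sd = k.sd := by
      rw [f'] at g'
      simpa using g'
    have cc : y₁.c = y₂.c := c.symm.trans d
    have cc' : y₁'.c = y₂'.c := c'.symm.trans d'
    rw [f, ← cc, ← cc'] at g
    obtain rfl := loc_adjL_inj hs hp kp (Fl.A.inj g)
    rw [← cc'] at b'
    exact ⟨Core.ext cc (b.trans b'.symm), Core.ext cc' (e.trans e'.symm)⟩
  · exact (loc_mvL_fuse a₁ a₂).elim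
  · obtain ⟨h, h₁, -, -, -, -, -, f, -⟩ := a₂
    obtain ⟨-, -, -, -, -, -, o, κ, -, g⟩ := a₁
    rw [f] at g; cases g
  · exact (loc_mvL_fuse a₂ a₁).elim
  · obtain ⟨e, e', -, c, c', -⟩ := a₁
    obtain ⟨g, g', -, d, d', -⟩ := a₂
    exact ⟨Core.ext (c.symm.trans d) (e.trans g.symm), Core.ext (c'.symm.trans d') (e'.trans g'.symm)⟩

theorem commit_inj {y₁ y₁' y₂ y₂' z z' : Core} (a₁ : Commit W y₁ y₁' z z')
    (a₂ : Commit W y₂ y₂' z z') : y₁ = y₂ ∧ y₁' = y₂' := by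
  obtain ⟨h, e, p, o, -, -, -, b, c, -, c', f'⟩ := a₁
  obtain ⟨k, e', p', o', -, -, -, b', d, -, d', g'⟩ := a₂
  rw [f'] at g'
  have hk : h = k := by
    have := Fl.A.inj g'
    simp only [Head.ext_iff] at this ⊢
    exact ⟨p.trans p'.symm, o.trans o'.symm, this.2.2⟩
  subst hk
  refine ⟨Core.ext ?_ (e.trans e'.symm), Core.ext (c'.symm.trans d') (b.trans b'.symm)⟩
  rw [← swp_swp h.κ y₁.c, ← c, d, swp_swp]

theorem mvR_dirLeft {y y' z z' : Core} (a : MvR W y y' z z') :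
    ∃ h, z'.f = .A h ∧ DirLeft W h z'.c := by
  obtain ⟨h, h₁, -, a, hf, hS, -, -, c, f'⟩ := a
  have k := act_keep a
  have hp : h₁.ph = .R ∨ h₁.ph = .S := by
    rw [k.1]; rcases a with ⟨p, -⟩ | ⟨p, -⟩
    · exact Or.inl p
    · exact Or.inr p
  refine ⟨_, f', ?_⟩
  rw [c]
  unfold adjR DirLeft
  split_ifs with h1 h2
  · exact Or.inr ⟨Or.inr rfl, h1⟩
  · exact Or.inr ⟨Or.inl rfl, h1⟩
  · refine Or.inl ⟨hp, ?_⟩
    rintro ⟨e1, e2⟩
    simp [e2] at e1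

theorem mvL_not_dirLeft {y y' z z' : Core} (a : MvL y y' z z') (hs : Last W z.c → First z'.c) :
    ∃ h, z.f = .A h ∧ ¬ DirLeft W h z.c := by
  obtain ⟨h, -, hp, hf, -, -, c, c', -, f⟩ := a
  rw [c, c'] at hs
  refine ⟨_, f, ?_⟩
  rw [c]
  unfold adjL DirLeft
  split_ifs with h1 h2
  · simp [h1.2]
  · simp [h1.2]
  · rintro (⟨e, -⟩ | ⟨-, e1, e2⟩)
    · rcases hp with hp | hp <;> simp [hp] at e
    · simp [hs e2] at e1

theorem fuse_not_dirLeft {y y' z z' : Core} (a : Fuse y y' z z') :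
    ∃ h, z.f = .A h ∧ ¬ DirLeft W h z.c := by
  obtain ⟨-, -, -, -, -, -, o, κ, -, f⟩ := a
  exact ⟨_, f, by simp [DirLeft, start]⟩

theorem move0_st {y y' z z' : Core} (a : Move0 W y y' z z') :
    y.c.st = z.c.st ∧ y'.c.st = z'.c.st := by
  rcases a with (a | a | a) | a | a
  · obtain ⟨h, h₁, -, a, -, -, -, -, c, -⟩ := a
    exact ⟨(act_keep a).2.2.2.2.2.symm, by rw [c]⟩
  · obtain ⟨h, -, -, -, -, -, c, c', -⟩ := a
    exact ⟨by rw [c], by rw [c']⟩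
  · obtain ⟨-, -, -, c, c', -⟩ := a
    exact ⟨by rw [c], by rw [c']⟩
  · obtain ⟨h, -, -, -, -, -, -, -, c, -, c', -⟩ := a
    exact ⟨by rw [c, swp_st], by rw [c']⟩
  · obtain ⟨-, -, -, c, c', -⟩ := a
    exact ⟨by rw [c], by rw [c']⟩

theorem move_st {y y' z z' : Let} (a : (sys W P).move y y' z z') :
    y.k.c.st = z.k.c.st ∧ y'.k.c.st = z'.k.c.st := by
  rcases a with ⟨a, -⟩ | ⟨-, -, rfl, rfl⟩
  · exact move0_st a
  · exact ⟨rfl, rfl⟩

/-! encoding -/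

theorem encS_inj {a b : Stat} (h : ∀ t, encS a t = encS b t) : a = b := by
  have h1 := cd_inj (h .tag)
  simp only [Stat.tag, Prod.mk.injEq] at h1
  exact Stat.ext h1.1 h1.2 (h .off) (h .sv)

theorem enc_inj {a b : Core} (hs : ∀ t, encS a.c.st t = encS b.c.st t)
    (hd : ∀ t, encD W a t = encD W b t) : a = b := by
  have h0 := encS_inj hs
  have h1 := cd_inj (hd .tag)
  simp only [Core.tag, Prod.mk.injEq] at h1
  obtain ⟨e1, e2, e3, e4, e5, e6⟩ := h1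
  refine Core.ext (Cell.ext h0 e1 e2 e3 e4 e5 (hd .hq)) ?_
  have hi := hd .i
  have hq := hd .q
  have hr := hd .r
  have hx := hd .x
  have hs := hd .s
  simp only [encD] at hi hq hr hx hs
  revert e6 hi hq hr hx hs
  cases a.f <;> cases b.f <;> simp only [Fl.tag, Fl.hd] <;> intro e6 hi hq hr hx hs <;>
    simp_all [Head.ext_iff]

theorem encS_lt (hW : cT ≤ W) {k : Core} (hk : k.Bdd W) (t : STrk) : encS k.c.st t < W := by
  cases t
  · exact (cd_stag_lt _).trans_le hW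
  · exact hk.1.1
  · exact hk.1.2.1

theorem loc_hd_bdd (hW : 1 ≤ W) {k : Core} (hk : k.Bdd W) : k.f.hd.Bdd W := by
  have := hk.2
  revert this
  cases k.f <;> intro this
  · exact ⟨hW, hW, hW, hW, hW⟩
  · exact ⟨hW, hW, hW, hW, hW⟩
  · exact ⟨hW, hW, hW, hW, hW⟩
  · exact this _ rfl

theorem encD_lt (hW : cT ≤ W) {k : Core} (hk : k.Bdd W) (t : DTrk) : encD W k t < W := by
  have h1 : 1 ≤ W := by have := two_le_cT; omega
  have hb := loc_hd_bdd h1 hk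
  cases t
  · exact (cd_dtag_lt _).trans_le hW
  · simp only [encD]; split_ifs <;> omega
  · exact hk.1.2.2
  · exact hb.1
  · exact hb.2.1
  · exact hb.2.2.1
  · exact hb.2.2.2.1
  · exact hb.2.2.2.2

theorem bdd_of_enc {k : Core} (hs : ∀ t, encS k.c.st t < W) (hd : ∀ t, encD W k t < W) :
    k.Bdd W := by
  refine ⟨⟨hs .off, hs .sv, hd .hq⟩, fun h e => ?_⟩
  have hi := hd .i
  have hq := hd .q
  have hr := hd .r
  have hx := hd .x
  have hs := hd .s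
  simp only [encD, e, Fl.hd] at hi hq hr hx hs
  exact ⟨hi, hq, hr, hx, hs⟩

theorem Raw.Eq.refl (ρ : Raw) : ρ.Eq W ρ := fun _ _ => ⟨rfl, rfl, rfl⟩

theorem Raw.Eq.symm {ρ ρ' : Raw} (h : ρ.Eq W ρ') : ρ'.Eq W ρ :=
  fun j hj => ⟨(h j hj).1.symm, (h j hj).2.1.symm, (h j hj).2.2.symm⟩

theorem Raw.Eq.trans {ρ ρ' ρ'' : Raw} (h : ρ.Eq W ρ') (h' : ρ'.Eq W ρ'') : ρ.Eq W ρ'' :=
  fun j hj => ⟨(h j hj).1.trans (h' j hj).1, (h j hj).2.1.trans (h' j hj).2.1,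
    (h j hj).2.2.trans (h' j hj).2.2⟩

theorem Dec.of_eq {ρ ρ' : Raw} {Y : Let} (h : Dec W ρ Y) (e : ρ'.Eq W ρ) : Dec W ρ' Y :=
  ⟨h.1, e.trans h.2⟩

theorem dec_cols {Y : Let} (h : Y.Bdd (2 ^ W)) : Dec W (cols W Y) Y := ⟨h, Raw.Eq.refl _⟩

theorem loc_bits {a b : ℕ} (ha : a < 2 ^ W) (hb : b < 2 ^ W)
    (h : ∀ j, j < W → a.testBit (W - 1 - j) = b.testBit (W - 1 - j)) : a = b := by
  refine Nat.eq_of_testBit_eq fun i => ?_
  by_cases hi : i < W
  · have := h (W - 1 - i) (by omega)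
    rwa [show W - 1 - (W - 1 - i) = i by omega] at this
  · have e : 2 ^ W ≤ 2 ^ i := Nat.pow_le_pow_right (by norm_num) (by omega)
    rw [Nat.testBit_lt_two_pow (ha.trans_le e), Nat.testBit_lt_two_pow (hb.trans_le e)]

theorem loc_cT_pow (hW : cT ≤ W) : cT ≤ 2 ^ W := hW.trans Nat.lt_two_pow_self.le

theorem dec_inj (hW : cT ≤ W) {ρ : Raw} {Y Y' : Let} (h : Dec W ρ Y) (h' : Dec W ρ Y') :
    Y = Y' := by
  have e := h.2.symm.trans h'.2
  have hP := loc_cT_pow hW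
  refine Let.ext (enc_inj (W := 2 ^ W) (fun t => ?_) fun t => ?_) ?_
  · exact loc_bits (encS_lt hP h.1.1 t) (encS_lt hP h'.1.1 t) fun j hj => congrFun (e j hj).1 t
  · exact loc_bits (encD_lt hP h.1.1 t) (encD_lt hP h'.1.1 t) fun j hj => congrFun (e j hj).2.1 t
  · exact loc_bits h.1.2 h'.1.2 fun j hj => (e j hj).2.2

/-- the static columns determine the static part -/
theorem dec_st_inj (hW : cT ≤ W) {Y Y' : Let} (h : Y.Bdd (2 ^ W)) (h' : Y'.Bdd (2 ^ W))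
    (e : ∀ j, j < W → (cols W Y).sc j = (cols W Y').sc j) : Y.k.c.st = Y'.k.c.st := by
  have hP := loc_cT_pow hW
  exact encS_inj fun t =>
    loc_bits (encS_lt hP h.1 t) (encS_lt hP h'.1 t) fun j hj => congrFun (e j hj) t

theorem dec_hb (hW : 1 ≤ W) {ρ : Raw} {Y : Let} (h : Dec W ρ Y) :
    ρ.dc 0 .hb = true ↔ Y.k.f = .H := by
  rw [(h.2 0 hW).2.1]
  simp only [cols, encD]
  cases Y.k.f <;> simp [Fl.isH, Nat.testBit_two_pow_sub_one]
  omega

/-- the twelve registers of an admissible letter -/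
noncomputable def locReg (hW : cT ≤ W) (y : {y : Let // y.Bdd W}) :
    (STrk → Fin W) × (DTrk → Fin W) × Fin W :=
  (fun t => ⟨_, encS_lt hW y.2.1 t⟩, fun t => ⟨_, encD_lt hW y.2.1 t⟩, ⟨_, y.2.2⟩)

theorem locReg_inj (hW : cT ≤ W) : Function.Injective (locReg hW) := by
  intro a b h
  simp only [locReg, Prod.mk.injEq, funext_iff, Fin.mk.injEq] at h
  exact Subtype.ext (Let.ext (enc_inj h.1 h.2.1) h.2.2)

theorem loc_bdd_mono {V : ℕ} (hV : W ≤ V) {y : Let} (h : y.Bdd W) : y.Bdd V := by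
  obtain ⟨⟨⟨h1, h2, h3⟩, h4⟩, h5⟩ := h
  refine ⟨⟨⟨by omega, by omega, by omega⟩, fun k e => ?_⟩, by omega⟩
  obtain ⟨a, b, c, d, e⟩ := h4 k e
  exact ⟨by omega, by omega, by omega, by omega, by omega⟩

theorem ok_finite (W : ℕ) (P : ℕ → ℕ) : {y | (sys W P).ok y}.Finite := by
  have : Finite {y : Let // y.Bdd (max W cT)} :=
    Finite.of_injective _ (locReg_inj (le_max_right W cT))
  have h : {y : Let | y.Bdd (max W cT)}.Finite := this
  exact h.subset fun y hy => loc_bdd_mono (le_max_left _ _) hy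

theorem card_ok (hW : cT ≤ W) : Nat.card {y : Let // y.Bdd W} ≤ W ^ 12 := by
  refine (Nat.card_le_card_of_injective _ (locReg_inj hW)).trans (le_of_eq ?_)
  have h1 : Fintype.card STrk = 3 := rfl
  have h2 : Fintype.card DTrk = 8 := rfl
  simp only [Nat.card_eq_fintype_card, Fintype.card_prod, Fintype.card_fun, Fintype.card_fin, h1, h2]
  ring

theorem default_bdd (hW : 1 ≤ W) : (default : Let).Bdd W := by
  exact ⟨⟨⟨hW, hW, hW⟩, fun h e => by cases e⟩, hW⟩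

/-- (realises the equation lemmas of `run` once, for all later files) -/
theorem loc_run_succ (σ : ℕ → Sym) (j : ℕ) :
    run P σ 0 = 0 ∧ run P σ (j + 1) = P (run P σ j * cS + cd (σ j)) :=
  ⟨run.eq_1 P σ, (run.eq_def P σ (j + 1)).trans ((run.eq_def P σ (j + 1)).symm.trans (run.eq_2 P σ j))⟩

theorem Good.two_le (h : Good W P) : 2 ≤ W := two_le_cT.trans h.big

end Crest.Agent.R176.M
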