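import Crest.Agent.R176.ATraj

/-!
# Row 176 A: idle blocks  (subtask AMono)

`monoG_walk`: one `Walk` step (`Sys.step_mkW`), induction.  `monoG_swap`: walk to `z+1`, `Move1`, walk
back.  `monoG_perm`: the set of `σ : Perm (Fin W)` for which the statement holds for all bounded
`τ` is a submonoid containing the adjacent swaps (`Equiv.Perm.mclosure_swap_castSucc_succ`, write
`W = W' + 1`).  `mono_eqv`: `TokOK` makes `τ` a bijection of each window onto `[0, W)`, so `τ'` arises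
from `τ` by one permutation in each window.
`mono_of_shape`: all words `monoG W c p' τ'` in the class are not `Bad` (`Sys.bad_mkW`): `LBad` gives
`Clean (c z)`, `TabBad` the table, `Zero1` with the head at `z` gives `τ z = 0` outside the windows,
and two equal tokens in a window can be made adjacent by `monoG_perm`.  Then `c z = bc P W ρ z` for
`ρ = ⟨(c ·).st.scol, (c ·).mem, (c (W + ·)).tb⟩`.
`mono_step`: `Sys.step_mkW_inv`; only `Walk` (both directions) and `Move1` can occur.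
-/

set_option autoImplicit false

namespace Crest.Agent.R176.M

variable {W : ℕ} {P : ℕ → ℕ}

theorem bc_addr (hW : 1 ≤ W) (ρ : Raw) : AddrOK W (6 * W) (bc P W ρ) := by
  exact fun _ _ => ⟨rfl, rfl⟩

theorem bc_congr (hW : 1 ≤ W) {ρ ρ' : Raw} (h : ρ.Eq W ρ') (z : ℕ) : bc P W ρ z = bc P W ρ' z := by
  obtain ⟨h1, h2, h3⟩ := h (z % W) (Nat.mod_lt _ hW)
  simp only [bc, h1, h2, h3]

theorem bc_bdd (hG : Good W P) (ρ : Raw) (z : ℕ) : (bc P W ρ z).Bdd W := by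
  have hW : 1 ≤ W := le_trans (by norm_num) hG.two_le
  refine ⟨Nat.mod_lt _ hW, ?_, hW⟩
  simp only [bc]
  split_ifs
  · exact hG.lt _
  · exact hW

theorem addr_zone {c : ℕ → Cell} (hc : AddrOK W (6 * W) c) {z : ℕ} (hz : z < 6 * W) (k : Fin 6) :
    (c z).st.zone = k ↔ z / W = k.val := by
  have h6 : z / W < 6 := Nat.div_lt_of_lt_mul (by omega)
  rw [(hc z hz).1, Fin.ext_iff, Fin.val_ofNat, Nat.mod_eq_of_lt h6]

theorem addr_win {c : ℕ → Cell} (hc : AddrOK W (6 * W) c) {z z' : ℕ} (hz : z < 6 * W)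
    (hz' : z' < 6 * W) : Win (c z) (c z') ↔ z / W = z' / W ∧ (z' / W = 0 ∨ z' / W = 2) := by
  have h6 : z' / W < 6 := Nat.div_lt_of_lt_mul (by omega)
  unfold Win InWin
  rw [addr_zone hc hz, addr_zone hc hz', addr_zone hc hz', (hc z' hz').1, Fin.val_ofNat,
    Nat.mod_eq_of_lt h6]
  rfl

theorem bc_clean (ρ : Raw) (z : ℕ) : Clean (bc P W ρ z) := by
  refine ⟨rfl, rfl, rfl, rfl, fun h => ?_, fun h => ?_, fun h => ?_⟩
  · have : z / W ≠ 0 := fun h0 => h (by simp [bc, h0])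
    simp only [bc, if_neg this, and_self]
  · have : z / W ≠ 1 := fun h0 => h (by simp only [bc, h0]; rfl)
    simp only [bc, if_neg this]
  · have : z / W ≠ 2 := fun h0 => h (by simp only [bc, h0]; rfl)
    simp only [bc, if_neg this]

theorem bc_tab (ρ : Raw) {z : ℕ} (hz : z < 6 * W) (h : (bc P W ρ z).st.zone = 2) :
    (bc P W ρ z).st.sv = P (bc P W ρ z).st.off := by
  have h2 : z / W = 2 := (addr_zone (fun _ _ => ⟨rfl, rfl⟩) hz 2).1 h
  simp only [bc, if_pos h2]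

theorem flM_ne_A (p z : ℕ) (h : Head) : flM p z ≠ .A h := by
  unfold flM; split_ifs <;> simp

theorem flM_eq_H {p z : ℕ} : flM p z = .H ↔ z = p := by
  unfold flM
  split_ifs with h1 h2
  · simp; omega
  · simp [h2]
  · simp [h2]

theorem flM_lt {p z : ℕ} (h : z < p) : flM p z = .fw false := if_pos h

theorem flM_gt {p z : ℕ} (h : p < z) : flM p z = .bw false := by
  unfold flM; rw [if_neg (by omega), if_neg (by omega)]

theorem flM_succ {p z : ℕ} (h1 : z ≠ p) (h2 : z ≠ p + 1) : flM p z = flM (p + 1) z := by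
  by_cases h : z < p
  · rw [flM_lt h, flM_lt (by omega)]
  · rw [flM_gt (by omega), flM_gt (by omega)]

theorem mono_let_bdd {c : ℕ → Cell} (hb : ∀ z, z < 6 * W → (c z).Bdd W) {z t : ℕ} (hz : z < 6 * W)
    (ht : t < W) (p : ℕ) : (sys W P).ok ⟨⟨c z, flM p z⟩, t⟩ :=
  ⟨⟨hb z hz, fun h hh => absurd hh (flM_ne_A _ _ h)⟩, ht⟩

theorem monoG_walk (hW : 1 ≤ W) {c : ℕ → Cell} (hc : AddrOK W (6 * W) c)
    (hb : ∀ z, z < 6 * W → (c z).Bdd W) {τ : ℕ → ℕ} (hτ : ∀ z, z < 6 * W → τ z < W) {p p' : ℕ}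
    (hp : p < 6 * W) (hp' : p' < 6 * W) : (sys W P).Eqv (monoG W c p τ) (monoG W c p' τ) := by
  have key : ∀ p, p < 6 * W → (sys W P).Eqv (monoG W c 0 τ) (monoG W c p τ) := by
    intro p
    induction p with
    | zero => exact fun _ => Sys.Eqv.refl _
    | succ p ih =>
      intro hp
      refine (ih (by omega)).trans (Sys.Step.eqv (Sys.step_mkW hp ⟨Or.inl ⟨Or.inr (Or.inr
        ⟨flM_eq_H.2 rfl, flM_gt (by omega), ?_, rfl, rfl, flM_lt (by omega), flM_eq_H.2 rfl⟩),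
        rfl, rfl⟩, mono_let_bdd hb (by omega) (hτ _ (by omega)) _, mono_let_bdd hb hp (hτ _ hp) _,
        mono_let_bdd hb (by omega) (hτ _ (by omega)) _, mono_let_bdd hb hp (hτ _ hp) _⟩
        fun z _ h1 h2 => by rw [flM_succ h1 h2]))
      rw [addr_first hW hc hp, Nat.mod_eq_of_lt hp]
      omega
  exact (key p hp).symm.trans (key p' hp')

theorem monoG_swap (hW : 1 ≤ W) {c : ℕ → Cell} (hc : AddrOK W (6 * W) c)
    (hb : ∀ z, z < 6 * W → (c z).Bdd W) {τ τ' : ℕ → ℕ} (hτ : ∀ z, z < 6 * W → τ z < W) {p z : ℕ}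
    (hp : p < 6 * W) (hz : z + 1 < 6 * W) (hw : Win (c z) (c (z + 1))) (h1 : τ' z = τ (z + 1))
    (h2 : τ' (z + 1) = τ z) (h3 : ∀ y, y ≠ z → y ≠ z + 1 → τ' y = τ y) :
    (sys W P).Eqv (monoG W c p τ) (monoG W c p τ') := by
  have hτ' : ∀ y, y < 6 * W → τ' y < W := by
    intro y hy
    by_cases e1 : y = z
    · rw [e1, h1]; exact hτ _ hz
    · by_cases e2 : y = z + 1
      · rw [e2, h2]; exact hτ _ (by omega)
      · rw [h3 y e1 e2]; exact hτ y hy
  refine (monoG_walk hW hc hb hτ hp hz).trans (Sys.Eqv.trans (Sys.Step.eqv (Sys.step_mkW hz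
    ⟨Or.inr ⟨flM_eq_H.2 rfl, hw, by rw [h1], by rw [h2]⟩,
      mono_let_bdd hb (by omega) (hτ _ (by omega)) _, mono_let_bdd hb hz (hτ _ hz) _,
      mono_let_bdd hb (by omega) (hτ' _ (by omega)) _, mono_let_bdd hb hz (hτ' _ hz) _⟩
    fun y _ e1 e2 => by rw [h3 y e1 e2])) (monoG_walk hW hc hb hτ' hz hp))

/-- permute the tokens in the window `j ∈ {0, 2}` -/
def permT (W j : ℕ) (σ : Equiv.Perm (Fin W)) (τ : ℕ → ℕ) (z : ℕ) : ℕ :=
  if h : z / W = j ∧ z % W < W then τ (j * W + σ ⟨z % W, h.2⟩) else τ z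

theorem permT_of_ne {j z : ℕ} (σ : Equiv.Perm (Fin W)) (τ : ℕ → ℕ) (h : z / W ≠ j) :
    permT W j σ τ z = τ z := dif_neg fun h' => h h'.1

theorem win_div (j : ℕ) (a : Fin W) : (j * W + a) / W = j := by
  rw [Nat.add_comm, Nat.add_mul_div_right _ _ a.pos, Nat.div_eq_of_lt a.2, zero_add]

theorem win_mod (j : ℕ) (a : Fin W) : (j * W + a) % W = a := by
  rw [Nat.add_comm, Nat.add_mul_mod_self_right, Nat.mod_eq_of_lt a.2]

theorem permT_win (j : ℕ) (σ : Equiv.Perm (Fin W)) (τ : ℕ → ℕ) (a : Fin W) :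
    permT W j σ τ (j * W + a) = τ (j * W + σ a) := by
  unfold permT
  rw [dif_pos ⟨win_div j a, by rw [win_mod]; exact a.2⟩]
  congr 4
  exact Fin.ext (win_mod j a)

theorem exists_win (hW : 1 ≤ W) {j z : ℕ} (h : z / W = j) : ∃ a : Fin W, z = j * W + a :=
  ⟨⟨z % W, Nat.mod_lt _ hW⟩, by rw [← h]; exact (Nat.div_add_mod' z W).symm⟩

theorem win_lt {j : ℕ} (hj : j = 0 ∨ j = 2) (a : Fin W) : j * W + a < 6 * W := by
  have := a.2
  rcases hj with rfl | rfl <;> omega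

theorem permT_lt (hW : 1 ≤ W) {τ : ℕ → ℕ} (hτ : ∀ z, z < 6 * W → τ z < W) {j : ℕ}
    (hj : j = 0 ∨ j = 2) (σ : Equiv.Perm (Fin W)) (z : ℕ) (hz : z < 6 * W) :
    permT W j σ τ z < W := by
  by_cases h : z / W = j
  · obtain ⟨a, rfl⟩ := exists_win hW h
    rw [permT_win]; exact hτ _ (win_lt hj _)
  · rw [permT_of_ne _ _ h]; exact hτ z hz

theorem monoG_perm (hW : 1 ≤ W) {c : ℕ → Cell} (hc : AddrOK W (6 * W) c)
    (hb : ∀ z, z < 6 * W → (c z).Bdd W) {τ : ℕ → ℕ} (hτ : ∀ z, z < 6 * W → τ z < W) {p : ℕ}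
    (hp : p < 6 * W) {j : ℕ} (hj : j = 0 ∨ j = 2) (σ : Equiv.Perm (Fin W)) :
    (sys W P).Eqv (monoG W c p τ) (monoG W c p (permT W j σ τ)) := by
  obtain ⟨W', rfl⟩ : ∃ W', W = W' + 1 := ⟨W - 1, by omega⟩
  have hσ : σ ∈ Submonoid.closure (Set.range fun i : Fin W' => Equiv.swap i.castSucc i.succ) := by
    rw [Equiv.Perm.mclosure_swap_castSucc_succ]; exact Submonoid.mem_top σ
  induction hσ using Submonoid.closure_induction generalizing τ with
  | mem σ hσ =>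
    obtain ⟨i, rfl⟩ := hσ
    have e : j * (W' + 1) + i.castSucc + 1 = j * (W' + 1) + i.succ := by simp [add_assoc]
    refine monoG_swap hW hc hb hτ hp (z := j * (W' + 1) + i.castSucc) (by rw [e]; exact win_lt hj _)
      ?_ ?_ ?_ ?_
    · rw [e, addr_win hc (win_lt hj _) (win_lt hj _), win_div, win_div]
      exact ⟨rfl, hj⟩
    · rw [permT_win, Equiv.swap_apply_left, e]
    · rw [e, permT_win, Equiv.swap_apply_right]
    · intro y h1 h2
      by_cases h : y / (W' + 1) = j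
      · obtain ⟨a, rfl⟩ := exists_win hW h
        rw [permT_win, Equiv.swap_apply_of_ne_of_ne]
        · rintro rfl; exact h1 rfl
        · rintro rfl; exact h2 e.symm
      · exact permT_of_ne _ _ h
  | one =>
    have : permT (W' + 1) j 1 τ = τ := by
      funext y
      by_cases h : y / (W' + 1) = j
      · obtain ⟨a, rfl⟩ := exists_win hW h
        rw [permT_win]; rfl
      · exact permT_of_ne _ _ h
    rw [this]; exact Sys.Eqv.refl _
  | mul σ σ' _ _ ih ih' =>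
    have : permT (W' + 1) j (σ * σ') τ = permT (W' + 1) j σ' (permT (W' + 1) j σ τ) := by
      funext y
      by_cases h : y / (W' + 1) = j
      · obtain ⟨a, rfl⟩ := exists_win hW h
        rw [permT_win, permT_win, permT_win]; rfl
      · rw [permT_of_ne _ _ h, permT_of_ne _ _ h, permT_of_ne _ _ h]
    rw [this]
    exact (ih hτ).trans (ih' (permT_lt hW hτ hj σ))

theorem tokOK_permT (hW : 1 ≤ W) {τ : ℕ → ℕ} (h : TokOK W τ) {j : ℕ} (hj : j = 0 ∨ j = 2)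
    (σ : Equiv.Perm (Fin W)) : TokOK W (permT W j σ τ) := by
  refine ⟨permT_lt hW h.1 hj σ, fun z hz h0 h2 => ?_, fun z z' h1 h2 h3 => ?_⟩
  · rw [permT_of_ne _ _ (by rcases hj with rfl | rfl <;> assumption)]
    exact h.2.1 z hz h0 h2
  · by_cases e : z / W = j
    · obtain ⟨a, rfl⟩ := exists_win hW e
      obtain ⟨a', rfl⟩ := exists_win hW (h1.symm.trans e)
      rw [permT_win, permT_win] at h3
      have h4 := h.2.2 _ _ (by rw [win_div, win_div]) (by rwa [win_div]) h3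
      rw [σ.injective (Fin.ext (Nat.add_left_cancel h4))]
    · rw [permT_of_ne _ _ e, permT_of_ne _ _ (h1 ▸ e)] at h3
      exact h.2.2 z z' h1 h2 h3

theorem exists_tokOK (hW : 1 ≤ W) : ∃ τ, TokOK W τ := by
  refine ⟨fun z => if z / W = 0 ∨ z / W = 2 then z % W else 0, fun z _ => ?_,
    fun z _ h0 h2 => if_neg (by omega), fun z z' h1 h2 h3 => ?_⟩
  · dsimp only
    split_ifs
    · exact Nat.mod_lt _ hW
    · exact hW
  · simp only [if_pos h2, if_pos (h1 ▸ h2)] at h3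
    rw [← Nat.div_add_mod z W, ← Nat.div_add_mod z' W, h1, h3]

theorem MonoRaw.length {b : List Let} {ρ : Raw} (h : MonoRaw P W b ρ) : b.length = 6 * W := by
  obtain ⟨p, τ, -, -, rfl⟩ := h
  exact length_mkW _ _

theorem MonoRaw.of_eq (hW : 1 ≤ W) {b : List Let} {ρ ρ' : Raw} (h : MonoRaw P W b ρ)
    (e : ρ.Eq W ρ') : MonoRaw P W b ρ' := by
  obtain ⟨p, τ, hp, ht, rfl⟩ := h
  exact ⟨p, τ, hp, ht, by rw [funext (bc_congr (P := P) hW e)]⟩

theorem raw_eq_of_bc (hW : 1 ≤ W) {ρ ρ' : Raw} (h : ∀ z, z < 6 * W →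
    (bc P W ρ z).st = (bc P W ρ' z).st ∧ (bc P W ρ z).mem = (bc P W ρ' z).mem ∧
      (bc P W ρ z).tb = (bc P W ρ' z).tb) : ρ.Eq W ρ' := by
  intro j hj
  obtain ⟨h1, h2, -⟩ := h j (by omega)
  obtain ⟨-, -, h3⟩ := h (W + j) (by omega)
  have e1 : j / W = 0 := Nat.div_eq_of_lt hj
  have e2 : j % W = j := Nat.mod_eq_of_lt hj
  have e3 : (W + j) / W = 1 := by rw [Nat.add_div_left _ hW, e1]
  have e4 : (W + j) % W = j := by rw [Nat.add_mod_left, e2]
  have h4 := congrArg Stat.scol h1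
  simp only [bc, e1, e2, e3, e4, if_true] at h2 h3 h4
  exact ⟨h4, h2, h3⟩

theorem monoRaw_fun (hW : 1 ≤ W) {b : List Let} {ρ ρ' : Raw} (h : MonoRaw P W b ρ)
    (h' : MonoRaw P W b ρ') : ρ.Eq W ρ' := by
  obtain ⟨p, τ, -, -, rfl⟩ := h
  obtain ⟨p', τ', -, -, e⟩ := h'
  refine raw_eq_of_bc (P := P) hW fun z hz => ?_
  have : bc P W ρ z = bc P W ρ' z := congrArg (fun y : Let => y.k.c) (mkW_inj e hz)
  rw [this]
  exact ⟨rfl, rfl, rfl⟩

theorem exists_mono (hW : 1 ≤ W) (ρ : Raw) : ∃ b, MonoRaw P W b ρ := by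
  obtain ⟨τ, hτ⟩ := exists_tokOK hW
  exact ⟨_, 0, τ, by omega, hτ, rfl⟩

theorem exists_permT (hW : 1 ≤ W) {τ τ' : ℕ → ℕ} (h : TokOK W τ) (h' : TokOK W τ') {j : ℕ}
    (hj : j = 0 ∨ j = 2) : ∃ σ, ∀ z, z / W = j → permT W j σ τ z = τ' z := by
  have key : ∀ {τ : ℕ → ℕ}, TokOK W τ → ∃ e : Equiv.Perm (Fin W), ∀ a, (e a : ℕ) = τ (j * W + a) := by
    intro τ h
    let f : Fin W → Fin W := fun a => ⟨τ (j * W + a), h.1 _ (win_lt hj a)⟩
    have hf : Function.Injective f := fun a a' e => by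
      have h4 := h.2.2 _ _ (by rw [win_div, win_div]) (by rwa [win_div]) (congrArg Fin.val e)
      exact Fin.ext (Nat.add_left_cancel h4)
    exact ⟨Equiv.ofBijective f (Finite.injective_iff_bijective.1 hf), fun a => rfl⟩
  obtain ⟨e, he⟩ := key h
  obtain ⟨e', he'⟩ := key h'
  refine ⟨e⁻¹ * e', fun z hz => ?_⟩
  obtain ⟨a, rfl⟩ := exists_win hW hz
  rw [permT_win, ← he, ← he']
  simp

theorem mono_eqv (hG : Good W P) {b b' : List Let} {ρ ρ' : Raw} (h : MonoRaw P W b ρ)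
    (h' : MonoRaw P W b' ρ') (e : ρ.Eq W ρ') : (sys W P).Eqv b b' := by
  have hW : 1 ≤ W := le_trans (by norm_num) hG.two_le
  obtain ⟨p, τ, hp, ht, rfl⟩ := h.of_eq hW e
  obtain ⟨p', τ', hp', ht', rfl⟩ := h'
  obtain ⟨σ, hσ⟩ := exists_permT hW ht ht' (Or.inl rfl)
  have t1 := tokOK_permT hW ht (Or.inl rfl) σ
  obtain ⟨σ', hσ'⟩ := exists_permT hW t1 ht' (Or.inr rfl)
  have t2 := tokOK_permT hW t1 (Or.inr rfl) σ'
  have hc := bc_addr (P := P) hW ρ'
  have hb := fun z (_ : z < 6 * W) => bc_bdd hG ρ' z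
  have e1 : monoG W (bc P W ρ') p' (permT W 2 σ' (permT W 0 σ τ)) = monoG W (bc P W ρ') p' τ' := by
    refine mkW_congr fun z hz => ?_
    congr 1
    by_cases h2 : z / W = 2
    · exact hσ' z h2
    · by_cases h0 : z / W = 0
      · rw [permT_of_ne _ _ h2, hσ z h0]
      · rw [t2.2.1 z hz h0 h2, ht'.2.1 z hz h0 h2]
  rw [← e1]
  exact ((monoG_walk hW hc hb ht.1 hp hp').trans (monoG_perm hW hc hb ht.1 hp' (Or.inl rfl) σ)).trans
    (monoG_perm hW hc hb t1.1 hp' (Or.inr rfl) σ')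

theorem tokOK_swap (hW : 1 ≤ W) {τ : ℕ → ℕ} (h : TokOK W τ) {z : ℕ} (hz : z / W = (z + 1) / W) :
    TokOK W fun y => τ (Equiv.swap z (z + 1) y) := by
  have hs : ∀ y, Equiv.swap z (z + 1) y / W = y / W := by
    intro y
    rw [Equiv.swap_apply_def]
    split_ifs with h1 h2
    · rw [h1, hz]
    · rw [h2, hz]
    · rfl
  have hl : ∀ y, y < 6 * W → Equiv.swap z (z + 1) y < 6 * W := fun y hy => by
    rw [← Nat.div_lt_iff_lt_mul hW] at hy ⊢
    rwa [hs]
  exact ⟨fun y hy => h.1 _ (hl y hy), fun y hy h0 h2 => h.2.1 _ (hl y hy) (by rwa [hs]) (by rwa [hs]),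
    fun y y' h1 h2 h3 => (Equiv.swap z (z + 1)).injective
      (h.2.2 _ _ (by rwa [hs, hs]) (by rwa [hs]) h3)⟩

theorem upd_eq {α : Type} {n p : ℕ} {f g : ℕ → α} {c e : α} (hc : c = g p) (he : e = g (p + 1))
    (h : ∀ z, z < n → z ≠ p → z ≠ p + 1 → f z = g z) :
    mkW n (Function.update (Function.update f p c) (p + 1) e) = mkW n g := by
  refine mkW_congr fun z hz => ?_
  by_cases h2 : z = p + 1
  · subst h2; rw [Function.update_self, he]
  · rw [Function.update_of_ne h2]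
    by_cases h1 : z = p
    · subst h1; rw [Function.update_self, hc]
    · rw [Function.update_of_ne h1, h z hz h1 h2]

theorem mono_step (hG : Good W P) {b b' : List Let} {ρ : Raw} (h : MonoRaw P W b ρ)
    (hs : (sys W P).Step b b' ∨ (sys W P).Step b' b) : MonoRaw P W b' ρ := by
  have hW : 1 ≤ W := le_trans (by norm_num) hG.two_le
  obtain ⟨p, τ, hp, ht, rfl⟩ := h
  have hc := bc_addr (P := P) hW ρ
  obtain ⟨p₀, c, e, hp₀, hm, rfl⟩ := Sys.step_mkW_inv hs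
  rcases hm with ⟨⟨hm, tc, te⟩ | hm, -⟩ | ⟨⟨hm, tc, te⟩ | hm, -⟩
  · rcases hm with (hm | hm | hm) | hm | hm
    · obtain ⟨h, h₁, h1, -⟩ := hm
      exact absurd h1 (flM_ne_A _ _ _)
    · obtain ⟨h, h1, -⟩ := hm
      exact absurd h1 (flM_ne_A _ _ _)
    · have h1 := flM_eq_H.1 hm.1
      have h2 := flM_eq_H.1 hm.2.1
      omega
    · obtain ⟨h, h1, -⟩ := hm
      exact absurd h1 (flM_ne_A _ _ _)
    · obtain ⟨h1, -, -, h2, h3, h4, h5⟩ := hm
      obtain rfl : p₀ = p := flM_eq_H.1 h1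
      exact ⟨p₀ + 1, τ, hp₀, ht, upd_eq (Let.ext (Core.ext h2 (h4.trans (flM_lt (by omega)).symm)) tc)
        (Let.ext (Core.ext h3 (h5.trans (flM_eq_H.2 rfl).symm)) te)
        fun z _ h6 h7 => by rw [flM_succ h6 h7]⟩
  · obtain ⟨-, h1, rfl, rfl⟩ := hm
    have h2 := ((addr_win hc (by omega) hp₀).1 h1).1
    exact ⟨p, _, hp, tokOK_swap hW ht h2, upd_eq (by simp) (by simp)
      fun z _ h6 h7 => by simp only [Equiv.swap_apply_of_ne_of_ne h6 h7]⟩
  · rcases hm with (hm | hm | hm) | hm | hm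
    · obtain ⟨h, h₁, -, -, -, -, -, -, -, h1⟩ := hm
      exact absurd h1 (flM_ne_A _ _ _)
    · obtain ⟨h, -, -, -, -, -, -, -, -, h1⟩ := hm
      exact absurd h1 (flM_ne_A _ _ _)
    · obtain ⟨-, -, -, -, -, -, o, κ, -, h1⟩ := hm
      exact absurd h1 (flM_ne_A _ _ _)
    · obtain ⟨h, -, -, -, -, -, -, -, -, -, -, h1⟩ := hm
      exact absurd h1 (flM_ne_A _ _ _)
    · obtain ⟨h1, h2, -, h3, h4, -, h5⟩ := hm
      obtain rfl : p₀ + 1 = p := flM_eq_H.1 h5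
      exact ⟨p₀, τ, by omega, ht,
        upd_eq (Let.ext (Core.ext h3.symm (h1.trans (flM_eq_H.2 rfl).symm)) tc.symm)
        (Let.ext (Core.ext h4.symm (h2.trans (flM_gt (by omega)).symm)) te.symm)
        fun z _ h6 h7 => by rw [flM_succ h6 h7]⟩
  · obtain ⟨-, h1, h2, h3⟩ := hm
    have k1 : (⟨bc P W ρ p₀, flM p p₀⟩ : Core) = c.k := congrArg Let.k h2
    have k2 : (⟨bc P W ρ (p₀ + 1), flM p (p₀ + 1)⟩ : Core) = e.k := congrArg Let.k h3
    have k3 : τ p₀ = e.tok := congrArg Let.tok h2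
    have k4 : τ (p₀ + 1) = c.tok := congrArg Let.tok h3
    rw [← k1, ← k2] at h1
    have h4 := ((addr_win hc (by omega) hp₀).1 h1).1
    exact ⟨p, _, hp, tokOK_swap hW ht h4, upd_eq (Let.ext k1.symm (by simp [k4]))
      (Let.ext k2.symm (by simp [k3])) fun z _ h6 h7 => by simp only [Equiv.swap_apply_of_ne_of_ne h6 h7]⟩

theorem mono_not_bad (hG : Good W P) {b : List Let} {ρ : Raw} (h : MonoRaw P W b ρ) :
    ¬ (sys W P).Bad b := by
  have hW : 1 ≤ W := le_trans (by norm_num) hG.two_le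
  obtain ⟨p, τ, hp, ht, rfl⟩ := h
  have hc := bc_addr (P := P) hW ρ
  have hl : ∀ z, ¬ LBad W ⟨bc P W ρ z, flM p z⟩ := by
    rintro z (⟨-, h⟩ | ⟨-, h⟩ | ⟨-, h⟩ | ⟨hd, h, -⟩)
    · simp only [flM] at h; split_ifs at h; simp at h
    · simp only [flM] at h; split_ifs at h; simp at h
    · exact h (bc_clean ρ z)
    · exact flM_ne_A _ _ _ h
  intro hb
  rcases Sys.bad_mkW.1 hb with ⟨z, hz, h1⟩ | ⟨z, hz, (h1 | h1 | h1 | h1 | ⟨h1, -⟩) | h1 | h1⟩
  · exact h1 (mono_let_bdd (fun z _ => bc_bdd hG ρ z) hz (ht.1 z hz) p)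
  · exact h1 (addr_succ hW hc hz)
  · refine h1 (Or.inl ⟨?_, ?_⟩)
    · rw [addr_first hW hc hz, Nat.mod_eq_of_lt hz]; omega
    · simp only [flM]
      split_ifs <;> first | rfl | omega
  · exact hl _ h1
  · exact hl _ h1
  · rcases h1 with ⟨hd, h1, -⟩ | ⟨hd, h1, -⟩ <;> exact flM_ne_A _ _ _ h1
  · exact h1.2 (bc_tab ρ (by omega) h1.1)
  · rcases h1.2 with ⟨h2, h3⟩ | ⟨h2, h3⟩
    · obtain ⟨h4, h5⟩ := (addr_win hc (by omega) hz).1 h2
      have := ht.2.2 _ _ h4 (h4 ▸ h5) h3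
      omega
    · exact h3 (ht.2.1 _ hz (fun h => h2 (Or.inl ((addr_zone hc hz 0).2 h)))
        fun h => h2 (Or.inr ((addr_zone hc hz 2).2 h)))

theorem mono_of_shape (hG : Good W P) {b : List Let} (h : MonoSh W b) (hn : ¬ (sys W P).Null b) :
    ∃ ρ, MonoRaw P W b ρ := by
  have h2W := hG.two_le
  have hW : 1 ≤ W := by omega
  obtain ⟨c, p, τ, hp, hc, rfl⟩ := h
  have hok : ∀ z, z < 6 * W → (sys W P).ok ⟨⟨c z, flM p z⟩, τ z⟩ := fun z hz => by
    by_contra h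
    exact hn (Sys.Bad.null (Sys.bad_mkW.2 (Or.inl ⟨z, hz, h⟩)))
  have hb : ∀ z, z < 6 * W → (c z).Bdd W := fun z hz => (hok z hz).1.1
  have hτ : ∀ z, z < 6 * W → τ z < W := fun z hz => (hok z hz).2
  have nz : ∀ p' z, p' < 6 * W → z + 1 < 6 * W → ¬ (sys W P).zero ⟨⟨c z, flM p' z⟩, τ z⟩
      ⟨⟨c (z + 1), flM p' (z + 1)⟩, τ (z + 1)⟩ := fun p' z hp' hz h =>
    hn ⟨_, monoG_walk hW hc hb hτ hp hp', Sys.bad_mkW.2 (Or.inr ⟨z, hz, h⟩)⟩
  have hcl : ∀ z, z < 6 * W → Clean (c z) := by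
    intro z hz
    by_contra h
    rcases z with _ | z
    · exact nz 0 0 hz (by omega) (Or.inl (Or.inr (Or.inr (Or.inl
        (Or.inr (Or.inr (Or.inl ⟨(flM_eq_H (p := 0) (z := 0)).2 rfl, h⟩)))))))
    · exact nz (z + 1) z hz hz (Or.inl (Or.inr (Or.inr (Or.inr (Or.inl
        (Or.inr (Or.inr (Or.inl ⟨flM_eq_H.2 rfl, h⟩))))))))
  have htab : ∀ z, z < 6 * W → z / W = 2 → (c z).st.sv = P (z % W) := by
    intro z hz h2
    by_contra h
    have h3 : z < 3 * W := by rw [← Nat.div_lt_iff_lt_mul hW]; omega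
    exact nz p z hp (by omega) (Or.inr (Or.inl ⟨(addr_zone hc hz 2).2 h2, by rwa [(hc z hz).2]⟩))
  have ht : TokOK W τ := by
    refine ⟨hτ, fun z hz h0 h2 => ?_, fun z z' h1 h2 h3 => ?_⟩
    · by_contra h
      rcases z with _ | z
      · exact h0 (by simp)
      · refine nz (z + 1) z hz hz (Or.inr (Or.inr ⟨flM_eq_H.2 rfl, Or.inr ⟨?_, h⟩⟩))
        rintro (h4 | h4)
        · exact h0 ((addr_zone hc hz 0).1 h4)
        · exact h2 ((addr_zone hc hz 2).1 h4)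
    · by_contra hne
      obtain ⟨j, hj⟩ : ∃ j, z / W = j := ⟨_, rfl⟩
      rw [hj] at h1 h2
      obtain ⟨a, rfl⟩ := exists_win hW hj
      obtain ⟨a', rfl⟩ := exists_win hW h1.symm
      have hab : a ≠ a' := fun h => hne (by rw [h])
      let i0 : Fin W := ⟨0, by omega⟩
      let i1 : Fin W := ⟨1, by omega⟩
      let σ : Equiv.Perm (Fin W) := Equiv.swap i0 a * Equiv.swap i1 (Equiv.swap i0 a a')
      have s0 : σ i0 = a := by
        rw [Equiv.Perm.mul_apply, Equiv.swap_apply_of_ne_of_ne (a := i1), Equiv.swap_apply_left]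
        · simp [i0, i1]
        · rw [Ne, eq_comm, Equiv.swap_apply_eq_iff, Equiv.swap_apply_left]; exact hab.symm
      have s1 : σ i1 = a' := by
        rw [Equiv.Perm.mul_apply, Equiv.swap_apply_left, Equiv.swap_apply_self]
      have l1 := win_lt h2 i1
      refine hn ⟨_, (monoG_walk hW hc hb hτ hp l1).trans (monoG_perm hW hc hb hτ l1 h2 σ),
        Sys.bad_mkW.2 (Or.inr ⟨j * W + i0, l1, Or.inr (Or.inr ⟨flM_eq_H.2 rfl, Or.inl ⟨?_, ?_⟩⟩)⟩)⟩
      · refine (addr_win hc (win_lt h2 i0) l1).2 ?_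
        rw [win_div, win_div]
        exact ⟨rfl, h2⟩
      · change permT W j σ τ (j * W + i0) = permT W j σ τ (j * W + i1)
        rw [permT_win, permT_win, s0, s1, h3]
  refine ⟨⟨fun j => (c j).st.scol, fun j => (c j).mem, fun j => (c (W + j)).tb⟩, p, τ, hp, ht,
    mkW_congr fun z hz => ?_⟩
  obtain ⟨c1, c2, c3, c4, c5, c6, c7⟩ := hcl z hz
  rw [Ne, addr_zone hc hz] at c5 c6 c7
  have e0 : z / W = 0 → z % W = z := fun h => by
    have := Nat.div_add_mod z W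
    rw [h] at this; omega
  have e1 : z / W = 1 → W + z % W = z := fun h => by
    have := Nat.div_add_mod z W
    rw [h] at this; omega
  congr 2
  refine Cell.ext (Stat.ext (hc z hz).1 ?_ (hc z hz).2 ?_) ?_ c1 ?_ c2 c3 c4
  all_goals simp only [bc]; split_ifs with h
  · rw [e0 h]
  · exact (c5 h).1
  · exact htab z hz h
  · exact c7 h
  · rw [e0 h]
  · exact (c5 h).2
  · rw [e1 h]
  · exact c6 h

end Crest.Agent.R176.M
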