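import Crest.Agent.R176.ASim

/-!
# Row 176 A: non-null words consist of idle blocks and fused pairs  (subtask AShape)

`pos_succ`: `Succ` and the bounds give consecutive positions modulo `6W`.
`block_shape`: along a block the interfaces match (`rI (g z) = lI (g (z+1))`); `fw p` is followed by
`fw p` or a head, a head or `bw p` by `bw _`.
`parse_shape`: induction on the number of blocks; by `LBad` the first letter of a block is not
`bw true`, the last not `fw true`.  A block with `lI = (false,false)` at its start is idle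
(`MonoSh`), or `fw false … A(sd = false) bw true …` (then the next block starts with `bw false`, so is
all `bw false`), or all `fw false` (then the next block is `fw true … A(sd = true) bw false …`); the
next block exists since the word ends with `rI = (true,false)`.
`dim_of_shape`: strong induction on `meas W h.ph h.i p`.  The pair `(p-1,p)` (if `DirLeft`) or
`(p,p+1)` lies inside `d` and is in `Charge`, so there is a bounded `Fwd` predecessor; the word
`d₀` before the step is non-null and is `DimSh` with smaller `meas` (`MvR`, `MvL`), or the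
concatenation of two `MonoSh` blocks (`Fuse`; `mono_of_shape`, `Null.ctx`); then `repR_step`.
`closed_factor`: if the first flag has `lI ≠ (false,false)` the first block ends with
`rI = (true,false)`, so the second starts with `(false,false)`; dually at the end.
`nilAt_of_closed`: `van_of_factor` with `t = 6W - pos (first letter) ∈ [1, 6W]`,
`j = (|w| - t) / 6W`, `pre w = t + (6W if lI at t ≠ (false,false))`, `suf w` similarly; `t` is
invariant (`Eqv.map_eq`, `move_st`), and closedness is invariant (`exists_repR`, `repR_step`,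
`closed_of_repR`).
-/

set_option autoImplicit false

namespace Crest.Agent.R176.M

variable {W : ℕ} {P : ℕ → ℕ}

/-- position in the block -/
def pos (W : ℕ) (st : Stat) : ℕ := st.zone * W + st.off

namespace AShape

theorem nb_bdd {n : ℕ} {f : ℕ → Let} (hb : ¬ (sys W P).Bad (mkW n f)) {z : ℕ} (hz : z < n) :
    (f z).Bdd W := by
  by_contra h
  exact hb (Sys.bad_mkW.2 (Or.inl ⟨z, hz, h⟩))

theorem nb_pair {n : ℕ} {f : ℕ → Let} (hb : ¬ (sys W P).Bad (mkW n f)) {z : ℕ} (hz : z + 1 < n) :
    Succ W (f z).k.c.st (f (z + 1)).k.c.st ∧ FlagOK (f z).k (f (z + 1)).k ∧ ¬ LBad W (f z).k ∧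
      ¬ LBad W (f (z + 1)).k ∧ (Charge W (f z).k (f (z + 1)).k →
        ∃ a a' : Core, a.Bdd W ∧ a'.Bdd W ∧ Fwd W a a' (f z).k (f (z + 1)).k) := by
  have h : ¬ Zero0 W (f z).k (f (z + 1)).k := fun h =>
    hb (Sys.bad_mkW.2 (Or.inr ⟨z, hz, Or.inl h⟩))
  simp only [Zero0, not_or, not_not, not_and] at h
  exact h

theorem nb_sub {n : ℕ} {f : ℕ → Let} (hb : ¬ (sys W P).Bad (mkW n f)) (a : ℕ) {m : ℕ}
    (h : a + m ≤ n) : ¬ (sys W P).Bad (mkW m fun z => f (a + z)) := by
  intro h'
  rcases Sys.bad_mkW.1 h' with ⟨z, hz, h'⟩ | ⟨z, hz, h'⟩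
  · exact hb (Sys.bad_mkW.2 (Or.inl ⟨a + z, by omega, h'⟩))
  · exact hb (Sys.bad_mkW.2 (Or.inr ⟨a + z, by omega, h'⟩))

theorem lI_true {g : Fl} {a : Bool} (h : g.lI = (true, a)) : g = .bw a := by
  cases g <;> simp_all [Fl.lI]

theorem lI_false {g : Fl} {a : Bool} (h : g.lI = (false, a)) :
    g = .fw a ∨ g = .H ∨ ∃ hd, g = .A hd := by
  cases g <;> simp_all [Fl.lI]

end AShape

theorem pos_lt {y : Let} (h : y.Bdd W) : pos W y.k.c.st < 6 * W := by
  have h1 : y.k.c.st.off < W := h.1.1.1
  have h2 : (y.k.c.st.zone : ℕ) * W ≤ 5 * W :=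
    Nat.mul_le_mul_right W (Nat.le_of_lt_succ y.k.c.st.zone.2)
  unfold pos
  omega

theorem pos_succ {n : ℕ} {f : ℕ → Let} (hb : ¬ (sys W P).Bad (mkW n f)) {z : ℕ} (hz : z < n) :
    pos W (f z).k.c.st = (pos W (f 0).k.c.st + z) % (6 * W) := by
  induction z with
  | zero => rw [add_zero, Nat.mod_eq_of_lt (pos_lt (AShape.nb_bdd hb hz))]
  | succ z ih =>
    rw [← add_assoc, ← Nat.mod_add_mod, ← ih (by omega)]
    have h1 := pos_lt (AShape.nb_bdd hb hz)
    rcases (AShape.nb_pair hb hz).1 with ⟨h2, h3⟩ | ⟨h2, h3, h4⟩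
    · have : pos W (f (z + 1)).k.c.st = pos W (f z).k.c.st + 1 := by
        unfold pos; rw [h2, h3, add_assoc]
      rw [← this, Nat.mod_eq_of_lt h1]
    · unfold pos
      rw [h3, h4, add_assoc, h2, Fin.val_add, add_zero, ← Nat.succ_mul, Nat.mul_mod_mul_right]
      rfl

theorem first_iff_pos {y : Let} (h : y.Bdd W) : First y.k.c ↔ pos W y.k.c.st = 0 := by
  have h1 : y.k.c.st.off < W := h.1.1.1
  unfold First pos
  rw [Nat.add_eq_zero_iff, Nat.mul_eq_zero, Fin.ext_iff]
  exact and_congr_left fun _ => ⟨Or.inl, fun h => h.resolve_right (by omega)⟩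

theorem addr_of_not_bad {n : ℕ} {f : ℕ → Let} (hb : ¬ (sys W P).Bad (mkW n f))
    (h0 : First (f 0).k.c) : AddrOK W n fun z => (f z).k.c := by
  intro z hz
  have h1 := pos_succ hb hz
  rw [(first_iff_pos (AShape.nb_bdd hb (by omega))).1 h0, zero_add] at h1
  have h2 : (f z).k.c.st.off < W := (AShape.nb_bdd hb hz).1.1.1
  unfold pos at h1
  constructor
  · apply Fin.ext
    rw [Fin.val_ofNat, ← Nat.mod_mul_left_div_self, ← h1, add_comm,
      Nat.add_mul_div_right _ _ (by omega), Nat.div_eq_of_lt h2, zero_add]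
  · rw [← Nat.mod_mul_left_mod z 6 W, ← h1, add_comm, Nat.add_mul_mod_self_right,
      Nat.mod_eq_of_lt h2]

theorem block_shape {n : ℕ} (g : ℕ → Fl) (h : ∀ z, z + 1 < n → (g z).rI = (g (z + 1)).lI) :
    (∃ a, ∀ z, z < n → g z = .fw a) ∨ (∃ a, ∀ z, z < n → g z = .bw a) ∨
    ∃ p, p < n ∧ (g p = .H ∨ ∃ hd, g p = .A hd) ∧ (∀ z, z < p → g z = .fw (g p).lI.2) ∧
      ∀ z, p < z → z < n → g z = .bw (g p).rI.2 := by
  induction n with
  | zero => exact Or.inl ⟨false, fun z hz => absurd hz (Nat.not_lt_zero z)⟩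
  | succ n ih =>
    rcases Nat.eq_zero_or_pos n with rfl | hn
    · cases h0 : g 0 with
      | fw a => exact Or.inl ⟨a, fun z hz => by rwa [Nat.lt_one_iff.1 hz]⟩
      | bw a => exact Or.inr (Or.inl ⟨a, fun z hz => by rwa [Nat.lt_one_iff.1 hz]⟩)
      | H => exact Or.inr (Or.inr ⟨0, Nat.one_pos, Or.inl h0, fun z hz => by omega, fun z _ _ => by omega⟩)
      | A hd =>
        exact Or.inr (Or.inr ⟨0, Nat.one_pos, Or.inr ⟨hd, h0⟩, fun z hz => by omega, fun z _ _ => by omega⟩)
    obtain ⟨k, rfl⟩ : ∃ k, n = k + 1 := ⟨n - 1, by omega⟩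
    have h1 := (h k (by omega)).symm
    rcases ih fun z hz => h z (by omega) with ⟨a, ha⟩ | ⟨a, ha⟩ | ⟨p, hp, h2, h3, h4⟩
    · rw [ha k (by omega)] at h1
      rcases AShape.lI_false h1 with h2 | h2
      · refine Or.inl ⟨a, fun z hz => ?_⟩
        rcases Nat.lt_succ_iff_lt_or_eq.1 hz with hz | rfl
        exacts [ha z hz, h2]
      · exact Or.inr (Or.inr ⟨k + 1, by omega, h2, fun z hz => by rw [ha z hz, h1]; rfl,
          fun z _ _ => by omega⟩)
    · rw [ha k (by omega)] at h1
      refine Or.inr (Or.inl ⟨a, fun z hz => ?_⟩)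
      rcases Nat.lt_succ_iff_lt_or_eq.1 hz with hz | rfl
      exacts [ha z hz, AShape.lI_true h1]
    · refine Or.inr (Or.inr ⟨p, by omega, h2, h3, fun z hz hz' => ?_⟩)
      rcases Nat.lt_succ_iff_lt_or_eq.1 hz' with hz' | rfl
      · exact h4 z hz hz'
      · refine AShape.lI_true (h1.trans ?_)
        rcases Nat.lt_succ_iff_lt_or_eq.1 hp with hp | rfl
        · rw [h4 k hp (by omega)]; rfl
        · rcases h2 with h2 | ⟨hd, h2⟩ <;> rw [h2] <;> rfl

namespace AShape

theorem first_sub (hW : 1 ≤ W) {n : ℕ} {f : ℕ → Let} (hb : ¬ (sys W P).Bad (mkW n f))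
    (h0 : First (f 0).k.c) {b : ℕ} (h : b * (6 * W) < n) : First (f (b * (6 * W))).k.c :=
  (addr_first hW (addr_of_not_bad hb h0) h).2 (Nat.mul_mod_left _ _)

/-- the shape of the first block -/
theorem blk (hW : 1 ≤ W) {n : ℕ} {f : ℕ → Let} (hb : ¬ (sys W P).Bad (mkW n f))
    (h0 : First (f 0).k.c) (hn : 6 * W ≤ n) :
    (∀ z, z < 6 * W → (f z).k.f = .fw false) ∨ (∀ z, z < 6 * W → (f z).k.f = .bw false) ∨
    (∃ p, p < 6 * W ∧ ∀ z, z < 6 * W → (f z).k.f = flM p z) ∨
    ∃ p hd, p < 6 * W ∧ ∀ z, z < 6 * W →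
      (f z).k.f = if z < p then .fw hd.sd else if z = p then .A hd else .bw (!hd.sd) := by
  have ha := addr_of_not_bad hb h0
  rcases block_shape (n := 6 * W) (fun z => (f z).k.f) (fun z hz => by
    rcases (nb_pair hb (by omega : z + 1 < n)).2.1 with h | h
    · exact h.2
    · have := (addr_first hW ha (by omega : z + 1 < n)).1 h.1
      rw [Nat.mod_eq_of_lt hz] at this
      omega) with ⟨a, h⟩ | ⟨a, h⟩ | ⟨p, hp, h1 | ⟨hd, h1⟩, h2, h3⟩
  · cases a
    · exact Or.inl h
    · obtain ⟨k, hk⟩ : ∃ k, 6 * W = k + 2 := ⟨6 * W - 2, by omega⟩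
      refine absurd (Or.inr (Or.inl ⟨?_, h _ (by omega)⟩)) (nb_pair hb (by omega : k + 1 < n)).2.2.2.1
      exact (addr_last hW ha (by omega : k + 1 < n)).2 (by rw [Nat.mod_eq_of_lt (by omega), hk])
  · cases a
    · exact Or.inr (Or.inl h)
    · exact absurd (Or.inl ⟨h0, h _ (by omega)⟩) (nb_pair hb (by omega : 0 + 1 < n)).2.2.1
  · refine Or.inr (Or.inr (Or.inl ⟨p, hp, fun z hz => ?_⟩))
    simp only [h1] at h2 h3
    unfold flM
    split_ifs with h4 h5
    · exact h2 z h4
    · rwa [h5]
    · exact h3 z (by omega) hz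
  · refine Or.inr (Or.inr (Or.inr ⟨p, hd, hp, fun z hz => ?_⟩))
    simp only [h1] at h2 h3
    split_ifs with h4 h5
    · exact h2 z h4
    · rwa [h5]
    · exact h3 z (by omega) hz

theorem flM_lI (p : ℕ) : (flM p 0).lI = (false, false) := by
  unfold flM; split_ifs <;> first | rfl | omega

theorem flM_rI {p z : ℕ} (h : p ≤ z) : (flM p z).rI = (true, false) := by
  unfold flM; split_ifs <;> first | rfl | omega

theorem flA_lI (p : ℕ) (hd : Head) :
    (if 0 < p then Fl.fw hd.sd else if 0 = p then .A hd else .bw (!hd.sd)).lI = (false, hd.sd) := by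
  split_ifs <;> first | rfl | omega

theorem flA_rI {p z : ℕ} (h : p ≤ z) (hd : Head) :
    (if z < p then Fl.fw hd.sd else if z = p then .A hd else .bw (!hd.sd)).rI = (true, !hd.sd) := by
  split_ifs <;> first | rfl | omega

theorem blk_or (hW : 1 ≤ W) {n : ℕ} {f : ℕ → Let} (hb : ¬ (sys W P).Bad (mkW n f))
    (h0 : First (f 0).k.c) (hn : 6 * W ≤ n) :
    (f 0).k.f.lI = (false, false) ∨ (f (6 * W - 1)).k.f.rI = (true, false) := by
  rcases blk hW hb h0 hn with h | h | ⟨p, hp, h⟩ | ⟨p, hd, hp, h⟩
  · left; rw [h _ (by omega)]; rfl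
  · right; rw [h _ (by omega)]; rfl
  · left; rw [h _ (by omega), flM_lI]
  · cases hs : hd.sd
    · left; rw [h _ (by omega), flA_lI, hs]
    · right; rw [h _ (by omega), flA_rI (by omega), hs]; rfl

theorem border {n : ℕ} {f : ℕ → Let} (hb : ¬ (sys W P).Bad (mkW n f)) {z : ℕ} (hz : 0 < z)
    (hn : z < n) (h : First (f z).k.c) :
    ((f (z - 1)).k.f.rI = (true, false) ∧ (f z).k.f.lI = (false, false)) ∨
    ((f (z - 1)).k.f.rI = (true, true) ∧ (f z).k.f.lI = (true, false)) ∨
    ((f (z - 1)).k.f.rI = (false, false) ∧ (f z).k.f.lI = (false, true)) := by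
  obtain ⟨k, rfl⟩ : ∃ k, z = k + 1 := ⟨z - 1, by omega⟩
  rcases (nb_pair hb hn).2.1 with h' | h'
  · exact absurd h h'.1
  · exact h'.2

theorem parse_aux (hW : 1 ≤ W) (j : ℕ) : ∀ f : ℕ → Let, ¬ (sys W P).Bad (mkW (j * (6 * W)) f) →
    (j ≠ 0 → First (f 0).k.c ∧ (f 0).k.f.lI = (false, false) ∧
      (f (j * (6 * W) - 1)).k.f.rI = (true, false)) →
    ∃ us : List Unit, Parse (fun b _ => MonoSh W b) (fun d _ _ => DimSh W d)
      (mkW (j * (6 * W)) f) us := by
  induction j using Nat.strong_induction_on with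
  | _ j ih =>
    intro f hb h
    rcases Nat.eq_zero_or_pos j with rfl | hj
    · exact ⟨[], by rw [zero_mul]; exact Parse.nil⟩
    obtain ⟨h0, h1, h2⟩ := h hj.ne'
    have ha := addr_of_not_bad hb h0
    -- the rest after `b` blocks
    have rest : ∀ b k, j = b + k → b ≠ 0 → (f (b * (6 * W) - 1)).k.f.rI = (true, false) →
        ∃ us : List Unit, Parse (fun b _ => MonoSh W b) (fun d _ _ => DimSh W d)
          (mkW (k * (6 * W)) fun z => f (b * (6 * W) + z)) us := by
      rintro b k rfl hb0 h3
      refine ih k (by omega) _ (nb_sub hb _ (by rw [add_mul])) fun hk => ?_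
      have h4 : 0 < k * (6 * W) := Nat.mul_pos (by omega) (by omega)
      have h5 : 0 < b * (6 * W) := Nat.mul_pos (by omega) (by omega)
      have h6 : b * (6 * W) < (b + k) * (6 * W) := by rw [add_mul]; omega
      have h7 := first_sub hW hb h0 h6
      refine ⟨h7, ?_, ?_⟩
      · rcases border hb h5 h6 h7 with h8 | h8 | h8
        · exact h8.2
        · rw [h3] at h8; simp at h8
        · rw [h3] at h8; simp at h8
      · rw [← h2, add_mul, Nat.add_sub_assoc h4]
    have hj' : 6 * W ≤ j * (6 * W) := Nat.le_mul_of_pos_left _ hj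
    -- a fused pair
    have dim : ∀ k, j = 2 + k → ∀ p hd, p < 12 * W → hd.sd = decide (6 * W ≤ p) →
        (∀ z, z < 12 * W → (f z).k.f = flD W hd p z) →
        ∃ us : List Unit, Parse (fun b _ => MonoSh W b) (fun d _ _ => DimSh W d)
          (mkW (j * (6 * W)) f) us := by
      intro k hk p hd hp hs h3
      obtain ⟨us, hus⟩ := rest 2 k hk (by omega) (by
        rw [h3 _ (by omega)]
        unfold flD
        split_ifs with h4 h5
        · omega
        · rw [Fl.rI, hs, decide_eq_true (by omega)]; rfl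
        · rw [decide_eq_true (by omega)]; rfl)
      refine ⟨() :: () :: us, ?_⟩
      rw [hk, add_mul, mkW_add]
      refine Parse.dim ⟨fun z => (f z).k.c, hd, p, fun z => (f z).tok, hp, hs,
        fun z hz => ha z (by rw [hk, add_mul]; omega), ?_⟩ hus
      rw [show 2 * (6 * W) = 12 * W by omega]
      exact mkW_congr fun z hz => by rw [← h3 z hz]
    have two : (f (6 * W - 1)).k.f.rI ≠ (true, false) → ∃ k, j = 2 + k := fun h3 => by
      refine ⟨j - 2, ?_⟩
      have : j ≠ 1 := by
        rintro rfl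
        rw [one_mul] at h2
        exact h3 h2
      omega
    rcases blk hW hb h0 hj' with h3 | h3 | ⟨p, hp, h3⟩ | ⟨p, hd, hp, h3⟩
    · have h4 : (f (6 * W - 1)).k.f.rI = (false, false) := by rw [h3 _ (by omega)]; rfl
      obtain ⟨k, hk⟩ := two (by rw [h4]; simp)
      have h5 : 12 * W ≤ j * (6 * W) := by rw [hk, add_mul]; omega
      have h6 := first_sub hW hb h0 (b := 1) (by omega)
      rw [one_mul] at h6
      have h7 : (f (6 * W)).k.f.lI = (false, true) := by
        rcases border hb (by omega) (by omega) h6 with h8 | h8 | h8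
        · rw [h4] at h8; simp at h8
        · rw [h4] at h8; simp at h8
        · exact h8.2
      rcases blk hW (nb_sub hb (6 * W) (m := 6 * W) (by omega)) h6 le_rfl with
        h8 | h8 | ⟨p, hp, h8⟩ | ⟨p, hd, hp, h8⟩
      · have := h8 0 (by omega)
        rw [add_zero] at this
        rw [this] at h7; simp [Fl.lI] at h7
      · have := h8 0 (by omega)
        rw [add_zero] at this
        rw [this] at h7; simp [Fl.lI] at h7
      · have := h8 0 (by omega)
        rw [add_zero] at this
        rw [this, flM_lI] at h7; simp at h7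
      · have hs : hd.sd = true := by
          have := h8 0 (by omega)
          rw [add_zero] at this
          rw [this, flA_lI] at h7; simpa using h7
        refine dim k hk (6 * W + p) hd (by omega) (by rw [hs, decide_eq_true (by omega)])
          fun z hz => ?_
        unfold flD
        rcases lt_or_ge z (6 * W) with h9 | h9
        · rw [h3 z h9, if_pos (by omega), decide_eq_false (by omega)]
        · obtain ⟨y, rfl⟩ := Nat.exists_eq_add_of_le h9
          rw [h8 y (by omega), decide_eq_true h9, hs]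
          simp
    · rw [h3 _ (by omega)] at h1; simp [Fl.lI] at h1
    · obtain ⟨k, hk⟩ : ∃ k, j = 1 + k := ⟨j - 1, by omega⟩
      obtain ⟨us, hus⟩ := rest 1 k hk (by omega) (by rw [h3 _ (by omega), flM_rI (by omega)])
      refine ⟨() :: us, ?_⟩
      rw [hk, add_mul, mkW_add]
      refine Parse.mono ⟨fun z => (f z).k.c, p, fun z => (f z).tok, hp,
        fun z hz => ha z (by omega), ?_⟩ hus
      rw [one_mul]
      exact mkW_congr fun z hz => by rw [← h3 z hz]
    · have hs : hd.sd = false := by
        rw [h3 _ (by omega), flA_lI] at h1; simpa using h1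
      have h4 : (f (6 * W - 1)).k.f.rI = (true, true) := by
        rw [h3 _ (by omega), flA_rI (by omega), hs]; rfl
      obtain ⟨k, hk⟩ := two (by rw [h4]; simp)
      have h5 : 12 * W ≤ j * (6 * W) := by rw [hk, add_mul]; omega
      have h6 := first_sub hW hb h0 (b := 1) (by omega)
      rw [one_mul] at h6
      have h7 : (f (6 * W)).k.f.lI = (true, false) := by
        rcases border hb (by omega) (by omega) h6 with h8 | h8 | h8
        · rw [h4] at h8; simp at h8
        · exact h8.2
        · rw [h4] at h8; simp at h8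
      rcases blk hW (nb_sub hb (6 * W) (m := 6 * W) (by omega)) h6 le_rfl with
        h8 | h8 | ⟨p, hp, h8⟩ | ⟨p, hd, hp, h8⟩
      · have := h8 0 (by omega)
        rw [add_zero] at this
        rw [this] at h7; simp [Fl.lI] at h7
      · refine dim k hk p hd (by omega) (by rw [hs, decide_eq_false (by omega)]) fun z hz => ?_
        unfold flD
        rcases lt_or_ge z (6 * W) with h9 | h9
        · rw [h3 z h9, decide_eq_false (by omega), hs]
        · obtain ⟨y, rfl⟩ := Nat.exists_eq_add_of_le h9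
          rw [h8 y (by omega), decide_eq_true h9, if_neg (by omega), if_neg (by omega)]
          rfl
      · have := h8 0 (by omega)
        rw [add_zero] at this
        rw [this, flM_lI] at h7; simp at h7
      · have := h8 0 (by omega)
        rw [add_zero] at this
        rw [this, flA_lI] at h7; simp at h7

theorem getD_head {w : List Let} {a : Let} (h : w.head? = some a) : w.getD 0 default = a := by
  rw [List.getD_eq_getElem?_getD, ← List.head?_eq_getElem?, h]; rfl

theorem getD_last {w : List Let} {a : Let} (h : w.getLast? = some a) :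
    w.getD (w.length - 1) default = a := by
  rw [List.getD_eq_getElem?_getD, ← List.getLast?_eq_getElem?, h]; rfl

theorem addr_shift (hW : 1 ≤ W) {c : ℕ → Cell} (h : AddrOK W (12 * W) c) :
    AddrOK W (6 * W) fun z => c (6 * W + z) := by
  intro z hz
  obtain ⟨h1, h2⟩ := h (6 * W + z) (by omega)
  refine ⟨h1.trans (Fin.ext ?_), h2.trans ?_⟩
  · rw [Fin.val_ofNat, Fin.val_ofNat, add_comm, Nat.add_mul_div_right _ _ hW, Nat.add_mod_right]
  · rw [add_comm, Nat.add_mul_mod_self_right]

theorem flD_A {h h' : Head} {p z : ℕ} (e : flD W h p z = .A h') : z = p ∧ h' = h := by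
  unfold flD at e
  split_ifs at e with h1 h2
  exact ⟨h2, (Fl.A.inj e).symm⟩

theorem dim_aux (hG : Good W P) (t : ℕ) : ∀ (h : Head) (p : ℕ) (f : ℕ → Let),
    meas W h.ph h.i p = t → p < 12 * W → h.sd = decide (6 * W ≤ p) →
    AddrOK W (12 * W) (fun z => (f z).k.c) → (∀ z, z < 12 * W → (f z).k.f = flD W h p z) →
    ¬ (sys W P).Null (mkW (12 * W) f) → ∃ rs, RepR P W (mkW (12 * W) f) rs := by
  have hW : 1 ≤ W := le_trans one_le_two hG.two_le
  induction t using Nat.strong_induction_on with
  | _ t ih =>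
    intro h p f ht hp hs ha hf hn
    have hb : ¬ (sys W P).Bad (mkW (12 * W) f) := fun h' => hn h'.null
    have hfp : (f p).k.f = .A h := by rw [hf p hp, flD, if_neg (lt_irrefl p), if_pos rfl]
    obtain ⟨q, hq, hc⟩ : ∃ q, q + 1 < 12 * W ∧ Charge W (f q).k (f (q + 1)).k := by
      by_cases hd : DirLeft W h (f p).k.c
      · obtain ⟨q, rfl⟩ : ∃ q, p = q + 1 := by
          refine ⟨p - 1, ?_⟩
          have : p ≠ 0 := by
            rintro rfl
            rw [decide_eq_false (by omega)] at hs
            rcases hd with ⟨-, h1⟩ | ⟨-, h1, -⟩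
            · exact h1 ⟨hs, (addr_first hW ha hp).2 (Nat.zero_mod _)⟩
            · rw [hs] at h1; simp at h1
          omega
        exact ⟨q, hp, Or.inl ⟨h, hfp, hd⟩⟩
      · refine ⟨p, ?_, Or.inr ⟨h, hfp, hd⟩⟩
        by_contra h1
        rw [decide_eq_true (by omega)] at hs
        have h2 : Last W (f p).k.c := (addr_last hW ha hp).2 (by
          rw [show p = 6 * W + (6 * W - 1) by omega, Nat.add_mod_left, Nat.mod_eq_of_lt (by omega)]
          omega)
        apply hd
        cases h3 : h.ph
        · exact Or.inr ⟨Or.inl h3, hs, h2⟩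
        · exact Or.inl ⟨Or.inl h3, by simp [hs]⟩
        · exact Or.inr ⟨Or.inr h3, hs, h2⟩
        · exact Or.inl ⟨Or.inr h3, by simp [hs]⟩
    obtain ⟨a, a', hab, hab', hfw⟩ := (nb_pair hb hq).2.2.2.2 hc
    obtain ⟨g, g0, g1, g2⟩ : ∃ g : ℕ → Let, g q = ⟨a, (f q).tok⟩ ∧ g (q + 1) = ⟨a', (f (q + 1)).tok⟩ ∧
        ∀ z, z ≠ q → z ≠ q + 1 → g z = f z :=
      ⟨Function.update (Function.update f q ⟨a, (f q).tok⟩) (q + 1) ⟨a', (f (q + 1)).tok⟩,
        by rw [Function.update_of_ne (by omega), Function.update_self], Function.update_self _ _ _,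
        fun z h1 h2 => by rw [Function.update_of_ne h2, Function.update_of_ne h1]⟩
    have b0 := nb_bdd hb (by omega : q < 12 * W)
    have b1 := nb_bdd hb hq
    have hstep : (sys W P).Step (mkW (12 * W) g) (mkW (12 * W) f) := by
      refine Sys.step_mkW hq ?_ fun z _ => g2 z
      rw [g0, g1]
      exact ⟨Or.inl ⟨Or.inl hfw, rfl, rfl⟩, ⟨hab, b0.2⟩, ⟨hab', b1.2⟩, b0, b1⟩
    have hn' : ¬ (sys W P).Null (mkW (12 * W) g) := fun h' => hn (h'.of_eqv hstep.eqv.symm)
    have ha' : AddrOK W (12 * W) fun z => (g z).k.c := by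
      obtain ⟨e0, e1⟩ := move0_st (Or.inl hfw)
      intro z hz
      have : (g z).k.c.st = (f z).k.c.st := by
        by_cases h1 : z = q
        · rw [h1, g0]; exact e0
        · by_cases h2 : z = q + 1
          · rw [h2, g1]; exact e1
          · rw [g2 z h1 h2]
      simp only [this]
      exact ha z hz
    suffices ∃ rs, RepR P W (mkW (12 * W) g) rs by
      obtain ⟨rs, hrs⟩ := this
      obtain ⟨rs', h1, -⟩ := repR_step hG hrs (Or.inl hstep)
      exact ⟨rs', h1⟩
    have hF : First (f (q + 1)).k.c ↔ q + 1 = 6 * W := by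
      refine (addr_first hW ha hq).trans ⟨fun h1 => ?_, fun h1 => by rw [h1, Nat.mod_self]⟩
      obtain ⟨c, hc⟩ := Nat.dvd_of_mod_eq_zero h1
      have : c = 1 := by
        rcases c with _ | _ | c
        · omega
        · rfl
        · have : 6 * W * (c + 1 + 1) = 6 * W * c + 12 * W := by ring
          omega
      rw [hc, this, mul_one]
    rcases hfw with ⟨h₀, h₁, e1, e2, -, e4, e5, e6, e7, e8⟩ | ⟨h₀, e1, e2, -, -, e5, e6, e7, e8, e9⟩ |
      ⟨e1, e2, e3, e4, e5, e6, o, κ, -, e7⟩
    · rw [hf _ hq] at e8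
      obtain ⟨rfl, rfl⟩ := flD_A e8
      rw [hf _ (by omega), flD, if_pos (by omega)] at e6
      have e6' : h₀.sd = decide (6 * W ≤ q) := (Fl.fw.inj e6).symm
      obtain ⟨k1, -, -, k2, k3, -⟩ := act_keep e2
      have k4 : h₀.ph = .R ∨ h₀.ph = .S := e2.imp And.left And.left
      refine ih _ ?_ h₀ q g rfl (by omega) e6' ha' (fun z hz => ?_) hn'
      · rw [← ht]
        unfold adjR
        split_ifs with h1 h2
        · have k5 : h₀.ph = .R := k4.resolve_right fun h' => e4 ⟨h', k2 ▸ h1.1, h1.2⟩
          simp only [k5, meas]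
          rw [k3] at h2
          have : W * (24 * W) = h₀.i * (24 * W) + 24 * W := by rw [← Nat.succ_mul, ← h2]
          omega
        · have k5 : h₀.ph = .R := k4.resolve_right fun h' => e4 ⟨h', k2 ▸ h1.1, h1.2⟩
          simp only [k5, meas, k3, Nat.succ_mul]
          omega
        · simp only [k1, k3]
          rcases k4 with k4 | k4 <;> simp only [k4, meas] <;> omega
      · by_cases h1 : z = q
        · rw [h1, g0, flD, if_neg (lt_irrefl q), if_pos rfl]; exact e1
        · by_cases h2 : z = q + 1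
          · rw [h2, g1, flD, if_neg (by omega), if_neg (by omega)]
            refine e5.trans ?_
            rw [e6', ← e7]
            simp only [hF]
            congr 2
            rw [← Bool.decide_or, decide_eq_decide]
            omega
          · rw [g2 z h1 h2, hf z hz]
            unfold flD
            split_ifs <;> first | rfl | omega
    · rw [hf _ (by omega)] at e9
      obtain ⟨rfl, rfl⟩ := flD_A e9
      rw [hf _ hq, flD, if_neg (by omega), if_neg (by omega)] at e8
      have e8' : h₀.sd = decide (6 * W ≤ q + 1) := (Bool.not_inj (Fl.bw.inj e8)).symm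
      refine ih _ ?_ h₀ (q + 1) g rfl hq e8' ha' (fun z hz => ?_) hn'
      · rw [← ht]
        unfold adjL
        split_ifs with h1 h2
        · simp only [h2, meas]; omega
        · simp only [e2.resolve_left h2, meas]; omega
        · rcases e2 with e2 | e2 <;> simp only [e2, meas] <;> omega
      · by_cases h1 : z = q
        · rw [h1, g0, flD, if_pos (by omega)]
          refine e5.trans ?_
          rw [e8', ← e7]
          simp only [hF]
          congr 1
          rw [← decide_not, ← Bool.decide_and, decide_eq_decide]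
          omega
        · by_cases h2 : z = q + 1
          · rw [h2, g1, flD, if_neg (lt_irrefl _), if_pos rfl]; exact e1
          · rw [g2 z h1 h2, hf z hz]
            unfold flD
            split_ifs <;> first | rfl | omega
    · rw [hf _ (by omega)] at e7
      obtain ⟨rfl, -⟩ := flD_A e7
      rw [← e5, hF] at e3
      have e : mkW (12 * W) g = monoG W (fun z => (g z).k.c) q (fun z => (g z).tok) ++
          monoG W (fun z => (g (6 * W + z)).k.c) 0 fun z => (g (6 * W + z)).tok := by
        rw [show 12 * W = 6 * W + 6 * W by omega, mkW_add]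
        congr 1
        · refine mkW_congr fun z hz => ?_
          have : (g z).k.f = flM q z := by
            by_cases h1 : z = q
            · rw [h1, g0, flM, if_neg (lt_irrefl q), if_pos rfl]; exact e1
            · rw [g2 z h1 (by omega), hf z (by omega), flD, flM, if_pos (by omega),
                if_pos (by omega), decide_eq_false (by omega)]
          rw [← this]
        · refine mkW_congr fun z hz => ?_
          have : (g (6 * W + z)).k.f = flM 0 z := by
            by_cases h1 : z = 0
            · rw [h1, add_zero, ← e3, g1]; exact e2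
            · rw [g2 _ (by omega) (by omega), hf _ (by omega), flD, flM, if_neg (by omega),
                if_neg (by omega), if_neg (by omega), if_neg h1, decide_eq_true (by omega)]
              rfl
          rw [← this]
      rw [e] at hn' ⊢
      obtain ⟨ρ, h1⟩ := mono_of_shape hG ⟨_, q, _, by omega, fun z hz => ha' z (by omega), rfl⟩
        fun h' => hn' (by simpa using h'.ctx [] _)
      obtain ⟨ρ', h2⟩ := mono_of_shape hG ⟨_, 0, _, by omega, addr_shift hW ha', rfl⟩
        fun h' => hn' (by simpa using h'.ctx _ [])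
      exact ⟨_, Parse.mono h1 (Piece.parse (Or.inl ⟨ρ', h2, rfl⟩))⟩

end AShape

theorem parse_shape (hW : 1 ≤ W) {w : List Let} (hc : Closed W w) (hb : ¬ (sys W P).Bad w) :
    ∃ us : List Unit, Parse (fun b _ => MonoSh W b) (fun d _ _ => DimSh W d) w us := by
  obtain ⟨⟨j, hj⟩, ⟨a, h1, h2, h3⟩, b, h4, h5⟩ := hc
  rw [mul_comm] at hj
  have e := mkW_getD w default
  rw [hj] at e
  have := AShape.parse_aux (P := P) hW j (fun z => w.getD z default) (by rwa [e]) fun _ => by
    rw [← hj, AShape.getD_head h1, AShape.getD_last h4]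
    exact ⟨h2, h3, h5⟩
  rwa [e] at this

theorem dim_of_shape (hG : Good W P) {d : List Let} (h : DimSh W d) (hn : ¬ (sys W P).Null d) :
    ∃ rs, RepR P W d rs := by
  obtain ⟨c, hd, p, τ, hp, hs, ha, rfl⟩ := h
  exact AShape.dim_aux hG _ hd p _ rfl hp hs ha (fun _ _ => rfl) hn

theorem exists_repR (hG : Good W P) {w : List Let} (hc : Closed W w) (hn : ¬ (sys W P).Null w) :
    ∃ rs, RepR P W w rs := by
  obtain ⟨us, h⟩ := parse_shape (le_trans one_le_two hG.two_le) hc fun h' => hn h'.null
  clear hc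
  induction h with
  | nil => exact ⟨[], Parse.nil⟩
  | mono h1 _ ih =>
    obtain ⟨rs, h2⟩ := ih fun h' => hn (by simpa using h'.ctx _ [])
    obtain ⟨ρ, h3⟩ := mono_of_shape hG h1 fun h' => hn (by simpa using h'.ctx [] _)
    exact ⟨_, Parse.mono h3 h2⟩
  | dim h1 _ ih =>
    obtain ⟨rs, h2⟩ := ih fun h' => hn (by simpa using h'.ctx _ [])
    obtain ⟨rs', h3⟩ := dim_of_shape hG h1 fun h' => hn (by simpa using h'.ctx [] _)
    exact ⟨_, Parse.append h3 h2⟩

theorem exists_rep (hG : Good W P) {w : List Let} (hc : Closed W w) (hl : 12 * W ≤ w.length)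
    (hn : ¬ (sys W P).Null w) : ∃ U, Rep P W w U := by
  obtain ⟨rs, h⟩ := exists_repR hG hc hn
  refine rep_of_repR hG h ?_ hn
  have hW := hG.two_le
  rw [h.length, show 12 * W = 2 * (6 * W) by omega] at hl
  exact Nat.le_of_mul_le_mul_right hl (by omega)

open Classical in
theorem closed_factor (hW : 1 ≤ W) {j : ℕ} (hj : 3 ≤ j) {f : ℕ → Let}
    (hb : ¬ (sys W P).Bad (mkW (j * (6 * W)) f)) (h0 : First (f 0).k.c) :
    ∃ e v e', mkW (j * (6 * W)) f = e ++ v ++ e' ∧ Closed W v ∧
      e.length = (if (f 0).k.f.lI = (false, false) then 0 else 6 * W) ∧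
      e'.length = (if (f (j * (6 * W) - 1)).k.f.rI = (true, false) then 0 else 6 * W) := by
  obtain ⟨k, rfl⟩ : ∃ k, j = k + 3 := ⟨j - 3, by omega⟩
  have e1 : (k + 3) * (6 * W) = k * (6 * W) + 18 * W := by ring
  have e2 : (k + 2) * (6 * W) = k * (6 * W) + 12 * W := by ring
  obtain ⟨s, hs, h1, h2, h3⟩ : ∃ s, s ≤ 1 ∧
      s * (6 * W) = (if (f 0).k.f.lI = (false, false) then 0 else 6 * W) ∧
      First (f (s * (6 * W))).k.c ∧ (f (s * (6 * W))).k.f.lI = (false, false) := by
    split_ifs with h
    · exact ⟨0, by omega, zero_mul _, by rwa [zero_mul], by rwa [zero_mul]⟩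
    · have h1 := AShape.first_sub hW hb h0 (b := 1) (by omega)
      have h2 := (AShape.blk_or hW hb h0 (by omega)).resolve_left h
      refine ⟨1, le_rfl, one_mul _, h1, ?_⟩
      rw [one_mul] at h1 ⊢
      rcases AShape.border hb (by omega) (by omega) h1 with h3 | h3 | h3
      · exact h3.2
      · rw [h2] at h3; simp at h3
      · rw [h2] at h3; simp at h3
  obtain ⟨t, ht, h4, h5⟩ : ∃ t, t ≤ 1 ∧
      t * (6 * W) = (if (f ((k + 3) * (6 * W) - 1)).k.f.rI = (true, false) then 0 else 6 * W) ∧
      (f ((k + 3) * (6 * W) - t * (6 * W) - 1)).k.f.rI = (true, false) := by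
    split_ifs with h
    · exact ⟨0, by omega, zero_mul _, by rwa [zero_mul]⟩
    · have h4 := AShape.first_sub hW hb h0 (b := k + 2) (by omega)
      have h5 := (AShape.blk_or hW (AShape.nb_sub hb ((k + 2) * (6 * W)) (m := 6 * W) (by omega))
        h4 le_rfl).resolve_right (by
          rwa [show (k + 2) * (6 * W) + (6 * W - 1) = (k + 3) * (6 * W) - 1 by omega])
      refine ⟨1, le_rfl, one_mul _, ?_⟩
      rw [show (k + 3) * (6 * W) - 1 * (6 * W) = (k + 2) * (6 * W) by omega]
      rw [add_zero] at h5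
      rcases AShape.border hb (by omega) (by omega) h4 with h6 | h6 | h6
      · exact h6.1
      · rw [h5] at h6; simp at h6
      · rw [h5] at h6; simp at h6
  obtain ⟨m, hm⟩ : ∃ m, k + 3 = s + (m + 1) + t := ⟨k + 2 - s - t, by omega⟩
  have e3 : (k + 3) * (6 * W) = s * (6 * W) + (m * (6 * W) + 6 * W) + t * (6 * W) := by
    rw [hm]; ring
  refine ⟨mkW (s * (6 * W)) f, mkW (m * (6 * W) + 6 * W) fun z => f (s * (6 * W) + z),
    mkW (t * (6 * W)) fun z => f (s * (6 * W) + (m * (6 * W) + 6 * W) + z),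
    by rw [e3, mkW_add, mkW_add], ⟨⟨m + 1, by rw [length_mkW]; ring⟩, ⟨_, ?_, h2, h3⟩, _, ?_, h5⟩,
    by rw [length_mkW, h1], by rw [length_mkW, h4]⟩
  · rw [List.head?_eq_getElem?]
    simp [mkW, show 0 < m * (6 * W) + 6 * W by omega]
  · rw [List.getLast?_eq_getElem?, length_mkW,
      show (k + 3) * (6 * W) - t * (6 * W) - 1 = s * (6 * W) + (m * (6 * W) + 6 * W - 1) by omega]
    simp [mkW, show m * (6 * W) + 6 * W - 1 < m * (6 * W) + 6 * W by omega]

theorem closed_eqv (hG : Good W P) {v v' : List Let} (hc : Closed W v) (hn : ¬ (sys W P).Null v)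
    (h : (sys W P).Eqv v v') : Closed W v' := by
  obtain ⟨rs, h1⟩ := Sys.Eqv.induction (P := fun y => ∃ rs, RepR P W y rs)
    (fun y y' ⟨_, h1⟩ h2 => (repR_step hG h1 h2).imp fun _ h3 => h3.1) h (exists_repR hG hc hn)
  refine closed_of_repR hG h1 ?_
  rintro rfl
  have h2 := h1.length
  rw [← h.length_eq, List.length_nil, zero_mul, List.length_eq_zero_iff] at h2
  obtain ⟨-, ⟨a, h3, -⟩, -⟩ := hc
  simp [h2] at h3

theorem nilAt_of_closed (hG : Good W P) {A : Type} [Ring A] (B : Let → A) (m : ℕ)
    (h : ∀ w, Closed W w → m * (6 * W) ≤ w.length → ¬ (sys W P).Null w → (sys W P).Van B w) :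
    (sys W P).NilAt B := by
  classical
  have hW : 1 ≤ W := le_trans one_le_two hG.two_le
  refine ⟨(m + 4) * (6 * W), fun w₀ hl hn => ?_⟩
  have e0 : (m + 4) * (6 * W) = (m + 3) * (6 * W) + 6 * W := by ring
  have e1 : (m + 3) * (6 * W) = m * (6 * W) + 18 * W := by ring
  have hb : ∀ w, (sys W P).Eqv w₀ w →
      ¬ (sys W P).Bad (mkW w₀.length fun z => w.getD z default) := fun w hw => by
    rw [hw.length_eq, mkW_getD]
    exact fun h' => hn ⟨w, hw, h'⟩
  obtain ⟨t, ht, ht'⟩ : ∃ t, t ≤ 6 * W ∧ pos W (w₀.getD 0 default).k.c.st + t = 6 * W := by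
    have := pos_lt (AShape.nb_bdd (hb w₀ (Sys.Eqv.refl _)) (z := 0) (by omega))
    exact ⟨6 * W - pos W (w₀.getD 0 default).k.c.st, by omega, by omega⟩
  obtain ⟨r, hr⟩ : ∃ r, w₀.length = t + (m + 3) * (6 * W) + r :=
    ⟨w₀.length - (t + (m + 3) * (6 * W)), by omega⟩
  have dec : ∀ w, (sys W P).Eqv w₀ w → ∃ u v x, w = u ++ v ++ x ∧
      u.length = t + (if (w.getD t default).k.f.lI = (false, false) then 0 else 6 * W) ∧
      x.length = (if (w.getD (t + ((m + 3) * (6 * W) - 1)) default).k.f.rI = (true, false) then 0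
        else 6 * W) + r ∧ Closed W v := by
    intro w hw
    have h1 := hb w hw
    have h2 : (w.getD 0 default).k.c.st = (w₀.getD 0 default).k.c.st := by
      have h3 := Sys.Eqv.map_eq (st := fun y : Let => y.k.c.st) (fun _ _ _ _ => move_st) hw
      rw [← List.getD_map w default (fun y : Let => y.k.c.st), ← h3, List.getD_map]
    have h3 : First (w.getD t default).k.c := by
      rw [first_iff_pos (AShape.nb_bdd h1 (z := t) (by omega)), pos_succ h1 (z := t) (by omega), h2,
        ht', Nat.mod_self]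
    obtain ⟨e, v, e', h4, h5, h6, h7⟩ := closed_factor hW (j := m + 3) (by omega)
      (AShape.nb_sub h1 t (by omega)) h3
    refine ⟨mkW t (fun z => w.getD z default) ++ e, v,
      e' ++ mkW r fun z => w.getD (t + (m + 3) * (6 * W) + z) default, ?_,
      by rw [List.length_append, length_mkW, h6, add_zero],
      by rw [List.length_append, length_mkW, h7], h5⟩
    conv_lhs => rw [← mkW_getD w default, ← hw.length_eq, hr, mkW_add, mkW_add, h4]
    simp only [List.append_assoc]
  refine van_of_factor (ok_finite W P) B hn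
    (fun w => t + if (w.getD t default).k.f.lI = (false, false) then 0 else 6 * W)
    (fun w => (if (w.getD (t + ((m + 3) * (6 * W) - 1)) default).k.f.rI = (true, false) then 0
      else 6 * W) + r) (fun w hw => ?_) fun u v v' x hw hu hx hv => ?_
  · obtain ⟨u, v, x, rfl, h1, h2, h3⟩ := dec w hw
    refine ⟨u, v, x, rfl, h1, h2, h v h3 ?_ fun h' => hn ((h'.ctx u x).of_eqv hw)⟩
    have h4 := hw.length_eq
    rw [List.length_append, List.length_append] at h4
    split_ifs at h1 h2 <;> omega
  · obtain ⟨u₁, v₁, x₁, h0, h1, h2, h3⟩ := dec _ hw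
    obtain ⟨h4, rfl⟩ := List.append_inj' h0 (hx.trans h2.symm)
    obtain ⟨rfl, rfl⟩ := List.append_inj h4 (hu.trans h1.symm)
    obtain ⟨-, ⟨a, a1, -, a2⟩, b, b1, b2⟩ :=
      closed_eqv hG h3 (fun h' => hn ((h'.ctx u x).of_eqv hw)) hv
    have h5 := hw.length_eq
    have h6 := hv.length_eq
    have h7 : 0 < v'.length := List.length_pos_iff.2 (by rintro rfl; simp at a1)
    rw [List.length_append, List.length_append] at h5
    constructor
    · split_ifs at h1 with h8
      · rw [if_pos, h1]
        rw [List.append_assoc, List.getD_append_right _ _ _ _ (by omega), show t - u.length = 0 by omega,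
          List.getD_append _ _ _ _ h7, AShape.getD_head a1, a2]
      · rw [if_neg, h1]
        rwa [List.append_assoc, List.getD_append _ _ _ _ (by omega)] at h8 ⊢
    · split_ifs at h2 with h8
      · rw [if_pos, h2]
        rw [List.getD_append _ _ _ _ (by rw [List.length_append]; omega),
          List.getD_append_right _ _ _ _ (by omega),
          show t + ((m + 3) * (6 * W) - 1) - u.length = v'.length - 1 by omega,
          AShape.getD_last b1, b2]
      · rw [if_neg, h2]
        rw [List.getD_append_right _ _ _ _ (by rw [List.length_append]; omega),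
          List.length_append] at h8 ⊢
        rwa [← h6]

end Crest.Agent.R176.M
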