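import Crest.Agent.R176.ADim

/-!
# Row 176 A: the simulation theorem  (subtask ASim)

`Rep w U ↔ ∃ rs, RepR w rs ∧ Forall₂ (Dec W) rs U` (`rep_iff`).  `repR_step`: `Parse.locate`, then
`mono_step`, `dim_step`, `border_step`, `Parse.append`.  `repR_norm`: `dim_eqv`.
`rep_lift`: normalise to idle blocks (`Forall₂ (MonoL P W) bs U`), split `bs` along
`U = u ++ Y :: Y' :: v`, `exists_mono`, `lift_move` (either direction), `Eqv.ctx`.
`rep_null_iff`, `rep_class`: `Sys.Eqv.induction` with `P w' := ∃ U', Eqv U U' ∧ Rep w' U'` resp.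
`P U' := ∃ w', Eqv w w' ∧ Rep w' U'`; `rep_bad`, `lift_zero`.
`rep_of_repR`: after `repR_norm` every block has a neighbour; an undecodable block makes the word
null by `lift_zero`.
-/

set_option autoImplicit false

namespace Crest.Agent.R176.M

variable {W : ℕ} {P : ℕ → ℕ}

theorem sim_f2_app {α β : Type} {R : α → β → Prop} {l₁ l₂ : List α} {U : List β}
    (h : List.Forall₂ R (l₁ ++ l₂) U) :
    ∃ U₁ U₂, U = U₁ ++ U₂ ∧ List.Forall₂ R l₁ U₁ ∧ List.Forall₂ R l₂ U₂ := by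
  induction l₁ generalizing U with
  | nil => exact ⟨[], U, rfl, .nil, h⟩
  | cons a l ih =>
    obtain ⟨b, U', hab, h', rfl⟩ := List.forall₂_cons_left_iff.1 h
    obtain ⟨U₁, U₂, rfl, h1, h2⟩ := ih h'
    exact ⟨b :: U₁, U₂, rfl, .cons hab h1, h2⟩

theorem sim_f2 {α β : Type} {R : α → β → Prop} {l₁ l₂ : List α} {a b : α} {U : List β}
    (h : List.Forall₂ R (l₁ ++ a :: b :: l₂) U) :
    ∃ U₁ Y Y' U₂, U = U₁ ++ Y :: Y' :: U₂ ∧ List.Forall₂ R l₁ U₁ ∧ R a Y ∧ R b Y' ∧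
      List.Forall₂ R l₂ U₂ := by
  obtain ⟨U₁, U₂, rfl, h1, h2⟩ := sim_f2_app h
  obtain ⟨Y, U₃, h3, h4, rfl⟩ := List.forall₂_cons_left_iff.1 h2
  obtain ⟨Y', U₄, h5, h6, rfl⟩ := List.forall₂_cons_left_iff.1 h4
  exact ⟨U₁, Y, Y', U₄, rfl, h1, h3, h5, h6⟩

theorem sim_f2' {α β : Type} {R : α → β → Prop} {l₁ l₂ : List β} {a b : β} {U : List α}
    (h : List.Forall₂ R U (l₁ ++ a :: b :: l₂)) :
    ∃ U₁ Y Y' U₂, U = U₁ ++ Y :: Y' :: U₂ ∧ List.Forall₂ R U₁ l₁ ∧ R Y a ∧ R Y' b ∧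
      List.Forall₂ R U₂ l₂ := by
  obtain ⟨U₁, Y, Y', U₂, rfl, h1, h2, h3, h4⟩ := sim_f2 (R := flip R) h.flip
  exact ⟨U₁, Y, Y', U₂, rfl, h1.flip, h2, h3, h4.flip⟩

theorem sim_sym {α : Type} {S : Sys α} {w w' : List α} : S.Step w w' ∨ S.Step w' w ↔
    ∃ u v a b c d, (S.Mv a b c d ∨ S.Mv c d a b) ∧ w = u ++ a :: b :: v ∧ w' = u ++ c :: d :: v := by
  constructor
  · rintro (⟨u, v, a, b, c, d, h, rfl, rfl⟩ | ⟨u, v, a, b, c, d, h, rfl, rfl⟩)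
    · exact ⟨u, v, a, b, c, d, .inl h, rfl, rfl⟩
    · exact ⟨u, v, c, d, a, b, .inr h, rfl, rfl⟩
  · rintro ⟨u, v, a, b, c, d, h | h, rfl, rfl⟩
    · exact .inl ⟨u, v, a, b, c, d, h, rfl, rfl⟩
    · exact .inr ⟨u, v, c, d, a, b, h, rfl, rfl⟩

theorem sim_eqv {α : Type} {S : Sys α} {w w' : List α} (h : S.Step w w' ∨ S.Step w' w) :
    S.Eqv w w' := h.elim Sys.Step.eqv fun h => h.eqv.symm

theorem Good.one_le (hG : Good W P) : 1 ≤ W := le_trans (by norm_num) hG.two_le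

theorem sim_mono_ne (hG : Good W P) (b : List Let) (ρ : Raw) (h : MonoRaw P W b ρ) : b ≠ [] := by
  rintro rfl
  have := h.length
  have := hG.one_le
  simp at *; omega

theorem sim_dim_ne (hG : Good W P) (d : List Let) (ρ ρ' : Raw) (h : DimR P W d ρ ρ') : d ≠ [] := by
  rintro rfl
  obtain ⟨κ, h⟩ := h
  have := h.length
  have := hG.one_le
  simp at *; omega

theorem sim_mid {w₁ w₀ w₂ : List Let} {U₁ U₀ U₂ : List Raw} (h₁ : RepR P W w₁ U₁)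
    (h₀ : RepR P W w₀ U₀) (h₂ : RepR P W w₂ U₂) : RepR P W (w₁ ++ w₀ ++ w₂) (U₁ ++ U₀ ++ U₂) :=
  Parse.append (Parse.append h₁ h₀) h₂

theorem rep_iff {w U : List Let} :
    Rep P W w U ↔ ∃ rs, RepR P W w rs ∧ List.Forall₂ (Dec W) rs U := by
  constructor
  · intro h
    induction h with
    | nil => exact ⟨[], .nil, .nil⟩
    | mono hb _ ih =>
      obtain ⟨ρ, h1, h2⟩ := hb
      obtain ⟨rs, h3, h4⟩ := ih
      exact ⟨ρ :: rs, .mono h1 h3, .cons h2 h4⟩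
    | dim hd _ ih =>
      obtain ⟨κ, ρ, ρ', h1, h2, h2'⟩ := hd
      obtain ⟨rs, h3, h4⟩ := ih
      exact ⟨ρ :: ρ' :: rs, .dim ⟨κ, h1⟩ h3, .cons h2 (.cons h2' h4)⟩
  · rintro ⟨rs, h, hd⟩
    induction h generalizing U with
    | nil => cases hd; exact .nil
    | mono hb _ ih =>
      obtain ⟨Y, U', h1, h2, rfl⟩ := List.forall₂_cons_left_iff.1 hd
      exact .mono ⟨_, hb, h1⟩ (ih h2)
    | dim hb _ ih =>
      obtain ⟨κ, hb⟩ := hb
      obtain ⟨Y, U', h1, h2, rfl⟩ := List.forall₂_cons_left_iff.1 hd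
      obtain ⟨Y', U'', h3, h4, rfl⟩ := List.forall₂_cons_left_iff.1 h2
      exact .dim ⟨κ, _, _, hb, h1, h3⟩ (ih h4)

theorem RepR.length {w : List Let} {rs : List Raw} (h : RepR P W w rs) :
    w.length = rs.length * (6 * W) :=
  Parse.length (fun _ _ h => h.length) (fun _ _ _ ⟨_, h⟩ => h.length) h

theorem Rep.length {w U : List Let} (h : Rep P W w U) : w.length = U.length * (6 * W) :=
  Parse.length (fun _ _ ⟨_, h, _⟩ => h.length) (fun _ _ _ ⟨_, _, _, h, _⟩ => h.length) h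

theorem Rep.bdd {w U : List Let} (h : Rep P W w U) {Y : Let} (hY : Y ∈ U) : Y.Bdd (2 ^ W) := by
  induction h with
  | nil => cases hY
  | mono hb _ ih =>
    obtain ⟨ρ, -, h2⟩ := hb
    rcases List.mem_cons.1 hY with rfl | hY
    · exact h2.1
    · exact ih hY
  | dim hd _ ih =>
    obtain ⟨κ, ρ, ρ', -, h2, h2'⟩ := hd
    rcases List.mem_cons.1 hY with rfl | hY
    · exact h2.1
    rcases List.mem_cons.1 hY with rfl | hY
    · exact h2'.1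
    · exact ih hY

theorem repR_ok (hG : Good W P) {w : List Let} {rs : List Raw} (h : RepR P W w rs) {a : Let}
    (ha : a ∈ w) : a.Bdd W := by
  obtain ⟨w₀, U₀, ⟨ρ, h1, -⟩ | ⟨ρ, ρ', ⟨κ, h1⟩, -⟩, h2⟩ := Parse.mem h ha
  · by_contra hn
    exact mono_not_bad hG h1 (.inl ⟨a, h2, hn⟩)
  · exact dim_ok hG h1 h2

theorem repR_step (hG : Good W P) {w w' : List Let} {rs : List Raw} (h : RepR P W w rs)
    (hs : (sys W P).Step w w' ∨ (sys W P).Step w' w) :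
    ∃ rs', RepR P W w' rs' ∧ (rs' = rs ∨ ∃ r₁ ρ₀ ρ₁ ρ₀' ρ₁' r₂, rs = r₁ ++ ρ₀ :: ρ₁ :: r₂ ∧
      rs' = r₁ ++ ρ₀' :: ρ₁' :: r₂ ∧ Com P W ρ₀ ρ₁ ρ₀' ρ₁') := by
  obtain ⟨u, v, a, b, c, d, hm, hw, rfl⟩ := sim_sym.1 hs
  rcases Parse.locate h (sim_mono_ne hG) (sim_dim_ne hG) hw with
    ⟨w₁, U₁, u', v', U₀, w₂, U₂, h1, h0, h2, rfl, rfl, rfl⟩ |
    ⟨w₁, U₁, u', U₀, v', U₀', w₂, U₂, h1, h0, h0', h2, rfl, rfl, rfl⟩
  · have e : w₁ ++ u' ++ c :: d :: (v' ++ w₂) = w₁ ++ (u' ++ c :: d :: v') ++ w₂ := by simp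
    have hs' := sim_sym.2 ⟨u', v', a, b, c, d, hm, rfl, rfl⟩
    rw [e]
    rcases h0 with ⟨ρ, h3, rfl⟩ | ⟨ρ, ρ', ⟨κ, h3⟩, rfl⟩
    · exact ⟨_, sim_mid h1 (Piece.parse (.inl ⟨ρ, mono_step hG h3 hs', rfl⟩)) h2, .inl rfl⟩
    · rcases dim_step hG h3 hs' with h4 | ⟨b₀, b₁, h4, h5, h6⟩ | ⟨ρ₀', ρ₁', h4, h5⟩
      · exact ⟨_, sim_mid h1 (Piece.parse (.inr ⟨ρ, ρ', ⟨κ, h4⟩, rfl⟩)) h2, .inl rfl⟩
      · rw [h4]
        exact ⟨_, sim_mid h1 (.mono h5 (Piece.parse (.inl ⟨ρ', h6, rfl⟩))) h2, .inl rfl⟩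
      · exact ⟨_, sim_mid h1 (Piece.parse (.inr ⟨ρ₀', ρ₁', ⟨κ, h4⟩, rfl⟩)) h2,
          .inr ⟨U₁, ρ, ρ', ρ₀', ρ₁', U₂, by simp, by simp, h5⟩⟩
  · have e : w₁ ++ u' ++ c :: d :: (v' ++ w₂) = w₁ ++ (u' ++ c :: d :: v') ++ w₂ := by simp
    obtain ⟨ρ, ρ', rfl, rfl, h3⟩ := border_step hG h0 h0' hm
    rw [e]
    exact ⟨_, sim_mid h1 (Piece.parse (.inr ⟨ρ, ρ', h3, rfl⟩)) h2, .inl (by simp)⟩

theorem rep_step (hG : Good W P) {w w' U : List Let} (h : Rep P W w U)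
    (hs : (sys W P).Step w w' ∨ (sys W P).Step w' w) :
    ∃ U', Rep P W w' U' ∧ (sys (2 ^ W) P).Eqv U U' := by
  obtain ⟨rs, h1, h2⟩ := rep_iff.1 h
  obtain ⟨rs', h3, rfl | ⟨r₁, ρ₀, ρ₁, ρ₀', ρ₁', r₂, rfl, rfl, h4⟩⟩ := repR_step hG h1 hs
  · exact ⟨U, rep_iff.2 ⟨_, h3, h2⟩, Sys.Eqv.refl U⟩
  · obtain ⟨U₁, Y, Y', U₂, rfl, k1, k2, k3, k4⟩ := sim_f2 h2
    obtain ⟨Z, Z', k5, k6, k7⟩ := h4 Y Y' k2 k3
    exact ⟨U₁ ++ Z :: Z' :: U₂, rep_iff.2 ⟨_, h3, List.rel_append k1 (.cons k5 (.cons k6 k4))⟩,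
      sim_eqv (sim_sym.2 ⟨U₁, U₂, Y, Y', Z, Z', k7, rfl, rfl⟩)⟩

theorem rep_bad (hG : Good W P) {w U : List Let} (h : Rep P W w U) (hb : (sys W P).Bad w) :
    (sys (2 ^ W) P).Bad U := by
  obtain ⟨rs, h1, h2⟩ := rep_iff.1 h
  rcases hb with ⟨a, ha, hn⟩ | ⟨u, v, a, b, hz, hw⟩
  · exact absurd (repR_ok hG h1 ha) hn
  rcases Parse.locate h1 (sim_mono_ne hG) (sim_dim_ne hG) hw with
    ⟨w₁, U₁, u', v', U₀, w₂, U₂, -, h0, -, rfl, rfl, rfl⟩ |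
    ⟨w₁, U₁, u', U₀, v', U₀', w₂, U₂, -, h0, h0', -, rfl, rfl, rfl⟩
  · have hb' : (sys W P).Bad (u' ++ a :: b :: v') := .inr ⟨u', v', a, b, hz, rfl⟩
    rcases h0 with ⟨ρ, h3, rfl⟩ | ⟨ρ, ρ', ⟨κ, h3⟩, rfl⟩
    · exact absurd hb' (mono_not_bad hG h3)
    · rw [List.append_assoc] at h2
      obtain ⟨V₁, Y, Y', V₂, rfl, -, k2, k3, -⟩ := sim_f2 h2
      exact .inr ⟨V₁, V₂, Y, Y', dim_bad hG h3 hb' k2 k3, rfl⟩
  · have hb' := border_zero hG h0 h0' hz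
    rcases h0 with ⟨ρ, h3, rfl⟩ | ⟨ρ, ρ', ⟨κ, h3⟩, rfl⟩
    · exact absurd hb' (mono_not_bad hG h3)
    · rw [List.append_assoc, List.append_assoc] at h2
      obtain ⟨V₁, Y, Y', V₂, rfl, -, k2, k3, -⟩ := sim_f2 h2
      exact .inr ⟨V₁, V₂, Y, Y', dim_bad hG h3 hb' k2 k3, rfl⟩

theorem repR_norm (hG : Good W P) {w : List Let} {rs : List Raw} (h : RepR P W w rs) :
    ∃ bs, List.Forall₂ (MonoRaw P W) bs rs ∧ (sys W P).Eqv w bs.flatten := by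
  induction h with
  | nil => exact ⟨[], .nil, Sys.Eqv.refl _⟩
  | mono hb _ ih =>
    obtain ⟨bs, h1, h2⟩ := ih
    exact ⟨_ :: bs, .cons hb h1, (Sys.Eqv.refl _).append h2⟩
  | dim hd _ ih =>
    obtain ⟨κ, hd⟩ := hd
    obtain ⟨bs, h1, h2⟩ := ih
    obtain ⟨b, b', h3, h4, h5⟩ := dim_eqv hG hd
    refine ⟨b :: b' :: bs, .cons h3 (.cons h4 h1), ?_⟩
    simpa using h5.append h2

theorem sim_norm (hG : Good W P) {w U : List Let} (h : Rep P W w U) :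
    ∃ bs, List.Forall₂ (MonoL P W) bs U ∧ (sys W P).Eqv w bs.flatten := by
  obtain ⟨rs, h1, h2⟩ := rep_iff.1 h
  obtain ⟨bs, h3, h4⟩ := repR_norm hG h1
  refine ⟨bs, ?_, h4⟩
  clear h h1 h4
  induction h3 generalizing U with
  | nil => cases h2; exact .nil
  | cons hb _ ih =>
    obtain ⟨Y, U', k1, k2, rfl⟩ := List.forall₂_cons_left_iff.1 h2
    exact .cons ⟨_, hb, k1⟩ (ih k2)

theorem sim_rep {bs : List (List Let)} {U : List Let} (h : List.Forall₂ (MonoL P W) bs U) :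
    Rep P W bs.flatten U := by
  induction h with
  | nil => exact .nil
  | cons hb _ ih => exact .mono hb ih

theorem rep_eqv (hG : Good W P) {w w' U : List Let} (h : Rep P W w U) (h' : Rep P W w' U) :
    (sys W P).Eqv w w' := by
  obtain ⟨bs, h1, h2⟩ := sim_norm hG h
  obtain ⟨bs', h3, h4⟩ := sim_norm hG h'
  refine h2.trans (Sys.Eqv.trans ?_ h4.symm)
  clear h h' h2 h4
  induction h1 generalizing bs' with
  | nil => cases h3; exact Sys.Eqv.refl _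
  | cons hb _ ih =>
    obtain ⟨b', bs'', ⟨ρ', k1, k2⟩, k3, rfl⟩ := List.forall₂_cons_right_iff.1 h3
    obtain ⟨ρ, k4, k5⟩ := hb
    exact (mono_eqv hG k4 k1 (k5.2.trans k2.2.symm)).append (ih _ k3)

theorem rep_lift (hG : Good W P) {w U U' : List Let} (h : Rep P W w U)
    (hs : (sys (2 ^ W) P).Step U U' ∨ (sys (2 ^ W) P).Step U' U) :
    ∃ w', Rep P W w' U' ∧ (sys W P).Eqv w w' := by
  obtain ⟨u, v, Y, Y', Z, Z', hm, rfl, rfl⟩ := sim_sym.1 hs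
  obtain ⟨bs, h1, h2⟩ := sim_norm hG h
  obtain ⟨bs₁, b, b', bs₂, rfl, k1, k2, k3, k4⟩ := sim_f2' h1
  have hZ : Z.Bdd (2 ^ W) ∧ Z'.Bdd (2 ^ W) :=
    hm.elim (fun h => ⟨h.2.2.2.1, h.2.2.2.2⟩) fun h => ⟨h.2.1, h.2.2.1⟩
  obtain ⟨e, he⟩ := exists_mono (P := P) hG.one_le (cols W Z)
  obtain ⟨e', he'⟩ := exists_mono (P := P) hG.one_le (cols W Z')
  have l1 : MonoL P W e Z := ⟨_, he, dec_cols hZ.1⟩
  have l2 : MonoL P W e' Z' := ⟨_, he', dec_cols hZ.2⟩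
  refine ⟨_, sim_rep (List.rel_append k1 (.cons l1 (.cons l2 k4))), h2.trans ?_⟩
  have h3 : (sys W P).Eqv (b ++ b') (e ++ e') :=
    hm.elim (lift_move hG k2 k3 l1 l2) fun h => (lift_move hG l1 l2 k2 k3 h).symm
  simpa using h3.ctx bs₁.flatten bs₂.flatten

theorem sim_up (hG : Good W P) {w U w' : List Let} (h : Rep P W w U) (hw : (sys W P).Eqv w w') :
    ∃ U', (sys (2 ^ W) P).Eqv U U' ∧ Rep P W w' U' :=
  Sys.Eqv.induction (P := fun w' => ∃ U', (sys (2 ^ W) P).Eqv U U' ∧ Rep P W w' U')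
    (fun _ _ ⟨_, h1, h2⟩ hs => let ⟨U'', h3, h4⟩ := rep_step hG h2 hs; ⟨U'', h1.trans h4, h3⟩) hw
    ⟨U, Sys.Eqv.refl U, h⟩

theorem sim_down (hG : Good W P) {w U U' : List Let} (h : Rep P W w U)
    (hw : (sys (2 ^ W) P).Eqv U U') : ∃ w', (sys W P).Eqv w w' ∧ Rep P W w' U' :=
  Sys.Eqv.induction (P := fun U' => ∃ w', (sys W P).Eqv w w' ∧ Rep P W w' U')
    (fun _ _ ⟨_, h1, h2⟩ hs => let ⟨w'', h3, h4⟩ := rep_lift hG h2 hs; ⟨w'', h1.trans h4, h3⟩) hw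
    ⟨w, Sys.Eqv.refl w, h⟩

theorem rep_null_iff (hG : Good W P) {w U : List Let} (h : Rep P W w U) :
    (sys W P).Null w ↔ (sys (2 ^ W) P).Null U := by
  constructor
  · rintro ⟨w', h1, h2⟩
    obtain ⟨U', h3, h4⟩ := sim_up hG h h1
    exact ⟨U', h3, rep_bad hG h4 h2⟩
  · rintro ⟨U', h1, h2⟩
    obtain ⟨w', h3, h4⟩ := sim_down hG h h1
    rcases h2 with ⟨Y, hY, hn⟩ | ⟨u, v, Y, Y', hz, rfl⟩
    · exact absurd (h4.bdd hY) hn
    obtain ⟨bs, h5, h6⟩ := sim_norm hG h4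
    obtain ⟨bs₁, b, b', bs₂, rfl, -, ⟨ρ, k1, k2⟩, ⟨ρ', k3, k4⟩, -⟩ := sim_f2' h5
    have h7 := lift_zero hG k1 k3 fun Z Z' l1 l2 => by
      rwa [dec_inj hG.big l1 k2, dec_inj hG.big l2 k4]
    refine Sys.Null.of_eqv (h3.trans h6) ?_
    simpa using h7.ctx bs₁.flatten bs₂.flatten

theorem rep_class (hG : Good W P) {w U : List Let} (h : Rep P W w U) (w' : List Let) :
    (sys W P).Eqv w w' ↔ ∃ U', (sys (2 ^ W) P).Eqv U U' ∧ Rep P W w' U' :=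
  ⟨sim_up hG h, fun ⟨_, h1, h2⟩ =>
    let ⟨_, h3, h4⟩ := sim_down hG h h1; h3.trans (rep_eqv hG h4 h2)⟩

theorem rep_fun (hG : Good W P) {w U U' : List Let} (h : Rep P W w U) (h' : Rep P W w U') :
    U = U' := by
  have key : ∀ w₂, Rep P W w₂ U' → w = w₂ → U = U' := by
    clear h'
    induction h generalizing U' with
    | nil =>
      intro w₂ h' e
      have h1 := h'.length
      have := hG.one_le
      rw [← e, List.length_nil, eq_comm, Nat.mul_eq_zero] at h1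
      exact (List.length_eq_zero_iff.1 (h1.resolve_right (by omega))).symm
    | mono hb _ ih =>
      obtain ⟨ρ, h1, h2⟩ := hb
      intro w₂ h' e
      cases h' with
      | nil => exact absurd (List.append_eq_nil_iff.1 e).1 (sim_mono_ne hG _ _ h1)
      | mono hb' h3 =>
        obtain ⟨ρ', h1', h2'⟩ := hb'
        obtain ⟨rfl, e'⟩ := List.append_inj e (h1.length.trans h1'.length.symm)
        rw [ih _ h3 e', dec_inj hG.big h2 (h2'.of_eq (monoRaw_fun hG.one_le h1 h1'))]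
      | dim hd' h3 =>
        obtain ⟨κ, ρ₀, ρ₁, h1', -⟩ := hd'
        exact absurd e (mono_ne_dim hG.one_le h1 h1')
    | dim hd _ ih =>
      obtain ⟨κ, ρ₀, ρ₁, h1, h2, h4⟩ := hd
      intro w₂ h' e
      cases h' with
      | nil => exact absurd (List.append_eq_nil_iff.1 e).1 (sim_dim_ne hG _ _ _ ⟨κ, h1⟩)
      | mono hb' h3 =>
        obtain ⟨ρ', h1', -⟩ := hb'
        exact absurd e.symm (mono_ne_dim hG.one_le h1' h1)
      | dim hd' h3 =>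
        obtain ⟨κ', ρ₀', ρ₁', h1', h2', h4'⟩ := hd'
        obtain ⟨rfl, e'⟩ := List.append_inj e (h1.length.trans h1'.length.symm)
        obtain ⟨-, k1, k2⟩ := dimRaw_fun hG.one_le h1 h1'
        rw [ih _ h3 e', dec_inj hG.big h2 (h2'.of_eq k1), dec_inj hG.big h4 (h4'.of_eq k2)]
  exact key w h' rfl

theorem exists_enc (hG : Good W P) {U : List Let} (h : ∀ Y ∈ U, Y.Bdd (2 ^ W)) :
    ∃ w, Rep P W w U := by
  induction U with
  | nil => exact ⟨[], .nil⟩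
  | cons Y U ih =>
    obtain ⟨w, hw⟩ := ih fun Z hZ => h Z (List.mem_cons_of_mem _ hZ)
    obtain ⟨b, hb⟩ := exists_mono (P := P) hG.one_le (cols W Y)
    exact ⟨b ++ w, .mono ⟨_, hb, dec_cols (h Y List.mem_cons_self)⟩ hw⟩

theorem rep_of_repR (hG : Good W P) {w : List Let} {rs : List Raw} (h : RepR P W w rs)
    (h2 : 2 ≤ rs.length) (hn : ¬ (sys W P).Null w) : ∃ U, Rep P W w U := by
  obtain ⟨bs, h3, h4⟩ := repR_norm hG h
  have key : ∀ r₁ ρ₀ ρ₁ r₂, rs = r₁ ++ ρ₀ :: ρ₁ :: r₂ → (∃ Y, Dec W ρ₀ Y) ∧ ∃ Y, Dec W ρ₁ Y := by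
    rintro r₁ ρ₀ ρ₁ r₂ rfl
    obtain ⟨bs₁, b, b', bs₂, rfl, -, k1, k2, -⟩ := sim_f2' h3
    by_contra hc
    have h7 := lift_zero hG k1 k2 fun Z Z' l1 l2 => absurd ⟨⟨Z, l1⟩, Z', l2⟩ hc
    exact hn (Sys.Null.of_eqv h4 (by simpa using h7.ctx bs₁.flatten bs₂.flatten))
  have all : ∀ ρ ∈ rs, ∃ Y, Dec W ρ Y := by
    intro ρ hρ
    obtain ⟨r₁, r₂, rfl⟩ := List.append_of_mem hρ
    rcases r₂ with _ | ⟨ρ', r₂⟩
    · rcases List.eq_nil_or_concat' r₁ with rfl | ⟨r₁, ρ', rfl⟩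
      · simp at h2
      · exact (key r₁ ρ' ρ [] (by simp)).2
    · exact (key r₁ ρ ρ' r₂ rfl).1
  obtain ⟨U, hU⟩ : ∃ U, List.Forall₂ (Dec W) rs U := by
    clear h h2 h3 key
    induction rs with
    | nil => exact ⟨[], .nil⟩
    | cons ρ rs ih =>
      obtain ⟨Y, hY⟩ := all ρ List.mem_cons_self
      obtain ⟨U, hU⟩ := ih fun ρ' h' => all ρ' (List.mem_cons_of_mem _ h')
      exact ⟨Y :: U, .cons hY hU⟩
  exact ⟨U, rep_iff.2 ⟨rs, h, hU⟩⟩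

theorem closed_of_repR (hG : Good W P) {w : List Let} {rs : List Raw} (h : RepR P W w rs)
    (hne : rs ≠ []) : Closed W w := by
  have hd : ∀ (b w : List Let) (U : List Raw), b ≠ [] → Piece (MonoRaw P W) (DimR P W) b U →
      ∃ a, (b ++ w).head? = some a ∧ First a.k.c ∧ a.k.f.lI = (false, false) := by
    rintro (_ | ⟨a, v⟩) w U h1 h2
    · exact absurd rfl h1
    · exact ⟨a, rfl, piece_first hG.one_le h2⟩
  have tl : ∀ (b w : List Let) (U U' : List Raw), b ≠ [] → Piece (MonoRaw P W) (DimR P W) b U →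
      RepR P W w U' → (U' ≠ [] → ∃ a, w.getLast? = some a ∧ a.k.f.rI = (true, false)) →
      ∃ a, (b ++ w).getLast? = some a ∧ a.k.f.rI = (true, false) := by
    intro b w U U' h1 h2 h3 h4
    by_cases hU : U' = []
    · have h5 := h3.length
      rw [hU, List.length_nil, zero_mul, List.length_eq_zero_iff] at h5
      obtain ⟨u, a, rfl⟩ := (List.eq_nil_or_concat' b).resolve_left h1
      exact ⟨a, by simp [h5], (piece_last hG.one_le h2).2⟩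
    · obtain ⟨a, h5, h6⟩ := h4 hU
      exact ⟨a, by simp [List.getLast?_append, h5], h6⟩
  refine ⟨⟨rs.length, by rw [h.length, mul_comm]⟩, ?_, ?_⟩
  · cases h with
    | nil => exact absurd rfl hne
    | mono hb _ => exact hd _ _ _ (sim_mono_ne hG _ _ hb) (.inl ⟨_, hb, rfl⟩)
    | dim hb _ => exact hd _ _ _ (sim_dim_ne hG _ _ _ hb) (.inr ⟨_, _, hb, rfl⟩)
  · induction h with
    | nil => exact absurd rfl hne
    | mono hb h1 ih => exact tl _ _ _ _ (sim_mono_ne hG _ _ hb) (.inl ⟨_, hb, rfl⟩) h1 ih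
    | dim hb h1 ih => exact tl _ _ _ _ (sim_dim_ne hG _ _ _ hb) (.inr ⟨_, _, hb, rfl⟩) h1 ih

/-- the static columns of block `j` are those of the `j`-th upper letter -/
theorem rep_scol (hG : Good W P) {w U : List Let} (h : Rep P W w U) {j i : ℕ} (hj : j < U.length)
    (hi : i < W) :
    (w.getD (j * (6 * W) + i) default).k.c.st.scol = (cols W (U.getD j default)).sc i := by
  have hbc : ∀ ρ : Raw, (bc P W ρ i).st.scol = ρ.sc i := fun ρ => by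
    simp [bc, Nat.div_eq_of_lt hi, Nat.mod_eq_of_lt hi]
  induction h generalizing j with
  | nil => simp at hj
  | mono hb _ ih =>
    obtain ⟨ρ, h1, h2⟩ := hb
    have hl := h1.length
    rcases j with _ | j
    · obtain ⟨p, τ, -, -, rfl⟩ := h1
      rw [zero_mul, zero_add, List.getD_append _ _ _ _ (by omega), monoG, getD_mkW (by omega),
        List.getD_cons_zero, hbc, (h2.2 i hi).1]
    · rw [List.getD_append_right _ _ _ _ (by rw [hl]; nlinarith), List.getD_cons_succ,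
        ← ih (by simpa using hj), hl]
      congr 5
      rw [add_mul]; omega
  | dim hd _ ih =>
    obtain ⟨κ, ρ₀, ρ₁, h1, h2, h3⟩ := hd
    have hl := h1.length
    rcases j with _ | _ | j
    · obtain ⟨D, ph, i', p, τ, -, rfl, rfl, -, -, -, -, rfl⟩ := h1
      rw [zero_mul, zero_add, List.getD_append _ _ _ _ (by omega), dimW, getD_mkW (by omega),
        List.getD_cons_zero, dcore, cellAt_st, Nat.mod_eq_of_lt (by omega), hbc,
        decide_eq_false (by omega), (h2.2 i hi).1]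
    · obtain ⟨D, ph, i', p, τ, -, rfl, rfl, -, -, -, -, rfl⟩ := h1
      rw [zero_add, one_mul, List.getD_append _ _ _ _ (by omega), dimW, getD_mkW (by omega),
        List.getD_cons_succ, List.getD_cons_zero, dcore, cellAt_st, Nat.add_mod_left,
        Nat.mod_eq_of_lt (by omega), hbc, decide_eq_true (by omega), (h3.2 i hi).1]
    · rw [List.getD_append_right _ _ _ _ (by rw [hl]; nlinarith), List.getD_cons_succ,
        List.getD_cons_succ, ← ih (by simpa using hj), hl]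
      congr 5
      rw [add_mul, add_mul]; omega

end Crest.Agent.R176.M
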