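import Crest.Agent.R176.BDefs

/-!
# Row 176 A: rewriting systems with relations of length two  (subtask ASys)

Definitions and general lemmas.  `van_partition`: induction on the finite set `C` (remove the class
of one element), or `Finset.sum_fiberwise` along the quotient map.  `van_of_factor`: apply
`van_partition` with `r w w' :⇔ ∃ u v v' x, w = u++v++x ∧ w' = u++v'++x ∧ |u| = pre w ∧ |x| = suf w ∧ Eqv v v'`;
the class of `u++v++x` is the injective image of the class of `v`, and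
`∑ wt u * wt v' * wt x = wt u * (∑ wt v') * wt x` (finite sums: `class_finite`).
`alt_sum`: expand `v (σ i)` in a basis (`Module.Free.chooseBasis`), `List.prod` of sums = sum over
functions `f : Fin L → basis index` (induction on `L`, or a `MultilinearMap`); the coefficient
`∑_σ ∏_i c (σ i) (f i)` is a determinant (signs are trivial as `1 + 1 = 0` in `K`) of a matrix with two equal
columns (pigeonhole).
-/

set_option autoImplicit false

namespace Crest.Agent.R176

structure Sys (α : Type) where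
  ok : α → Prop
  zero : α → α → Prop
  move : α → α → α → α → Prop

/-- the word `f 0, …, f (n-1)` -/
def mkW {α : Type} (n : ℕ) (f : ℕ → α) : List α := (List.range n).map f

/-- weight of a word -/
def wt {α A : Type} [Monoid A] (B : α → A) (w : List α) : A := (w.map B).prod

/-- the coefficient ring -/
abbrev KK : Type := Polynomial (ZMod 2)

namespace Sys

variable {α : Type} (S : Sys α)

/-- a move between admissible letters -/
def Mv (a b c d : α) : Prop := S.move a b c d ∧ S.ok a ∧ S.ok b ∧ S.ok c ∧ S.ok d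

def Step (w w' : List α) : Prop :=
  ∃ u v a b c d, S.Mv a b c d ∧ w = u ++ a :: b :: v ∧ w' = u ++ c :: d :: v

def Eqv : List α → List α → Prop := Relation.EqvGen S.Step

def Bad (w : List α) : Prop :=
  (∃ a ∈ w, ¬ S.ok a) ∨ ∃ u v a b, S.zero a b ∧ w = u ++ a :: b :: v

def Null (w : List α) : Prop := ∃ w', S.Eqv w w' ∧ S.Bad w'

/-- the class sum vanishes -/
def Van {A : Type} [Ring A] (B : α → A) (w₀ : List α) : Prop :=
  ∑ᶠ w ∈ {w | S.Eqv w₀ w}, wt B w = 0

def NilAt {A : Type} [Ring A] (B : α → A) : Prop :=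
  ∃ n, ∀ w₀ : List α, n ≤ w₀.length → ¬ S.Null w₀ → S.Van B w₀

/-- all automata of rank `≤ D` are nil -/
def Nil (D : ℕ) : Prop :=
  ∀ (A : Type) [Ring A] [Algebra KK A] [Module.Free KK A] [Module.Finite KK A],
    Module.finrank KK A ≤ D → ∀ B : α → A, S.NilAt B

/-- long words carry a phase modulo `m` -/
def Odo (m : ℕ) : Prop :=
  ∃ (M : ℕ) (φ : List α → ZMod m), 1 ≤ M ∧ (∀ w w', S.Eqv w w' → φ w = φ w') ∧
    (∀ w v, M ≤ w.length → φ (w ++ v) = φ w) ∧
    ∀ a w, M ≤ w.length → ¬ S.Null (a :: w) → φ w = φ (a :: w) + 1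

variable {S}

theorem Eqv.refl (w : List α) : S.Eqv w w := Relation.EqvGen.refl w
theorem Eqv.symm {w w' : List α} (h : S.Eqv w w') : S.Eqv w' w := Relation.EqvGen.symm _ _ h
theorem Eqv.trans {w w' w'' : List α} (h : S.Eqv w w') (h' : S.Eqv w' w'') : S.Eqv w w'' :=
  Relation.EqvGen.trans _ _ _ h h'
theorem Step.eqv {w w' : List α} (h : S.Step w w') : S.Eqv w w' := Relation.EqvGen.rel _ _ h
theorem Bad.null {w : List α} (h : S.Bad w) : S.Null w := ⟨w, Eqv.refl w, h⟩
theorem Null.of_eqv {w w' : List α} (h : S.Eqv w w') (h' : S.Null w') : S.Null w :=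
  let ⟨v, hv, hb⟩ := h'; ⟨v, h.trans hv, hb⟩

/-- a property closed under steps in both directions passes along `Eqv` -/
theorem Eqv.induction {P : List α → Prop}
    (h : ∀ w w', P w → S.Step w w' ∨ S.Step w' w → P w') {w w' : List α} (hw : S.Eqv w w')
    (h0 : P w) : P w' := by
  have key : ∀ w w', S.Eqv w w' → (P w ↔ P w') := by
    intro w w' hw
    induction hw with
    | rel a b hab => exact ⟨fun ha => h a b ha (Or.inl hab), fun hb => h b a hb (Or.inr hab)⟩
    | refl a => rfl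
    | symm a b _ ih => exact ih.symm
    | trans a b c _ _ ih ih' => exact ih.trans ih'
  exact (key w w' hw).1 h0

theorem Step.length_eq {w w' : List α} (h : S.Step w w') : w.length = w'.length := by
  obtain ⟨u, v, a, b, c, d, -, rfl, rfl⟩ := h
  simp

theorem Eqv.length_eq {w w' : List α} (h : S.Eqv w w') : w.length = w'.length := by
  refine Eqv.induction (P := fun v => w.length = v.length) ?_ h rfl
  rintro v v' hv (h | h)
  · exact hv.trans h.length_eq
  · exact hv.trans h.length_eq.symm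

theorem Step.ctx {v v' : List α} (h : S.Step v v') (u x : List α) :
    S.Step (u ++ v ++ x) (u ++ v' ++ x) := by
  obtain ⟨u', v', a, b, c, d, hm, rfl, rfl⟩ := h
  exact ⟨u ++ u', v' ++ x, a, b, c, d, hm, by simp, by simp⟩

theorem Eqv.ctx {v v' : List α} (h : S.Eqv v v') (u x : List α) :
    S.Eqv (u ++ v ++ x) (u ++ v' ++ x) := by
  refine Eqv.induction (P := fun y => S.Eqv (u ++ v ++ x) (u ++ y ++ x)) ?_ h (Eqv.refl _)
  rintro y y' hy (h | h)
  · exact hy.trans (h.ctx u x).eqv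
  · exact hy.trans (h.ctx u x).eqv.symm

theorem Eqv.append {u u' v v' : List α} (h : S.Eqv u u') (h' : S.Eqv v v') :
    S.Eqv (u ++ v) (u' ++ v') := by
  have h1 := h.ctx [] v
  have h2 := h'.ctx u' []
  simp only [List.nil_append, List.append_nil] at h1 h2
  exact h1.trans h2

theorem Bad.ctx {v : List α} (h : S.Bad v) (u x : List α) : S.Bad (u ++ v ++ x) := by
  rcases h with ⟨a, ha, h⟩ | ⟨u', v', a, b, h, rfl⟩
  · exact Or.inl ⟨a, by simp [ha], h⟩
  · exact Or.inr ⟨u ++ u', v' ++ x, a, b, h, by simp⟩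

theorem Null.ctx {v : List α} (h : S.Null v) (u x : List α) : S.Null (u ++ v ++ x) := by
  obtain ⟨v', h1, h2⟩ := h
  exact ⟨_, h1.ctx u x, h2.ctx u x⟩

/-- a quantity preserved letterwise by moves is preserved by `Eqv` -/
theorem Eqv.map_eq {β : Type} {st : α → β}
    (h : ∀ a b c d, S.move a b c d → st a = st c ∧ st b = st d) {w w' : List α}
    (hw : S.Eqv w w') : w.map st = w'.map st := by
  refine Eqv.induction (P := fun v => w.map st = v.map st) ?_ hw rfl
  rintro v v' hv (⟨u, x, a, b, c, d, hm, rfl, rfl⟩ | ⟨u, x, a, b, c, d, hm, rfl, rfl⟩)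
  · obtain ⟨h1, h2⟩ := h a b c d hm.1
    simpa [h1, h2] using hv
  · obtain ⟨h1, h2⟩ := h a b c d hm.1
    simpa [h1, h2] using hv

theorem not_null_single {a : α} (ha : S.ok a) : ¬ S.Null [a] := by
  rintro ⟨w, hw, hb⟩
  have h1 : w = [a] := by
    refine Eqv.induction (P := fun v => v = [a]) ?_ hw rfl
    rintro v v' hv (⟨u, x, a, b, c, d, hm, rfl, rfl⟩ | ⟨u, x, a, b, c, d, hm, rfl, rfl⟩)
    · have := congrArg List.length hv
      simp at this; omega
    · have := congrArg List.length hv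
      simp at this; omega
  subst h1
  rcases hb with ⟨b, hb, h⟩ | ⟨u, v, b, c, -, h⟩
  · rw [List.mem_singleton.1 hb] at h; exact h ha
  · have := congrArg List.length h
    simp at this; omega

theorem okWords_finite (hfin : {a | S.ok a}.Finite) (n : ℕ) :
    {w : List α | w.length = n ∧ ∀ a ∈ w, S.ok a}.Finite := by
  have : Finite {a | S.ok a} := hfin
  refine ((List.finite_length_eq {a | S.ok a} n).image (List.map Subtype.val)).subset ?_
  rintro w ⟨h1, h2⟩
  exact ⟨w.attachWith _ h2, List.length_attachWith.trans h1, List.attachWith_map_subtype_val h2⟩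

theorem class_finite (hfin : {a | S.ok a}.Finite) {w₀ : List α} (h : ¬ S.Null w₀) :
    {w | S.Eqv w₀ w}.Finite := by
  refine (okWords_finite hfin w₀.length).subset fun w hw => ⟨hw.length_eq.symm, fun a ha => ?_⟩
  by_contra h'
  exact h ⟨w, hw, Or.inl ⟨a, ha, h'⟩⟩

end Sys

section MkW

variable {α : Type}

@[simp] theorem length_mkW (n : ℕ) (f : ℕ → α) : (mkW n f).length = n := by simp [mkW]

theorem mkW_congr {n : ℕ} {f g : ℕ → α} (h : ∀ z, z < n → f z = g z) : mkW n f = mkW n g := by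
  exact List.map_congr_left fun z hz => h z (List.mem_range.1 hz)

theorem mkW_inj {n : ℕ} {f g : ℕ → α} (h : mkW n f = mkW n g) {z : ℕ} (hz : z < n) :
    f z = g z := by
  exact List.map_inj_left.1 h z (List.mem_range.2 hz)

theorem mkW_add (a b : ℕ) (f : ℕ → α) :
    mkW (a + b) f = mkW a f ++ mkW b fun z => f (a + z) := by
  simp only [mkW, List.range_add, List.map_append, List.map_map]
  rfl

theorem mkW_getD (w : List α) (d : α) : mkW w.length (fun z => w.getD z d) = w := by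
  refine List.ext_getElem (by simp) fun i h1 h2 => ?_
  simp [mkW, h2]

theorem getD_mkW {n z : ℕ} (hz : z < n) (f : ℕ → α) (d : α) : (mkW n f).getD z d = f z := by
  simp [mkW, hz]

theorem mem_mkW {n : ℕ} {f : ℕ → α} {a : α} : a ∈ mkW n f ↔ ∃ z, z < n ∧ f z = a := by
  simp [mkW]

theorem mkW_split {n p : ℕ} (hp : p + 1 < n) (f : ℕ → α) :
    mkW n f = mkW p f ++ f p :: f (p + 1) :: mkW (n - (p + 2)) fun z => f (p + 2 + z) := by
  obtain ⟨m, rfl⟩ : ∃ m, n = p + 2 + m := ⟨n - (p + 2), by omega⟩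
  rw [mkW_add, mkW_add, Nat.add_sub_cancel_left]
  simp [mkW, List.range_succ]

theorem mkW_eq_append {n : ℕ} {f : ℕ → α} {u v : List α} {a b : α}
    (h : mkW n f = u ++ a :: b :: v) : u.length + 1 < n ∧ u = mkW u.length f ∧ a = f u.length ∧
      b = f (u.length + 1) ∧ v = mkW (n - (u.length + 2)) fun z => f (u.length + 2 + z) := by
  have hp : u.length + 1 < n := by
    have := congrArg List.length h
    simp at this; omega
  rw [mkW_split hp] at h
  obtain ⟨h1, h2⟩ := List.append_inj h (by simp)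
  simp only [List.cons.injEq] at h2
  exact ⟨hp, h1.symm, h2.1.symm, h2.2.1.symm, h2.2.2.symm⟩

theorem mkW_update {n p : ℕ} (hp : p + 1 < n) (f : ℕ → α) (c d : α) :
    mkW n (Function.update (Function.update f p c) (p + 1) d) =
      mkW p f ++ c :: d :: mkW (n - (p + 2)) fun z => f (p + 2 + z) := by
  rw [mkW_split hp]
  congr 1
  · refine mkW_congr fun z hz => ?_
    rw [Function.update_of_ne (by omega), Function.update_of_ne (by omega)]
  · rw [Function.update_of_ne (by omega), Function.update_self, Function.update_self]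
    congr 2
    refine mkW_congr fun z _ => ?_
    rw [Function.update_of_ne (by omega), Function.update_of_ne (by omega)]

theorem wt_append {A : Type} [Monoid A] (B : α → A) (u v : List α) :
    wt B (u ++ v) = wt B u * wt B v := by
  simp [wt]

end MkW

namespace Sys

variable {α : Type} {S : Sys α}

/-! words given by functions -/

theorem step_mkW {n p : ℕ} {f g : ℕ → α} (hp : p + 1 < n)
    (hm : S.Mv (f p) (f (p + 1)) (g p) (g (p + 1)))
    (h : ∀ z, z < n → z ≠ p → z ≠ p + 1 → f z = g z) : S.Step (mkW n f) (mkW n g) := by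
  refine ⟨mkW p f, mkW (n - (p + 2)) fun z => f (p + 2 + z), _, _, _, _, hm, mkW_split hp f, ?_⟩
  rw [mkW_split hp g]
  congr 1
  · exact mkW_congr fun z hz => (h z (by omega) (by omega) (by omega)).symm
  · congr 2
    exact mkW_congr fun z hz => (h _ (by omega) (by omega) (by omega)).symm

theorem step_mkW_inv {n : ℕ} {f : ℕ → α} {w' : List α}
    (h : S.Step (mkW n f) w' ∨ S.Step w' (mkW n f)) :
    ∃ p c d, p + 1 < n ∧ (S.Mv (f p) (f (p + 1)) c d ∨ S.Mv c d (f p) (f (p + 1))) ∧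
      w' = mkW n (Function.update (Function.update f p c) (p + 1) d) := by
  rcases h with ⟨u, v, a, b, c, d, hm, h, rfl⟩ | ⟨u, v, c, d, a, b, hm, rfl, h⟩
  · obtain ⟨hp, h1, rfl, rfl, h4⟩ := mkW_eq_append h
    exact ⟨u.length, c, d, hp, Or.inl hm, by rw [mkW_update hp, ← h1, ← h4]⟩
  · obtain ⟨hp, h1, rfl, rfl, h4⟩ := mkW_eq_append h
    exact ⟨u.length, c, d, hp, Or.inr hm, by rw [mkW_update hp, ← h1, ← h4]⟩

theorem bad_mkW {n : ℕ} {f : ℕ → α} : S.Bad (mkW n f) ↔
    (∃ z, z < n ∧ ¬ S.ok (f z)) ∨ ∃ p, p + 1 < n ∧ S.zero (f p) (f (p + 1)) := by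
  refine or_congr ⟨?_, ?_⟩ ⟨?_, ?_⟩
  · rintro ⟨a, ha, h⟩
    obtain ⟨z, hz, rfl⟩ := mem_mkW.1 ha
    exact ⟨z, hz, h⟩
  · rintro ⟨z, hz, h⟩
    exact ⟨_, mem_mkW.2 ⟨z, hz, rfl⟩, h⟩
  · rintro ⟨u, v, a, b, hz, h⟩
    obtain ⟨hp, -, rfl, rfl, -⟩ := mkW_eq_append h
    exact ⟨_, hp, hz⟩
  · rintro ⟨p, hp, hz⟩
    exact ⟨_, _, _, _, hz, mkW_split hp f⟩

end Sys

theorem van_partition {β A : Type} [AddCommMonoid A] {C : Set β} (hC : C.Finite) (f : β → A)
    (r : β → β → Prop) (hrefl : ∀ w ∈ C, r w w) (hsub : ∀ w ∈ C, ∀ w', r w w' → w' ∈ C)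
    (hsymm : ∀ w ∈ C, ∀ w', r w w' → r w' w)
    (htrans : ∀ w ∈ C, ∀ w' w'', r w w' → r w' w'' → r w w'')
    (h : ∀ w ∈ C, ∑ᶠ w' ∈ {w' | r w w'}, f w' = 0) : ∑ᶠ w ∈ C, f w = 0 := by
  classical
  rw [finsum_mem_eq_finite_toFinset_sum _ hC, ← Finset.sum_fiberwise_of_maps_to
    (g := fun w => {w' | r w w'}) (t := hC.toFinset.image fun w => {w' | r w w'})
    fun w hw => Finset.mem_image_of_mem _ hw]
  refine Finset.sum_eq_zero fun y hy => ?_
  obtain ⟨w, hw, rfl⟩ := Finset.mem_image.1 hy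
  rw [Set.Finite.mem_toFinset] at hw
  rw [← h w hw, ← finsum_mem_coe_finset]
  refine finsum_mem_congr (Set.ext fun w' => ?_) fun _ _ => rfl
  simp only [Finset.coe_filter, Set.Finite.mem_toFinset, Set.mem_ofPred_eq]
  constructor
  · rintro ⟨h1, h2⟩
    have : w' ∈ {w'' | r w' w''} := hrefl w' h1
    rw [h2] at this
    exact this
  · intro h1
    refine ⟨hsub w hw w' h1, Set.ext fun w'' => ⟨fun h2 => htrans w hw w' w'' h1 h2, fun h2 => ?_⟩⟩
    exact htrans w' (hsub w hw w' h1) w w'' (hsymm w hw w' h1) h2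

theorem van_of_factor {α A : Type} [Ring A] {S : Sys α} (hfin : {a | S.ok a}.Finite) (B : α → A)
    {w₀ : List α} (h0 : ¬ S.Null w₀) (pre suf : List α → ℕ)
    (h1 : ∀ w, S.Eqv w₀ w → ∃ u v x, w = u ++ v ++ x ∧ u.length = pre w ∧ x.length = suf w ∧
      S.Van B v)
    (h2 : ∀ u v v' x, S.Eqv w₀ (u ++ v ++ x) → u.length = pre (u ++ v ++ x) →
      x.length = suf (u ++ v ++ x) → S.Eqv v v' →
      pre (u ++ v' ++ x) = u.length ∧ suf (u ++ v' ++ x) = x.length) : S.Van B w₀ := by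
  have uniq : ∀ {u v x u' v' x' : List α}, u ++ v ++ x = u' ++ v' ++ x' → u.length = u'.length →
      x.length = x'.length → u = u' ∧ v = v' ∧ x = x' := by
    intro u v x u' v' x' h hu hx
    obtain ⟨h3, h4⟩ := List.append_inj' h hx
    obtain ⟨h5, h6⟩ := List.append_inj h3 hu
    exact ⟨h5, h6, h4⟩
  refine van_partition (Sys.class_finite hfin h0) _ (fun w w' => ∃ u v v' x, w = u ++ v ++ x ∧
    w' = u ++ v' ++ x ∧ u.length = pre w ∧ x.length = suf w ∧ S.Eqv v v') ?_ ?_ ?_ ?_ ?_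
  · intro w hw
    obtain ⟨u, v, x, h3, h4, h5, -⟩ := h1 w hw
    exact ⟨u, v, v, x, h3, h3, h4, h5, Sys.Eqv.refl v⟩
  · rintro _ hw _ ⟨u, v, v', x, rfl, rfl, -, -, h⟩
    exact Sys.Eqv.trans hw (h.ctx u x)
  · rintro _ hw _ ⟨u, v, v', x, rfl, rfl, h3, h4, h⟩
    obtain ⟨h5, h6⟩ := h2 u v v' x hw h3 h4 h
    exact ⟨u, v', v, x, rfl, rfl, h5.symm, h6.symm, h.symm⟩
  · rintro _ hw _ _ ⟨u, v, v', x, rfl, rfl, h3, h4, h⟩ ⟨u₂, v₂, v₂', x₂, e, rfl, h3', h4', h'⟩
    obtain ⟨h5, h6⟩ := h2 u v v' x hw h3 h4 h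
    obtain ⟨rfl, rfl, rfl⟩ := uniq e (h5.symm.trans h3'.symm) (h6.symm.trans h4'.symm)
    exact ⟨u, v, v₂', x, rfl, rfl, h3, h4, h.trans h'⟩
  · intro w hw
    obtain ⟨u, v, x, rfl, h4, h5, h6⟩ := h1 w hw
    have hv : ¬ S.Null v := fun h => h0 (Sys.Null.of_eqv hw (h.ctx u x))
    have e : {w' | ∃ u' v₁ v' x', u ++ v ++ x = u' ++ v₁ ++ x' ∧ w' = u' ++ v' ++ x' ∧
        u'.length = pre (u ++ v ++ x) ∧ x'.length = suf (u ++ v ++ x) ∧ S.Eqv v₁ v'} =
        (fun v' => u ++ v' ++ x) '' {v' | S.Eqv v v'} := by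
      ext w'
      constructor
      · rintro ⟨u', v₁, v', x', e, rfl, h7, h8, h9⟩
        obtain ⟨rfl, rfl, rfl⟩ := uniq e (h4.trans h7.symm) (h5.trans h8.symm)
        exact ⟨v', h9, rfl⟩
      · rintro ⟨v', h9, rfl⟩
        exact ⟨u, v, v', x, rfl, rfl, h4, h5, h9⟩
    have hf := Sys.class_finite hfin hv
    rw [e, finsum_mem_image fun a _ b _ hab => (uniq hab rfl rfl).2.1,
      finsum_mem_eq_finite_toFinset_sum _ hf]
    unfold Sys.Van at h6
    rw [finsum_mem_eq_finite_toFinset_sum _ hf] at h6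
    simp only [wt_append]
    rw [← Finset.sum_mul, ← Finset.mul_sum, h6, mul_zero, zero_mul]

/-- the alternating sum lemma -/
theorem alt_sum {V A : Type} [AddCommGroup V] [Module KK V] [Module.Free KK V]
    [Module.Finite KK V] [Ring A] [Algebra KK A] {L : ℕ} (hL : Module.finrank KK V < L)
    (Φ : Fin L → V →ₗ[KK] A) (v : Fin L → V) :
    ∑ σ : Equiv.Perm (Fin L), (List.ofFn fun i => Φ i (v (σ i))).prod = 0 := by
  let m : MultilinearMap KK (fun _ : Fin L => V) A :=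
    (MultilinearMap.mkPiAlgebraFin KK L A).compLinearMap Φ
  have h0 : MultilinearMap.alternatization m = 0 := by
    refine (Module.Free.chooseBasis KK V).ext_alternating fun f hf => ?_
    have := Fintype.card_le_of_injective f hf
    rw [← Module.finrank_eq_card_chooseBasisIndex, Fintype.card_fin] at this
    omega
  have hneg : ∀ a : A, -a = a := fun a => by
    have h2 : ((1 : KK) + 1) • a = 0 := by rw [add_self2, zero_smul]
    rw [add_smul, one_smul] at h2
    exact neg_eq_of_add_eq_zero_left h2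
  have h1 := DFunLike.congr_fun h0 v
  rw [MultilinearMap.alternatization_apply, AlternatingMap.zero_apply] at h1
  rw [← h1]
  refine Finset.sum_congr rfl fun σ _ => ?_
  rcases Int.units_eq_one_or (Equiv.Perm.sign σ) with h | h
  · rw [h, one_smul]; simp [m]
  · rw [h, Units.neg_smul, one_smul, hneg]; simp [m]

/-- parse of a word into pieces that represent one letter (`M`) or two letters (`D`) -/
inductive Parse {α β : Type} (M : List α → β → Prop) (D : List α → β → β → Prop) :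
    List α → List β → Prop
  | nil : Parse M D [] []
  | mono {b w : List α} {Y : β} {U : List β} : M b Y → Parse M D w U → Parse M D (b ++ w) (Y :: U)
  | dim {d w : List α} {Y Y' : β} {U : List β} :
      D d Y Y' → Parse M D w U → Parse M D (d ++ w) (Y :: Y' :: U)

/-- one piece -/
def Piece {α β : Type} (M : List α → β → Prop) (D : List α → β → β → Prop) (w : List α)
    (U : List β) : Prop := (∃ Y, M w Y ∧ U = [Y]) ∨ ∃ Y Y', D w Y Y' ∧ U = [Y, Y']

section Parse

variable {α β : Type} {M : List α → β → Prop} {D : List α → β → β → Prop}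

theorem Parse.append {w w' : List α} {U U' : List β} (h : Parse M D w U) (h' : Parse M D w' U') :
    Parse M D (w ++ w') (U ++ U') := by
  induction h with
  | nil => exact h'
  | mono hb _ ih => rw [List.append_assoc]; exact Parse.mono hb ih
  | dim hd _ ih => rw [List.append_assoc]; exact Parse.dim hd ih

theorem Piece.parse {w : List α} {U : List β} (h : Piece M D w U) : Parse M D w U := by
  rcases h with ⟨Y, h, rfl⟩ | ⟨Y, Y', h, rfl⟩
  · simpa using Parse.mono (D := D) h Parse.nil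
  · simpa using Parse.dim (M := M) h Parse.nil

/-- induction along the pieces -/
theorem Parse.piece_induction {P : List α → List β → Prop} (h0 : P [] [])
    (h1 : ∀ d U₀ w U, Piece M D d U₀ → Parse M D w U → P w U → P (d ++ w) (U₀ ++ U))
    {w : List α} {U : List β} (h : Parse M D w U) : P w U := by
  induction h with
  | nil => exact h0
  | mono hb hw ih => exact h1 _ [_] _ _ (Or.inl ⟨_, hb, rfl⟩) hw ih
  | dim hd hw ih => exact h1 _ [_, _] _ _ (Or.inr ⟨_, _, hd, rfl⟩) hw ih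

theorem Parse.imp {M' : List α → β → Prop} {D' : List α → β → β → Prop}
    (hM : ∀ b Y, M b Y → M' b Y) (hD : ∀ d Y Y', D d Y Y' → D' d Y Y') {w : List α} {U : List β}
    (h : Parse M D w U) : Parse M' D' w U := by
  induction h with
  | nil => exact Parse.nil
  | mono hb _ ih => exact Parse.mono (hM _ _ hb) ih
  | dim hd _ ih => exact Parse.dim (hD _ _ _ hd) ih

theorem Parse.length {N : ℕ} (hM : ∀ b Y, M b Y → b.length = N)
    (hD : ∀ d Y Y', D d Y Y' → d.length = 2 * N) {w : List α} {U : List β} (h : Parse M D w U) :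
    w.length = U.length * N := by
  induction h with
  | nil => simp
  | mono hb _ ih => rw [List.length_append, hM _ _ hb, ih, List.length_cons]; ring
  | dim hd _ ih =>
    rw [List.length_append, hD _ _ _ hd, ih, List.length_cons, List.length_cons]; ring

/-- two adjacent letters lie in one piece or at the border of two adjacent pieces -/
theorem Parse.locate {w : List α} {U : List β} (h : Parse M D w U)
    (hM : ∀ b Y, M b Y → b ≠ []) (hD : ∀ d Y Y', D d Y Y' → d ≠ []) {u v : List α} {a b : α}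
    (hw : w = u ++ a :: b :: v) :
    (∃ w₁ U₁ u' v' U₀ w₂ U₂, Parse M D w₁ U₁ ∧ Piece M D (u' ++ a :: b :: v') U₀ ∧
      Parse M D w₂ U₂ ∧ u = w₁ ++ u' ∧ v = v' ++ w₂ ∧ U = U₁ ++ U₀ ++ U₂) ∨
    ∃ w₁ U₁ u' U₀ v' U₀' w₂ U₂, Parse M D w₁ U₁ ∧ Piece M D (u' ++ [a]) U₀ ∧
      Piece M D (b :: v') U₀' ∧ Parse M D w₂ U₂ ∧ u = w₁ ++ u' ∧ v = v' ++ w₂ ∧
      U = U₁ ++ U₀ ++ U₀' ++ U₂ := by
  have hne : ∀ d U₀, Piece M D d U₀ → d ≠ [] := by
    rintro d _ (⟨Y, h, rfl⟩ | ⟨Y, Y', h, rfl⟩)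
    · exact hM _ _ h
    · exact hD _ _ _ h
  have first : ∀ {w : List α} {U : List β}, Parse M D w U → ∀ c v, w = c :: v →
      ∃ v' U₀ w₂ U₂, Piece M D (c :: v') U₀ ∧ Parse M D w₂ U₂ ∧ v = v' ++ w₂ ∧ U = U₀ ++ U₂ := by
    intro w U h
    refine Parse.piece_induction (P := fun w U => ∀ c v, w = c :: v →
      ∃ v' U₀ w₂ U₂, Piece M D (c :: v') U₀ ∧ Parse M D w₂ U₂ ∧ v = v' ++ w₂ ∧ U = U₀ ++ U₂)
      (fun c v h => by simp at h) (fun d U₀ w U hd hw _ c v e => ?_) h
    obtain ⟨c', v', rfl⟩ := List.exists_cons_of_ne_nil (hne d U₀ hd)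
    rw [List.cons_append, List.cons.injEq] at e
    obtain ⟨rfl, rfl⟩ := e
    exact ⟨v', U₀, w, U, hd, hw, rfl, rfl⟩
  revert u
  refine Parse.piece_induction (P := fun w U => ∀ {u : List α}, w = u ++ a :: b :: v →
    (∃ w₁ U₁ u' v' U₀ w₂ U₂, Parse M D w₁ U₁ ∧ Piece M D (u' ++ a :: b :: v') U₀ ∧
      Parse M D w₂ U₂ ∧ u = w₁ ++ u' ∧ v = v' ++ w₂ ∧ U = U₁ ++ U₀ ++ U₂) ∨
    ∃ w₁ U₁ u' U₀ v' U₀' w₂ U₂, Parse M D w₁ U₁ ∧ Piece M D (u' ++ [a]) U₀ ∧
      Piece M D (b :: v') U₀' ∧ Parse M D w₂ U₂ ∧ u = w₁ ++ u' ∧ v = v' ++ w₂ ∧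
      U = U₁ ++ U₀ ++ U₀' ++ U₂) (fun h => by simp at h) (fun d U₀ w U hd hw ih u e => ?_) h
  have pre : ∀ u₁, w = u₁ ++ a :: b :: v → u = d ++ u₁ →
      (∃ w₁ U₁ u' v' U₀' w₂ U₂, Parse M D w₁ U₁ ∧ Piece M D (u' ++ a :: b :: v') U₀' ∧
        Parse M D w₂ U₂ ∧ u = w₁ ++ u' ∧ v = v' ++ w₂ ∧ U₀ ++ U = U₁ ++ U₀' ++ U₂) ∨
      ∃ w₁ U₁ u' U₀'' v' U₀' w₂ U₂, Parse M D w₁ U₁ ∧ Piece M D (u' ++ [a]) U₀'' ∧
        Piece M D (b :: v') U₀' ∧ Parse M D w₂ U₂ ∧ u = w₁ ++ u' ∧ v = v' ++ w₂ ∧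
        U₀ ++ U = U₁ ++ U₀'' ++ U₀' ++ U₂ := by
    rintro u₁ e₁ rfl
    rcases ih e₁ with ⟨w₁, U₁, u', v', V, w₂, U₂, p1, p2, p3, rfl, rfl, rfl⟩ |
      ⟨w₁, U₁, u', V, v', V', w₂, U₂, p1, p2, p3, p4, rfl, rfl, rfl⟩
    · exact Or.inl ⟨d ++ w₁, U₀ ++ U₁, u', v', V, w₂, U₂, hd.parse.append p1, p2, p3, by simp, rfl,
        by simp⟩
    · exact Or.inr ⟨d ++ w₁, U₀ ++ U₁, u', V, v', V', w₂, U₂, hd.parse.append p1, p2, p3, p4,
        by simp, rfl, by simp⟩
  rcases List.append_eq_append_iff.1 e with ⟨u₁, e₁, e₂⟩ | ⟨c', e₁, e₂⟩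
  · exact pre u₁ e₂ e₁
  · match c', e₁, e₂ with
    | [], e₁, e₂ => exact pre [] e₂.symm (by simpa using e₁.symm)
    | [a'], e₁, e₂ =>
      simp only [List.cons_append, List.nil_append, List.cons.injEq] at e₂
      obtain ⟨rfl, e₃⟩ := e₂
      obtain ⟨v', V, w₂, U₂, p1, p2, rfl, rfl⟩ := first hw b v e₃.symm
      exact Or.inr ⟨[], [], u, U₀, v', V, w₂, U₂, Parse.nil, e₁ ▸ hd, p1, p2, rfl, rfl, by simp⟩
    | a' :: b' :: v', e₁, e₂ =>
      simp only [List.cons_append, List.cons.injEq] at e₂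
      obtain ⟨rfl, rfl, rfl⟩ := e₂
      exact Or.inl ⟨[], [], u, v', U₀, w, U, Parse.nil, e₁ ▸ hd, hw, rfl, rfl, by simp⟩

theorem Parse.mem {w : List α} {U : List β} (h : Parse M D w U) {a : α} (ha : a ∈ w) :
    ∃ w₀ U₀, Piece M D w₀ U₀ ∧ a ∈ w₀ := by
  revert ha
  refine Parse.piece_induction (P := fun w _ => a ∈ w → ∃ w₀ U₀, Piece M D w₀ U₀ ∧ a ∈ w₀)
    (fun h => by simp at h) (fun d U₀ w U hd _ ih ha => ?_) h
  rcases List.mem_append.1 ha with ha | ha
  · exact ⟨d, U₀, hd, ha⟩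
  · exact ih ha

end Parse

end Crest.Agent.R176
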