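import Crest.Agent.R176.ALocal

/-!
# Row 176 A: trajectories  (subtask ATraj)

`stepR` is the core computation.  Phase `R`: write `p = a W + j` (`a < 12`, `j < W`); `ActR` at `p`:
case 1 if `p = i`, case 2 if `p = 6W + i`, cases 3, 4 if `κ` and `p = W + i`, `7W + i`, case 5 if
`p = 2W + xs off (i+1)`, case 6 if `p = 8W + (qs i * cS + cd (sym i))` (`Good.addr`; for
`8W ≤ p ≤ 9W + i` one has `symAt = sym`), case 7 if `p = 9W + i`, else case 8 (`¬ Fire`).
It is convenient to prove first `act_traj : ActH W (headAt ph i p) (cellAt ph i p p)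
{headAt ph i (p+1) with sd := decide (6W ≤ p)} (cellAt ph i (p+1) p)` and
`cellAt ph i p z = cellAt ph i (p+1) z` for `z ≠ p`, and then to treat the turn at `p + 2 = 12 W`
(zone 5: no cell changes; `tc i (12W-1) z = tc (i+1) 0 z`).
`traj_prev`: every non-initial time is `nxtR`/`nxtL` of a valid time.
`traj_nextR`: change the guess `γ` at column `i` (side of `p`) to the guessed values of `c`; this does
not change `dcore .. ph i p z` (`sym j`, `qs j` for `j < i`, `qs i`, and the parts of `symAt i p`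
already read are unchanged), then `stepR` and `mvR_det`.
-/

set_option autoImplicit false

namespace Crest.Agent.R176.M

variable {W : ℕ} {P : ℕ → ℕ}

def nxtR (W : ℕ) (ph : Ph) (i p : ℕ) : Ph × ℕ :=
  if p + 2 = 12 * W then (if i + 1 = W then (.F, i) else (.L, i + 1)) else (ph, i)

def nxtL (ph : Ph) (p : ℕ) : Ph := if p = 1 then (if ph = .L then .R else .S) else ph

theorem div_aux {j : ℕ} (hj : j < W) (a : ℕ) : (a * W + j) / W = a := by
  rw [Nat.add_comm, Nat.add_mul_div_right _ _ (by omega), Nat.div_eq_of_lt hj, Nat.zero_add]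

theorem mod_aux {j : ℕ} (hj : j < W) (a : ℕ) : (a * W + j) % W = j := by
  rw [Nat.add_comm, Nat.add_mul_mod_self_right, Nat.mod_eq_of_lt hj]

theorem mod6_aux {j : ℕ} (hj : j < W) (a : ℕ) : (a * W + j) % (6 * W) = a % 6 * W + j := by
  have h : a * W + j = (a % 6 * W + j) + (a / 6) * (6 * W) := by
    conv_lhs => rw [← Nat.mod_add_div a 6]
    ring
  rw [h, Nat.add_mul_mod_self_right, Nat.mod_eq_of_lt]
  have : a % 6 ≤ 5 := by omega
  nlinarith

theorem le6_aux {j : ℕ} (hj : j < W) (a : ℕ) : 6 * W ≤ a * W + j ↔ 6 ≤ a := by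
  constructor
  · intro h
    by_contra h'
    have : a ≤ 5 := by omega
    nlinarith
  · intro h
    nlinarith

theorem exists_aj (hW : 1 ≤ W) (z : ℕ) : ∃ a j, j < W ∧ z = a * W + j :=
  ⟨z / W, z % W, Nat.mod_lt _ hW, by rw [Nat.mul_comm]; exact (Nat.div_add_mod z W).symm⟩

theorem lt_of_aj {a j n : ℕ} (h : a * W + j < n * W) : a < n := by
  by_contra h'
  have : n * W ≤ a * W := Nat.mul_le_mul_right W (by omega)
  omega

/-- explicit form of `tc` -/
noncomputable def tcE (P : ℕ → ℕ) (W : ℕ) (D : Dat) (dn : Prop) [Decidable dn] (a j : ℕ) : Cell where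
  st := ⟨Fin.ofNat 6 (a % 6), if a % 6 = 0 then (D.ρ (decide (6 ≤ a))).sc j else sz, j,
    if a % 6 = 2 then P j else 0⟩
  mem := if a % 6 = 0 then (D.ρ (decide (6 ≤ a))).dc j else dz
  gs := if a % 6 = 0 ∧ dn then (D.γ (decide (6 ≤ a))).dc j else dz
  tb := if a % 6 = 1 then (D.ρ (decide (6 ≤ a))).tc j else false
  tg := if a % 6 = 1 ∧ D.κ = true ∧ dn then (D.γ (decide (6 ≤ a))).tc j else false
  hσ := if a = 9 ∧ dn then sym P W D j else Sym.z
  hq := if a = 9 ∧ dn then qs P W D j else 0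

theorem tc_eq (D : Dat) (i p a : ℕ) {j : ℕ} (hj : j < W) :
    tc P W D i p (a * W + j) = tcE P W D (j < i ∨ (j = i ∧ a * W + j < p)) a j := by
  simp only [tc, tcE, bc, mod6_aux hj, div_aux hj, mod_aux hj, le6_aux hj]

theorem tcE_congr (D : Dat) {dn dn' : Prop} [Decidable dn] [Decidable dn'] (a j : ℕ)
    (h : (a % 6 = 0 ∨ (a % 6 = 1 ∧ D.κ = true) ∨ a = 9) → (dn ↔ dn')) :
    tcE P W D dn a j = tcE P W D dn' a j := by
  have h0 : (a % 6 = 0 ∧ dn) ↔ (a % 6 = 0 ∧ dn') := and_congr_right fun h1 => h (Or.inl h1)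
  have h1 : (a % 6 = 1 ∧ D.κ = true ∧ dn) ↔ (a % 6 = 1 ∧ D.κ = true ∧ dn') :=
    and_congr_right fun h1 => and_congr_right fun h2 => h (Or.inr (Or.inl ⟨h1, h2⟩))
  have h2 : (a = 9 ∧ dn) ↔ (a = 9 ∧ dn') := and_congr_right fun h1 => h (Or.inr (Or.inr h1))
  simp only [tcE, h0, h1, h2]

theorem xs_lt (hW : 1 ≤ W) (D : Dat) (t : STrk) (j : ℕ) : xs W D t j < W := by
  induction j with
  | zero => exact hW
  | succ j ih =>
    have : ((D.ρ false).sc j t).toNat ≤ 1 := Bool.toNat_le _
    simp only [xs, dbl]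
    split_ifs <;> omega

theorem qs_lt (hG : Good W P) (D : Dat) (j : ℕ) : qs P W D j < W := by
  cases j with
  | zero => have := hG.two_le; simp only [qs, run]; omega
  | succ j => exact hG.lt _

theorem cellAt_st (D : Dat) (ph : Ph) (i p z : ℕ) :
    (cellAt P W D ph i p z).st = (bc P W (D.ρ (decide (6 * W ≤ z))) (z % (6 * W))).st := by
  cases ph
  · rfl
  · rfl
  · rfl
  · simp only [cellAt]
    split_ifs
    · rw [swp_st]; rfl
    · rfl

theorem cellAt_addr (hW : 1 ≤ W) (D : Dat) (ph : Ph) (i p : ℕ) :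
    AddrOK W (12 * W) (cellAt P W D ph i p) := by
  intro z _
  obtain ⟨a, j, hj, rfl⟩ := exists_aj hW z
  rw [cellAt_st]
  simp only [bc, mod6_aux hj, div_aux hj, mod_aux hj, and_true]
  ext
  simp

theorem addr_first (hW : 1 ≤ W) {n : ℕ} {c : ℕ → Cell} (h : AddrOK W n c) {z : ℕ} (hz : z < n) :
    First (c z) ↔ z % (6 * W) = 0 := by
  obtain ⟨a, j, hj, rfl⟩ := exists_aj hW z
  obtain ⟨h1, h2⟩ := h _ hz
  rw [First, h1, h2, mod6_aux hj, div_aux hj, mod_aux hj, Fin.ext_iff]
  simp only [Fin.val_ofNat, Fin.val_zero, Nat.add_eq_zero_iff, Nat.mul_eq_zero]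
  omega

theorem addr_last (hW : 1 ≤ W) {n : ℕ} {c : ℕ → Cell} (h : AddrOK W n c) {z : ℕ} (hz : z < n) :
    Last W (c z) ↔ z % (6 * W) + 1 = 6 * W := by
  obtain ⟨a, j, hj, rfl⟩ := exists_aj hW z
  obtain ⟨h1, h2⟩ := h _ hz
  rw [Last, h1, h2, mod6_aux hj, div_aux hj, mod_aux hj, Fin.ext_iff]
  simp only [Fin.val_ofNat]
  have h6 : a % 6 < 6 := Nat.mod_lt _ (by norm_num)
  generalize a % 6 = b at h6 ⊢
  show b = 5 ∧ _ ↔ _
  interval_cases b <;> omega

theorem addr_succ (hW : 1 ≤ W) {n : ℕ} {c : ℕ → Cell} (h : AddrOK W n c) {z : ℕ} (hz : z + 1 < n) :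
    Succ W (c z).st (c (z + 1)).st := by
  obtain ⟨a, j, hj, rfl⟩ := exists_aj hW z
  obtain ⟨h1, h2⟩ := h _ (Nat.lt_of_succ_lt hz)
  obtain ⟨h3, h4⟩ := h _ hz
  rw [div_aux hj] at h1
  rw [mod_aux hj] at h2
  by_cases hl : j + 1 < W
  · rw [Nat.add_assoc, div_aux hl] at h3
    rw [Nat.add_assoc, mod_aux hl] at h4
    exact Or.inl ⟨by rw [Nat.add_assoc, h1, h3], by rw [Nat.add_assoc, h2, h4]⟩
  · have e : a * W + j + 1 = (a + 1) * W + 0 := by rw [Nat.add_mul]; omega
    rw [e, div_aux hW] at h3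
    rw [e, mod_aux hW] at h4
    refine Or.inr ⟨by omega, by rw [e, h4], ?_⟩
    rw [e, h1, h3]
    ext
    simp [Fin.val_add]

theorem headAt_keep (D : Dat) (ph : Ph) (i p : ℕ) :
    (headAt P W D ph i p).ph = ph ∧ (headAt P W D ph i p).o = D.o ∧ (headAt P W D ph i p).κ = D.κ ∧
    (headAt P W D ph i p).sd = decide (6 * W ≤ p) := by
  cases ph <;> exact ⟨rfl, rfl, rfl, rfl⟩

theorem tc_bdd (hG : Good W P) (D : Dat) (i p z : ℕ) : (tc P W D i p z).Bdd W := by
  have h2 := hG.two_le
  refine ⟨Nat.mod_lt _ (by omega), ?_, ?_⟩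
  · simp only [tc, bc]
    split_ifs
    · exact hG.lt _
    · omega
  · simp only [tc]
    split_ifs
    · exact qs_lt hG D _
    · omega

theorem swp_bdd {κ : Bool} {c : Cell} (h : c.Bdd W) : (swp κ c).Bdd W := by
  unfold swp
  split_ifs <;> exact h

theorem headAt_bdd (hG : Good W P) (D : Dat) {ph : Ph} {i p : ℕ} (ht : TimeOK W ph i p) :
    (headAt P W D ph i p).Bdd W := by
  have h2 := hG.two_le
  have hq := qs_lt hG D
  have hx := xs_lt (W := W) (by omega) D
  cases ph
  · exact ⟨ht.1, hq _, by simp only [headAt]; omega, hx _ _, hx _ _⟩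
  · refine ⟨ht.1, ?_, ?_, ?_, ?_⟩ <;> simp only [headAt] <;> split_ifs <;>
      first | exact hq _ | exact hx _ _ | omega
  · exact ⟨by simp only [headAt]; omega, hq _, by simp only [headAt]; omega, hx _ _, hx _ _⟩
  · exact ⟨by simp only [headAt]; omega, hq _, by simp only [headAt]; omega, hx _ _, hx _ _⟩

theorem dcore_bdd (hG : Good W P) (D : Dat) {ph : Ph} {i p : ℕ} (ht : TimeOK W ph i p) (z : ℕ) :
    (dcore P W D ph i p z).Bdd W := by
  refine ⟨?_, fun h hh => ?_⟩
  · cases ph
    · exact tc_bdd hG D _ _ _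
    · exact tc_bdd hG D _ _ _
    · exact tc_bdd hG D _ _ _
    · simp only [dcore, cellAt]
      split_ifs
      · exact swp_bdd (tc_bdd hG D _ _ _)
      · exact tc_bdd hG D _ _ _
  · simp only [dcore, flD] at hh
    split_ifs at hh
    cases hh
    exact headAt_bdd hG D ht

theorem addr_lt (hG : Good W P) (D : Dat) {i : ℕ} (hi : i < W) :
    qs P W D i * cS + cd (sym P W D i) < W :=
  hG.addr (sym P W D) (fun _ _ => rfl) i hi

theorem fin6 {a : ℕ} (b : Fin 6) : (Fin.ofNat 6 (a % 6) = b) ↔ a % 6 = b.val := by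
  rw [Fin.ext_iff]; simp

theorem actR_traj (hG : Good W P) (D : Dat) {i p : ℕ} (hi : i < W) (hp : p + 1 < 12 * W) :
    ActR W (headAt P W D .R i p) (tc P W D i p p)
      { headAt P W D .R i (p + 1) with sd := decide (6 * W ≤ p) } (tc P W D i (p + 1) p) := by
  have h2 := hG.two_le
  have hx := xs_lt (W := W) (by omega) D .off (i + 1)
  have ha := addr_lt hG D hi
  obtain ⟨a, j, hj, rfl⟩ := exists_aj (W := W) (by omega) p
  have ha12 : a < 12 := lt_of_aj (W := W) (j := j) (by omega)
  rw [tc_eq D _ _ _ hj, tc_eq D _ _ _ hj]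
  generalize hx' : xs W D .off (i + 1) = x at hx
  generalize ha' : qs P W D i * cS + cd (sym P W D i) = ad at ha
  have hq : qs P W D (i + 1) = P ad := by rw [← ha']; rfl
  by_cases c1 : a = 0 ∧ j = i
  · obtain ⟨rfl, rfl⟩ := c1
    refine Or.inl ?_
    simp (disch := omega) only [headAt, symAt, tcE, hx', ha', if_pos, if_neg, decide_eq_false]
    simp [sym, xs, ← hx']
  by_cases c2 : a = 6 ∧ j = i
  · obtain ⟨rfl, rfl⟩ := c2
    refine Or.inr (Or.inl ?_)
    simp (disch := omega) only [headAt, symAt, tcE, hx', ha', if_pos, if_neg, decide_eq_true]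
    simp [sym]
  by_cases c3 : a = 1 ∧ j = i ∧ D.κ = true
  · obtain ⟨rfl, rfl, hk⟩ := c3
    refine Or.inr (Or.inr (Or.inl ?_))
    simp (disch := omega) only [headAt, symAt, tcE, hx', ha', hk, true_and, if_pos, if_neg,
      decide_eq_false]
    simp [sym, hk]
    rfl
  by_cases c4 : a = 7 ∧ j = i ∧ D.κ = true
  · obtain ⟨rfl, rfl, hk⟩ := c4
    refine Or.inr (Or.inr (Or.inr (Or.inl ?_)))
    simp (disch := omega) only [headAt, symAt, tcE, hx', ha', hk, true_and, if_pos, if_neg,
      decide_eq_true]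
    simp [sym, hk]
    rfl
  by_cases c5 : a = 2 ∧ j = x
  · obtain ⟨rfl, rfl⟩ := c5
    refine Or.inr (Or.inr (Or.inr (Or.inr (Or.inl ?_))))
    simp (disch := omega) only [headAt, symAt, tcE, hx', ha', if_pos, if_neg, decide_eq_false]
    simp [sym, hx']
  by_cases c6 : a = 8 ∧ j = ad
  · obtain ⟨rfl, rfl⟩ := c6
    refine Or.inr (Or.inr (Or.inr (Or.inr (Or.inr (Or.inl ?_)))))
    simp (disch := omega) only [headAt, symAt, tcE, hx', ha', if_pos, if_neg, decide_eq_true]
    simp [hq]
  by_cases c7 : a = 9 ∧ j = i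
  · obtain ⟨rfl, rfl⟩ := c7
    refine Or.inr (Or.inr (Or.inr (Or.inr (Or.inr (Or.inr (Or.inl ?_))))))
    simp (disch := omega) only [headAt, symAt, tcE, hx', ha', if_pos, if_neg, decide_eq_true]
    simp
  refine Or.inr (Or.inr (Or.inr (Or.inr (Or.inr (Or.inr (Or.inr ⟨?_, ?_, ?_⟩))))))
  · simp only [Fire, tcE, fin6, not_or, not_and]
    refine ⟨fun h1 h2 => ?_, fun h1 h2 h3 => ?_, fun h1 h2 h3 => ?_, fun h1 h2 h3 => ?_,
      fun h1 h2 h3 => ?_⟩
    · simp only [headAt] at h2
      have : (0 : Fin 6).val = 0 := rfl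
      omega
    · simp only [headAt] at h2 h3
      have : (1 : Fin 6).val = 1 := rfl
      simp only [h3, and_true] at c3 c4
      omega
    · simp only [headAt, decide_eq_false_iff_not, le6_aux hj] at h2
      have : (2 : Fin 6).val = 2 := rfl
      obtain rfl : a = 2 := by omega
      simp (disch := omega) only [headAt, hx', if_pos] at h3
      omega
    · simp only [headAt, decide_eq_true_eq, le6_aux hj] at h2
      have : (2 : Fin 6).val = 2 := rfl
      obtain rfl : a = 8 := by omega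
      simp (disch := omega) only [headAt, symAt, hx', if_pos, if_neg] at h3
      exact c6 ⟨rfl, h3.trans ha'⟩
    · simp only [headAt, decide_eq_true_eq, le6_aux hj] at h2 h3
      have : (3 : Fin 6).val = 3 := rfl
      omega
  · refine tcE_congr D a j fun h => ?_
    have : j ≠ i := by
      rintro rfl
      rcases h with h | ⟨h, hk⟩ | h
      · omega
      · simp only [hk, and_true] at c3 c4; omega
      · omega
    omega
  · have key : ∀ b t, t < W → ¬ (a = b ∧ j = t) → (b * W + t < a * W + j + 1 ↔ b * W + t < a * W + j) := by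
      intro b t ht hne
      constructor
      · intro h
        rcases Nat.lt_succ_iff_lt_or_eq.1 h with h | h
        · exact h
        · exfalso
          have e1 := congrArg (· / W) h
          have e2 := congrArg (· % W) h
          simp only [div_aux hj, div_aux ht, mod_aux hj, mod_aux ht] at e1 e2
          exact hne ⟨e1.symm, e2.symm⟩
      · omega
    have k0 := key 0 i hi c1
    have k6 := key 6 i hi c2
    have k2 := key 2 x hx c5
    have k8 := key 8 ad ha c6
    have k9 := key 9 i hi c7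
    simp only [Nat.zero_mul, Nat.zero_add] at k0
    cases hk : D.κ
    · simp only [headAt, symAt, hx', ha', k0, k6, k2, k8, k9]
      simp [sym, hk]
    · simp only [hk, and_true] at c3 c4
      have k1 := key 1 i hi c3
      have k7 := key 7 i hi c4
      simp only [Nat.one_mul] at k1
      simp only [headAt, symAt, hx', ha', k0, k6, k2, k8, k9, k1, k7]

theorem tc_succ_ne (hW : 1 ≤ W) (D : Dat) (i : ℕ) {p z : ℕ} (h : z ≠ p) :
    tc P W D i (p + 1) z = tc P W D i p z := by
  obtain ⟨a, j, hj, rfl⟩ := exists_aj hW z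
  rw [tc_eq D _ _ _ hj, tc_eq D _ _ _ hj]
  exact tcE_congr D a j fun _ => by omega

theorem tc_turn (hW : 1 ≤ W) (D : Dat) (i : ℕ) {p z : ℕ} (hp : p + 2 = 12 * W) (hz : z < 12 * W) :
    tc P W D i (p + 1) z = tc P W D (i + 1) 0 z := by
  obtain ⟨a, j, hj, rfl⟩ := exists_aj hW z
  have ha : a < 12 := lt_of_aj hz
  rw [tc_eq D _ _ _ hj, tc_eq D _ _ _ hj]
  refine tcE_congr D a j fun h => ?_
  have : a ≤ 10 := by omega
  have : a * W ≤ 10 * W := Nat.mul_le_mul_right W this
  omega

theorem flD_left (h : Head) {p z : ℕ} (hz : z < p) : flD W h p z = .fw (decide (6 * W ≤ z)) := by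
  simp [flD, hz]

theorem flD_self (h : Head) (p : ℕ) : flD W h p p = .A h := by simp [flD]

theorem flD_right (h : Head) {p z : ℕ} (hz : p < z) :
    flD W h p z = .bw (!decide (6 * W ≤ z)) := by
  simp [flD, not_lt.2 hz.le, hz.ne']

theorem flD_ne (h h' : Head) {p p' z : ℕ} (h1 : z < p ↔ z < p') (h2 : z ≠ p) (h3 : z ≠ p') :
    flD W h p z = flD W h' p' z := by
  simp only [flD, h1, h2, h3, if_false]

theorem sd_succ (hW : 1 ≤ W) {p : ℕ} (hp : p + 1 < 12 * W) {c : Cell}
    (hc : First c ↔ (p + 1) % (6 * W) = 0) :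
    (decide (6 * W ≤ p) || decide (First c)) = decide (6 * W ≤ p + 1) ∧
      (First c ↔ p + 1 = 6 * W) := by
  have h1 : First c ↔ p + 1 = 6 * W := by
    rw [hc]
    constructor
    · intro h
      obtain ⟨k, hk⟩ := Nat.dvd_of_mod_eq_zero h
      have : k = 1 := by
        rcases k with _ | _ | k
        · omega
        · rfl
        · exfalso; nlinarith
      subst this; omega
    · intro h; rw [h, Nat.mod_self]
  refine ⟨?_, h1⟩
  simp only [h1]
  by_cases h : 6 * W ≤ p + 1 <;> by_cases h' : 6 * W ≤ p <;> simp [h, h'] <;> omega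

theorem last_iff (hW : 1 ≤ W) {z : ℕ} (hz : z < 12 * W) (h6 : 6 * W ≤ z) :
    z % (6 * W) + 1 = 6 * W ↔ z + 1 = 12 * W := by
  have : z % (6 * W) = z - 6 * W := by
    rw [Nat.mod_eq_sub_mod h6, Nat.mod_eq_of_lt (by omega)]
  omega

theorem stepR (hG : Good W P) (D : Dat) {ph : Ph} {i p : ℕ} (ht : TimeOK W ph i p)
    (hph : ph = .R ∨ ph = .S) (hS : ¬ (ph = .S ∧ p + 2 = 12 * W)) :
    TimeOK W (nxtR W ph i p).1 (nxtR W ph i p).2 (p + 1) ∧
    MvR W (dcore P W D ph i p p) (dcore P W D ph i p (p + 1))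
      (dcore P W D (nxtR W ph i p).1 (nxtR W ph i p).2 (p + 1) p)
      (dcore P W D (nxtR W ph i p).1 (nxtR W ph i p).2 (p + 1) (p + 1)) ∧
    ∀ z, z < 12 * W → z ≠ p → z ≠ p + 1 →
      dcore P W D ph i p z = dcore P W D (nxtR W ph i p).1 (nxtR W ph i p).2 (p + 1) z := by
  have h2 := hG.two_le
  have hW : 1 ≤ W := by omega
  have hp : p + 1 < 12 * W := by
    rcases hph with rfl | rfl
    · exact ht.2
    · exact ht
  have hF := addr_first hW (cellAt_addr (P := P) hW D ph i p) hp
  have hL := addr_last hW (cellAt_addr (P := P) hW D ph i p) hp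
  obtain ⟨hsd, hF⟩ := sd_succ hW hp hF
  by_cases hend : p + 2 = 12 * W
  · -- the turn
    obtain rfl : ph = .R := by
      rcases hph with h | h
      · exact h
      · exact absurd ⟨h, hend⟩ hS
    have hi : i < W := ht.1
    have hact := actR_traj hG D hi hp
    have hLast : Last W (cellAt P W D .R i p (p + 1)) := by
      rw [hL, last_iff hW hp (by omega)]; omega
    have hx := xs_lt (W := W) hW D .off (i + 1)
    have ha := addr_lt hG D hi
    have hcell : ∀ z, z < 12 * W → cellAt P W D (nxtR W .R i p).1 (nxtR W .R i p).2 (p + 1) z =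
        tc P W D i (p + 1) z := by
      intro z hz
      rw [tc_turn hW D i hend hz]
      simp only [nxtR, hend, if_true]
      split_ifs with h
      · simp only [cellAt, h]
      · rfl
    refine ⟨?_, ⟨_, { headAt P W D .R i (p + 1) with sd := decide (6 * W ≤ p) }, flD_self _ _,
      Or.inl ⟨rfl, ?_⟩, ?_, ?_, ?_, ?_, ?_, ?_⟩, ?_⟩
    · simp only [nxtR, hend, if_true]
      split_ifs with h
      · exact ⟨by omega, by omega⟩
      · exact ⟨by omega, by omega, by omega, by omega⟩
    · simp only [dcore]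
      rw [hcell p (by omega)]
      exact hact
    · intro h; exact absurd (hF.1 h) (by omega)
    · rintro ⟨h, -⟩; cases h
    · simp only [dcore]
      rw [flD_right _ (Nat.lt_succ_self p), ← hsd]; rfl
    · simp only [dcore]
      rw [flD_left _ (Nat.lt_succ_self p)]; rfl
    · simp only [dcore]
      rw [hcell _ hp, tc_succ_ne hW D i (Nat.succ_ne_self p)]; rfl
    · simp only [dcore, flD_self]
      congr 1
      rw [adjR, if_pos ⟨by simp only [decide_eq_true_eq]; omega, hLast⟩]
      simp only [nxtR, hend, if_true]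
      by_cases h : i + 1 = W
      · have h' : W - 1 = i := by omega
        rw [if_pos h, if_pos (show (headAt P W D .R i (p + 1)).i + 1 = W from h)]
        simp (disch := omega) only [headAt, symAt, if_pos, if_neg, decide_eq_true, h']
        rw [h]
      · rw [if_neg h, if_neg (show ¬ (headAt P W D .R i (p + 1)).i + 1 = W from h)]
        simp (disch := omega) only [headAt, symAt, if_pos, if_neg, decide_eq_true]
    · intro z hz h1 h3
      simp only [dcore]
      rw [hcell z hz, tc_succ_ne hW D i h1, flD_ne _ _ (p' := p + 1) (by omega) h1 h3]; rfl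
  · have hn : nxtR W ph i p = (ph, i) := by simp only [nxtR, hend, if_false]
    rw [hn]
    have hnl : ¬ (decide (6 * W ≤ p) = true ∧ Last W (cellAt P W D ph i p (p + 1))) := by
      rintro ⟨h1, h3⟩
      simp only [decide_eq_true_eq] at h1
      rw [hL, last_iff hW hp (by omega)] at h3
      omega
    rcases hph with rfl | rfl
    · have hi : i < W := ht.1
      have hact := actR_traj hG D hi hp
      refine ⟨⟨hi, by omega⟩, ⟨_, _, flD_self _ _, Or.inl ⟨rfl, hact⟩, ?_, ?_, ?_, ?_, ?_, ?_⟩, ?_⟩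
      · intro h
        have := hF.1 h
        simp only [headAt, decide_eq_false_iff_not]; omega
      · rintro ⟨h, -⟩; cases h
      · simp only [dcore]
        rw [flD_right _ (Nat.lt_succ_self p), ← hsd]; rfl
      · simp only [dcore]
        rw [flD_left _ (Nat.lt_succ_self p)]; rfl
      · exact tc_succ_ne hW D i (Nat.succ_ne_self p)
      · simp only [dcore, flD_self]
        congr 1
        rw [adjR, if_neg hnl]
        simp only [hsd]
        rfl
      · intro z hz h1 h3
        simp only [dcore]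
        rw [flD_ne _ _ (p' := p + 1) (by omega) h1 h3]
        congr 1
        exact (tc_succ_ne hW D i h1).symm
    · refine ⟨by show _ < _; omega,
        ⟨_, _, flD_self _ _, Or.inr ⟨rfl, rfl, ?_⟩, ?_, ?_, ?_, ?_, ?_, ?_⟩, ?_⟩
      · simp [dcore, cellAt, headAt]
      · intro h
        have := hF.1 h
        simp only [headAt, decide_eq_false_iff_not]; omega
      · rintro ⟨-, h⟩; exact hnl h
      · simp only [dcore]
        rw [flD_right _ (Nat.lt_succ_self p), ← hsd]; rfl
      · simp only [dcore]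
        rw [flD_left _ (Nat.lt_succ_self p)]; rfl
      · simp [dcore, cellAt]
      · simp only [dcore, flD_self]
        congr 1
        rw [adjR, if_neg (show ¬ ((headAt P W D .S i p).sd = true ∧ _) from hnl)]
        simp only [headAt, ← hsd]
      · intro z hz h1 h3
        simp only [dcore]
        rw [flD_ne _ _ (p' := p + 1) (by omega) h1 h3]
        congr 1
        have : z < p ↔ z < p + 1 := by omega
        simp only [cellAt, this]

theorem stepL (hG : Good W P) (D : Dat) {ph : Ph} {i p : ℕ} (ht : TimeOK W ph i (p + 1))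
    (hph : ph = .L ∨ ph = .F) :
    TimeOK W (nxtL ph (p + 1)) i p ∧
    MvL (dcore P W D ph i (p + 1) p) (dcore P W D ph i (p + 1) (p + 1))
      (dcore P W D (nxtL ph (p + 1)) i p p) (dcore P W D (nxtL ph (p + 1)) i p (p + 1)) ∧
    ∀ z, z < 12 * W → z ≠ p → z ≠ p + 1 →
      dcore P W D ph i (p + 1) z = dcore P W D (nxtL ph (p + 1)) i p z := by
  have h2 := hG.two_le
  have hW : 1 ≤ W := by omega
  have hp : p + 1 < 12 * W := by
    rcases hph with rfl | rfl
    · exact ht.2.2.1
    · exact ht.2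
  have hF := addr_first hW (cellAt_addr (P := P) hW D ph i (p + 1)) hp
  obtain ⟨-, hF⟩ := sd_succ hW hp hF
  have hF0 := addr_first hW (cellAt_addr (P := P) hW D ph i (p + 1)) (z := p) (by omega)
  have hsd : (decide (6 * W ≤ p + 1) && !decide (First (dcore P W D ph i (p + 1) (p + 1)).c)) =
      decide (6 * W ≤ p) := by
    have hF' : First (dcore P W D ph i (p + 1) (p + 1)).c ↔ p + 1 = 6 * W := hF
    simp only [hF']
    by_cases h : 6 * W ≤ p + 1 <;> by_cases h' : 6 * W ≤ p <;> simp [h, h'] <;> omega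
  have hk := headAt_keep (P := P) (W := W) D ph i (p + 1)
  have hcell : ∀ z, cellAt P W D (nxtL ph (p + 1)) i p z = cellAt P W D ph i (p + 1) z := by
    intro z
    by_cases h0 : p = 0
    · subst h0
      rcases hph with rfl | rfl <;> simp [nxtL, cellAt]
    · have : nxtL ph (p + 1) = ph := by simp [nxtL, h0]
      rw [this]
      rcases hph with rfl | rfl <;> rfl
  refine ⟨?_, ⟨_, flD_self _ _, by rw [hk.1]; exact hph, ?_, ?_, ?_, hcell _, hcell _, ?_, ?_⟩, ?_⟩
  · by_cases h0 : p = 0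
    · subst h0
      rcases hph with rfl | rfl
      · exact ⟨ht.1, by omega⟩
      · show _ < _; omega
    · have : nxtL ph (p + 1) = ph := by simp [nxtL, h0]
      rw [this]
      rcases hph with rfl | rfl
      · exact ⟨ht.1, by omega, by omega, fun h => by have := ht.2.2.2 h; omega⟩
      · exact ⟨by omega, by omega⟩
  · intro h
    have := hF.1 h
    rw [hk.2.2.2, decide_eq_true_eq]; omega
  · rintro ⟨h1, h3, h4⟩
    rw [hk.1] at h1
    subst h1
    have := hF.1 h4
    have := ht.2.2.2 h3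
    omega
  · rw [hk.2.2.2, hsd]
    exact flD_left _ (Nat.lt_succ_self p)
  · simp only [dcore]
    rw [flD_right _ (Nat.lt_succ_self p), hk.2.2.2]
  · rw [adjL, hk.2.2.2, hsd]
    refine (flD_self _ _).trans ?_
    congr 1
    by_cases h0 : p = 0
    · subst h0
      rw [if_pos ⟨by simp only [decide_eq_false_iff_not]; omega, hF0.2 (Nat.zero_mod _)⟩]
      rcases hph with rfl | rfl
      · simp (disch := omega) only [nxtL, headAt, symAt, if_pos, if_neg, if_true, decide_eq_false]
        rfl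
      · simp (disch := omega) only [nxtL, headAt, if_pos, if_neg, if_true, decide_eq_false]
        rfl
    · have : nxtL ph (p + 1) = ph := by simp [nxtL, h0]
      rw [this, if_neg]
      · rcases hph with rfl | rfl <;> rfl
      · rintro ⟨h1, h3⟩
        simp only [decide_eq_false_iff_not] at h1
        have h4 := hF0.1 h3
        rw [Nat.mod_eq_of_lt (by omega)] at h4
        exact h0 h4
  · intro z _ h1 h3
    simp only [dcore]
    rw [hcell, flD_ne _ _ (p' := p) (by omega) h3 h1]

theorem traj_prev (hG : Good W P) (D : Dat) {ph : Ph} {i p : ℕ} (ht : TimeOK W ph i p)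
    (hs : ¬ (ph = .L ∧ i = 0 ∧ p + 1 = 6 * W)) :
    ∃ ph' i' p', TimeOK W ph' i' p' ∧ meas W ph' i' p' < meas W ph i p ∧
      ((p = p' + 1 ∧ MvR W (dcore P W D ph' i' p' p') (dcore P W D ph' i' p' p)
          (dcore P W D ph i p p') (dcore P W D ph i p p)) ∨
        (p' = p + 1 ∧ MvL (dcore P W D ph' i' p' p) (dcore P W D ph' i' p' p')
          (dcore P W D ph i p p) (dcore P W D ph i p p'))) ∧
      ∀ z, z < 12 * W → z ≠ p → z ≠ p' → dcore P W D ph' i' p' z = dcore P W D ph i p z := by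
  have h2 := hG.two_le
  have viaR : ∀ ph' i' p', TimeOK W ph' i' p' → (ph' = .R ∨ ph' = .S) →
      ¬ (ph' = .S ∧ p' + 2 = 12 * W) → p = p' + 1 → meas W ph' i' p' < meas W ph i p →
      (∀ z, dcore P W D (nxtR W ph' i' p').1 (nxtR W ph' i' p').2 (p' + 1) z =
        dcore P W D ph i p z) →
      ∃ ph' i' p', TimeOK W ph' i' p' ∧ meas W ph' i' p' < meas W ph i p ∧
      ((p = p' + 1 ∧ MvR W (dcore P W D ph' i' p' p') (dcore P W D ph' i' p' p)
          (dcore P W D ph i p p') (dcore P W D ph i p p)) ∨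
        (p' = p + 1 ∧ MvL (dcore P W D ph' i' p' p) (dcore P W D ph' i' p' p')
          (dcore P W D ph i p p) (dcore P W D ph i p p'))) ∧
      ∀ z, z < 12 * W → z ≠ p → z ≠ p' → dcore P W D ph' i' p' z = dcore P W D ph i p z := by
    intro ph' i' p' h1 h3 h4 h5 h6 h7
    obtain ⟨-, a, b⟩ := stepR hG D h1 h3 h4
    simp only [h7] at a b
    subst h5
    exact ⟨ph', i', p', h1, h6, Or.inl ⟨rfl, a⟩, fun z hz e1 e2 => b z hz e2 e1⟩
  have viaL : ∀ ph', TimeOK W ph' i (p + 1) → (ph' = .L ∨ ph' = .F) →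
      meas W ph' i (p + 1) < meas W ph i p → nxtL ph' (p + 1) = ph →
      ∃ ph' i' p', TimeOK W ph' i' p' ∧ meas W ph' i' p' < meas W ph i p ∧
      ((p = p' + 1 ∧ MvR W (dcore P W D ph' i' p' p') (dcore P W D ph' i' p' p)
          (dcore P W D ph i p p') (dcore P W D ph i p p)) ∨
        (p' = p + 1 ∧ MvL (dcore P W D ph' i' p' p) (dcore P W D ph' i' p' p')
          (dcore P W D ph i p p) (dcore P W D ph i p p'))) ∧
      ∀ z, z < 12 * W → z ≠ p → z ≠ p' → dcore P W D ph' i' p' z = dcore P W D ph i p z := by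
    intro ph' h1 h3 h6 h7
    obtain ⟨-, a, b⟩ := stepL hG D h1 h3
    rw [h7] at a b
    exact ⟨ph', i, p + 1, h1, h6, Or.inr ⟨rfl, a⟩, b⟩
  cases ph
  · obtain ⟨t1, t2, t3, t4⟩ := ht
    by_cases he : p + 1 = 12 * W
    · obtain ⟨i', rfl⟩ : ∃ i', i = i' + 1 := ⟨i - 1, by omega⟩
      obtain ⟨p', rfl⟩ : ∃ p', p = p' + 1 := ⟨p - 1, by omega⟩
      refine viaR .R i' p' ⟨by omega, by omega⟩ (Or.inl rfl) (by simp) rfl ?_ fun z => ?_
      · simp only [meas, Nat.add_mul]; omega
      · simp (disch := omega) only [nxtR, if_pos, if_neg]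
    · refine viaL .L ⟨t1, by omega, by omega, fun h => ?_⟩ (Or.inl rfl) ?_ ?_
      · have := t4 h
        simp only [h, true_and] at hs
        omega
      · simp only [meas]; omega
      · simp (disch := omega) only [nxtL, if_neg]
  · obtain ⟨t1, t2⟩ := ht
    rcases p with _ | p'
    · refine viaL .L ⟨t1, by omega, by omega, by omega⟩ (Or.inl rfl) ?_ ?_
      · simp only [meas]; omega
      · simp [nxtL]
    · refine viaR .R i p' ⟨t1, by omega⟩ (Or.inl rfl) (by simp) rfl ?_ fun z => ?_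
      · simp only [meas]; omega
      · simp (disch := omega) only [nxtR, if_neg]
  · obtain ⟨t1, t2⟩ := ht
    by_cases he : p + 1 = 12 * W
    · obtain ⟨p', rfl⟩ : ∃ p', p = p' + 1 := ⟨p - 1, by omega⟩
      refine viaR .R (W - 1) p' ⟨by omega, by omega⟩ (Or.inl rfl) (by simp) rfl ?_ fun z => ?_
      · obtain ⟨V, rfl⟩ : ∃ V, W = V + 1 := ⟨W - 1, by omega⟩
        simp only [meas, Nat.add_sub_cancel, Nat.add_mul]; omega
      · simp (disch := omega) only [nxtR, if_pos]
        rfl
    · refine viaL .F ⟨by omega, by omega⟩ (Or.inr rfl) ?_ ?_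
      · simp only [meas]; omega
      · simp (disch := omega) only [nxtL, if_neg]
  · have t1 : p + 1 < 12 * W := ht
    rcases p with _ | p'
    · refine viaL .F ⟨by omega, by omega⟩ (Or.inr rfl) ?_ ?_
      · simp only [meas]; omega
      · simp [nxtL]
    · refine viaR .S i p' (by show _ < _; omega) (Or.inr rfl) (by omega) rfl ?_ fun z => ?_
      · simp only [meas]; omega
      · simp (disch := omega) only [nxtR, if_neg]

theorem xs_congr {D D' : Dat} (h : (D.ρ false).sc = (D'.ρ false).sc) (t : STrk) (j : ℕ) :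
    xs W D t j = xs W D' t j := by
  induction j with
  | zero => rfl
  | succ j ih => simp only [xs, ih, h]

theorem actR_gs {h h' : Head} {c c' : Cell} (a : ActR W h c h' c') :
    (c'.gs = c.gs ∨ (c.st.zone = 0 ∧ c.st.off = h.i)) ∧
      (c'.tg = c.tg ∨ (c.st.zone = 1 ∧ c.st.off = h.i)) := by
  rcases a with ⟨h1, h2, -, -, -, -, -, -, -, g, rfl, -⟩ | ⟨h1, h2, -, -, -, g, rfl, -⟩ |
    ⟨h1, h2, -, -, -, -, g, rfl, -⟩ | ⟨h1, h2, -, -, -, -, g, rfl, -⟩ | ⟨-, -, -, -, rfl, -⟩ |
    ⟨-, -, -, -, rfl, -⟩ | ⟨-, -, -, -, -, rfl, -⟩ | ⟨-, rfl, -⟩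
  · exact ⟨Or.inr ⟨h1, h2⟩, Or.inl rfl⟩
  · exact ⟨Or.inr ⟨h1, h2⟩, Or.inl rfl⟩
  · exact ⟨Or.inl rfl, Or.inr ⟨h1, h2⟩⟩
  · exact ⟨Or.inl rfl, Or.inr ⟨h1, h2⟩⟩
  all_goals exact ⟨Or.inl rfl, Or.inl rfl⟩

theorem dcore_guess (hW : 1 ≤ W) {D D' : Dat} (hρ : D'.ρ = D.ρ) (ho : D'.o = D.o) (hκ : D'.κ = D.κ)
    {i p : ℕ} (hi : i < W)
    (hd : ∀ (s : Bool) j, (j < i ∨ (j = i ∧ 6 * s.toNat * W + i < p)) → (D'.γ s).dc j = (D.γ s).dc j)
    (htc : ∀ (s : Bool) j, (j < i ∨ (j = i ∧ (6 * s.toNat + 1) * W + i < p)) →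
      (D'.γ s).tc j = (D.γ s).tc j) {z : ℕ} (hz : z < 12 * W) :
    dcore P W D' .R i p z = dcore P W D .R i p z := by
  have hx : xs W D' = xs W D := funext fun t => funext fun j => xs_congr (by rw [hρ]) t j
  have hs : ∀ j, (j < i ∨ (j = i ∧ 7 * W + i < p)) → sym P W D' j = sym P W D j := by
    intro j hj
    simp only [sym, hx, hρ, ho, hκ]
    rw [hd false j (by simp only [Bool.toNat_false]; omega),
      hd true j (by simp only [Bool.toNat_true]; omega),
      htc false j (by simp only [Bool.toNat_false]; omega),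
      htc true j (by simp only [Bool.toNat_true]; omega)]
  have hq : ∀ j, (j ≤ i ∨ (j = i + 1 ∧ 7 * W + i < p)) → qs P W D' j = qs P W D j := by
    intro j
    induction j with
    | zero => intro _; rfl
    | succ j ih =>
      intro hj
      show P (qs P W D' j * cS + cd (sym P W D' j)) = P (qs P W D j * cS + cd (sym P W D j))
      rw [ih (by omega), hs j (by omega)]
  simp only [dcore]
  congr 1
  · obtain ⟨a, j, hj, rfl⟩ := exists_aj hW z
    have ha : a < 12 := lt_of_aj hz
    simp only [cellAt]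
    rw [tc_eq D _ _ _ hj, tc_eq D' _ _ _ hj]
    simp only [tcE, hρ, hκ]
    congr 1
    · refine ite_congr rfl (fun h => hd _ _ ?_) fun _ => rfl
      have : a = 0 ∨ a = 6 := by omega
      rcases this with rfl | rfl <;> simp at h ⊢ <;> omega
    · refine ite_congr rfl (fun h => htc _ _ ?_) fun _ => rfl
      have : a = 1 ∨ a = 7 := by omega
      rcases this with rfl | rfl <;> simp at h ⊢ <;> omega
    · refine ite_congr rfl (fun h => hs _ ?_) fun _ => rfl
      obtain ⟨rfl, h⟩ := h
      omega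
    · refine ite_congr rfl (fun h => hq _ ?_) fun _ => rfl
      omega
  · congr 1
    by_cases h7 : 7 * W + i < p
    · simp only [headAt, symAt, hx, ho, hκ, hs i (Or.inr ⟨rfl, h7⟩), hq i (Or.inl le_rfl),
        hq (i + 1) (Or.inr ⟨rfl, h7⟩)]
    · have e1 : ¬ 9 * W + i < p := by omega
      have e2 : ∀ t, ¬ 8 * W + t < p := fun t => by omega
      simp only [headAt, symAt, hx, ho, hκ, hq i (Or.inl le_rfl), e1, e2, h7, if_false, false_and,
        sym, hρ]
      congr 2
      · refine ite_congr rfl (fun h => ?_) fun _ => rfl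
        rw [hd false i (Or.inr ⟨rfl, by simp only [Bool.toNat_false]; omega⟩)]
      · refine ite_congr rfl (fun h => ?_) fun _ => rfl
        rw [hd true i (Or.inr ⟨rfl, by simp only [Bool.toNat_true]; omega⟩)]
      · refine ite_congr rfl (fun h => ?_) fun _ => rfl
        rw [htc false i (Or.inr ⟨rfl, by simp only [Bool.toNat_false]; omega⟩)]

theorem nxtR_cell (hW : 1 ≤ W) (D : Dat) {i p z : ℕ} (hz : z < 12 * W) :
    cellAt P W D (nxtR W .R i p).1 (nxtR W .R i p).2 (p + 1) z = tc P W D i (p + 1) z := by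
  by_cases hend : p + 2 = 12 * W
  · rw [tc_turn hW D i hend hz]
    simp only [nxtR, hend, if_true]
    split_ifs with h
    · simp only [cellAt, h]
    · rfl
  · simp only [nxtR, hend, if_false, cellAt]

theorem traj_nextR (hG : Good W P) (D : Dat) {ph : Ph} {i p : ℕ} (ht : TimeOK W ph i p)
    {c d : Core} (hm : MvR W (dcore P W D ph i p p) (dcore P W D ph i p (p + 1)) c d) :
    ∃ D' ph' i', D'.ρ = D.ρ ∧ D'.o = D.o ∧ D'.κ = D.κ ∧ TimeOK W ph' i' (p + 1) ∧
      c = dcore P W D' ph' i' (p + 1) p ∧ d = dcore P W D' ph' i' (p + 1) (p + 1) ∧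
      ∀ z, z < 12 * W → z ≠ p → z ≠ p + 1 →
        dcore P W D ph i p z = dcore P W D' ph' i' (p + 1) z := by
  have h2 := hG.two_le
  have hW : 1 ≤ W := by omega
  obtain ⟨h, h₁, e1, hact, -, hS, -⟩ := id hm
  have e2 : h = headAt P W D ph i p := by
    simp only [dcore, flD_self] at e1
    cases e1; rfl
  subst e2
  have hk := headAt_keep (P := P) (W := W) D ph i p
  have hph : ph = .R ∨ ph = .S := by
    rw [← hk.1]
    rcases hact with h | h
    · exact Or.inl h.1
    · exact Or.inr h.1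
  have hp : p + 1 < 12 * W := by
    rcases hph with rfl | rfl
    · exact ht.2
    · exact ht
  have hS' : ¬ (ph = .S ∧ p + 2 = 12 * W) := by
    rintro ⟨h1, h3⟩
    refine hS ⟨hk.1.trans h1, by rw [hk.2.2.2, decide_eq_true_eq]; omega, ?_⟩
    refine (addr_last hW (cellAt_addr (P := P) hW D ph i p) hp).2 ?_
    rw [last_iff hW hp (by omega)]; omega
  have fin : ∀ D' : Dat, D'.ρ = D.ρ → D'.o = D.o → D'.κ = D.κ →
      (∀ z, z < 12 * W → dcore P W D' ph i p z = dcore P W D ph i p z) →
      c.c.gs = (cellAt P W D' (nxtR W ph i p).1 (nxtR W ph i p).2 (p + 1) p).gs →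
      c.c.tg = (cellAt P W D' (nxtR W ph i p).1 (nxtR W ph i p).2 (p + 1) p).tg →
      ∃ D' ph' i', D'.ρ = D.ρ ∧ D'.o = D.o ∧ D'.κ = D.κ ∧ TimeOK W ph' i' (p + 1) ∧
      c = dcore P W D' ph' i' (p + 1) p ∧ d = dcore P W D' ph' i' (p + 1) (p + 1) ∧
      ∀ z, z < 12 * W → z ≠ p → z ≠ p + 1 →
        dcore P W D ph i p z = dcore P W D' ph' i' (p + 1) z := by
    intro D' a1 a2 a3 a4 a5 a6
    obtain ⟨b1, b2, b3⟩ := stepR hG D' ht hph hS'
    rw [a4 p (by omega), a4 (p + 1) hp] at b2
    obtain ⟨b4, b5⟩ := mvR_det hm b2 a5 a6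
    exact ⟨D', _, _, a1, a2, a3, b1, b4, b5, fun z hz c1 c2 => (a4 z hz).symm.trans (b3 z hz c1 c2)⟩
  rcases hph with rfl | rfl
  · have hi : i < W := ht.1
    have hR : ActR W (headAt P W D .R i p) (tc P W D i p p) h₁ c.c := by
      rcases hact with h | h
      · exact h.2
      · cases h.1
    have g1 := actR_gs hR
    obtain ⟨a, j, hj, rfl⟩ := exists_aj hW p
    have ha : a < 12 := lt_of_aj (W := W) (j := j) (by omega)
    have hst : ∀ b : Fin 6, ((tc P W D i (a * W + j) (a * W + j)).st.zone = b ∧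
        (tc P W D i (a * W + j) (a * W + j)).st.off = (headAt P W D .R i (a * W + j)).i) ↔
        a % 6 = b.val ∧ j = i := by
      intro b
      rw [tc_eq D _ _ _ hj]
      simp only [tcE, fin6, headAt]
    rw [hst, hst] at g1
    have e0 : (0 : Fin 6).val = 0 := rfl
    have e1 : (1 : Fin 6).val = 1 := rfl
    rw [e0, e1] at g1
    by_cases c0 : a % 6 = 0 ∧ j = i
    · obtain ⟨c0, rfl⟩ := c0
      let D' : Dat := ⟨D.ρ, fun s => if s = decide (6 ≤ a) then
        ⟨(D.γ s).sc, Function.update (D.γ s).dc j c.c.gs, (D.γ s).tc⟩ else D.γ s, D.o, D.κ⟩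
      refine fin D' rfl rfl rfl (fun z hz => dcore_guess (D := D) (D' := D') hW rfl rfl rfl hi ?_ ?_ hz) ?_ ?_
      · intro s j' hj'
        simp only [D']
        split_ifs with hs
        · refine Function.update_of_ne ?_ _ _
          rintro rfl
          have : a = 0 ∨ a = 6 := by omega
          rcases this with rfl | rfl <;> subst hs <;> simp at hj'
        · rfl
      · intro s j' _
        simp only [D']
        split_ifs <;> rfl
      · rw [nxtR_cell hW D' (by omega), tc_eq D' _ _ _ hj]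
        simp [tcE, c0, D']
      · rw [nxtR_cell hW D' (by omega), tc_eq D' _ _ _ hj, g1.2.resolve_right (by omega),
          tc_eq D _ _ _ hj]
        simp [tcE, c0]
    by_cases c1 : a % 6 = 1 ∧ j = i ∧ D.κ = true
    · obtain ⟨c1, rfl, hκ⟩ := c1
      let D' : Dat := ⟨D.ρ, fun s => if s = decide (6 ≤ a) then
        ⟨(D.γ s).sc, (D.γ s).dc, Function.update (D.γ s).tc j c.c.tg⟩ else D.γ s, D.o, D.κ⟩
      refine fin D' rfl rfl rfl (fun z hz => dcore_guess (D := D) (D' := D') hW rfl rfl rfl hi ?_ ?_ hz) ?_ ?_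
      · intro s j' _
        simp only [D']
        split_ifs <;> rfl
      · intro s j' hj'
        simp only [D']
        split_ifs with hs
        · refine Function.update_of_ne ?_ _ _
          rintro rfl
          have : a = 1 ∨ a = 7 := by omega
          rcases this with rfl | rfl <;> subst hs <;> simp at hj'
        · rfl
      · rw [nxtR_cell hW D' (by omega), tc_eq D' _ _ _ hj, g1.1.resolve_right (by omega),
          tc_eq D _ _ _ hj]
        simp [tcE, c1]
      · rw [nxtR_cell hW D' (by omega), tc_eq D' _ _ _ hj]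
        simp [tcE, c1, D', hκ]
    · have hcell : tcE P W D (j < i ∨ (j = i ∧ a * W + j < a * W + j + 1)) a j =
          tcE P W D (j < i ∨ (j = i ∧ a * W + j < a * W + j)) a j ∨ (a = 9 ∧ j = i) := by
        by_cases c9 : a = 9 ∧ j = i
        · exact Or.inr c9
        · refine Or.inl (tcE_congr D a j fun h => ?_)
          have : j ≠ i := by
            rintro rfl
            rcases h with h | ⟨h, hk⟩ | h
            · exact c0 ⟨h, rfl⟩
            · exact c1 ⟨h, rfl, hk⟩
            · exact c9 ⟨h, rfl⟩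
          omega
      have htg : c.c.tg = (tc P W D i (a * W + j) (a * W + j)).tg := by
        rcases hR with ⟨h1, h2, -, -, -, -, -, -, -, g, h3, -⟩ | ⟨h1, h2, -, -, -, g, h3, -⟩ |
          ⟨h1, h2, h4, -⟩ | ⟨h1, h2, h4, -⟩ | ⟨-, -, -, -, h3, -⟩ |
          ⟨-, -, -, -, h3, -⟩ | ⟨-, -, -, -, -, h3, -⟩ | ⟨-, h3, -⟩
        · rw [h3]
        · rw [h3]
        · exact absurd ⟨((hst 1).1 ⟨h1, h2⟩).1, ((hst 1).1 ⟨h1, h2⟩).2, h4⟩ c1
        · exact absurd ⟨((hst 1).1 ⟨h1, h2⟩).1, ((hst 1).1 ⟨h1, h2⟩).2, h4⟩ c1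
        all_goals rw [h3]
      refine fin D rfl rfl rfl (fun _ _ => rfl) ?_ ?_
      · rw [nxtR_cell hW D (by omega), g1.1.resolve_right c0, tc_eq D _ _ _ hj, tc_eq D _ _ _ hj]
        rcases hcell with h | ⟨rfl, rfl⟩
        · rw [h]
        · simp [tcE]
      · rw [nxtR_cell hW D (by omega), htg, tc_eq D _ _ _ hj, tc_eq D _ _ _ hj]
        rcases hcell with h | ⟨rfl, rfl⟩
        · rw [h]
        · simp [tcE]
  · have hc : c.c = swp D.κ (tc P W D W 0 p) := by
      rcases hact with h | h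
      · cases h.1
      · rw [h.2.2]; simp [dcore, cellAt, headAt]
    have hn : nxtR W .S i p = (.S, i) := by
      have : ¬ p + 2 = 12 * W := fun h => hS' ⟨rfl, h⟩
      simp only [nxtR, this, if_false]
    refine fin D rfl rfl rfl (fun _ _ => rfl) ?_ ?_ <;> rw [hn, hc] <;> simp [cellAt]

theorem dcore_start (hW : 1 ≤ W) (D : Dat) {z : ℕ} (hz : z < 12 * W) :
    dcore P W D .L 0 (6 * W - 1) z =
      ⟨bc P W (D.ρ (decide (6 * W ≤ z))) (z % (6 * W)), flD W (start D.o D.κ) (6 * W - 1) z⟩ := by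
  obtain ⟨a, j, hj, rfl⟩ := exists_aj hW z
  simp only [dcore, cellAt]
  congr 1
  · simp [tc, bc]
  · congr 1
    simp (disch := omega) only [headAt, start, qs, run, xs, decide_eq_false]

theorem sym_mir (D : Dat) : sym P W D.mir = sym P W D := by
  funext j
  have h := xs_congr (W := W) (D := D.mir) (D' := D) rfl
  simp only [sym, h]
  cases ho : D.o <;> cases hk : D.κ <;> simp [Dat.mir, part, tpair, ho, hk]

theorem qs_mir (D : Dat) : qs P W D.mir = qs P W D := by rw [qs, sym_mir]; rfl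

theorem xs_mir (D : Dat) : xs W D.mir = xs W D :=
  funext fun t => funext fun j => xs_congr (D := D.mir) (D' := D) rfl t j

theorem tc_mir_mir (D : Dat) (i p z : ℕ) : tc P W D.mir.mir i p z = tc P W D i p z := by
  simp only [tc, sym_mir, qs_mir]
  cases hk : D.κ <;> simp [Dat.mir, hk]

theorem dcore_mir_mir (D : Dat) (ph : Ph) (i p z : ℕ) :
    dcore P W D.mir.mir ph i p z = dcore P W D ph i p z := by
  have ho : D.mir.mir.o = D.o := by simp [Dat.mir]
  have hk : D.mir.mir.κ = D.κ := rfl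
  cases ph <;>
    simp only [dcore, cellAt, headAt, symAt, tc_mir_mir, sym_mir, qs_mir, xs_mir, ho, hk]

theorem swp_tc (hW : 1 ≤ W) (D : Dat) (z : ℕ) :
    swp D.κ (tc P W D W 0 z) = tc P W D.mir W 0 z := by
  obtain ⟨a, j, hj, rfl⟩ := exists_aj hW z
  rw [tc_eq D _ _ _ hj, tc_eq D.mir _ _ _ hj]
  simp only [swp, tcE, fin6, hj, true_or, and_true, sym_mir, qs_mir]
  have e0 : (0 : Fin 6).val = 0 := rfl
  have e1 : (1 : Fin 6).val = 1 := rfl
  rw [e0, e1]
  by_cases h0 : a % 6 = 0
  · simp [h0, Dat.mir]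
  · by_cases h1 : a % 6 = 1
    · cases hk : D.κ <;> simp [h1, Dat.mir, hk]
    · simp [h0, h1]

theorem swp_zone5 {κ : Bool} {c : Cell} (h : c.st.zone = 5) : swp κ c = c := by
  simp [swp, h]

theorem commit_traj (hG : Good W P) (D : Dat) (ho : D.o = false)
    (hq : qs P W D W = 1 ∨ qs P W D W = 3) (i i' : ℕ) :
    Commit W (dcore P W D .S i (12 * W - 2) (12 * W - 2)) (dcore P W D .S i (12 * W - 2) (12 * W - 1))
      (dcore P W D.mir .F i' (12 * W - 1) (12 * W - 2))
      (dcore P W D.mir .F i' (12 * W - 1) (12 * W - 1)) ∧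
    ∀ z, z < 12 * W - 2 →
      dcore P W D .S i (12 * W - 2) z = dcore P W D.mir .F i' (12 * W - 1) z := by
  have h2 := hG.two_le
  have hW : 1 ≤ W := by omega
  have hL : Last W (cellAt P W D .S i (12 * W - 2) (12 * W - 1)) := by
    rw [addr_last hW (cellAt_addr (P := P) hW D .S i (12 * W - 2)) (z := 12 * W - 1) (by omega),
      last_iff hW (by omega) (by omega)]
    omega
  refine ⟨⟨_, flD_self _ _, rfl, ho, hq, ?_, hL, ?_, ?_, ?_, ?_, ?_⟩, ?_⟩
  · simp only [headAt, decide_eq_true_eq]; omega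
  · simp only [dcore]
    rw [flD_right _ (by omega)]
    simp (disch := omega) only [decide_eq_true, Bool.not_true]
  · simp only [dcore, cellAt, lt_irrefl, if_false, headAt]
    exact (swp_tc hW D _).symm
  · simp only [dcore]
    rw [flD_left _ (by omega)]
    simp (disch := omega) only [decide_eq_true]
  · have h5 := hL.1
    simp (disch := omega) only [dcore, cellAt, if_neg] at h5 ⊢
    rw [← swp_tc hW D, swp_zone5 h5]
  · simp only [dcore, flD_self]
    congr 1
    simp (disch := omega) only [headAt, qs_mir, xs_mir, decide_eq_true]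
    simp [Dat.mir, ho]
  · intro z hz
    simp only [dcore]
    rw [flD_left _ hz, flD_left _ (by omega)]
    congr 1
    simp only [cellAt, hz, if_true]
    exact swp_tc hW D z

end Crest.Agent.R176.M
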