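import Crest.Agent.R176.AShape

/-!
# Row 176 A: the automaton of the upper level  (subtask AWeight)

`transfer`: abstract lemma.  `F U = (wt (B' m l r) U) none none` satisfies `F [] = 1`,
`F [Y] = m Y`, `F (Y :: Y' :: U) = m Y * F (Y' :: U) + (∑ k, l k Y * r k Y') * F U`.
`repSum_*`: the same recursion for `∑ᶠ w ∈ {w | Rep w U}, wt B w`: the set is the disjoint union
(`mono_ne_dim`) of the injective images of `{b | MonoL b Y} ×ˢ {w | Rep w (..)}` and
`{d | DimL d Y Y'} ×ˢ {w | Rep w U}` (finite: `Sys.okWords_finite`, `repR_ok`).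
`exists_upper`: `Blk` = words of length `6W` in bounded letters (`Nat.card ≤ (W^12)^(6W)`, `card_ok`),
`ι = Bool × Blk × Blk`, `Y° = ⟨Y.k, 0⟩`,
`m Y = ∑_{MonoL b Y} wt B b`,
`l (true,b,b') Y = [∃ Y', DimK true (b++b') Y Y'] wt B b`, `r (true,b,b') Y' = [∃ Y, DimK true (b++b') Y Y'] wt B b'`,
`l (false,β,β') Y = [Y.Bdd ∧ ∃ k', DimK false (β++β') Y° ⟨k',0⟩] wt B (put W Y.tok β)`, `r` likewise.
`DimK` is functional (`dimRaw_fun`, `dec_inj`), so `∑_k l k Y * r k Y' = ∑_{DimL d Y Y'} wt B d`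
(`dimK_put`, `put_put`).  Low rank: `r (true,..) Y' = 0` unless `Y'.k.f = H` (`dec_hb`), so for non-`H`
letters `B' Y * B' Y' = B'' Y * B' Y'` where `B''` omits the `true` entries; every entry of `B'' Y` is a
sum of terms `wt B (put W Y.tok β) = wt B pre * wt B (zw W ω Y.tok) * wt B post` (`put_split`), with
`β`, `pre`, `ω`, `post` depending only on `Y.k`; `V = Om W → A`, `v τ ω = wt B (zw W ω τ)`.
`nil_step`: `nilAt_of_closed`, `exists_rep`, `rep_class`, `rep_fun`, `rep_null_iff`: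
the class of `w` is the disjoint union of the sets `{w' | Rep w' U'}`, `U'` in the class of `U`.
-/

set_option autoImplicit false

namespace Crest.Agent.R176.M

variable {W : ℕ} {P : ℕ → ℕ}

/-- the transfer matrix -/
def trM {β ι A : Type} [Zero A] (m : β → A) (l r : ι → β → A) (Y : β) :
    Matrix (Option ι) (Option ι) A :=
  Matrix.of fun s t => match s, t with
    | none, none => m Y
    | none, some k => l k Y
    | some k, none => r k Y
    | some _, some _ => 0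

theorem transfer {β ι A : Type} [Fintype ι] [DecidableEq ι] [Ring A] (m : β → A) (l r : ι → β → A)
    (F : List β → A) (ok : β → Prop) (h0 : F [] = 1) (h1 : ∀ Y, ok Y → F [Y] = m Y)
    (h2 : ∀ Y Y' U, ok Y → ok Y' →
      F (Y :: Y' :: U) = m Y * F (Y' :: U) + (∑ k, l k Y * r k Y') * F U)
    (U : List β) (hU : ∀ Y ∈ U, ok Y) : wt (trM m l r) U none none = F U := by
  have hc : ∀ (Y : β) (V : List β), wt (trM m l r) (Y :: V) = trM m l r Y * wt (trM m l r) V :=
    fun Y V => by simp [wt]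
  have hs : ∀ (Y : β) (V : List β) (k : ι),
      wt (trM m l r) (Y :: V) (some k) none = r k Y * wt (trM m l r) V none none := fun Y V k => by
    rw [hc, Matrix.mul_apply, Fintype.sum_option]
    simp [trM]
  have hn : ∀ (Y : β) (V : List β), wt (trM m l r) (Y :: V) none none =
      m Y * wt (trM m l r) V none none + ∑ k, l k Y * wt (trM m l r) V (some k) none :=
    fun Y V => by
    rw [hc, Matrix.mul_apply, Fintype.sum_option]
    simp [trM]
  induction U using List.twoStepInduction with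
  | nil => rw [h0]; simp [wt]
  | singleton Y => rw [h1 Y (hU Y (by simp))]; simp [wt, trM]
  | cons_cons Y Y' U ih ih' =>
    rw [h2 Y Y' U (hU Y (by simp)) (hU Y' (by simp)), hn,
      ih' Y' fun Z hZ => hU Z (List.mem_cons_of_mem _ hZ), Finset.sum_mul,
      ← ih fun Z hZ => hU Z (List.mem_cons_of_mem _ (List.mem_cons_of_mem _ hZ))]
    simp only [hs, mul_assoc]

noncomputable def repSum (P : ℕ → ℕ) (W : ℕ) {A : Type} [Ring A] (B : Let → A) (U : List Let) : A :=
  ∑ᶠ w ∈ {w | Rep P W w U}, wt B w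

theorem rep_finite (hG : Good W P) (U : List Let) : {w | Rep P W w U}.Finite := by
  refine (Sys.okWords_finite (ok_finite W P) (U.length * (6 * W))).subset fun w hw => ?_
  obtain ⟨rs, h, -⟩ := rep_iff.1 hw
  exact ⟨Rep.length hw, fun a ha => repR_ok hG h ha⟩

theorem repSum_nil {A : Type} [Ring A] (B : Let → A) : repSum P W B [] = 1 := by
  have : {w | Rep P W w []} = {[]} := by
    ext w
    constructor
    · intro h
      cases h
      rfl
    · rintro rfl
      exact Parse.nil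
  rw [repSum, this, finsum_mem_singleton]
  simp [wt]

namespace WAux

theorem rep_one (Y : Let) : {w | Rep P W w [Y]} = {b | MonoL P W b Y} := by
  ext w
  constructor
  · intro h
    cases h with
    | mono hb hw =>
      cases hw
      simpa using hb
  · intro h
    simpa [Rep] using Parse.mono (D := DimL P W) h Parse.nil

theorem monoL_finite (hG : Good W P) (Y : Let) : {b | MonoL P W b Y}.Finite :=
  rep_one (P := P) (W := W) Y ▸ rep_finite hG [Y]

theorem dimL_finite (hG : Good W P) (Y Y' : Let) : {d | DimL P W d Y Y'}.Finite :=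
  (rep_finite hG [Y, Y']).subset fun d h => by
    simpa [Rep] using Parse.dim (M := MonoL P W) h Parse.nil

theorem sum_image2 {α A : Type} [Ring A] (B : α → A) {S T : Set (List α)} (hS : S.Finite)
    (hT : T.Finite) {n : ℕ} (hn : ∀ b ∈ S, b.length = n) :
    ∑ᶠ w ∈ (fun p : List α × List α => p.1 ++ p.2) '' (S ×ˢ T), wt B w =
      (∑ᶠ b ∈ S, wt B b) * ∑ᶠ w ∈ T, wt B w := by
  rw [finsum_mem_image, finsum_mem_eq_finite_toFinset_sum _ (hS.prod hT),
    finsum_mem_eq_finite_toFinset_sum _ hS, finsum_mem_eq_finite_toFinset_sum _ hT,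
    Finset.sum_mul_sum, ← Finset.sum_product', ← Set.Finite.toFinset_prod hS hT]
  · exact Finset.sum_congr rfl fun p _ => wt_append B _ _
  · rintro ⟨a, b⟩ ⟨ha, -⟩ ⟨a', b'⟩ ⟨ha', -⟩ h
    obtain ⟨h1, h2⟩ := List.append_inj h ((hn a ha).trans (hn a' ha').symm)
    exact Prod.ext h1 h2

end WAux

theorem repSum_one (hG : Good W P) {A : Type} [Ring A] (B : Let → A) (Y : Let) :
    repSum P W B [Y] = ∑ᶠ b ∈ {b | MonoL P W b Y}, wt B b := by
  have _ := hG
  rw [repSum, WAux.rep_one]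

theorem repSum_cons (hG : Good W P) {A : Type} [Ring A] (B : Let → A) (Y Y' : Let) (U : List Let) :
    repSum P W B (Y :: Y' :: U) =
      (∑ᶠ b ∈ {b | MonoL P W b Y}, wt B b) * repSum P W B (Y' :: U) +
      (∑ᶠ d ∈ {d | DimL P W d Y Y'}, wt B d) * repSum P W B U := by
  have hW : 1 ≤ W := by have := hG.two_le; omega
  have e : {w | Rep P W w (Y :: Y' :: U)} =
      (fun p : List Let × List Let => p.1 ++ p.2) ''
        ({b | MonoL P W b Y} ×ˢ {w | Rep P W w (Y' :: U)}) ∪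
      (fun p : List Let × List Let => p.1 ++ p.2) ''
        ({d | DimL P W d Y Y'} ×ˢ {w | Rep P W w U}) := by
    ext w
    constructor
    · intro h
      cases h with
      | mono hb hw => exact Or.inl ⟨(_, _), ⟨hb, hw⟩, rfl⟩
      | dim hd hw => exact Or.inr ⟨(_, _), ⟨hd, hw⟩, rfl⟩
    · rintro (⟨⟨b, w⟩, ⟨hb, hw⟩, rfl⟩ | ⟨⟨d, w⟩, ⟨hd, hw⟩, rfl⟩)
      · exact Parse.mono hb hw
      · exact Parse.dim hd hw
  unfold repSum
  rw [e, finsum_mem_union _ (((WAux.monoL_finite hG Y).prod (rep_finite hG _)).image _)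
    (((WAux.dimL_finite hG Y Y').prod (rep_finite hG _)).image _),
    WAux.sum_image2 B (WAux.monoL_finite hG Y) (rep_finite hG _) (n := 6 * W),
    WAux.sum_image2 B (WAux.dimL_finite hG Y Y') (rep_finite hG _) (n := 2 * (6 * W))]
  · rintro d ⟨κ, ρ, ρ', h, -⟩
    exact h.length
  · rintro b ⟨ρ, h, -⟩
    exact h.length
  · rw [Set.disjoint_left]
    rintro _ ⟨⟨b, w⟩, ⟨⟨ρ, hb, -⟩, -⟩, rfl⟩ ⟨⟨d, w'⟩, ⟨⟨κ, ρ₀, ρ₁, hd, -⟩, -⟩, h⟩
    exact mono_ne_dim hW hb hd h.symm

theorem put_length (τ : ℕ) (b : List Let) : (put W τ b).length = b.length := by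
  simp [put]

theorem put_put (τ τ' : ℕ) (b : List Let) : put W τ (put W τ' b) = put W τ b := by
  unfold put
  rw [List.map_map]
  refine List.map_congr_left fun y _ => ?_
  by_cases h : y.k.c.st.zone = 1 <;> simp [h]

namespace WAux

/-- overwrite the token bit of a cell -/
def putC (W τ : ℕ) (c : Cell) : Cell :=
  if c.st.zone = 1 then { c with tb := τ.testBit (W - 1 - c.st.off) } else c

theorem put_mkW (τ n : ℕ) (c : ℕ → Cell) (f : ℕ → Fl) (t : ℕ → ℕ) :
    put W τ (mkW n fun z => ⟨⟨c z, f z⟩, t z⟩) = mkW n fun z => ⟨⟨putC W τ (c z), f z⟩, t z⟩ := by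
  unfold put mkW
  rw [List.map_map]
  refine List.map_congr_left fun z _ => ?_
  by_cases h : (c z).st.zone = 1 <;> simp [h, putC]

/-- the raw content with another token -/
def setT (W τ : ℕ) (ρ : Raw) : Raw := ⟨ρ.sc, ρ.dc, fun j => τ.testBit (W - 1 - j)⟩

theorem zone_eq {z : ℕ} (hz : z < 6 * W) (a : Fin 6) : Fin.ofNat 6 (z / W) = a ↔ z / W = a.val := by
  have : z / W < 6 := Nat.div_lt_of_lt_mul (by omega)
  rw [Fin.ext_iff, Fin.val_ofNat, Nat.mod_eq_of_lt this]

theorem putC_bc (τ : ℕ) (ρ : Raw) {z : ℕ} (hz : z < 6 * W) :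
    putC W τ (bc P W ρ z) = bc P W (setT W τ ρ) z := by
  have e : (bc P W ρ z).st.zone = 1 ↔ z / W = 1 := zone_eq hz 1
  unfold putC
  by_cases h : z / W = 1
  · rw [if_pos (e.2 h)]
    simp [bc, setT, h]
  · rw [if_neg fun h' => h (e.1 h')]
    simp [bc, setT, h]

theorem dec_setT {ρ : Raw} {Y : Let} (h : Dec W ρ Y) {τ : ℕ} (hτ : τ < 2 ^ W) :
    Dec W (setT W τ ρ) ⟨Y.k, τ⟩ :=
  ⟨⟨h.1.1, hτ⟩, fun j hj => ⟨(h.2 j hj).1, (h.2 j hj).2.1, rfl⟩⟩

theorem setT_eq {ρ : Raw} {Y : Let} (h : Dec W ρ Y) : (setT W Y.tok ρ).Eq W ρ :=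
  fun j hj => ⟨rfl, rfl, (h.2 j hj).2.2.symm⟩

/-- the datum with other tokens -/
def setD (W τ τ' : ℕ) (D : Dat) : Dat :=
  ⟨fun sd => setT W (if sd then τ' else τ) (D.ρ sd), D.γ, D.o, D.κ⟩

theorem xs_setD (τ τ' : ℕ) (D : Dat) (t : STrk) (j : ℕ) : xs W (setD W τ τ' D) t j = xs W D t j := by
  induction j with
  | zero => rfl
  | succ j ih => rw [xs, xs, ih]; rfl

theorem sym_setD (τ τ' : ℕ) {D : Dat} (hκ : D.κ = false) : sym P W (setD W τ τ' D) = sym P W D := by
  funext j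
  simp only [sym, xs_setD]
  simp [setD, setT, hκ]

theorem qs_setD (τ τ' : ℕ) {D : Dat} (hκ : D.κ = false) : qs P W (setD W τ τ' D) = qs P W D := by
  rw [qs, qs, sym_setD τ τ' hκ]

theorem headAt_setD (τ τ' : ℕ) {D : Dat} (hκ : D.κ = false) (ph : Ph) (i p : ℕ) :
    headAt P W (setD W τ τ' D) ph i p = headAt P W D ph i p := by
  cases ph <;> simp only [headAt, symAt, xs_setD, sym_setD τ τ' hκ, qs_setD τ τ' hκ] <;> rfl

theorem putC_swp (τ : ℕ) (c : Cell) : putC W τ (swp false c) = swp false (putC W τ c) := by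
  unfold putC swp
  by_cases h0 : c.st.zone = 0
  · have h1 : c.st.zone ≠ 1 := by rw [h0]; decide
    simp [h0]
  · by_cases h1 : c.st.zone = 1 <;> simp [h0, h1]

theorem putC_with (τ : ℕ) (c : Cell) (g : DCol) (t : Bool) (s : Sym) (q : ℕ) :
    putC W τ { c with gs := g, tg := t, hσ := s, hq := q } =
      { putC W τ c with gs := g, tg := t, hσ := s, hq := q } := by
  unfold putC
  by_cases h : c.st.zone = 1
  · rw [if_pos h, if_pos h]
  · rw [if_neg h, if_neg h]

theorem tc_setD (hW : 1 ≤ W) (τ τ' : ℕ) {D : Dat} (hκ : D.κ = false) (i p z : ℕ) :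
    tc P W (setD W τ τ' D) i p z =
      putC W (if decide (6 * W ≤ z) then τ' else τ) (tc P W D i p z) := by
  have hz : z % (6 * W) < 6 * W := Nat.mod_lt _ (by omega)
  have e := putC_bc (P := P) (if decide (6 * W ≤ z) then τ' else τ) (D.ρ (decide (6 * W ≤ z))) hz
  unfold tc
  rw [sym_setD τ τ' hκ, qs_setD τ τ' hκ]
  have e' : (setD W τ τ' D).ρ (decide (6 * W ≤ z)) =
    setT W (if decide (6 * W ≤ z) then τ' else τ) (D.ρ (decide (6 * W ≤ z))) := rfl
  rw [e', ← e]
  exact (putC_with _ _ _ _ _ _).symm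

theorem cellAt_setD (hW : 1 ≤ W) (τ τ' : ℕ) {D : Dat} (hκ : D.κ = false) (ph : Ph) (i p z : ℕ) :
    cellAt P W (setD W τ τ' D) ph i p z =
      putC W (if decide (6 * W ≤ z) then τ' else τ) (cellAt P W D ph i p z) := by
  cases ph
  · exact tc_setD hW τ τ' hκ _ _ _
  · exact tc_setD hW τ τ' hκ _ _ _
  · exact tc_setD hW τ τ' hκ _ _ _
  · have : (setD W τ τ' D).κ = false := hκ
    simp only [cellAt, this, hκ, tc_setD hW τ τ' hκ]
    split_ifs <;> first | rfl | exact (putC_swp _ _).symm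

theorem cellAt_tb {D : Dat} (hκ : D.κ = false) (ph : Ph) (i p z : ℕ) :
    (cellAt P W D ph i p z).tb = (bc P W (D.ρ (decide (6 * W ≤ z))) (z % (6 * W))).tb := by
  cases ph
  · rfl
  · rfl
  · rfl
  · simp only [cellAt, hκ, swp]
    split_ifs <;> first | rfl | simp_all

theorem putC_self {τ : ℕ} {c : Cell} (h : c.st.zone = 1 → c.tb = τ.testBit (W - 1 - c.st.off)) :
    putC W τ c = c := by
  unfold putC
  split_ifs with h1
  · rw [← h h1]
  · rfl

theorem putC_cellAt (hW : 1 ≤ W) {D : Dat} (hκ : D.κ = false) (ph : Ph) (i p z : ℕ) {Y : Let}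
    (h : Dec W (D.ρ (decide (6 * W ≤ z))) Y) :
    putC W Y.tok (cellAt P W D ph i p z) = cellAt P W D ph i p z := by
  have hz : z % (6 * W) < 6 * W := Nat.mod_lt _ (by omega)
  refine putC_self fun h1 => ?_
  rw [cellAt_st] at h1 ⊢
  rw [cellAt_tb hκ]
  have h2 : z % (6 * W) / W = 1 := (zone_eq hz 1).1 h1
  simp only [bc, h2, if_true]
  exact (h.2 _ (Nat.mod_lt _ (by omega))).2.2

theorem dimW_split (D : Dat) (ph : Ph) (i p : ℕ) (τ : ℕ → ℕ) {b b' : List Let}
    (hb : b.length = 6 * W) (h : b ++ b' = dimW P W D ph i p τ) :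
    (b = mkW (6 * W) fun z => ⟨dcore P W D ph i p z, τ z⟩) ∧
      b' = mkW (6 * W) fun z => ⟨dcore P W D ph i p (6 * W + z), τ (6 * W + z)⟩ := by
  rw [dimW, show 12 * W = 6 * W + 6 * W by omega, mkW_add] at h
  exact List.append_inj h (by simp [hb])

end WAux

theorem monoL_put (hW : 1 ≤ W) {b : List Let} {Y : Let} (h : MonoL P W b Y) {τ : ℕ}
    (hτ : τ < 2 ^ W) : MonoL P W (put W τ b) ⟨Y.k, τ⟩ ∧ put W Y.tok b = b := by
  obtain ⟨ρ, ⟨p, t, hp, ht, rfl⟩, hd⟩ := h
  have e : ∀ τ, put W τ (monoG W (bc P W ρ) p t) = monoG W (bc P W (WAux.setT W τ ρ)) p t :=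
    fun τ => by
    unfold monoG
    rw [WAux.put_mkW]
    exact mkW_congr fun z hz => by rw [WAux.putC_bc τ ρ hz]
  refine ⟨⟨_, ⟨p, t, hp, ht, e τ⟩, WAux.dec_setT hd hτ⟩, ?_⟩
  rw [e]
  exact mkW_congr fun z _ => by rw [bc_congr hW (WAux.setT_eq hd)]

theorem dimK_put (hW : 1 ≤ W) {b b' : List Let} (hb : b.length = 6 * W) {Y Y' : Let}
    (h : DimK P W false (b ++ b') Y Y') {τ τ' : ℕ} (hτ : τ < 2 ^ W) (hτ' : τ' < 2 ^ W) :
    DimK P W false (put W τ b ++ put W τ' b') ⟨Y.k, τ⟩ ⟨Y'.k, τ'⟩ ∧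
      put W Y.tok b = b ∧ put W Y'.tok b' = b' := by
  obtain ⟨ρ, ρ', ⟨D, ph, i, p, t, hκ, rfl, rfl, -, hT, ht, ht', e⟩, hd, hd'⟩ := h
  obtain ⟨rfl, rfl⟩ := WAux.dimW_split D ph i p t hb e
  unfold dcore
  simp only [WAux.put_mkW]
  refine ⟨⟨_, _, ⟨WAux.setD W τ τ' D, ph, i, p, t, hκ, rfl, rfl, by simp, hT, ht, ht', ?_⟩,
    WAux.dec_setT hd hτ, WAux.dec_setT hd' hτ'⟩, ?_, ?_⟩
  · rw [dimW, show 12 * W = 6 * W + 6 * W by omega, mkW_add]
    unfold dcore
    simp only [WAux.headAt_setD τ τ' hκ, WAux.cellAt_setD hW τ τ' hκ]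
    congr 1
    · exact mkW_congr fun z hz => by rw [decide_eq_false (by omega)]; rfl
    · exact mkW_congr fun z hz => by rw [decide_eq_true (by omega)]; rfl
  · exact mkW_congr fun z hz => by
      rw [WAux.putC_cellAt hW hκ ph i p z (by rw [decide_eq_false (by omega)]; exact hd)]
  · exact mkW_congr fun z hz => by
      rw [WAux.putC_cellAt hW hκ ph i p _ (by rw [decide_eq_true (by omega)]; exact hd')]

/-- overlay shapes of the token zone -/
abbrev Om (W : ℕ) : Type := Fin (W + 2) × Bool × Bool × {y : Let // y.Bdd W}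

/-- the token zone with overlay `ω` and token `τ` -/
def zw (W : ℕ) (ω : Om W) (τ : ℕ) : List Let :=
  mkW W fun j => ⟨⟨⟨⟨1, sz, j, 0⟩, dz, dz, τ.testBit (W - 1 - j), false, Sym.z, 0⟩,
    if j + 1 < ω.1 then .fw ω.2.1 else if j + 1 = ω.1 then ω.2.2.2.1.k.f else .bw ω.2.2.1⟩, 0⟩

def Splits (W : ℕ) (b : List Let) : Prop :=
  ∃ (pre post : List Let) (ω : Om W), ∀ τ, put W τ b = pre ++ zw W ω τ ++ post

namespace WAux

theorem putC_ne {τ : ℕ} {c : Cell} (h : c.st.zone ≠ 1) : putC W τ c = c := if_neg h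

theorem splits_mkW {c : ℕ → Cell} {f : ℕ → Fl} {t : ℕ → ℕ}
    (hc : ∀ z, z < 6 * W → (c z).st.zone = Fin.ofNat 6 (z / W)) (ω : Om W)
    (h1 : ∀ j, j < W → ∃ b, c (W + j) = ⟨⟨1, sz, j, 0⟩, dz, dz, b, false, Sym.z, 0⟩)
    (h2 : ∀ j, j < W → f (W + j) =
      if j + 1 < ω.1 then .fw ω.2.1 else if j + 1 = ω.1 then ω.2.2.2.1.k.f else .bw ω.2.2.1)
    (h3 : ∀ j, j < W → t (W + j) = 0) : Splits W (mkW (6 * W) fun z => ⟨⟨c z, f z⟩, t z⟩) := by
  refine ⟨mkW W fun z => ⟨⟨c z, f z⟩, t z⟩,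
    mkW (4 * W) fun z => ⟨⟨c (W + W + z), f (W + W + z)⟩, t (W + W + z)⟩, ω, fun τ => ?_⟩
  rw [put_mkW, show 6 * W = W + W + 4 * W by omega, mkW_add, mkW_add]
  congr 1
  · congr 1
    · refine mkW_congr fun z hz => ?_
      rw [putC_ne]
      rw [hc z (by omega), Ne, zone_eq (by omega), Nat.div_eq_of_lt hz]
      decide
    · refine mkW_congr fun j hj => ?_
      obtain ⟨b, hb⟩ := h1 j hj
      rw [hb, h2 j hj, h3 j hj]
      rfl
  · refine mkW_congr fun z hz => ?_
    rw [putC_ne]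
    rw [hc _ (by omega), Ne, zone_eq (by omega)]
    have : 2 ≤ (W + W + z) / W := (Nat.le_div_iff_mul_le (by omega)).2 (by omega)
    change ¬ (W + W + z) / W = 1
    omega

theorem div_add (j : ℕ) (hj : j < W) : (W + j) / W = 1 ∧ (W + j) % W = j := by
  rw [Nat.add_div_left _ (by omega), Nat.div_eq_of_lt hj, Nat.add_mod_left, Nat.mod_eq_of_lt hj]
  exact ⟨rfl, rfl⟩

theorem bc_zone1 (ρ : Raw) {j : ℕ} (hj : j < W) :
    bc P W ρ (W + j) = ⟨⟨1, sz, j, 0⟩, dz, dz, ρ.tc j, false, Sym.z, 0⟩ := by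
  obtain ⟨h1, h2⟩ := div_add j hj
  simp only [bc, h1, h2]
  rfl

theorem cellAt_zone1 {D : Dat} (hκ : D.κ = false) (ph : Ph) (i p : ℕ) {z j : ℕ} (hj : j < W)
    (hz : z % (6 * W) = W + j) (h9 : z / W ≠ 9) :
    ∃ b, cellAt P W D ph i p z = ⟨⟨1, sz, j, 0⟩, dz, dz, b, false, Sym.z, 0⟩ := by
  have h1 := (div_add j hj).1
  have e : ∀ i p, tc P W D i p z =
      ⟨⟨1, sz, j, 0⟩, dz, dz, (D.ρ (decide (6 * W ≤ z))).tc j, false, Sym.z, 0⟩ := fun i p => by
    simp [tc, hz, bc_zone1 _ hj, h1, h9, hκ]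
  refine ⟨(D.ρ (decide (6 * W ≤ z))).tc j, ?_⟩
  cases ph <;> simp [cellAt, e, swp, hκ]

end WAux

theorem put_split_mono (hG : Good W P) {b : List Let} {ρ : Raw} (h : MonoRaw P W b ρ) :
    Splits W b := by
  have hW := hG.two_le
  obtain ⟨p, t, hp, ht, rfl⟩ := h
  refine WAux.splits_mkW (fun z _ => rfl)
    (⟨min (p + 1 - W) (W + 1), by omega⟩, false, false, ⟨default, default_bdd (by omega)⟩)
    (fun j hj => ⟨_, WAux.bc_zone1 ρ hj⟩) (fun j hj => ?_) fun j hj => ?_
  · unfold flM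
    dsimp only
    split_ifs <;> first | rfl | omega
  · have := (WAux.div_add j hj).1
    exact ht.2.1 _ (by omega) (by omega) (by omega)

theorem put_split_dim (hG : Good W P) {b b' : List Let} (hb : b.length = 6 * W) {ρ ρ' : Raw}
    (h : DimRaw P W false (b ++ b') ρ ρ') : Splits W b ∧ Splits W b' := by
  have hW := hG.two_le
  obtain ⟨D, ph, i, p, t, hκ, rfl, rfl, -, hT, ht, ht', e⟩ := h
  obtain ⟨rfl, rfl⟩ := WAux.dimW_split D ph i p t hb e
  have hy : (⟨dcore P W D ph i p p, 0⟩ : Let).Bdd W := ⟨dcore_bdd hG D hT p, by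
    show 0 < W
    omega⟩
  have hf : (dcore P W D ph i p p).f = .A (headAt P W D ph i p) := by simp [dcore, flD]
  constructor
  · refine WAux.splits_mkW (c := fun z => cellAt P W D ph i p z) (fun z hz => ?_)
      (⟨min (p + 1 - W) (W + 1), by omega⟩, false, true, ⟨_, hy⟩)
      (fun j hj => ?_) (fun j hj => ?_) fun j hj => ?_
    · rw [cellAt_st, Nat.mod_eq_of_lt hz]; rfl
    · refine WAux.cellAt_zone1 hκ ph i p hj (Nat.mod_eq_of_lt (by omega)) ?_
      rw [(WAux.div_add j hj).1]; decide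
    · dsimp only
      rw [hf, flD, decide_eq_false (by omega : ¬ 6 * W ≤ W + j)]
      split_ifs <;> first | rfl | omega
    · have := (WAux.div_add j hj).1
      exact ht.2.1 _ (by omega) (by omega) (by omega)
  · refine WAux.splits_mkW (c := fun z => cellAt P W D ph i p (6 * W + z))
      (f := fun z => flD W (headAt P W D ph i p) p (6 * W + z)) (t := fun z => t (6 * W + z))
      (fun z hz => ?_) (⟨min (p + 1 - 7 * W) (W + 1), by omega⟩, true, false, ⟨_, hy⟩)
      (fun j hj => ?_) (fun j hj => ?_) fun j hj => ?_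
    · rw [cellAt_st, Nat.add_mod_left, Nat.mod_eq_of_lt hz]; rfl
    · refine WAux.cellAt_zone1 hκ ph i p hj ?_ ?_
      · rw [Nat.add_mod_left, Nat.mod_eq_of_lt (by omega)]
      · have : (6 * W + (W + j)) / W < 8 := Nat.div_lt_of_lt_mul (by omega)
        omega
    · dsimp only
      rw [hf, flD, decide_eq_true (by omega : 6 * W ≤ 6 * W + (W + j))]
      split_ifs <;> first | rfl | omega
    · have := (WAux.div_add j hj).1
      exact ht'.2.1 _ (by omega) (by omega) (by omega)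

namespace WAux

/-- words of length `12 W` in bounded letters -/
abbrev Dm (W : ℕ) : Type := {d : List Let // d.length = 12 * W ∧ ∀ a ∈ d, a.Bdd W}

instance fin_bdd (W : ℕ) : Finite {y : Let // y.Bdd W} := ok_finite W fun _ => 0

instance fin_Dm (W : ℕ) : Finite (Dm W) := Sys.okWords_finite (ok_finite W fun _ => 0) (12 * W)

theorem card_Dm (hW : cT ≤ W) : Nat.card (Dm W) ≤ (W ^ 12) ^ (12 * W) := by
  have : Nat.card (Dm W) ≤ Nat.card (Fin (12 * W) → {y : Let // y.Bdd W}) := by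
    refine Nat.card_le_card_of_injective
      (fun d i => ⟨d.1[i.1]'(i.2.trans_eq d.2.1.symm), d.2.2 _ (List.getElem_mem _)⟩) fun d d' h => ?_
    refine Subtype.ext (List.ext_getElem (d.2.1.trans d'.2.1.symm) fun i h1 h2 => ?_)
    exact congrArg Subtype.val (congrFun h ⟨i, h1.trans_eq d.2.1⟩)
  rw [Nat.card_fun, Nat.card_eq_fintype_card (α := Fin _), Fintype.card_fin] at this
  exact this.trans (Nat.pow_le_pow_left (card_ok hW) _)

theorem card_Om (hW : cT ≤ W) : Nat.card (Om W) ≤ om W := by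
  simp only [Om, Nat.card_prod, Nat.card_eq_fintype_card, Fintype.card_fin, Fintype.card_bool, om]
  have := card_ok hW
  calc (W + 2) * (2 * (2 * Nat.card {y : Let // y.Bdd W})) ≤ (W + 2) * (2 * (2 * W ^ 12)) := by
        gcongr
    _ = _ := by ring

open Classical in
theorem sum_Dm [Fintype (Dm W)] {A : Type} [AddCommMonoid A] {S : Set (List Let)}
    (hS : ∀ d ∈ S, d.length = 12 * W ∧ ∀ a ∈ d, a.Bdd W) (g : List Let → A) :
    ∑ d : Dm W, (if d.1 ∈ S then g d.1 else 0) = ∑ᶠ d ∈ S, g d := by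
  rw [← finsum_eq_sum_of_fintype,
    finsum_subtype_eq_finsum_cond (f := fun d => if d ∈ S then g d else 0)]
  refine finsum_congr fun d => ?_
  by_cases h : d ∈ S
  · rw [finsum_eq_if, finsum_eq_if, if_pos (hS d h)]
  · simp [h]

theorem dimK_ok (hG : Good W P) {κ : Bool} {d : List Let} {Y Y' : Let} (h : DimK P W κ d Y Y') :
    d.length = 12 * W ∧ ∀ a ∈ d, a.Bdd W := by
  obtain ⟨ρ, ρ', h, -⟩ := h
  exact ⟨by rw [h.length]; omega, fun a ha => dim_ok hG h ha⟩

theorem dimK_fun (hG : Good W P) {κ κ' : Bool} {d : List Let} {Y Y' Z Z' : Let}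
    (h : DimK P W κ d Y Y') (h' : DimK P W κ' d Z Z') : κ = κ' ∧ Y = Z ∧ Y' = Z' := by
  have hW := hG.two_le
  obtain ⟨ρ, ρ', h, h1, h2⟩ := h
  obtain ⟨σ, σ', h', h1', h2'⟩ := h'
  obtain ⟨e, e1, e2⟩ := dimRaw_fun (by omega) h h'
  exact ⟨e, dec_inj hG.big h1 (h1'.of_eq e1), dec_inj hG.big h2 (h2'.of_eq e2)⟩

theorem dimK_true_H (hW : 1 ≤ W) {d : List Let} {Y Y' : Let} (h : DimK P W true d Y Y') :
    Y'.k.f = .H := by
  obtain ⟨ρ, ρ', ⟨D, ph, i, p, t, -, -, -, h, -⟩, -, h2⟩ := h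
  exact (dec_hb hW h2).1 (h rfl)

/-- overwrite both tokens of a fused pair -/
def put2 (W τ τ' : ℕ) (d : List Let) : List Let :=
  put W τ (d.take (6 * W)) ++ put W τ' (d.drop (6 * W))

theorem put2_spec (hG : Good W P) {d : List Let} {Y Y' : Let} (h : DimK P W false d Y Y')
    {τ τ' : ℕ} (hτ : τ < 2 ^ W) (hτ' : τ' < 2 ^ W) :
    DimK P W false (put2 W τ τ' d) ⟨Y.k, τ⟩ ⟨Y'.k, τ'⟩ ∧
      put2 W Y.tok Y'.tok (put2 W τ τ' d) = d := by
  have hW := hG.two_le
  have hl : (d.take (6 * W)).length = 6 * W := by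
    rw [List.length_take, (dimK_ok hG h).1]; omega
  rw [← List.take_append_drop (6 * W) d] at h
  obtain ⟨h1, h2, h3⟩ := dimK_put (by omega) hl h hτ hτ'
  refine ⟨h1, ?_⟩
  have hl' : (put W τ (d.take (6 * W))).length = 6 * W := by rw [put_length, hl]
  unfold put2
  rw [List.take_left' hl', List.drop_left' hl', put_put, put_put, h2, h3, List.take_append_drop]

theorem sum_dimK_false (hG : Good W P) {A : Type} [Ring A] (B : Let → A) {Y Y' : Let}
    (hY : Y.Bdd (2 ^ W)) (hY' : Y'.Bdd (2 ^ W)) :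
    ∑ᶠ d ∈ {d | DimK P W false d ⟨Y.k, 0⟩ ⟨Y'.k, 0⟩}, wt B (put2 W Y.tok Y'.tok d) =
      ∑ᶠ d ∈ {d | DimK P W false d Y Y'}, wt B d := by
  have h0 : 0 < 2 ^ W := Nat.two_pow_pos W
  refine finsum_mem_eq_of_bijOn (put2 W Y.tok Y'.tok) ⟨fun d hd => ?_, fun d hd d' hd' e => ?_,
    fun d hd => ?_⟩ fun _ _ => rfl
  · exact (put2_spec hG hd hY.2 hY'.2).1
  · rw [← (put2_spec hG hd hY.2 hY'.2).2, e, (put2_spec hG hd' hY.2 hY'.2).2]
  · exact ⟨_, (put2_spec hG hd h0 h0).1, (put2_spec hG hd h0 h0).2⟩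

theorem sum_monoL (hW : 1 ≤ W) {A : Type} [Ring A] (B : Let → A) (k : Core) {τ : ℕ}
    (hτ : τ < 2 ^ W) :
    ∑ᶠ b ∈ {b | MonoL P W b ⟨k, 0⟩}, wt B (put W τ b) = ∑ᶠ b ∈ {b | MonoL P W b ⟨k, τ⟩}, wt B b := by
  have h0 : 0 < 2 ^ W := Nat.two_pow_pos W
  refine finsum_mem_eq_of_bijOn (put W τ) ⟨fun d hd => ?_, fun d hd d' hd' e => ?_,
    fun d hd => ?_⟩ fun _ _ => rfl
  · exact (monoL_put hW hd hτ).1
  · rw [← (monoL_put hW hd hτ).2, ← (monoL_put hW hd' hτ).2, ← put_put 0 τ, ← put_put 0 τ d']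
    exact congrArg _ e
  · exact ⟨_, (monoL_put hW hd h0).1, (put_put _ _ _).trans (monoL_put hW hd h0).2⟩

section Upper

variable (P W) {A : Type} [Ring A] (B : Let → A)

noncomputable def mU (Y : Let) : A := ∑ᶠ b ∈ {b | MonoL P W b Y}, wt B b

open Classical in
noncomputable def lU : Bool × Dm W → Let → A
  | (true, d), Y => if ∃ Y', DimK P W true d.1 Y Y' then wt B (d.1.take (6 * W)) else 0
  | (false, d), Y => if ∃ k', DimK P W false d.1 ⟨Y.k, 0⟩ ⟨k', 0⟩
      then wt B (put W Y.tok (d.1.take (6 * W))) else 0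

open Classical in
noncomputable def rU : Bool × Dm W → Let → A
  | (true, d), Y' => if ∃ Y, DimK P W true d.1 Y Y' then wt B (d.1.drop (6 * W)) else 0
  | (false, d), Y' => if ∃ k, DimK P W false d.1 ⟨k, 0⟩ ⟨Y'.k, 0⟩
      then wt B (put W Y'.tok (d.1.drop (6 * W))) else 0

variable {P W}

theorem sum_lr [Fintype (Dm W)] (hG : Good W P) {Y Y' : Let} (hY : Y.Bdd (2 ^ W))
    (hY' : Y'.Bdd (2 ^ W)) :
    ∑ k, lU W P B k Y * rU W P B k Y' = ∑ᶠ d ∈ {d | DimL P W d Y Y'}, wt B d := by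
  classical
  have e : {d | DimL P W d Y Y'} = {d | DimK P W true d Y Y'} ∪ {d | DimK P W false d Y Y'} := by
    ext d
    simp only [DimL, Bool.exists_bool, Set.mem_ofPred_eq, Set.mem_union, or_comm]
  have hf := dimL_finite hG Y Y'
  rw [e] at hf
  rw [e, finsum_mem_union _ (hf.subset Set.subset_union_left) (hf.subset Set.subset_union_right),
    Fintype.sum_prod_type, Fintype.sum_bool, ← sum_dimK_false hG B hY hY',
    ← sum_Dm (W := W) (S := {d | DimK P W true d Y Y'}) fun d hd => dimK_ok hG hd,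
    ← sum_Dm (W := W) (S := {d | DimK P W false d ⟨Y.k, 0⟩ ⟨Y'.k, 0⟩}) fun d hd => dimK_ok hG hd]
  · congr 1
    · refine Finset.sum_congr rfl fun d _ => ?_
      simp only [lU, rU, Set.mem_ofPred_eq]
      by_cases h : DimK P W true d.1 Y Y'
      · rw [if_pos ⟨_, h⟩, if_pos ⟨_, h⟩, if_pos h, ← wt_append, List.take_append_drop]
      · rw [if_neg h]
        split_ifs with h1 h2
        · obtain ⟨Z', h1⟩ := h1
          obtain ⟨Z, h2⟩ := h2
          exact absurd ((dimK_fun hG h1 h2).2.2 ▸ h1) h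
        · exact mul_zero _
        · exact zero_mul _
        · exact zero_mul _
    · refine Finset.sum_congr rfl fun d _ => ?_
      simp only [lU, rU, Set.mem_ofPred_eq]
      by_cases h : DimK P W false d.1 ⟨Y.k, 0⟩ ⟨Y'.k, 0⟩
      · rw [if_pos ⟨_, h⟩, if_pos ⟨_, h⟩, if_pos h, ← wt_append, put2]
      · rw [if_neg h]
        split_ifs with h1 h2
        · obtain ⟨Z', h1⟩ := h1
          obtain ⟨Z, h2⟩ := h2
          exact absurd ((dimK_fun hG h1 h2).2.2 ▸ h1) h
        · exact mul_zero _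
        · exact zero_mul _
        · exact zero_mul _
  · exact Set.disjoint_left.2 fun d h1 h2 => absurd (dimK_fun hG h1 h2).1 (by decide)

variable [Algebra KK A]

/-- `g` is a linear function of the weights of the token zones -/
def TL (W : ℕ) (B : Let → A) (g : ℕ → A) : Prop :=
  ∃ φ : (Om W → A) →ₗ[KK] A, ∀ τ, τ < 2 ^ W → g τ = φ fun ω => wt B (zw W ω τ)

theorem TL.zero : TL W B fun _ => 0 := ⟨0, fun _ _ => rfl⟩

theorem TL.of_splits {b : List Let} (h : Splits W b) : TL W B fun τ => wt B (put W τ b) := by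
  obtain ⟨pre, post, ω, h⟩ := h
  refine ⟨(LinearMap.mulRight KK (wt B post)).comp
    ((LinearMap.mulLeft KK (wt B pre)).comp (LinearMap.proj ω)), fun τ _ => ?_⟩
  simp [h, wt_append, mul_assoc]

theorem TL.ite (p : Prop) [Decidable p] {g : ℕ → A} (h : p → TL W B g) :
    TL W B fun τ => if p then g τ else 0 := by
  by_cases hp : p
  · simpa only [if_pos hp] using h hp
  · simpa only [if_neg hp] using TL.zero B

theorem TL.mU (hG : Good W P) (k : Core) : TL W B fun τ => mU W P B ⟨k, τ⟩ := by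
  have hW := hG.two_le
  have hf := monoL_finite hG ⟨k, 0⟩
  have : ∀ b : List Let, ∃ φ : (Om W → A) →ₗ[KK] A, b ∈ hf.toFinset →
      ∀ τ, τ < 2 ^ W → wt B (put W τ b) = φ fun ω => wt B (zw W ω τ) := fun b => by
    by_cases hb : b ∈ hf.toFinset
    · obtain ⟨ρ, h, -⟩ := hf.mem_toFinset.1 hb
      obtain ⟨φ, hφ⟩ := TL.of_splits B (put_split_mono hG h)
      exact ⟨φ, fun _ => hφ⟩
    · exact ⟨0, fun h => absurd h hb⟩
  choose φ hφ using this
  refine ⟨∑ b ∈ hf.toFinset, φ b, fun τ hτ => ?_⟩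
  simp only [WAux.mU]
  rw [LinearMap.sum_apply, ← sum_monoL (by omega) B k hτ,
    finsum_mem_eq_finite_toFinset_sum _ hf]
  exact Finset.sum_congr rfl fun b hb => hφ b hb τ hτ

theorem splits_of_dimK (hG : Good W P) {d : List Let} {Y Y' : Let} (h : DimK P W false d Y Y') :
    Splits W (d.take (6 * W)) ∧ Splits W (d.drop (6 * W)) := by
  have hl : (d.take (6 * W)).length = 6 * W := by
    rw [List.length_take, (dimK_ok hG h).1]; omega
  obtain ⟨ρ, ρ', h, -⟩ := h
  rw [← List.take_append_drop (6 * W) d] at h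
  exact put_split_dim hG hl h

/-- `lU` without the entries that need an idle head on the right -/
noncomputable def lU' (W : ℕ) (P : ℕ → ℕ) (B : Let → A) : Bool × Dm W → Let → A
  | (true, _), _ => 0
  | (false, d), Y => lU W P B (false, d) Y

noncomputable def rU' (W : ℕ) (P : ℕ → ℕ) (B : Let → A) : Bool × Dm W → Let → A
  | (true, _), _ => 0
  | (false, d), Y => rU W P B (false, d) Y

theorem TL.entry (hG : Good W P) (k : Core) (s t : Option (Bool × Dm W)) :
    TL W B fun τ => trM (WAux.mU W P B) (lU' W P B) (rU' W P B) ⟨k, τ⟩ s t := by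
  rcases s with _ | ⟨_ | _, d⟩ <;> rcases t with _ | ⟨_ | _, d'⟩
  · exact TL.mU B hG k
  · classical
    exact TL.ite B (∃ k', DimK P W false d'.1 ⟨k, 0⟩ ⟨k', 0⟩)
      fun ⟨k', h⟩ => TL.of_splits B (splits_of_dimK hG h).1
  · exact TL.zero B
  · classical
    exact TL.ite B (∃ k', DimK P W false d.1 ⟨k', 0⟩ ⟨k, 0⟩)
      fun ⟨k', h⟩ => TL.of_splits B (splits_of_dimK hG h).2
  all_goals exact TL.zero B

omit [Algebra KK A] in
theorem rU_true (hW : 1 ≤ W) (d : Dm W) {Y : Let} (h : Y.k.f ≠ .H) : rU W P B (true, d) Y = 0 :=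
  if_neg fun ⟨_, h'⟩ => h (dimK_true_H hW h')

omit [Algebra KK A] in
theorem trM_mul [Fintype (Dm W)] [DecidableEq (Dm W)] (hW : 1 ≤ W) {Y Y' : Let} (h : Y.k.f ≠ .H)
    (h' : Y'.k.f ≠ .H) :
    trM (mU W P B) (lU W P B) (rU W P B) Y * trM (mU W P B) (lU W P B) (rU W P B) Y' =
      trM (mU W P B) (lU' W P B) (rU' W P B) Y * trM (mU W P B) (lU W P B) (rU W P B) Y' := by
  ext s t
  rw [Matrix.mul_apply, Matrix.mul_apply]
  refine Finset.sum_congr rfl fun u _ => ?_
  rcases s with _ | ⟨_ | _, d⟩ <;> rcases u with _ | ⟨_ | _, d'⟩ <;> rcases t with _ | t <;>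
    simp [trM, lU', rU', rU_true B hW _ h, rU_true B hW _ h']

end Upper

end WAux

theorem exists_upper (hG : Good W P) {A : Type} [Ring A] [Algebra KK A] [Module.Free KK A]
    [Module.Finite KK A] (B : Let → A) :
    ∃ (A' : Type) (_ : Ring A') (_ : Algebra KK A') (_ : Module.Free KK A') (_ : Module.Finite KK A')
      (B' : Let → A') (π : A' →+ A), Module.finrank KK A' ≤ Module.finrank KK A * gam W ∧
      (∀ U : List Let, (∀ Y ∈ U, Y.Bdd (2 ^ W)) → π (wt B' U) = repSum P W B U) ∧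
      LowRank (2 ^ W) B' (Module.finrank KK A * om W) := by
  classical
  have hW := hG.two_le
  have := Fintype.ofFinite (WAux.Dm W)
  have := Fintype.ofFinite (Om W)
  refine ⟨Matrix (Option (Bool × WAux.Dm W)) (Option (Bool × WAux.Dm W)) A, inferInstance,
    inferInstance, inferInstance, inferInstance,
    trM (WAux.mU W P B) (WAux.lU W P B) (WAux.rU W P B), Matrix.entryAddMonoidHom A none none,
    ?_, fun U hU => ?_, ?_⟩
  · rw [Module.finrank_matrix, mul_comm, Fintype.card_option, Fintype.card_prod, Fintype.card_bool,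
      ← Nat.card_eq_fintype_card, gam, sq]
    have := WAux.card_Dm hG.big
    refine Nat.mul_le_mul_left _ (Nat.mul_le_mul (by omega) (by omega))
  · exact transfer _ _ _ (repSum P W B) (fun Y => Y.Bdd (2 ^ W)) (repSum_nil B)
      (fun Y _ => repSum_one hG B Y)
      (fun Y Y' U hY hY' => by rw [repSum_cons hG, WAux.sum_lr B hG hY hY']) U hU
  · choose φ hφ using WAux.TL.entry B hG
    refine ⟨Om W → A, inferInstance, inferInstance, inferInstance, inferInstance,
      fun τ ω => wt B (zw W ω τ), fun k =>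
        { toFun := fun x => Matrix.of fun s t => φ k s t x
          map_add' := fun x y => by ext s t; simp
          map_smul' := fun c x => by ext s t; simp }, ?_, fun Y Y' hY _ h h' => ?_⟩
    · rw [Module.finrank_pi_fintype, Finset.sum_const, Finset.card_univ, smul_eq_mul, mul_comm,
        ← Nat.card_eq_fintype_card]
      exact Nat.mul_le_mul_left _ (WAux.card_Om hG.big)
    · rw [WAux.trM_mul B (by omega) h h']
      congr 1
      ext s t
      exact hφ Y.k s t Y.tok hY.2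

theorem nil_step (hG : Good W P) {A A' : Type} [Ring A] [Ring A'] (B : Let → A) (B' : Let → A')
    (π : A' →+ A) (h : ∀ U : List Let, (∀ Y ∈ U, Y.Bdd (2 ^ W)) → π (wt B' U) = repSum P W B U)
    (hn : (sys (2 ^ W) P).NilAt B') : (sys W P).NilAt B := by
  have hW := hG.two_le
  obtain ⟨n, hn⟩ := hn
  refine nilAt_of_closed hG B (max n 2) fun w hc hl h0 => ?_
  have hl2 : 2 * (6 * W) ≤ w.length := (Nat.mul_le_mul_right _ (le_max_right n 2)).trans hl
  obtain ⟨U, hU⟩ := exists_rep hG hc (by omega) h0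
  have hU0 : ¬ (sys (2 ^ W) P).Null U := fun h' => h0 ((rep_null_iff hG hU).2 h')
  have hlen : n ≤ U.length := by
    rw [hU.length] at hl
    exact (le_max_left n 2).trans (Nat.le_of_mul_le_mul_right hl (by omega))
  have hv := hn U hlen hU0
  have hfin := Sys.class_finite (ok_finite (2 ^ W) P) hU0
  have e : {w' | (sys W P).Eqv w w'} =
      ⋃ U' ∈ {U' | (sys (2 ^ W) P).Eqv U U'}, {w' | Rep P W w' U'} := by
    ext w'
    simp only [Set.mem_iUnion, exists_prop]
    exact rep_class hG hU w'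
  unfold Sys.Van at hv ⊢
  rw [e, finsum_mem_biUnion _ hfin fun U' _ => rep_finite hG U']
  · have := congrArg π hv
    rw [map_zero, AddMonoidHom.map_finsum_mem _ _ hfin] at this
    rw [← this]
    refine finsum_mem_congr rfl fun U' hU' => (h U' fun Y hY => ?_).symm
    by_contra hb
    exact hU0 ⟨U', hU', Or.inl ⟨Y, hY, hb⟩⟩
  · intro U₁ _ U₂ _ hne
    exact Set.disjoint_left.2 fun w' h1 h2 => hne (rep_fun hG h1 h2)

end Crest.Agent.R176.M
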