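import Crest.Agent.R176.BUnip

/-!
# Row 176 B: blocks, rows and columns  (subtask BBlock)

`conj_X_left`: by `closure_induction_x` on `g` (generalising `n`); for a generator `x p q t`
(`p, q ∈ S`; if not `Ok` it is `1`) use `U_ext` with the relation
`Rl a b := (a = p ∧ b = q) ∨ (a ∈ S ∧ b ∈ T)`; matrix side: `n * single p q t = 0`.
The support / `MOk` of `phi g * n` follow from `HS_supp`, `phi_ok` (`supp_mul_left`, `mok_mul_left`).
`colE k c` is `X` of a matrix with `Supp · {k}ᶜ {k}`; `rowE` dually.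
-/

set_option autoImplicit false
set_option linter.unusedSectionVars false

open Matrix

namespace Crest.Agent.R176

section Emb

variable {ι α β γ δ : Type} [DecidableEq ι] [Fintype ι] [Fintype α] [Fintype β] [Fintype γ]
  [Fintype δ] {R : Type} [Ring R]

theorem emb_apply' (f : α → ι) (g : β → ι) (n : Matrix α β R) (p q : ι) :
    emb f g n p q = ∑ a, ∑ b, if f a = p ∧ g b = q then n a b else 0 := by
  simp only [emb, Matrix.sum_apply, single, of_apply]

theorem emb_apply {f : α → ι} {g : β → ι} (hf : Function.Injective f) (hg : Function.Injective g)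
    (n : Matrix α β R) (a : α) (b : β) : emb f g n (f a) (g b) = n a b := by
  rw [emb_apply', Finset.sum_eq_single a, Finset.sum_eq_single b]
  · simp
  · intro b' _ hb
    rw [if_neg fun h => hb (hg h.2)]
  · simp
  · intro a' _ ha
    exact Finset.sum_eq_zero fun b' _ => if_neg fun h => ha (hf h.1)
  · simp

theorem supp_emb (f : α → ι) (g : β → ι) (n : Matrix α β R) :
    Supp (emb f g n) (Set.range f) (Set.range g) := by
  intro p q h
  rw [emb_apply'] at h
  obtain ⟨a, -, h⟩ := Finset.exists_ne_zero_of_sum_ne_zero h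
  obtain ⟨b, -, h⟩ := Finset.exists_ne_zero_of_sum_ne_zero h
  have h1 : f a = p ∧ g b = q := by
    by_contra h1
    exact h (if_neg h1)
  exact ⟨⟨a, h1.1⟩, ⟨b, h1.2⟩⟩

/-- a nonzero entry comes from a nonzero entry -/
theorem emb_ne_zero {f : α → ι} {g : β → ι} {n : Matrix α β R} {p q : ι} (h : emb f g n p q ≠ 0) :
    ∃ a b, f a = p ∧ g b = q ∧ n a b ≠ 0 := by
  rw [emb_apply'] at h
  obtain ⟨a, -, h⟩ := Finset.exists_ne_zero_of_sum_ne_zero h
  obtain ⟨b, -, h⟩ := Finset.exists_ne_zero_of_sum_ne_zero h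
  have h1 : f a = p ∧ g b = q := by
    by_contra h1
    exact h (if_neg h1)
  rw [if_pos h1] at h
  exact ⟨a, b, h1.1, h1.2, h⟩

theorem emb_mem {f : α → ι} {g : β → ι} {n : Matrix α β R} {L : Ideal R} (h : ∀ a b, n a b ∈ L)
    (p q : ι) : emb f g n p q ∈ L := by
  rw [emb_apply']
  refine L.sum_mem fun a _ => L.sum_mem fun b _ => ?_
  split_ifs
  · exact h a b
  · exact L.zero_mem

theorem emb_add (f : α → ι) (g : β → ι) (n m : Matrix α β R) :
    emb f g (n + m) = emb f g n + emb f g m := by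
  simp only [emb, Matrix.add_apply, single_add, Finset.sum_add_distrib]

theorem emb_zero (f : α → ι) (g : β → ι) : emb f g (0 : Matrix α β R) = 0 := by
  simp [emb]

theorem emb_sum {τ : Type} (s : Finset τ) (f : α → ι) (g : β → ι) (n : τ → Matrix α β R) :
    emb f g (∑ t ∈ s, n t) = ∑ t ∈ s, emb f g (n t) := by
  classical
  induction s using Finset.induction_on with
  | empty => simp [emb_zero]
  | insert t s ht ih => rw [Finset.sum_insert ht, Finset.sum_insert ht, emb_add, ih]

theorem single_sum' {τ : Type} (s : Finset τ) (p q : ι) (t : τ → R) :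
    single p q (∑ i ∈ s, t i) = ∑ i ∈ s, single p q (t i) := by
  classical
  induction s using Finset.induction_on with
  | empty => simp
  | insert i s hi ih => rw [Finset.sum_insert hi, Finset.sum_insert hi, single_add, ih]

theorem emb_single [DecidableEq α] [DecidableEq β] (f : α → ι) (g : β → ι) (a : α) (b : β)
    (r : R) : emb f g (single a b r) = single (f a) (g b) r := by
  unfold emb
  rw [Finset.sum_eq_single a, Finset.sum_eq_single b]
  · simp
  · intro b' _ hb
    rw [single_apply_of_col_ne _ _ hb.symm, single_zero]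
  · simp
  · intro a' _ ha
    exact Finset.sum_eq_zero fun b' _ => by rw [single_apply_of_row_ne ha.symm, single_zero]
  · simp

theorem emb_mul_emb (f : α → ι) {g : β → ι} (hg : Function.Injective g) (k : γ → ι)
    (n : Matrix α β R) (m : Matrix β γ R) : emb f g n * emb g k m = emb f k (n * m) := by
  unfold emb
  rw [Finset.sum_mul]
  refine Finset.sum_congr rfl fun a _ => ?_
  simp only [Matrix.mul_apply, single_sum']
  rw [Finset.sum_mul, Finset.sum_comm (f := fun c b => single (f a) (k c) (n a b * m b c))]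
  refine Finset.sum_congr rfl fun b _ => ?_
  rw [Finset.mul_sum, Finset.sum_eq_single b, Finset.mul_sum]
  · simp only [single_mul_single_same]
  · intro b' _ hb
    rw [Finset.mul_sum]
    exact Finset.sum_eq_zero fun c _ => single_mul_single_of_ne _ _ _ _ (fun h => hb (hg h).symm) _
  · simp

theorem emb_mul_emb_disj (f : α → ι) {g : β → ι} {g' : γ → ι} (h : ∀ b c, g b ≠ g' c) (k : δ → ι)
    (n : Matrix α β R) (m : Matrix γ δ R) : emb f g n * emb g' k m = 0 := by
  unfold emb
  simp only [Finset.sum_mul, Finset.mul_sum]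
  refine Finset.sum_eq_zero fun _ _ => Finset.sum_eq_zero fun _ _ =>
    Finset.sum_eq_zero fun _ _ => Finset.sum_eq_zero fun _ _ => ?_
  exact single_mul_single_of_ne _ _ _ _ (h _ _) _

theorem emb_one_inj [DecidableEq α] {f : α → ι} (hf : Function.Injective f) {n m : Matrix α α R}
    (h : emb f f n = emb f f m) : n = m := by
  ext a b
  rw [← emb_apply hf hf n, h, emb_apply hf hf]

theorem supp_mul {n m : Matrix ι ι R} {S T S' T' : Set ι} (hn : Supp n S T) (hm : Supp m S' T') :
    Supp (n * m) S T' := by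
  intro p q h
  rw [Matrix.mul_apply] at h
  obtain ⟨r, -, h⟩ := Finset.exists_ne_zero_of_sum_ne_zero h
  exact ⟨(hn p r (left_ne_zero_of_mul h)).1, (hm r q (right_ne_zero_of_mul h)).2⟩

theorem supp_mul_eq_zero {n m : Matrix ι ι R} {S T S' T' : Set ι} (hn : Supp n S T)
    (hm : Supp m S' T') (h : Disjoint T S') : n * m = 0 := by
  ext p q
  by_contra h1
  rw [Matrix.mul_apply] at h1
  obtain ⟨r, -, h1⟩ := Finset.exists_ne_zero_of_sum_ne_zero h1
  exact Set.disjoint_left.1 h (hn p r (left_ne_zero_of_mul h1)).2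
    (hm r q (right_ne_zero_of_mul h1)).1

theorem Supp.add {n m : Matrix ι ι R} {S T : Set ι} (hn : Supp n S T) (hm : Supp m S T) :
    Supp (n + m) S T := by
  intro p q h
  by_cases h1 : n p q = 0
  · rw [Matrix.add_apply, h1, zero_add] at h
    exact hm p q h
  · exact hn p q h1

theorem supp_single {S T : Set ι} {p q : ι} (hp : p ∈ S) (hq : q ∈ T) (t : R) :
    Supp (single p q t) S T := by
  intro a b h
  have h1 : p = a ∧ q = b := by
    by_contra h1
    exact h (single_apply_of_ne _ _ _ _ _ h1)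
  exact ⟨h1.1 ▸ hp, h1.2 ▸ hq⟩

theorem Supp.mono {n : Matrix ι ι R} {S T S' T' : Set ι} (hn : Supp n S T) (hS : S ⊆ S')
    (hT : T ⊆ T') : Supp n S' T' := fun p q h => ⟨hS (hn p q h).1, hT (hn p q h).2⟩

end Emb

variable {ι : Type} [LinearOrder ι] [Fintype ι] {R : Type} [Ring R] [Two R] {I : Ideal R}
  [I.IsTwoSided]

theorem mok_of_mem {n : Matrix ι ι R} {S T : Set ι} (hST : Disjoint S T) (hn : Supp n S T)
    (h : ∀ p q, n p q ∈ I) : MOk I n := by
  intro p q h1
  refine Ok.of_mem (fun h2 => ?_) (h p q)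
  exact Set.disjoint_left.1 hST (hn p q h1).1 (h2 ▸ (hn p q h1).2)

theorem MOk.add {n m : Matrix ι ι R} (hn : MOk I n) (hm : MOk I m) : MOk I (n + m) := by
  intro p q h
  rw [Matrix.add_apply] at h ⊢
  by_cases h1 : n p q = 0
  · rw [h1, zero_add] at h ⊢
    exact hm p q h
  · by_cases h2 : m p q = 0
    · rw [h2, add_zero]
      exact hn p q h1
    · exact (hn p q h1).add (hm p q h2)

theorem Ok.sum {τ : Type} {i j : ι} (hij : i ≠ j) (s : Finset τ) {t : τ → R}
    (h : ∀ a ∈ s, Ok I i j (t a)) : Ok I i j (∑ a ∈ s, t a) :=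
  Finset.sum_induction _ _ (fun _ _ => Ok.add) (Ok.zero hij) h

theorem ok_phi_mul (g : St ι I) {p r q : ι} (hpq : p ≠ q) {t : R} (ht : Ok I r q t) :
    Ok I p q (phi I g p r * t) := by
  by_cases h : p = r
  · subst h
    exact ht.mul_left _
  · exact (phi_ok g h).mul ht hpq

theorem ok_mul_phi (g : St ι I) {p r q : ι} (hpq : p ≠ q) {t : R} (ht : Ok I p r t) :
    Ok I p q (t * phi I g r q) := by
  by_cases h : r = q
  · subst h
    exact ht.mul_right _
  · exact ht.mul (phi_ok g h) hpq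

theorem supp_mul_left {S T : Set ι} (hST : Disjoint S T) {g : St ι I} (hg : g ∈ HS I S)
    {n : Matrix ι ι R} (hn : Supp n S T) : Supp (phi I g * n) S T := by
  intro p q h
  rw [Matrix.mul_apply] at h
  obtain ⟨r, -, h⟩ := Finset.exists_ne_zero_of_sum_ne_zero h
  have h1 := hn r q (right_ne_zero_of_mul h)
  refine ⟨?_, h1.2⟩
  by_contra hp
  have h2 := left_ne_zero_of_mul h
  rw [HS_supp hg fun h3 => hp h3.1, one_apply_ne fun h3 : p = r => hp (h3 ▸ h1.1)] at h2
  exact h2 rfl

theorem mok_mul_left {S T : Set ι} (hST : Disjoint S T) {g : St ι I} (hg : g ∈ HS I S)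
    {n : Matrix ι ι R} (hn : Supp n S T) (hok : MOk I n) : MOk I (phi I g * n) := by
  intro p q h
  have h1 := supp_mul_left hST hg hn p q h
  have hpq : p ≠ q := fun h2 => Set.disjoint_left.1 hST h1.1 (h2 ▸ h1.2)
  rw [Matrix.mul_apply]
  refine Ok.sum hpq _ fun r _ => ?_
  by_cases h2 : n r q = 0
  · rw [h2, mul_zero]
    exact Ok.zero hpq
  · exact ok_phi_mul g hpq (hok r q h2)

theorem supp_mul_right {S T : Set ι} (hST : Disjoint T S) {g : St ι I} (hg : g ∈ HS I S)
    {n : Matrix ι ι R} (hn : Supp n T S) : Supp (n * phi I g) T S := by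
  intro p q h
  rw [Matrix.mul_apply] at h
  obtain ⟨r, -, h⟩ := Finset.exists_ne_zero_of_sum_ne_zero h
  have h1 := hn p r (left_ne_zero_of_mul h)
  refine ⟨h1.1, ?_⟩
  by_contra hq
  have h2 := right_ne_zero_of_mul h
  rw [HS_supp hg fun h3 => hq h3.2, one_apply_ne fun h3 : r = q => hq (h3 ▸ h1.2)] at h2
  exact h2 rfl

theorem mok_mul_right {S T : Set ι} (hST : Disjoint T S) {g : St ι I} (hg : g ∈ HS I S)
    {n : Matrix ι ι R} (hn : Supp n T S) (hok : MOk I n) : MOk I (n * phi I g) := by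
  intro p q h
  have h1 := supp_mul_right hST hg hn p q h
  have hpq : p ≠ q := fun h2 => Set.disjoint_left.1 hST h1.1 (h2 ▸ h1.2)
  rw [Matrix.mul_apply]
  refine Ok.sum hpq _ fun r _ => ?_
  by_cases h2 : n p r = 0
  · rw [h2, zero_mul]
    exact Ok.zero hpq
  · exact ok_mul_phi g hpq (hok p r h2)

theorem HS_induction {S : Set ι} {P : St ι I → Prop} (h1 : P 1)
    (hx : ∀ p q t g, p ∈ S → q ∈ S → Ok I p q t → g ∈ HS I S → P g → P (x I p q t * g))
    {g : St ι I} (hg : g ∈ HS I S) : P g := by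
  refine (closure_induction_x (P := fun g => g ∈ HS I S ∧ P g) ?_ ⟨one_mem _, h1⟩ ?_ hg).2
  · rintro _ ⟨i, j, r, -, rfl⟩
    exact ⟨i, j, r, rfl⟩
  · rintro _ ⟨i, j, r, hij, rfl⟩ g ⟨hg, hP⟩
    refine ⟨mul_mem (x_mem_HS hij.1 hij.2 r) hg, ?_⟩
    by_cases hr : Ok I i j r
    · exact hx i j r g hij.1 hij.2 hr hg hP
    · rw [x_of_not hr, one_mul]
      exact hP

theorem x_mul_X {S T : Set ι} (hST : Disjoint S T) {p q : ι} (hp : p ∈ S) (hq : q ∈ S) {t : R}
    (ht : Ok I p q t) {n : Matrix ι ι R} (hn : Supp n S T) (hok : MOk I n) :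
    x I p q t * X I n = X I (phi I (x I p q t) * n) * x I p q t := by
  have hd := Set.disjoint_left.1 hST
  have hx := x_mem_HS (I := I) hp hq t
  have hn' := supp_mul_left hST hx hn
  have hok' := mok_mul_left hST hx hn hok
  refine U_ext (Rl := fun a b => (a = p ∧ b = q) ∨ (a ∈ S ∧ b ∈ T)) ?_ ?_ ?_ ?_ ?_
  · rintro a b c (⟨rfl, rfl⟩ | ⟨h1, h2⟩) (⟨h3, rfl⟩ | ⟨h3, h4⟩)
    · exact absurd h3.symm ht.ne
    · exact Or.inr ⟨hp, h4⟩
    · exact absurd (h3 ▸ h2) (hd hp)
    · exact absurd h2 (hd h3)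
  · rintro a (⟨rfl, h⟩ | ⟨h1, h2⟩)
    · exact ht.ne h
    · exact hd h1 h2
  · exact mul_mem (x_mem_U (by exact Or.inl ⟨rfl, rfl⟩) t) (X_mem_U fun a b h => Or.inr (hn a b h))
  · exact mul_mem (X_mem_U fun a b h => Or.inr (hn' a b h)) (x_mem_U (by exact Or.inl ⟨rfl, rfl⟩) t)
  · have h0 : n * single p q t = 0 := supp_mul_eq_zero hn (supp_single hp hq t) hST.symm
    rw [map_mul, map_mul, phi_X_of_supp hST hn hok, phi_X_of_supp hST hn' hok', add_mul, one_mul,
      mul_add, mul_one, mul_assoc]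
    congr 2
    rw [phi_x ht, mul_add, mul_one, h0, add_zero]

theorem X_mul_x {S T : Set ι} (hST : Disjoint T S) {p q : ι} (hp : p ∈ S) (hq : q ∈ S) {t : R}
    (ht : Ok I p q t) {n : Matrix ι ι R} (hn : Supp n T S) (hok : MOk I n) :
    X I n * x I p q t = x I p q t * X I (n * phi I (x I p q t)) := by
  have hd := Set.disjoint_right.1 hST
  have hx := x_mem_HS (I := I) hp hq t
  have hn' := supp_mul_right hST hx hn
  have hok' := mok_mul_right hST hx hn hok
  refine U_ext (Rl := fun a b => (a = p ∧ b = q) ∨ (a ∈ T ∧ b ∈ S)) ?_ ?_ ?_ ?_ ?_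
  · rintro a b c (⟨rfl, rfl⟩ | ⟨h1, h2⟩) (⟨h3, rfl⟩ | ⟨h3, h4⟩)
    · exact absurd h3.symm ht.ne
    · exact absurd h3 (hd hq)
    · exact Or.inr ⟨h1, hq⟩
    · exact absurd h3 (hd h2)
  · rintro a (⟨rfl, h⟩ | ⟨h1, h2⟩)
    · exact ht.ne h
    · exact hd h2 h1
  · exact mul_mem (X_mem_U fun a b h => Or.inr (hn a b h)) (x_mem_U (by exact Or.inl ⟨rfl, rfl⟩) t)
  · exact mul_mem (x_mem_U (by exact Or.inl ⟨rfl, rfl⟩) t) (X_mem_U fun a b h => Or.inr (hn' a b h))
  · have h0 : single p q t * n = 0 := supp_mul_eq_zero (supp_single hp hq t) hn hST.symm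
    rw [map_mul, map_mul, phi_X_of_supp hST hn hok, phi_X_of_supp hST hn' hok', add_mul, one_mul,
      mul_add, mul_one, ← mul_assoc]
    congr 2
    rw [phi_x ht, add_mul, one_mul, h0, add_zero]

theorem conj_X_left {S T : Set ι} (hST : Disjoint S T) {g : St ι I} (hg : g ∈ HS I S)
    {n : Matrix ι ι R} (hn : Supp n S T) (hok : MOk I n) :
    g * X I n * g⁻¹ = X I (phi I g * n) := by
  refine HS_induction (P := fun g => g * X I n * g⁻¹ = X I (phi I g * n)) (by simp) ?_ hg
  intro p q t g hp hq ht hg ih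
  have h1 := x_mul_X hST hp hq ht (supp_mul_left hST hg hn) (mok_mul_left hST hg hn hok)
  rw [map_mul, mul_assoc (phi I _), eq_mul_inv_iff_mul_eq.2 h1.symm, ← ih]
  group

theorem conj_X_right {S T : Set ι} (hST : Disjoint T S) {g : St ι I} (hg : g ∈ HS I S)
    {n : Matrix ι ι R} (hn : Supp n T S) (hok : MOk I n) :
    g⁻¹ * X I n * g = X I (n * phi I g) := by
  refine HS_induction (P := fun g => ∀ n : Matrix ι ι R, Supp n T S → MOk I n →
    g⁻¹ * X I n * g = X I (n * phi I g)) (by simp) ?_ hg n hn hok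
  intro p q t g hp hq ht _ ih n hn hok
  have hx := x_mem_HS (I := I) hp hq t
  have h1 := X_mul_x hST hp hq ht hn hok
  rw [map_mul, ← mul_assoc n, ← ih _ (supp_mul_right hST hx hn) (mok_mul_right hST hx hn hok),
    eq_inv_mul_iff_mul_eq.2 h1.symm]
  group

/-- subgroups on disjoint index sets commute -/
theorem HS_commute {S T : Set ι} (hST : Disjoint S T) {g g' : St ι I} (hg : g ∈ HS I S)
    (hg' : g' ∈ HS I T) : Commute g g' := by
  refine HS_induction (P := fun g => Commute g g') (Commute.one_left _) ?_ hg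
  intro p q t g hp hq _ _ ih
  refine Commute.mul_left ?_ ih
  refine HS_induction (P := fun g' => Commute (x I p q t) g') (Commute.one_right _) ?_ hg'
  intro p' q' t' g' hp' hq' _ _ ih'
  exact Commute.mul_right (x_comm _ _ (fun h => Set.disjoint_left.1 hST hq (h ▸ hp'))
    fun h => Set.disjoint_left.1 hST hp (h ▸ hq')) ih' 

theorem X_mem_HS {n : Matrix ι ι R} {S T V : Set ι} (hn : Supp n S T) (hS : S ⊆ V) (hT : T ⊆ V) :
    X I n ∈ HS I V :=
  X_mem_U fun p q h => ⟨hS (hn p q h).1, hT (hn p q h).2⟩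

theorem phi_tau' (d : ι → Rˣ) (g : St ι I) :
    phi I (tau I d g) * diagonal (fun i => (d i : R)) = diagonal (fun i => (d i : R)) * phi I g := by
  induction g using induction_left with
  | h1 => simp
  | hx i j r g hr ih =>
    rw [map_mul, map_mul, map_mul, mul_assoc, ih, ← mul_assoc, ← mul_assoc, tau_x,
      phi_x ((ok_tau I d).2 hr), phi_x hr]
    congr 1
    rw [add_mul, mul_add, one_mul, mul_one]
    congr 1
    ext a b
    simp only [Matrix.mul_diagonal, Matrix.diagonal_mul, single, of_apply]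
    split_ifs with h
    · obtain ⟨rfl, rfl⟩ := h
      simp [mul_assoc]
    · simp

theorem phi_tau (d : ι → Rˣ) (g : St ι I) (i j : ι) :
    phi I (tau I d g) i j = d i * phi I g i j * ((d j)⁻¹ : Rˣ) := by
  have h := congrFun (congrFun (phi_tau' d g) i) j
  rw [Matrix.mul_diagonal, Matrix.diagonal_mul] at h
  rw [← h, Units.mul_inv_cancel_right]

theorem tau_mem_U (d : ι → Rˣ) {Rl : ι → ι → Prop} {g : St ι I} (hg : g ∈ U I Rl) :
    tau I d g ∈ U I Rl := by
  refine closure_induction_x (P := fun g => tau I d g ∈ U I Rl) ?_ (by simp) ?_ hg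
  · rintro _ ⟨i, j, r, -, rfl⟩
    exact ⟨i, j, r, rfl⟩
  · rintro _ ⟨i, j, r, hij, rfl⟩ g ih
    rw [map_mul, tau_x]
    exact mul_mem (x_mem_U hij _) ih

/-- `tau d` fixes `HS S` pointwise if `d = 1` on `S` -/
theorem tau_of_mem_HS {d : ι → Rˣ} {S : Set ι} (hd : ∀ i ∈ S, d i = 1) {g : St ι I}
    (hg : g ∈ HS I S) : tau I d g = g := by
  refine HS_induction (P := fun g => tau I d g = g) (map_one _) ?_ hg
  intro p q t g hp hq _ _ ih
  rw [map_mul, ih, tau_x, hd p hp, hd q hq]
  simp

theorem phi_map {κ : Type} [LinearOrder κ] [Fintype κ] (f : ι ↪o κ) (g : St ι I) :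
    phi I (map I f g) = 1 + emb f f (phi I g - 1) := by
  induction g using induction_left with
  | h1 => simp [emb_zero]
  | hx i j r g hr ih =>
    rw [map_mul, map_mul, map_mul, ih, map_x, phi_x ((ok_map I f).2 hr), phi_x hr,
      ← emb_single f f i j r]
    have h1 : (1 + single i j r) * phi I g - 1 =
        (phi I g - 1) + (single i j r + single i j r * (phi I g - 1)) := by noncomm_ring
    rw [h1, emb_add, emb_add, ← emb_mul_emb f f.injective f]
    noncomm_ring

/-! columns -/

theorem supp_col (k : ι) (c : ι → R) :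
    Supp (Matrix.of fun r s => if s = k ∧ r ≠ k then c r else 0) {k}ᶜ {k} := by
  intro r s h
  have h1 : s = k ∧ r ≠ k := by
    by_contra h1
    exact h (if_neg h1)
  exact ⟨h1.2, h1.1⟩

theorem mok_col {k : ι} {c : ι → R} (hc : ColOk I k c) :
    MOk I (Matrix.of fun r s => if s = k ∧ r ≠ k then c r else 0) := by
  intro r s h
  have h1 : s = k ∧ r ≠ k := supp_col k c r s h |>.symm
  rw [of_apply, if_pos h1, h1.1]
  exact hc r h1.2

theorem tau_X (d : ι → Rˣ) (n : Matrix ι ι R) :
    tau I d (X I n) = X I (Matrix.of fun p q => d p * n p q * ((d q)⁻¹ : Rˣ)) := by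
  unfold X
  rw [map_list_prod, List.map_map]
  congr 1
  refine List.map_congr_left fun p _ => ?_
  simp

theorem colE_mem_U {Rl : ι → ι → Prop} {k : ι} {c : ι → R} (h : ∀ r, r ≠ k → c r ≠ 0 → Rl r k) :
    colE I k c ∈ U I Rl := by
  refine X_mem_U fun r s h1 => ?_
  have h2 : s = k ∧ r ≠ k := supp_col k c r s h1 |>.symm
  rw [of_apply, if_pos h2] at h1
  rw [h2.1]
  exact h r h2.2 h1

theorem phi_colE {k : ι} {c : ι → R} (hc : ColOk I k c) :
    phi I (colE I k c) = 1 + Matrix.of fun r s => if s = k ∧ r ≠ k then c r else 0 := by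
  exact phi_X_of_supp disjoint_compl_left (supp_col k c) (mok_col hc)

theorem colE_congr {k : ι} {c c' : ι → R} (h : ∀ r, r ≠ k → c r = c' r) :
    colE I k c = colE I k c' := by
  unfold colE
  congr 1
  ext r s
  simp only [of_apply]
  split_ifs with h1
  · exact h r h1.2
  · rfl

theorem colE_zero (k : ι) : colE I k (0 : ι → R) = 1 := by
  unfold colE
  rw [← X_zero]
  congr 1
  ext r s
  simp

theorem colE_add {k : ι} {c c' : ι → R} (hc : ColOk I k c) (hc' : ColOk I k c') :
    colE I k c * colE I k c' = colE I k (c + c') := by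
  unfold colE
  rw [X_add disjoint_compl_left (supp_col k c) (supp_col k c') (mok_col hc) (mok_col hc')]
  congr 1
  ext r s
  simp only [of_apply, Matrix.add_apply, Pi.add_apply]
  split_ifs <;> simp

theorem colE_inv {k : ι} {c : ι → R} (hc : ColOk I k c) : (colE I k c)⁻¹ = colE I k c := by
  exact X_inv disjoint_compl_left (supp_col k c) (mok_col hc)

theorem colE_single (k r : ι) (t : R) : colE I k (Pi.single r t) = x I r k t := by
  by_cases hr : r = k
  · subst hr
    rw [x_self, ← colE_zero r]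
    exact colE_congr fun s hs => by simp [hs]
  · unfold colE
    rw [← X_single]
    congr 1
    ext a b
    simp only [of_apply, single, Pi.single_apply]
    by_cases h1 : a = r
    · subst h1
      by_cases h2 : b = k
      · simp [h2, hr]
      · simp [h2, Ne.symm h2]
    · simp [h1, Ne.symm h1]

theorem phi_col_zero {k : ι} {g : St ι I} (hg : g ∈ HS I {k}ᶜ) {r : ι} (hr : r ≠ k) :
    phi I g r k = 0 := by
  rw [HS_supp hg fun h => h.2 rfl, one_apply_ne hr]

theorem phi_row_zero {k : ι} {g : St ι I} (hg : g ∈ HS I {k}ᶜ) {s : ι} (hs : s ≠ k) :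
    phi I g k s = 0 := by
  rw [HS_supp hg fun h => h.1 rfl, one_apply_ne hs.symm]

theorem colOk_mulVec {k : ι} {g : St ι I} (hg : g ∈ HS I {k}ᶜ) {c : ι → R} (hc : ColOk I k c) :
    ColOk I k (phi I g *ᵥ c) := by
  intro r hr
  change Ok I r k (∑ s, phi I g r s * c s)
  refine Ok.sum hr _ fun s _ => ?_
  by_cases hs : s = k
  · rw [hs, phi_col_zero hg hr, zero_mul]
    exact Ok.zero hr
  · exact ok_phi_mul g hr (hc s hs)

theorem conj_colE {k : ι} {g : St ι I} (hg : g ∈ HS I {k}ᶜ) {c : ι → R} (hc : ColOk I k c) :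
    g * colE I k c * g⁻¹ = colE I k (phi I g *ᵥ c) := by
  unfold colE
  rw [conj_X_left disjoint_compl_left hg (supp_col k c) (mok_col hc)]
  congr 1
  ext r s
  simp only [Matrix.mul_apply, of_apply]
  split_ifs with h
  · change _ = ∑ u, phi I g r u * c u
    refine Finset.sum_congr rfl fun u _ => ?_
    by_cases hu : u = k
    · rw [hu, phi_col_zero hg h.2, zero_mul, zero_mul]
    · rw [if_pos ⟨h.1, hu⟩]
  · refine Finset.sum_eq_zero fun u _ => ?_
    split_ifs with h1
    · have h2 : r = k := by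
        by_contra h2
        exact h ⟨h1.1, h2⟩
      rw [h2, phi_row_zero hg h1.2, zero_mul]
    · rw [mul_zero]

theorem tau_colE (d : ι → Rˣ) (k : ι) (c : ι → R) :
    tau I d (colE I k c) = colE I k fun r => d r * c r * ((d k)⁻¹ : Rˣ) := by
  unfold colE
  rw [tau_X]
  congr 1
  ext r s
  simp only [of_apply]
  split_ifs with h
  · rw [h.1]
  · simp

/-! rows -/

theorem supp_row (k : ι) (b : ι → R) :
    Supp (Matrix.of fun r s => if r = k ∧ s ≠ k then b s else 0) {k} {k}ᶜ := by
  intro r s h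
  have h1 : r = k ∧ s ≠ k := by
    by_contra h1
    exact h (if_neg h1)
  exact h1

theorem mok_row {k : ι} {b : ι → R} (hb : RowOk I k b) :
    MOk I (Matrix.of fun r s => if r = k ∧ s ≠ k then b s else 0) := by
  intro r s h
  have h1 : r = k ∧ s ≠ k := supp_row k b r s h
  rw [of_apply, if_pos h1, h1.1]
  exact hb s h1.2

theorem rowE_mem_U {Rl : ι → ι → Prop} {k : ι} {b : ι → R} (h : ∀ s, s ≠ k → b s ≠ 0 → Rl k s) :
    rowE I k b ∈ U I Rl := by
  refine X_mem_U fun r s h1 => ?_
  have h2 : r = k ∧ s ≠ k := supp_row k b r s h1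
  rw [of_apply, if_pos h2] at h1
  rw [h2.1]
  exact h s h2.2 h1

theorem phi_rowE {k : ι} {b : ι → R} (hb : RowOk I k b) :
    phi I (rowE I k b) = 1 + Matrix.of fun r s => if r = k ∧ s ≠ k then b s else 0 := by
  exact phi_X_of_supp disjoint_compl_right (supp_row k b) (mok_row hb)

theorem rowE_congr {k : ι} {b b' : ι → R} (h : ∀ s, s ≠ k → b s = b' s) :
    rowE I k b = rowE I k b' := by
  unfold rowE
  congr 1
  ext r s
  simp only [of_apply]
  split_ifs with h1
  · exact h s h1.2
  · rfl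

theorem rowE_zero (k : ι) : rowE I k (0 : ι → R) = 1 := by
  unfold rowE
  rw [← X_zero]
  congr 1
  ext r s
  simp

theorem rowE_add {k : ι} {b b' : ι → R} (hb : RowOk I k b) (hb' : RowOk I k b') :
    rowE I k b * rowE I k b' = rowE I k (b + b') := by
  unfold rowE
  rw [X_add disjoint_compl_right (supp_row k b) (supp_row k b') (mok_row hb) (mok_row hb')]
  congr 1
  ext r s
  simp only [of_apply, Matrix.add_apply, Pi.add_apply]
  split_ifs <;> simp

theorem rowE_inv {k : ι} {b : ι → R} (hb : RowOk I k b) : (rowE I k b)⁻¹ = rowE I k b := by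
  exact X_inv disjoint_compl_right (supp_row k b) (mok_row hb)

theorem rowE_single (k s : ι) (t : R) : rowE I k (Pi.single s t) = x I k s t := by
  by_cases hs : s = k
  · subst hs
    rw [x_self, ← rowE_zero s]
    exact rowE_congr fun r hr => by simp [hr]
  · unfold rowE
    rw [← X_single]
    congr 1
    ext a b
    simp only [of_apply, single, Pi.single_apply]
    by_cases h1 : b = s
    · subst h1
      by_cases h2 : a = k
      · simp [h2, hs]
      · simp [h2, Ne.symm h2]
    · simp [h1, Ne.symm h1]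

theorem rowOk_vecMul {k : ι} {g : St ι I} (hg : g ∈ HS I {k}ᶜ) {b : ι → R} (hb : RowOk I k b) :
    RowOk I k (b ᵥ* phi I g) := by
  intro s hs
  change Ok I k s (∑ r, b r * phi I g r s)
  refine Ok.sum hs.symm _ fun r _ => ?_
  by_cases hr : r = k
  · rw [hr, phi_row_zero hg hs, mul_zero]
    exact Ok.zero hs.symm
  · exact ok_mul_phi g hs.symm (hb r hr)

theorem conj_rowE {k : ι} {g : St ι I} (hg : g ∈ HS I {k}ᶜ) {b : ι → R} (hb : RowOk I k b) :
    g⁻¹ * rowE I k b * g = rowE I k (b ᵥ* phi I g) := by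
  unfold rowE
  rw [conj_X_right disjoint_compl_right hg (supp_row k b) (mok_row hb)]
  congr 1
  ext r s
  simp only [Matrix.mul_apply, of_apply]
  split_ifs with h
  · change _ = ∑ u, b u * phi I g u s
    refine Finset.sum_congr rfl fun u _ => ?_
    by_cases hu : u = k
    · rw [hu, phi_row_zero hg h.2, mul_zero, mul_zero]
    · rw [if_pos ⟨h.1, hu⟩]
  · refine Finset.sum_eq_zero fun u _ => ?_
    split_ifs with h1
    · have h2 : s = k := by
        by_contra h2
        exact h ⟨h1.1, h2⟩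
      rw [h2, phi_col_zero hg h1.2, mul_zero]
    · rw [zero_mul]

theorem tau_rowE (d : ι → Rˣ) (k : ι) (b : ι → R) :
    tau I d (rowE I k b) = rowE I k fun s => d k * b s * ((d s)⁻¹ : Rˣ) := by
  unfold rowE
  rw [tau_X]
  congr 1
  ext r s
  simp only [of_apply]
  split_ifs with h
  · rw [h.1]
  · simp

end Crest.Agent.R176
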