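import Crest.Agent.R176.BSym

/-!
# Row 176 B: normal form, centrality of the kernel, finite quotients, deep elements
(subtask BCentral)

* `mid_row`, `mid_col`: `Subgroup.closure_induction`; generators `h p q a b` act by `h_conj` +
  `tau_rowE` (use `tau (hd)⁻¹` for the other direction), generators `x r s t` by `conj_rowE`.
* `normal_form`: `induction_left`.  `x r s t` with `r,s ≠ p`: `conj_colE`; `x r p t`: `colE_add`;
  `x p q b`: `bruhat`, where `colE q (update _ p 0) ∈ Mid p` (it lies in `U (r ≠ p ∧ s ≠ p)`), then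
  move `x p q _ = rowE p (single ..)` across the middle factor with `mid_row`.
* `central`: if `phi g = 1`, the normal form at `p` has `c = 0`, `b = 0` off `p` (look at row and
  column `p` of the matrix; `phi M p p` is a unit), so `g ∈ Mid p`; `mid_row`/`mid_col` and
  `phi_rowE`, `phi_colE` show that `g` commutes with every `x p q _` and `x q p _`; `p` is arbitrary.
* `phi_pow`: `n = phi g - 1` has entries in `I` on and below the diagonal, so `n ^ card ι` has
  all entries in `I` (induction: `(n^k) i j ∈ I` unless `#{l | i < l ≤ j} ≥ k`; or use the rank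
  `monoEquivOfFin`), hence nilpotent (`MNil`, reindex), and `(1+n)^(2^s) = 1 + n^(2^s)` by
  induction on `s` (`Two`).
* `finite_two`: `G ⧸ center` is a quotient of `G ⧸ ker phi`, finite; Schur
  (`Subgroup.card_commutator_dvd_index_center_pow`, `Subgroup.finiteIndex_center`,
  `commutatorSet` finite: `Subgroup.finite_commutatorSet...`/ via `G ⧸ center` finite) makes the
  commutator subgroup a finite 2-group (the index of the centre is a power of 2:
  `IsPGroup.iff_card`); the abelianisation is generated by finitely many involutions.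
* `finite_quot`: `lift` from `St ι (I.map (Ideal.Quotient.mk L))` onto `St ι I ⧸ NL I L`
  (`x i j r̄ ↦ mk (x i j r)` for any representative; representatives of elements of the image ideal
  lie in `I` as `L ≤ I`).
* `NL_le_EL`: `N'' = closure ({x i j ρ | ρ ∈ L₂} ∪ {h i j a ρ | Ok i j a, ρ ∈ L₂})` is normal:
  conjugate a generator by `x k l t`: `x * h * x⁻¹ = (x * (h x⁻¹ h⁻¹)) * h` with `h_conj`
  (the diagonal is `≡ 1 mod L₂`); `x j i a * x i j ρ * x j i a` by `x_mul_x_opp`; other cases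
  `x_mul'`, `x_comm`.  And `h i j a ρ ∈ EL L`: induction on `ρ ∈ closure {β γ}` for all `a`
  (`h_add_right`; `-ρ = ρ`), `h i j a (β γ) = h i k (a β) γ * h k j (γ a) β` (`h_triple`).
-/

set_option autoImplicit false
set_option linter.unusedSectionVars false

open Matrix

namespace Crest.Agent.R176

variable {ι : Type} [LinearOrder ι] [Fintype ι] {R : Type} [Ring R] [Two R] {I : Ideal R}
  [I.IsTwoSided]

theorem HS_le_Mid (p : ι) : HS I {p}ᶜ ≤ Mid I p := by
  refine Subgroup.closure_mono ?_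
  rintro _ ⟨i, j, r, ⟨hi, hj⟩, rfl⟩
  exact Or.inr ⟨i, j, r, hi, hj, rfl⟩

theorem h_mem_Mid {p q : ι} {a b : R} (ha : Ok I p q a) (hb : Ok I q p b) :
    h I p q a b ∈ Mid I p :=
  Subgroup.subset_closure (Or.inl ⟨q, a, b, ha, hb, rfl⟩)

theorem x_mem_HS_compl {p r s : ι} (hr : r ≠ p) (hs : s ≠ p) (t : R) :
    x I r s t ∈ HS I {p}ᶜ := x_mem_HS (S := {p}ᶜ) hr hs t

/-- induction principle for `Mid` -/
theorem mid_induction {p : ι} {P : St ι I → Prop} (h1 : P 1)
    (hmul : ∀ g g', P g → P g' → P (g * g'))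
    (hh : ∀ q a b, Ok I p q a → Ok I q p b → P (h I p q a b) ∧ P (h I p q a b)⁻¹)
    (hx : ∀ r s t, r ≠ p → s ≠ p → P (x I r s t)) {g : St ι I} (hg : g ∈ Mid I p) : P g := by
  induction hg using Subgroup.closure_induction'' with
  | mem g hg =>
    rcases hg with ⟨q, a, b, ha, hb, rfl⟩ | ⟨r, s, t, hr, hs, rfl⟩
    · exact (hh q a b ha hb).1
    · exact hx r s t hr hs
  | inv_mem g hg =>
    rcases hg with ⟨q, a, b, ha, hb, rfl⟩ | ⟨r, s, t, hr, hs, rfl⟩
    · exact (hh q a b ha hb).2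
    · rw [x_inv]; exact hx r s t hr hs
  | one => exact h1
  | mul g g' _ _ ih ih' => exact hmul g g' ih ih'

theorem mid_phi (hI : Rad I) {p : ι} {g : St ι I} (hg : g ∈ Mid I p) {r : ι} (hr : r ≠ p) :
    phi I g p r = 0 ∧ phi I g r p = 0 := by
  revert r
  refine mid_induction (P := fun g => ∀ {r : ι}, r ≠ p → phi I g p r = 0 ∧ phi I g r p = 0)
    (fun hr => ?_) (fun g g' ih ih' r hr => ?_) (fun q a b ha hb => ⟨fun hr => ?_, fun hr => ?_⟩)
    (fun r s t hr hs u hu => ?_) hg
  · rw [map_one]; exact ⟨one_apply_ne hr.symm, one_apply_ne hr⟩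
  · rw [map_mul, mul_apply, mul_apply]
    refine ⟨Finset.sum_eq_zero fun t _ => ?_, Finset.sum_eq_zero fun t _ => ?_⟩
    · by_cases ht : t = p
      · rw [ht, (ih' hr).1, mul_zero]
      · rw [(ih ht).1, zero_mul]
    · by_cases ht : t = p
      · rw [ht, (ih hr).2, zero_mul]
      · rw [(ih' ht).2, mul_zero]
  · rw [phi_h hI ha hb]; exact ⟨diagonal_apply_ne _ hr.symm, diagonal_apply_ne _ hr⟩
  · rw [phi_inv_diag (phi_h hI ha hb)]
    exact ⟨diagonal_apply_ne _ hr.symm, diagonal_apply_ne _ hr⟩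
  · have hm := x_mem_HS_compl (I := I) hr hs t
    rw [HS_supp hm (by simp), HS_supp hm (by simp)]
    exact ⟨one_apply_ne hu.symm, one_apply_ne hu⟩

theorem h_inv_conj (hI : Rad I) (h3 : 3 ≤ Fintype.card ι) {i j : ι} {a b : R} (ha : Ok I i j a)
    (hb : Ok I j i b) (g : St ι I) :
    (h I i j a b)⁻¹ * g * h I i j a b = tau I (hd i j a b)⁻¹ g := by
  have := h_conj hI h3 ha hb (tau I (hd i j a b)⁻¹ g)
  rw [← tau_mul, mul_inv_cancel, tau_one] at this
  generalize tau I (hd i j a b)⁻¹ g = y at this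
  rw [← this]; group

theorem tau_rowE' (d : ι → Rˣ) {p : ι} {b : ι → R} (hb : RowOk I p b) :
    ∃ b', RowOk I p b' ∧ tau I d (rowE I p b) = rowE I p b' :=
  ⟨_, fun s hs => ((hb s hs).mul_left _).mul_right _, tau_rowE d p b⟩

theorem tau_colE' (d : ι → Rˣ) {p : ι} {c : ι → R} (hc : ColOk I p c) :
    ∃ c', ColOk I p c' ∧ tau I d (colE I p c) = colE I p c' :=
  ⟨_, fun s hs => ((hc s hs).mul_left _).mul_right _, tau_colE d p c⟩

theorem mid_row (hI : Rad I) (h3 : 3 ≤ Fintype.card ι) {p : ι} {g : St ι I} (hg : g ∈ Mid I p)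
    {b : ι → R} (hb : RowOk I p b) : ∃ b', RowOk I p b' ∧ rowE I p b * g = g * rowE I p b' := by
  revert b
  refine mid_induction (P := fun g => ∀ {b : ι → R}, RowOk I p b →
      ∃ b', RowOk I p b' ∧ rowE I p b * g = g * rowE I p b')
    (fun hb => ⟨_, hb, by simp⟩) (fun g g' ih ih' b hb => ?_)
    (fun q a c ha hc => ⟨fun {b} hb => ?_, fun {b} hb => ?_⟩) (fun r s t hr hs b hb => ?_) hg
  · obtain ⟨b1, h1, e1⟩ := ih hb
    obtain ⟨b2, h2, e2⟩ := ih' h1
    exact ⟨b2, h2, by rw [← mul_assoc, e1, mul_assoc, e2, mul_assoc]⟩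
  · have e := h_inv_conj hI h3 ha hc (rowE I p b)
    obtain ⟨b', hb', e'⟩ := tau_rowE' (hd p q a c)⁻¹ hb
    exact ⟨b', hb', by rw [← e', ← e]; group⟩
  · have e := h_conj hI h3 ha hc (rowE I p b)
    obtain ⟨b', hb', e'⟩ := tau_rowE' (hd p q a c) hb
    exact ⟨b', hb', by rw [← e', ← e]; group⟩
  · have hm := x_mem_HS_compl (I := I) hr hs t
    refine ⟨_, rowOk_vecMul hm hb, ?_⟩
    rw [← conj_rowE hm hb]; group

theorem mid_col (hI : Rad I) (h3 : 3 ≤ Fintype.card ι) {p : ι} {g : St ι I} (hg : g ∈ Mid I p)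
    {c : ι → R} (hc : ColOk I p c) : ∃ c', ColOk I p c' ∧ g * colE I p c = colE I p c' * g := by
  revert c
  refine mid_induction (P := fun g => ∀ {c : ι → R}, ColOk I p c →
      ∃ c', ColOk I p c' ∧ g * colE I p c = colE I p c' * g)
    (fun hb => ⟨_, hb, by simp⟩) (fun g g' ih ih' b hb => ?_)
    (fun q a c ha hc => ⟨fun {b} hb => ?_, fun {b} hb => ?_⟩) (fun r s t hr hs b hb => ?_) hg
  · obtain ⟨b1, h1, e1⟩ := ih' hb
    obtain ⟨b2, h2, e2⟩ := ih h1
    exact ⟨b2, h2, by rw [mul_assoc, e1, ← mul_assoc, e2, mul_assoc]⟩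
  · have e := h_conj hI h3 ha hc (colE I p b)
    obtain ⟨b', hb', e'⟩ := tau_colE' (hd p q a c) hb
    exact ⟨b', hb', by rw [← e', ← e]; group⟩
  · have e := h_inv_conj hI h3 ha hc (colE I p b)
    obtain ⟨b', hb', e'⟩ := tau_colE' (hd p q a c)⁻¹ hb
    exact ⟨b', hb', by rw [← e', ← e]; group⟩
  · have hm := x_mem_HS_compl (I := I) hr hs t
    refine ⟨_, colOk_mulVec hm hb, ?_⟩
    rw [← conj_colE hm hb]; group

theorem phi_pp_unit (hI : Rad I) (g : St ι I) (p : ι) : IsUnit (phi I g p p) := by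
  simpa using hI _ (phi_diag g p)

theorem phi_colE_mul {p : ι} {c : ι → R} (hc : ColOk I p c) (g : St ι I) (r s : ι) :
    phi I (colE I p c * g) r s = phi I g r s + if r = p then 0 else c r * phi I g p s := by
  rw [map_mul, phi_colE hc, add_mul, one_mul, Matrix.add_apply, mul_apply,
    Finset.sum_eq_single p]
  · by_cases hr : r = p <;> simp [hr]
  · intro t _ ht; simp [ht]
  · simp

theorem phi_mul_rowE {p : ι} {b : ι → R} (hb : RowOk I p b) (g : St ι I) (r s : ι) :
    phi I (g * rowE I p b) r s = phi I g r s + if s = p then 0 else phi I g r p * b s := by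
  rw [map_mul, phi_rowE hb, mul_add, mul_one, Matrix.add_apply, mul_apply,
    Finset.sum_eq_single p]
  · by_cases hs : s = p <;> simp [hs]
  · intro t _ ht; simp [ht]
  · simp

theorem mid_unique (hI : Rad I) {p : ι} {M M' : St ι I} (hM : M ∈ Mid I p) (hM' : M' ∈ Mid I p)
    {c c' b b' : ι → R} (hc : ColOk I p c) (hc' : ColOk I p c') (hb : RowOk I p b)
    (hb' : RowOk I p b') (h : colE I p c * M * rowE I p b = colE I p c' * M' * rowE I p b') :
    (∀ r, r ≠ p → c r = c' r) ∧ M = M' ∧ ∀ s, s ≠ p → b s = b' s := by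
  obtain ⟨h1, h2⟩ := row_cancel hI hb hb'
    (fun s hs => by rw [phi_colE_mul hc, (mid_phi hI hM hs).1]; simp)
    (fun s hs => by rw [phi_colE_mul hc', (mid_phi hI hM' hs).1]; simp) h
  have h0 : phi I M p p = phi I M' p p := by
    have := congrArg (fun g => phi I g p p) h1
    simpa [phi_colE_mul hc, phi_colE_mul hc', -map_mul] using this
  have h3 : ∀ r, r ≠ p → c r = c' r := by
    intro r hr
    have := congrArg (fun g => phi I g r p) h1
    simp only [phi_colE_mul hc, phi_colE_mul hc', (mid_phi hI hM hr).2, (mid_phi hI hM' hr).2,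
      if_neg hr, zero_add, ← h0] at this
    exact (phi_pp_unit hI M p).mul_right_cancel this
  rw [colE_congr h3] at h1
  exact ⟨h3, mul_left_cancel h1, h2⟩

theorem normal_form (hI : Rad I) (h3 : 3 ≤ Fintype.card ι) (p : ι) (g : St ι I) :
    ∃ c M b, ColOk I p c ∧ M ∈ Mid I p ∧ RowOk I p b ∧ g = colE I p c * M * rowE I p b := by
  induction g using induction_left with
  | h1 =>
    exact ⟨0, 1, 0, fun r hr => Ok.zero hr, one_mem _, fun s hs => Ok.zero hs.symm,
      by rw [colE_zero, rowE_zero]; simp⟩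
  | hx i j t g ht ih =>
    obtain ⟨c, M, b, hc, hM, hb, rfl⟩ := ih
    by_cases hi : i = p
    · subst hi
      have hα : Ok I i j (iv (t * c j) * t) := ht.mul_left _
      obtain ⟨b', hb', e⟩ := mid_row hI h3 hM (rowOk_single hα)
      rw [rowE_single] at e
      have hm : colE I j (Function.update (fun r => c r * iv (t * c j) * t) i 0) ∈ HS I {i}ᶜ :=
        colE_mem_U (Rl := fun a b => a ∈ ({i}ᶜ : Set ι) ∧ b ∈ ({i}ᶜ : Set ι)) fun r _ hr =>
          ⟨fun h => hr (by rw [Set.mem_singleton_iff.1 h]; simp), ht.ne.symm⟩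
      refine ⟨fun r => c r * iv (t * c j), h I i j t (c j) *
        colE I j (Function.update (fun r => c r * iv (t * c j) * t) i 0) * M, b' + b,
        fun r hr => (hc r hr).mul_right _,
        mul_mem (mul_mem (h_mem_Mid ht (hc j ht.ne.symm)) (HS_le_Mid i hm)) hM,
        fun s hs => (hb' s hs).add (hb s hs), ?_⟩
      rw [← rowE_add hb' hb, ← mul_assoc, ← mul_assoc, bruhat hI ht hc, mul_assoc _ _ M, e]
      simp only [mul_assoc]
    · by_cases hj : j = p
      · subst hj
        refine ⟨Pi.single i t + c, M, b, fun r hr => (colOk_single ht r hr).add (hc r hr), hM, hb, ?_⟩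
        rw [← colE_add (colOk_single ht) hc, colE_single]
        simp only [mul_assoc]
      · have hm := x_mem_HS_compl (I := I) hi hj t
        refine ⟨_, x I i j t * M, b, colOk_mulVec hm hc, mul_mem (HS_le_Mid p hm) hM, hb, ?_⟩
        rw [← conj_colE hm hc]; group

theorem mem_Mid_of_phi (hI : Rad I) (h3 : 3 ≤ Fintype.card ι) {p : ι} {g : St ι I}
    (hg : ∀ r, r ≠ p → phi I g p r = 0 ∧ phi I g r p = 0) : g ∈ Mid I p := by
  obtain ⟨c, M, b, hc, hM, hb, rfl⟩ := normal_form hI h3 p g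
  have hu := phi_pp_unit hI M p
  have h1 : ∀ r, r ≠ p → c r = (0 : ι → R) r := by
    intro r hr
    have := (hg r hr).2
    rw [phi_mul_rowE hb, if_pos rfl, add_zero, phi_colE_mul hc, (mid_phi hI hM hr).2, if_neg hr,
      zero_add] at this
    exact hu.mul_right_cancel (by rw [this]; simp)
  have h2 : ∀ r, r ≠ p → b r = (0 : ι → R) r := by
    intro r hr
    have := (hg r hr).1
    rw [phi_mul_rowE hb, if_neg hr, phi_colE_mul hc, phi_colE_mul hc, (mid_phi hI hM hr).1,
      if_pos rfl, if_pos rfl, add_zero, add_zero, zero_add] at this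
    exact hu.mul_left_cancel (by rw [this]; simp)
  rw [colE_congr h1, rowE_congr h2, colE_zero, rowE_zero, one_mul, mul_one]
  exact hM

theorem central (hI : Rad I) (h3 : 3 ≤ Fintype.card ι) {g : St ι I} (hg : phi I g = 1) :
    g ∈ Subgroup.center (St ι I) := by
  rw [Subgroup.mem_center_iff]
  intro y
  induction y using induction_left with
  | h1 => simp
  | hx i j t y ht ih =>
    have hM : g ∈ Mid I i := mem_Mid_of_phi hI h3 fun r hr => by
      rw [hg]; exact ⟨one_apply_ne hr.symm, one_apply_ne hr⟩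
    obtain ⟨b', hb', e⟩ := mid_row hI h3 hM (rowOk_single ht)
    have h1 : ∀ s, s ≠ i → b' s = (Pi.single j t : ι → R) s := by
      intro s hs
      have := congrArg (fun g => phi I g i s) e
      simp only [map_mul, hg, mul_one, one_mul, phi_rowE hb', phi_rowE (rowOk_single ht),
        Matrix.add_apply, of_apply, true_and, ne_eq, hs, not_false_eq_true, if_true,
        add_right_inj] at this
      exact this.symm
    rw [rowE_congr h1, rowE_single] at e
    rw [mul_assoc, ih, ← mul_assoc, e, mul_assoc]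

theorem one_add_pow_two_pow {A : Type} [Ring A] [Two A] (n : A) (s : ℕ) :
    (1 + n) ^ 2 ^ s = 1 + n ^ 2 ^ s := by
  induction s with
  | zero => simp
  | succ s ih =>
    rw [pow_succ, pow_mul, pow_mul, ih, sq, sq, add_mul, mul_add, mul_add, one_mul, one_mul,
      mul_one, add_assoc, ← add_assoc (n ^ 2 ^ s), add_self2, zero_add]

theorem phi_pow (hI : MNil I) (g : St ι I) : ∃ s : ℕ, phi I (g ^ 2 ^ s) = 1 := by
  set n := phi I g - 1 with hn
  let e : Fin (Fintype.card ι) ≃o ι := monoEquivOfFin ι rfl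
  have key : ∀ (k : ℕ) (i j : ι), ¬ ((e.symm i : ℕ) + k ≤ e.symm j) → (n ^ k) i j ∈ I := by
    intro k
    induction k with
    | zero =>
      intro i j hij
      rw [pow_zero, one_apply_ne (by rintro rfl; exact hij le_rfl)]
      exact I.zero_mem
    | succ k ih =>
      intro i j hij
      rw [pow_succ, mul_apply]
      refine I.sum_mem fun t _ => ?_
      by_cases h1 : (e.symm i : ℕ) + k ≤ e.symm t
      · refine I.mul_mem_left _ (phi_low g t j fun h2 => hij ?_)
        have h3 : (e.symm t : ℕ) < e.symm j := e.symm.strictMono h2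
        omega
      · exact I.mul_mem_right _ (ih i t h1)
  have h1 : IsNilpotent (n ^ Fintype.card ι) := by
    have h2 := hI _ (reindexRingEquiv R e.symm.toEquiv (n ^ Fintype.card ι)) fun i j =>
      key _ _ _ (by have := (e.symm (e.symm.toEquiv.symm j)).2; omega)
    have h3 := h2.map (reindexRingEquiv R e.symm.toEquiv).symm
    rwa [RingEquiv.symm_apply_apply] at h3
  obtain ⟨N, hN⟩ := h1.of_pow
  refine ⟨N, ?_⟩
  have h2 : phi I g = 1 + n := by rw [hn]; abel
  rw [map_pow, h2, one_add_pow_two_pow, pow_eq_zero_of_le (Nat.lt_two_pow_self).le hN, add_zero]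

/-- Schur: a group whose centre has finite index has finitely many commutators -/
theorem finite_commutatorSet {G : Type} [Group G] [Finite (G ⧸ Subgroup.center G)] :
    Finite (commutatorSet G) := by
  have h : commutatorSet G ⊆ Set.range fun p : (G ⧸ Subgroup.center G) × (G ⧸ Subgroup.center G) =>
      p.1.out * p.2.out * p.1.out⁻¹ * p.2.out⁻¹ := by
    rintro _ ⟨a, b, rfl⟩
    obtain ⟨⟨z, hz0⟩, hz⟩ := QuotientGroup.mk_out_eq_mul (Subgroup.center G) a
    obtain ⟨⟨w, hw0⟩, hw⟩ := QuotientGroup.mk_out_eq_mul (Subgroup.center G) b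
    refine ⟨((a : G ⧸ Subgroup.center G), (b : G ⧸ Subgroup.center G)), ?_⟩
    have hz' := Subgroup.mem_center_iff.1 hz0
    have hw' := Subgroup.mem_center_iff.1 hw0
    simp only [hz, hw, commutatorElement_def]
    calc a * z * (b * w) * (a * z)⁻¹ * (b * w)⁻¹
        = a * (z * (b * w)) * (z⁻¹ * a⁻¹) * (w⁻¹ * b⁻¹) := by group
      _ = a * ((b * w) * z) * (z⁻¹ * a⁻¹) * (w⁻¹ * b⁻¹) := by rw [hz' (b * w)]
      _ = a * b * (w * a⁻¹) * (w⁻¹ * b⁻¹) := by group
      _ = a * b * (a⁻¹ * w) * (w⁻¹ * b⁻¹) := by rw [hw' a⁻¹]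
      _ = a * b * a⁻¹ * b⁻¹ := by group
  exact ((Set.finite_range _).subset h).to_subtype

theorem finite_two [Finite R] (hI : MNil I) (h3 : 3 ≤ Fintype.card ι) :
    Finite (St ι I) ∧ IsPGroup 2 (St ι I) := by
  have hfg : Group.FG (St ι I) := by
    refine ⟨(Subgroup.fg_iff _).2 ⟨_, closure_x, ?_⟩⟩
    refine (Set.finite_range fun t : ι × ι × R => x I t.1 t.2.1 t.2.2).subset ?_
    rintro _ ⟨i, j, r, -, rfl⟩
    exact ⟨(i, j, r), rfl⟩
  have hker : (phi (ι := ι) I).toHomUnits.ker ≤ Subgroup.center (St ι I) := fun g hg =>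
    central hI.rad h3 (by simpa using congrArg Units.val (MonoidHom.mem_ker.1 hg))
  have hfi : (Subgroup.center (St ι I)).FiniteIndex := Subgroup.finiteIndex_of_le hker
  have hp1 : IsPGroup 2 (St ι I ⧸ Subgroup.center (St ι I)) := by
    intro y
    obtain ⟨g, rfl⟩ := QuotientGroup.mk_surjective y
    obtain ⟨s, hs⟩ := phi_pow hI g
    exact ⟨s, by rw [← QuotientGroup.mk_pow, QuotientGroup.eq_one_iff]; exact central hI.rad h3 hs⟩
  have hcs : Finite (commutatorSet (St ι I)) := finite_commutatorSet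
  have : Fact (Nat.Prime 2) := ⟨Nat.prime_two⟩
  obtain ⟨k, hk⟩ := IsPGroup.iff_card.1 hp1
  have hp2 : IsPGroup 2 (_root_.commutator (St ι I)) := by
    have := Subgroup.card_commutator_dvd_index_center_pow (St ι I)
    rw [show (Subgroup.center (St ι I)).index = 2 ^ k from hk, ← pow_mul] at this
    exact IsPGroup.of_card_dvd_pow this
  have hsq : ∀ g : St ι I, Abelianization.of g ^ 2 = 1 := by
    intro g
    induction g using induction_left with
    | h1 => simp
    | hx i j r g _ ih => rw [map_mul, mul_pow, ih, mul_one, sq, ← map_mul, x_mul_self, map_one]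
  have hsurj : Function.Surjective (Abelianization.of : St ι I → Abelianization (St ι I)) :=
    QuotientGroup.mk_surjective
  have hfa : Finite (Abelianization (St ι I)) := by
    have := Group.fg_of_surjective hsurj
    refine CommGroup.finite_of_fg_isMulTorsion _ fun y => ?_
    obtain ⟨g, rfl⟩ := hsurj y
    exact isOfFinOrder_iff_pow_eq_one.2 ⟨2, two_pos, hsq g⟩
  have hfq : Finite (St ι I ⧸ _root_.commutator (St ι I)) := hfa
  refine ⟨Finite.of_subgroup_quotient (_root_.commutator (St ι I)), fun g => ?_⟩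
  have h1 : g ^ 2 ∈ _root_.commutator (St ι I) := by
    rw [← Abelianization.ker_of, MonoidHom.mem_ker, map_pow, hsq]
  obtain ⟨s, hs⟩ := hp2 ⟨_, h1⟩
  refine ⟨s + 1, ?_⟩
  rw [pow_succ', pow_mul]
  exact congrArg Subtype.val hs

theorem x_mem_NL {L : Ideal R} (i j : ι) {r : R} (hr : r ∈ L) : x I i j r ∈ NL I L :=
  Subgroup.subset_normalClosure ⟨i, j, r, hr, rfl⟩

theorem x_mem_EL {L : Ideal R} (i j : ι) {r : R} (hr : r ∈ L) : x I i j r ∈ EL I L :=
  Subgroup.subset_closure ⟨i, j, r, hr, rfl⟩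

theorem finite_quot (hI : MNil I) (h3 : 3 ≤ Fintype.card ι) (L : Ideal R) [L.IsTwoSided]
    (hL : L ≤ I) [Finite (R ⧸ L)] :
    Finite (St ι I ⧸ NL I L) ∧ IsPGroup 2 (St ι I ⧸ NL I L) := by
  let π := Ideal.Quotient.mk L
  have hπ : Function.Surjective π := Ideal.Quotient.mk_surjective
  let J : Ideal (R ⧸ L) := I.map π
  have hJ : ∀ r, π r ∈ J ↔ r ∈ I := fun r => by
    refine ⟨fun h => ?_, Ideal.mem_map_of_mem π⟩
    obtain ⟨r0, h0, h1⟩ := (Ideal.mem_map_iff_of_surjective π hπ).1 h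
    have := I.sub_mem h0 (hL (Ideal.Quotient.eq.1 h1))
    rwa [sub_sub_cancel] at this
  have hJ2 : J.IsTwoSided := ⟨fun {a} b ha => by
    obtain ⟨a, rfl⟩ := hπ a
    obtain ⟨b, rfl⟩ := hπ b
    rw [← map_mul, hJ]
    exact I.mul_mem_right _ ((hJ a).1 ha)⟩
  have hok : ∀ (i j : ι) (r : R), Ok J i j (π r) ↔ Ok I i j r := fun i j r => by
    simp only [Ok, hJ]
  have hJn : MNil J := by
    intro l A hA
    choose B hB using fun i j => hπ (A i j)
    have h1 : A = π.mapMatrix (Matrix.of B) := by ext i j; simp [hB]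
    rw [h1]
    exact (hI l (Matrix.of B) fun i j => (hJ _).1 (by rw [of_apply, hB]; exact hA i j)).map _
  let ρ : R ⧸ L → R := Function.surjInv hπ
  have hρ : ∀ y, π (ρ y) = y := Function.surjInv_eq hπ
  have hx : ∀ (i j : ι) (r : R), Ok I i j r →
      (x I i j (ρ (π r)) : St ι I ⧸ NL I L) = x I i j r := by
    intro i j r hr
    have h1 : ρ (π r) - r ∈ L := Ideal.Quotient.eq.1 (hρ _)
    have h2 : ρ (π r) = r + (ρ (π r) - r) := by abel
    rw [h2, ← x_add hr (Ok.of_mem hr.ne (hL h1)), QuotientGroup.mk_mul,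
      (QuotientGroup.eq_one_iff _).2 (x_mem_NL i j h1), mul_one]
  let F : St ι J →* St ι I ⧸ NL I L := lift (fun i j y => (x I i j (ρ y) : St ι I ⧸ NL I L))
    (fun i j r s hr hs => by
      obtain ⟨r, rfl⟩ := hπ r
      obtain ⟨s, rfl⟩ := hπ s
      rw [hok] at hr hs
      rw [← map_add, hx _ _ _ hr, hx _ _ _ hs, hx _ _ _ (hr.add hs), ← QuotientGroup.mk_mul,
        x_add hr hs])
    (fun i j k r s hr hs hik => by
      obtain ⟨r, rfl⟩ := hπ r
      obtain ⟨s, rfl⟩ := hπ s
      rw [hok] at hr hs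
      rw [← map_mul, hx _ _ _ hr, hx _ _ _ hs, hx _ _ _ (hr.mul hs hik), ← QuotientGroup.mk_mul,
        x_mul' hr hs hik, QuotientGroup.mk_mul, QuotientGroup.mk_mul])
    (fun i j k l r s _ _ hjk hil => (x_comm _ _ hjk hil).map (QuotientGroup.mk' (NL I L)))
  have hF : Function.Surjective F := by
    intro y
    obtain ⟨g, rfl⟩ := QuotientGroup.mk_surjective y
    induction g using induction_left with
    | h1 => exact ⟨1, by simp⟩
    | hx i j r g hr ih =>
      obtain ⟨g', hg'⟩ := ih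
      refine ⟨x J i j (π r) * g', ?_⟩
      rw [map_mul, hg', QuotientGroup.mk_mul, ← hx i j r hr]
      congr 1
      exact lift_x _ _ _ _ ((hok i j r).2 hr)
  obtain ⟨h1, h2⟩ := finite_two (ι := ι) hJn h3
  exact ⟨Finite.of_surjective F hF, h2.of_surjective F hF⟩

theorem phi_NL (L : Ideal R) [L.IsTwoSided] {g : St ι I} (hg : g ∈ NL I L) (i j : ι) :
    (phi I g - 1) i j ∈ L := by
  let F : St ι I →* Matrix ι ι (R ⧸ L) :=
    ((Ideal.Quotient.mk L).mapMatrix : Matrix ι ι R →+* _).toMonoidHom.comp (phi I)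
  have h1 : NL I L ≤ F.ker := by
    refine Subgroup.normalClosure_le_normal ?_
    rintro _ ⟨a, b, r, hr, rfl⟩
    by_cases h : Ok I a b r
    · have h0 : Ideal.Quotient.mk L r = 0 := Ideal.Quotient.eq_zero_iff_mem.2 hr
      change (Ideal.Quotient.mk L).mapMatrix (phi I (x I a b r)) = 1
      rw [phi_x h, map_add, map_one, RingHom.mapMatrix_apply, Matrix.map_single, h0, single_zero,
        add_zero]
    · rw [x_of_not h]; exact one_mem _
  have h2 : (Ideal.Quotient.mk L).mapMatrix (phi I g - 1) = 0 := by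
    rw [map_sub, map_one, sub_eq_zero]
    exact h1 hg
  rw [← Ideal.Quotient.eq_zero_iff_mem]
  exact congrFun (congrFun h2 i) j

theorem exists_third (h3 : 3 ≤ Fintype.card ι) (i j : ι) : ∃ m, m ≠ i ∧ m ≠ j := by
  by_contra hcon
  have h1 : (Finset.univ : Finset ι) ⊆ {i, j} := fun m _ => by
    by_contra hm
    simp only [Finset.mem_insert, Finset.mem_singleton, not_or] at hm
    exact hcon ⟨m, hm⟩
  have h2 := (Finset.card_le_card h1).trans Finset.card_le_two
  rw [Finset.card_univ] at h2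
  omega

theorem h_mem_EL {L : Ideal R} [L.IsTwoSided] (i j : ι) {a b : R} (ha : a ∈ L) (hb : b ∈ L) :
    h I i j a b ∈ EL I L :=
  mul_mem (mul_mem (mul_mem (x_mem_EL _ _ (L.mul_mem_right _ hb)) (x_mem_EL _ _ ha))
    (x_mem_EL _ _ hb)) (x_mem_EL _ _ (L.mul_mem_left _ ha))

theorem unit_inv_sub_one {L : Ideal R} {u : Rˣ} (hu : (u : R) - 1 ∈ L) :
    ((u⁻¹ : Rˣ) : R) - 1 ∈ L := by
  have := L.neg_mem (L.mul_mem_left ((u⁻¹ : Rˣ) : R) hu)
  rwa [mul_sub, Units.inv_mul, mul_one, neg_sub] at this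

theorem hd_sub_one (hI : Rad I) {L : Ideal R} [L.IsTwoSided] (hL : L ≤ I) {i j : ι} (hij : i ≠ j)
    (a : R) {b : R} (hb : b ∈ L) (k : ι) : (hd i j a b k : R) - 1 ∈ L := by
  by_cases hi : k = i
  · rw [hi, hd_left hij, un_val hI (hL (L.mul_mem_left a hb)), add_sub_cancel_left]
    exact L.mul_mem_left a hb
  · by_cases hj : k = j
    · rw [hj, hd_right hij]
      refine unit_inv_sub_one ?_
      rw [un_val hI (hL (L.mul_mem_right a hb)), add_sub_cancel_left]
      exact L.mul_mem_right a hb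
    · rw [hd_other hi hj, Units.val_one, sub_self]; exact L.zero_mem

theorem NL_le_EL (hI : Rad I) (h3 : 3 ≤ Fintype.card ι) (L L₂ : Ideal R) [L.IsTwoSided]
    [L₂.IsTwoSided] (hL : L ≤ I) (h2 : L₂ ≤ L)
    (hp : ∀ r ∈ L₂, r ∈ AddSubgroup.closure {r | ∃ b ∈ L, ∃ c ∈ L, r = b * c}) :
    NL (ι := ι) I L₂ ≤ EL I L := by
  have hL2 : L₂ ≤ I := h2.trans hL
  let N : Subgroup (St ι I) := Subgroup.closure ({g | ∃ i j ρ, ρ ∈ L₂ ∧ g = x I i j ρ} ∪
    {g | ∃ i j a ρ, Ok I i j a ∧ ρ ∈ L₂ ∧ g = h I i j a ρ})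
  have mx : ∀ i j ρ, ρ ∈ L₂ → x I i j ρ ∈ N := fun i j ρ hρ =>
    Subgroup.subset_closure (Or.inl ⟨i, j, ρ, hρ, rfl⟩)
  have mh : ∀ i j a ρ, Ok I i j a → ρ ∈ L₂ → h I i j a ρ ∈ N := fun i j a ρ ha hρ =>
    Subgroup.subset_closure (Or.inr ⟨i, j, a, ρ, ha, hρ, rfl⟩)
  have step : ∀ k l t, Ok I k l t → N ≤ N.comap (MulAut.conj (x I k l t)).toMonoidHom := by
    intro k l t ht
    refine (Subgroup.closure_le _).2 ?_
    rintro _ (⟨i, j, ρ, hρ, rfl⟩ | ⟨i, j, a, ρ, ha, hρ, rfl⟩)
    · change x I k l t * x I i j ρ * (x I k l t)⁻¹ ∈ N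
      by_cases hij : i = j
      · rw [hij, x_self]; simp
      have ho : Ok I i j ρ := Ok.of_mem hij (hL2 hρ)
      by_cases hli : l = i
      · subst hli
        by_cases hkj : k = j
        · subst hkj
          have hm : t * ρ ∈ I := ht.mul_mem ho
          rw [x_mul_x_opp, x_inv, mul_assoc, x_add (ht.mul_left _) ht]
          refine mul_mem (mul_mem (mx _ _ _ (L₂.mul_mem_right _ hρ)) (mh _ _ _ _ ht hρ))
            (mx _ _ _ ?_)
          rw [iv_eq hI hm, sub_mul, one_mul, sub_eq2, add_comm t, add_assoc, add_self2, add_zero]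
          exact L₂.mul_mem_right _ (L₂.mul_mem_left _ (L₂.mul_mem_left _ hρ))
        · rw [x_mul' ht ho hkj, mul_inv_cancel_right]
          exact mul_mem (mx _ _ _ (L₂.mul_mem_left _ hρ)) (mx _ _ _ hρ)
      · by_cases hkj : k = j
        · subst hkj
          rw [x_inv, mul_assoc, x_mul' ho ht (Ne.symm hli), ← mul_assoc, ← mul_assoc,
            (x_comm t (ρ * t) hli ht.ne).eq, mul_assoc _ _ (x I k l t), x_mul_self, mul_one]
          exact mul_mem (mx _ _ _ (L₂.mul_mem_right _ hρ)) (mx _ _ _ hρ)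
        · rw [(x_comm t ρ hli hkj).eq, mul_inv_cancel_right]
          exact mx _ _ _ hρ
    · change x I k l t * h I i j a ρ * (x I k l t)⁻¹ ∈ N
      have ho : Ok I j i ρ := Ok.of_mem ha.ne.symm (hL2 hρ)
      have e := h_conj hI h3 ha ho (x I k l t)
      rw [tau_x, mul_inv_eq_iff_eq_mul] at e
      rw [x_inv, mul_assoc, e, ← mul_assoc, x_add ht ((ht.mul_left _).mul_right _)]
      refine mul_mem (mx _ _ _ ?_) (mh _ _ _ _ ha hρ)
      have u1 := hd_sub_one hI hL2 ha.ne a hρ k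
      have u2 := unit_inv_sub_one (hd_sub_one hI hL2 ha.ne a hρ l)
      have := L₂.add_mem (L₂.mul_mem_right (t * ((hd i j a ρ l)⁻¹ : Rˣ)) u1) (L₂.mul_mem_left t u2)
      convert this using 1
      rw [← sub_eq2, ← neg_sub, neg_eq2]
      noncomm_ring
  have hN : N.Normal := by
    refine ⟨fun n hn g => ?_⟩
    induction g using induction_left with
    | h1 => simpa using hn
    | hx k l t g ht ih =>
      have : x I k l t * (g * n * g⁻¹) * (x I k l t)⁻¹ ∈ N := step k l t ht ih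
      convert this using 1
      group
  refine (Subgroup.normalClosure_le_normal (N := N) ?_).trans ((Subgroup.closure_le _).2 ?_)
  · rintro _ ⟨i, j, ρ, hρ, rfl⟩
    exact mx i j ρ hρ
  rintro _ (⟨i, j, ρ, hρ, rfl⟩ | ⟨i, j, a, ρ, ha, hρ, rfl⟩)
  · exact x_mem_EL i j (h2 hρ)
  have hij := ha.ne
  obtain ⟨k, hki, hkj⟩ := exists_third h3 i j
  have key : ∀ ρ ∈ AddSubgroup.closure {r | ∃ b ∈ L, ∃ c ∈ L, r = b * c},
      ρ ∈ I ∧ ∀ a, Ok I i j a → h I i j a ρ ∈ EL I L := by
    intro ρ hρ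
    induction hρ using AddSubgroup.closure_induction with
    | mem ρ hρ =>
      obtain ⟨b, hb, c, hc, rfl⟩ := hρ
      refine ⟨I.mul_mem_left _ (hL hc), fun a ha => ?_⟩
      rw [h_triple hI ha (Ok.of_mem hkj.symm (hL hb)) (Ok.of_mem hki (hL hc))]
      exact mul_mem (h_mem_EL _ _ (L.mul_mem_left _ hb) hc) (h_mem_EL _ _ (L.mul_mem_right _ hc) hb)
    | zero => exact ⟨I.zero_mem, fun a _ => by rw [h_zero_right]; exact one_mem _⟩
    | add ρ ρ' _ _ ih ih' =>
      refine ⟨I.add_mem ih.1 ih'.1, fun a ha => ?_⟩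
      rw [h_add_right hI h3 ha (Ok.of_mem hij.symm ih.1) (Ok.of_mem hij.symm ih'.1)]
      exact mul_mem (ih.2 a ha) (ih'.2 _ (ha.mul_left _))
    | neg ρ _ ih => rwa [neg_eq2]
  exact (key ρ (hp ρ hρ)).2 a ha

/-- elements of `EL L` are products of a list of generators -/
theorem exists_list_of_mem_EL {L : Ideal R} {g : St ι I} (hg : g ∈ EL I L) :
    ∃ y : List (ι × ι × R), (∀ t ∈ y, t.1 ≠ t.2.1 ∧ t.2.2 ∈ L) ∧
      g = (y.map fun t => x I t.1 t.2.1 t.2.2).prod := by
  refine closure_induction_x (P := fun g => ∃ y : List (ι × ι × R),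
      (∀ t ∈ y, t.1 ≠ t.2.1 ∧ t.2.2 ∈ L) ∧ g = (y.map fun t => x I t.1 t.2.1 t.2.2).prod)
    (by rintro _ ⟨i, j, r, -, rfl⟩; exact ⟨i, j, r, rfl⟩) ⟨[], by simp, by simp⟩ ?_ hg
  rintro _ ⟨i, j, r, hr, rfl⟩ g ⟨y, hy, rfl⟩
  by_cases hij : i = j
  · exact ⟨y, hy, by rw [hij, x_self, one_mul]⟩
  · refine ⟨(i, j, r) :: y, ?_, by simp⟩
    intro t ht
    rcases List.mem_cons.1 ht with rfl | ht
    · exact ⟨hij, hr⟩
    · exact hy t ht

end Crest.Agent.R176
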