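import Mathlib

/-!
# Row 176, part B: the Iwahori Steinberg group `St ι I` in characteristic 2

`ι` is a linearly ordered index set, `I` a two-sided ideal of `R`.  Generators `x i j r` for
`i ≠ j`, with `r ∈ R` arbitrary if `i < j` and `r ∈ I` if `i > j` (`Ok I i j r`); Steinberg
relations.  This file is complete (no sorry): definitions and the basic API.
-/

set_option autoImplicit false
set_option linter.unusedSectionVars false

open Matrix
open scoped commutatorElement

namespace Crest.Agent.R176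

/-- characteristic two (also true for the zero ring) -/
class Two (R : Type) [Add R] [Zero R] : Prop where
  h : ∀ a : R, a + a = 0

theorem add_self2 {R : Type} [Add R] [Zero R] [Two R] (a : R) : a + a = 0 := Two.h a

theorem neg_eq2 {R : Type} [AddGroup R] [Two R] (a : R) : -a = a :=
  neg_eq_of_add_eq_zero_left (add_self2 a)

theorem sub_eq2 {R : Type} [AddGroup R] [Two R] (a b : R) : a - b = a + b := by
  rw [sub_eq_add_neg, neg_eq2]

instance {R : Type} [Ring R] [Algebra (ZMod 2) R] : Two R :=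
  ⟨fun a => by
    have h : ((1 : ZMod 2) + 1) • a = 0 := by
      rw [show ((1 : ZMod 2) + 1) = 0 from rfl, zero_smul]
    rwa [add_smul, one_smul] at h⟩

instance {R : Type} [Ring R] [Two R] {α β : Type} : Two (Matrix α β R) :=
  ⟨fun a => by ext i j; exact add_self2 (a i j)⟩

instance {R : Type} [Ring R] [Two R] (L : Ideal R) [L.IsTwoSided] : Two (R ⧸ L) :=
  ⟨fun a => by
    obtain ⟨a, rfl⟩ := Ideal.Quotient.mk_surjective a
    rw [← map_add, add_self2, map_zero]⟩

section Basic

variable {ι : Type} [LinearOrder ι] {R : Type} [Ring R] (I : Ideal R)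

/-- `x i j r` is a generator -/
def Ok (i j : ι) (r : R) : Prop := i ≠ j ∧ (i < j ∨ r ∈ I)

variable {I}

theorem Ok.ne {i j : ι} {r : R} (h : Ok I i j r) : i ≠ j := h.1

theorem Ok.of_mem {i j : ι} {r : R} (h : i ≠ j) (hr : r ∈ I) : Ok I i j r := ⟨h, Or.inr hr⟩

theorem Ok.of_lt {i j : ι} (h : i < j) (r : R) : Ok I i j r := ⟨h.ne, Or.inl h⟩

theorem Ok.zero {i j : ι} (h : i ≠ j) : Ok I i j (0 : R) := ⟨h, Or.inr I.zero_mem⟩

theorem Ok.add {i j : ι} {r s : R} (hr : Ok I i j r) (hs : Ok I i j s) : Ok I i j (r + s) :=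
  ⟨hr.1, hr.2.elim Or.inl fun h => hs.2.elim Or.inl fun h' => Or.inr (I.add_mem h h')⟩

theorem Ok.mul_left {i j : ι} {r : R} (hr : Ok I i j r) (s : R) : Ok I i j (s * r) :=
  ⟨hr.1, hr.2.imp id fun h => I.mul_mem_left s h⟩

theorem Ok.mul_right [I.IsTwoSided] {i j : ι} {r : R} (hr : Ok I i j r) (s : R) :
    Ok I i j (r * s) :=
  ⟨hr.1, hr.2.imp id fun h => I.mul_mem_right s h⟩

theorem Ok.mul [I.IsTwoSided] {i j k : ι} {r s : R} (hr : Ok I i j r) (hs : Ok I j k s)
    (hik : i ≠ k) : Ok I i k (r * s) :=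
  ⟨hik, hr.2.elim (fun h => hs.2.elim (fun h' => Or.inl (h.trans h'))
    fun h' => Or.inr (I.mul_mem_left r h')) fun h => Or.inr (I.mul_mem_right s h)⟩

/-- opposite roots: the product lies in `I` -/
theorem Ok.mul_mem [I.IsTwoSided] {i j : ι} {r s : R} (hr : Ok I i j r) (hs : Ok I j i s) :
    r * s ∈ I :=
  hr.2.elim (fun h => hs.2.elim (fun h' => absurd h (not_lt.2 h'.le))
    fun h' => I.mul_mem_left r h') fun h => I.mul_mem_right s h

variable (ι I)

abbrev Gen : Type := {t : ι × ι × R // Ok I t.1 t.2.1 t.2.2}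

inductive Rel : FreeGroup (Gen ι I) → Prop
  | add (i j : ι) (r s : R) (hr : Ok I i j r) (hs : Ok I i j s) (h : Ok I i j (r + s)) :
      Rel (FreeGroup.of ⟨(i, j, r), hr⟩ * FreeGroup.of ⟨(i, j, s), hs⟩ *
        (FreeGroup.of ⟨(i, j, r + s), h⟩)⁻¹)
  | mul (i j k : ι) (r s : R) (hr : Ok I i j r) (hs : Ok I j k s) (h : Ok I i k (r * s)) :
      Rel (FreeGroup.of ⟨(i, j, r), hr⟩ * FreeGroup.of ⟨(j, k, s), hs⟩ *
        (FreeGroup.of ⟨(i, k, r * s), h⟩ * FreeGroup.of ⟨(j, k, s), hs⟩ *
          FreeGroup.of ⟨(i, j, r), hr⟩)⁻¹)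
  | comm (i j k l : ι) (r s : R) (hr : Ok I i j r) (hs : Ok I k l s) (hjk : j ≠ k) (hil : i ≠ l) :
      Rel (FreeGroup.of ⟨(i, j, r), hr⟩ * FreeGroup.of ⟨(k, l, s), hs⟩ *
        (FreeGroup.of ⟨(k, l, s), hs⟩ * FreeGroup.of ⟨(i, j, r), hr⟩)⁻¹)

/-- the Iwahori Steinberg group -/
def St : Type := PresentedGroup {w | Rel ι I w}

instance : Group (St ι I) := inferInstanceAs (Group (PresentedGroup _))

variable {ι}

/-- generator -/
def gen (t : Gen ι I) : St ι I := PresentedGroup.of (rels := {w | Rel ι I w}) t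

open Classical in
/-- the generators; `1` if `¬ Ok I i j r` -/
noncomputable def x (i j : ι) (r : R) : St ι I :=
  if h : Ok I i j r then gen I ⟨(i, j, r), h⟩ else 1

variable {I}

theorem x_of_not {i j : ι} {r : R} (h : ¬ Ok I i j r) : x I i j r = 1 := by simp [x, h]

theorem x_of_ok {i j : ι} {r : R} (h : Ok I i j r) : x I i j r = gen I ⟨(i, j, r), h⟩ := by
  simp [x, h]

theorem x_self (i : ι) (r : R) : x I i i r = 1 := x_of_not fun h => h.1 rfl

theorem x_add {i j : ι} {r s : R} (hr : Ok I i j r) (hs : Ok I i j s) :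
    x I i j r * x I i j s = x I i j (r + s) := by
  have h := PresentedGroup.mk_eq_mk_of_mul_inv_mem (rels := {w | Rel ι I w})
    (Rel.add i j r s hr hs (hr.add hs))
  rw [x_of_ok hr, x_of_ok hs, x_of_ok (hr.add hs)]
  rw [map_mul] at h
  exact h

@[simp] theorem x_zero (i j : ι) : x I i j (0 : R) = 1 := by
  by_cases h : Ok I i j (0 : R)
  · have := x_add h h
    rw [add_zero] at this
    exact mul_eq_left.1 this
  · exact x_of_not h

/-- `x i j r * x j k s = x i k (r s) * x j k s * x i j r` -/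
theorem x_mul' [I.IsTwoSided] {i j k : ι} {r s : R} (hr : Ok I i j r) (hs : Ok I j k s)
    (hik : i ≠ k) : x I i j r * x I j k s = x I i k (r * s) * x I j k s * x I i j r := by
  have h := PresentedGroup.mk_eq_mk_of_mul_inv_mem (rels := {w | Rel ι I w})
    (Rel.mul i j k r s hr hs (hr.mul hs hik))
  rw [x_of_ok hr, x_of_ok hs, x_of_ok (hr.mul hs hik)]
  rw [map_mul, map_mul, map_mul] at h
  exact h

theorem x_mul [I.IsTwoSided] {i j k : ι} {r s : R} (hr : Ok I i j r) (hs : Ok I j k s)
    (hik : i ≠ k) : ⁅x I i j r, x I j k s⁆ = x I i k (r * s) := by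
  rw [commutatorElement_def, x_mul' hr hs hik]; group

theorem x_comm {i j k l : ι} (r s : R) (hjk : j ≠ k) (hil : i ≠ l) :
    Commute (x I i j r) (x I k l s) := by
  by_cases hr : Ok I i j r
  · by_cases hs : Ok I k l s
    · have h := PresentedGroup.mk_eq_mk_of_mul_inv_mem (rels := {w | Rel ι I w})
        (Rel.comm i j k l r s hr hs hjk hil)
      rw [map_mul, map_mul] at h
      rw [x_of_ok hr, x_of_ok hs]
      exact h
    · rw [x_of_not hs]; exact Commute.one_right _
  · rw [x_of_not hr]; exact Commute.one_left _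

@[simp] theorem x_mul_self [Two R] (i j : ι) (r : R) : x I i j r * x I i j r = 1 := by
  by_cases hr : Ok I i j r
  · rw [x_add hr hr, add_self2, x_zero]
  · rw [x_of_not hr, one_mul]

@[simp] theorem x_inv [Two R] (i j : ι) (r : R) : (x I i j r)⁻¹ = x I i j r :=
  inv_eq_of_mul_eq_one_right (x_mul_self i j r)

theorem lift_aux {G : Type} [Group G] (f : ι → ι → R → G)
    (hadd : ∀ i j r s, Ok I i j r → Ok I i j s → f i j r * f i j s = f i j (r + s))
    (hmul : ∀ i j k r s, Ok I i j r → Ok I j k s → i ≠ k →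
      f i j r * f j k s = f i k (r * s) * f j k s * f i j r)
    (hcomm : ∀ i j k l r s, Ok I i j r → Ok I k l s → j ≠ k → i ≠ l →
      Commute (f i j r) (f k l s)) :
    ∀ w ∈ {w | Rel ι I w}, FreeGroup.lift (fun t : Gen ι I => f t.1.1 t.1.2.1 t.1.2.2) w = 1 := by
  intro w hw
  rcases hw with ⟨i, j, r, s, hr, hs, h⟩ | ⟨i, j, k, r, s, hr, hs, h⟩ |
    ⟨i, j, k, l, r, s, hr, hs, hjk, hil⟩
  · simp only [map_mul, map_inv, FreeGroup.lift_apply_of, hadd i j r s hr hs, mul_inv_cancel]
  · simp only [map_mul, map_inv, FreeGroup.lift_apply_of, hmul i j k r s hr hs h.1, mul_inv_cancel]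
  · simp only [map_mul, map_inv, FreeGroup.lift_apply_of, (hcomm i j k l r s hr hs hjk hil).eq,
      mul_inv_cancel]

/-- the universal property -/
noncomputable def lift {G : Type} [Group G] (f : ι → ι → R → G)
    (hadd : ∀ i j r s, Ok I i j r → Ok I i j s → f i j r * f i j s = f i j (r + s))
    (hmul : ∀ i j k r s, Ok I i j r → Ok I j k s → i ≠ k →
      f i j r * f j k s = f i k (r * s) * f j k s * f i j r)
    (hcomm : ∀ i j k l r s, Ok I i j r → Ok I k l s → j ≠ k → i ≠ l →
      Commute (f i j r) (f k l s)) : St ι I →* G :=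
  PresentedGroup.toGroup (lift_aux f hadd hmul hcomm)

theorem lift_x {G : Type} [Group G] (f : ι → ι → R → G) (hadd hmul hcomm) {i j : ι} {r : R}
    (h : Ok I i j r) : lift (I := I) f hadd hmul hcomm (x I i j r) = f i j r := by
  rw [x_of_ok h]
  exact PresentedGroup.toGroup.of (lift_aux f hadd hmul hcomm)

theorem closure_x : Subgroup.closure {g : St ι I | ∃ i j r, Ok I i j r ∧ g = x I i j r} = ⊤ := by
  rw [eq_top_iff]
  refine le_trans (ge_of_eq (PresentedGroup.closure_range_of {w | Rel ι I w})) ?_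
  apply Subgroup.closure_mono
  rintro _ ⟨⟨⟨i, j, r⟩, h⟩, rfl⟩
  exact ⟨i, j, r, h, (x_of_ok h).symm⟩

theorem hom_ext {G : Type} [Monoid G] {f g : St ι I →* G}
    (h : ∀ i j r, Ok I i j r → f (x I i j r) = g (x I i j r)) : f = g :=
  MonoidHom.eq_of_eqOn_dense closure_x (by rintro _ ⟨i, j, r, hr, rfl⟩; exact h i j r hr)

/-- a subgroup generated by root elements is generated by them as a monoid -/
theorem closure_induction_x [Two R] {S : Set (St ι I)} (hS : ∀ g ∈ S, ∃ i j r, g = x I i j r)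
    {P : St ι I → Prop} (h1 : P 1) (hx : ∀ s ∈ S, ∀ g, P g → P (s * g)) {g : St ι I}
    (hg : g ∈ Subgroup.closure S) : P g := by
  induction hg using Subgroup.closure_induction_left with
  | one => exact h1
  | mul_left s hs g _ ih => exact hx s hs g ih
  | inv_mul_cancel s hs g _ ih =>
    obtain ⟨i, j, r, rfl⟩ := hS s hs
    rw [x_inv]; exact hx _ hs g ih

theorem induction_left [Two R] {P : St ι I → Prop} (h1 : P 1)
    (hx : ∀ i j r g, Ok I i j r → P g → P (x I i j r * g)) (g : St ι I) : P g := by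
  refine closure_induction_x (S := {g : St ι I | ∃ i j r, Ok I i j r ∧ g = x I i j r})
    (by rintro _ ⟨i, j, r, -, rfl⟩; exact ⟨i, j, r, rfl⟩) h1 ?_ (by rw [closure_x]; exact Subgroup.mem_top g)
  rintro _ ⟨i, j, r, hr, rfl⟩ g hg
  exact hx i j r g hr hg

attribute [irreducible] lift x gen St

end Basic

section Maps

variable {ι κ : Type} [LinearOrder ι] [LinearOrder κ] {R : Type} [Ring R] (I : Ideal R)
  [I.IsTwoSided]

theorem ok_map (f : ι ↪o κ) {i j : ι} {r : R} : Ok I (f i) (f j) r ↔ Ok I i j r := by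
  simp [Ok]

/-- functoriality in the index set -/
noncomputable def map (f : ι ↪o κ) : St ι I →* St κ I :=
  lift (fun i j r => x I (f i) (f j) r)
    (fun _ _ _ _ hr hs => x_add ((ok_map I f).2 hr) ((ok_map I f).2 hs))
    (fun _ _ _ _ _ hr hs h => x_mul' ((ok_map I f).2 hr) ((ok_map I f).2 hs) (f.injective.ne h))
    (fun _ _ _ _ _ _ _ _ h h' => x_comm _ _ (f.injective.ne h) (f.injective.ne h'))

@[simp] theorem map_x (f : ι ↪o κ) (i j : ι) (r : R) :
    map I f (x I i j r) = x I (f i) (f j) r := by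
  by_cases h : Ok I i j r
  · exact lift_x _ _ _ _ h
  · rw [x_of_not h, x_of_not (mt (ok_map I f).1 h), map_one]

theorem ok_tau (d : ι → Rˣ) {i j : ι} {r : R} :
    Ok I i j (d i * r * ((d j)⁻¹ : Rˣ)) ↔ Ok I i j r := by
  refine ⟨fun h => ?_, fun h => (h.mul_left _).mul_right _⟩
  have := (h.mul_left ((d i)⁻¹ : Rˣ)).mul_right (d j)
  simpa [mul_assoc] using this

/-- conjugation by the diagonal matrix `d` -/
noncomputable def tau (d : ι → Rˣ) : St ι I →* St ι I :=
  lift (fun i j r => x I i j (d i * r * ((d j)⁻¹ : Rˣ)))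
    (fun _ _ _ _ hr hs => by
      rw [x_add ((ok_tau I d).2 hr) ((ok_tau I d).2 hs), mul_add, add_mul])
    (fun _ _ _ _ _ hr hs h => by
      rw [x_mul' ((ok_tau I d).2 hr) ((ok_tau I d).2 hs) h]; simp [mul_assoc])
    (fun _ _ _ _ _ _ _ _ h h' => x_comm _ _ h h')

@[simp] theorem tau_x (d : ι → Rˣ) (i j : ι) (r : R) :
    tau I d (x I i j r) = x I i j (d i * r * ((d j)⁻¹ : Rˣ)) := by
  by_cases h : Ok I i j r
  · exact lift_x _ _ _ _ h
  · rw [x_of_not h, x_of_not (mt (ok_tau I d).1 h), map_one]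

theorem tau_one (g : St ι I) : tau I 1 g = g := by
  have : tau I (1 : ι → Rˣ) = MonoidHom.id _ := hom_ext fun i j r _ => by simp
  rw [this]; rfl

theorem tau_mul (d d' : ι → Rˣ) (g : St ι I) : tau I (d * d') g = tau I d (tau I d' g) := by
  have : tau I (d * d') = (tau I d).comp (tau I d') :=
    hom_ext fun i j r _ => by simp [mul_assoc]
  rw [this]; rfl

variable [Fintype ι] [Two R]

/-- the elementary matrix as a unit -/
def elU (i j : ι) (r : R) : (Matrix ι ι R)ˣ :=
  if h : i = j then 1 else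
    ⟨1 + single i j r, 1 + single i j r, by
      rw [add_mul, mul_add, mul_add, single_mul_single_of_ne _ _ _ _ (Ne.symm h)]
      simp [add_assoc, add_self2], by
      rw [add_mul, mul_add, mul_add, single_mul_single_of_ne _ _ _ _ (Ne.symm h)]
      simp [add_assoc, add_self2]⟩

theorem elU_val {i j : ι} (h : i ≠ j) (r : R) :
    (elU i j r : Matrix ι ι R) = 1 + single i j r := by simp [elU, h]

theorem elU_inv (i j : ι) (r : R) : (elU i j r)⁻¹ = elU i j r := by
  unfold elU; split_ifs <;> rfl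

/-- the map to `GL` -/
noncomputable def phiU : St ι I →* (Matrix ι ι R)ˣ :=
  lift (fun i j r => elU i j r)
    (fun i j r s hr _ => by
      ext1
      rw [Units.val_mul, elU_val hr.1, elU_val hr.1, elU_val hr.1, add_mul, mul_add, mul_add,
        single_mul_single_of_ne _ _ _ _ hr.1.symm, single_add]
      simp only [one_mul, mul_one, add_zero]; abel)
    (fun i j k r s hr hs h => by
      ext1
      simp only [Units.val_mul, elU_val hr.1, elU_val hs.1, elU_val h, add_mul, mul_add, one_mul,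
        mul_one, single_mul_single_same,
        single_mul_single_of_ne _ _ _ _ hs.1.symm, single_mul_single_of_ne _ _ _ _ h.symm,
        add_zero]
      abel)
    (fun i j k l r s hr hs h h' => by
      ext1
      simp only [Units.val_mul, elU_val hr.1, elU_val hs.1, add_mul, mul_add, one_mul, mul_one,
        single_mul_single_of_ne _ _ _ _ h, single_mul_single_of_ne _ _ _ _ h'.symm]
      abel)

/-- the map to matrices -/
noncomputable def phi : St ι I →* Matrix ι ι R := (Units.coeHom _).comp (phiU I)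

variable {I}

theorem phi_x {i j : ι} {r : R} (h : Ok I i j r) : phi I (x I i j r) = 1 + single i j r := by
  rw [← elU_val h.1]
  exact congrArg Units.val (lift_x _ _ _ _ h)

theorem phi_mul_inv (g : St ι I) : phi I g * phi I g⁻¹ = 1 := by rw [← map_mul]; simp

theorem phi_inv_mul (g : St ι I) : phi I g⁻¹ * phi I g = 1 := by rw [← map_mul]; simp

attribute [irreducible] map tau phiU phi

end Maps

section Defs

variable {ι : Type} [LinearOrder ι] {R : Type} [Ring R] (I : Ideal R)

/-- subgroup generated by the root groups of the pairs in `Rl` -/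
def U (Rl : ι → ι → Prop) : Subgroup (St ι I) :=
  Subgroup.closure {g | ∃ i j r, Rl i j ∧ g = x I i j r}

/-- subgroup generated by the root groups with both indices in `S` -/
def HS (S : Set ι) : Subgroup (St ι I) := U I fun i j => i ∈ S ∧ j ∈ S

/-- subgroup generated by the root elements with entries in `L` -/
def EL (L : Ideal R) : Subgroup (St ι I) :=
  Subgroup.closure {g | ∃ i j r, r ∈ L ∧ g = x I i j r}

/-- normal closure of the root elements with entries in `L` -/
def NL (L : Ideal R) : Subgroup (St ι I) :=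
  Subgroup.normalClosure {g | ∃ i j r, r ∈ L ∧ g = x I i j r}

instance (L : Ideal R) : (NL (ι := ι) I L).Normal := Subgroup.normalClosure_normal

/-- the product of all `x p q (n p q)` in a fixed order -/
noncomputable def X [Fintype ι] (n : Matrix ι ι R) : St ι I :=
  ((Finset.univ : Finset (ι × ι)).toList.map fun p => x I p.1 p.2 (n p.1 p.2)).prod

/-- every nonzero entry is a legal generator (in particular the diagonal vanishes) -/
def MOk (n : Matrix ι ι R) : Prop := ∀ p q, n p q ≠ 0 → Ok I p q (n p q)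

/-- column element `∏_{r ≠ k} x r k (c r)` -/
noncomputable def colE [Fintype ι] (k : ι) (c : ι → R) : St ι I :=
  X I (Matrix.of fun r s => if s = k ∧ r ≠ k then c r else 0)

/-- row element `∏_{s ≠ k} x k s (b s)` -/
noncomputable def rowE [Fintype ι] (k : ι) (b : ι → R) : St ι I :=
  X I (Matrix.of fun r s => if r = k ∧ s ≠ k then b s else 0)

def ColOk (k : ι) (c : ι → R) : Prop := ∀ r, r ≠ k → Ok I r k (c r)

def RowOk (k : ι) (b : ι → R) : Prop := ∀ s, s ≠ k → Ok I k s (b s)

/-- `I` lies in the Jacobson radical -/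
def Rad : Prop := ∀ a ∈ I, IsUnit (1 + a)

/-- all matrices over `I` are nilpotent -/
def MNil : Prop :=
  ∀ (l : ℕ) (A : Matrix (Fin l) (Fin l) R), (∀ i j, A i j ∈ I) → IsNilpotent A

open Classical in
/-- the unit `1 + a` -/
noncomputable def un (a : R) : Rˣ := if h : IsUnit (1 + a) then h.unit else 1

/-- the inverse of `1 + a` -/
noncomputable def iv (a : R) : R := ((un a)⁻¹ : Rˣ)

/-- Dennis-Stein symbol; its matrix is diagonal: `1 + a b` at `i`, `(1 + b a)⁻¹` at `j` -/
noncomputable def h (i j : ι) (a b : R) : St ι I :=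
  x I j i (b * iv (a * b)) * x I i j a * x I j i b * x I i j (iv (a * b) * a)

/-- the diagonal of `h i j a b` -/
noncomputable def hd (i j : ι) (a b : R) : ι → Rˣ :=
  Pi.mulSingle i (un (a * b)) * Pi.mulSingle j (un (b * a))⁻¹

/-- the "middle" subgroup of the Bruhat decomposition at `p` -/
def Mid (p : ι) : Subgroup (St ι I) :=
  Subgroup.closure ({g | ∃ q a b, Ok I p q a ∧ Ok I q p b ∧ g = h I p q a b} ∪
    {g | ∃ r s t, r ≠ p ∧ s ≠ p ∧ g = x I r s t})

end Defs

/-- support of a matrix -/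
def Supp {ι R : Type} [Zero R] (n : Matrix ι ι R) (S T : Set ι) : Prop :=
  ∀ p q, n p q ≠ 0 → p ∈ S ∧ q ∈ T

/-- a block matrix placed at rows `f`, columns `g` -/
def emb {ι α β R : Type} [DecidableEq ι] [Fintype α] [Fintype β] [AddCommMonoid R]
    (f : α → ι) (g : β → ι) (n : Matrix α β R) : Matrix ι ι R :=
  ∑ a, ∑ b, single (f a) (g b) (n a b)

section Un

variable {R : Type} [Ring R] {I : Ideal R}

theorem un_val (hI : Rad I) {a : R} (ha : a ∈ I) : (un a : R) = 1 + a := by
  simp [un, hI a ha]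

theorem un_zero : un (0 : R) = 1 := by
  ext; simp [un]

theorem iv_zero : iv (0 : R) = 1 := by simp [iv, un_zero]

theorem iv_mul (hI : Rad I) {a : R} (ha : a ∈ I) : iv a * (1 + a) = 1 := by
  rw [← un_val hI ha, iv, Units.inv_mul]

theorem mul_iv (hI : Rad I) {a : R} (ha : a ∈ I) : (1 + a) * iv a = 1 := by
  rw [← un_val hI ha, iv, Units.mul_inv]

theorem iv_eq (hI : Rad I) {a : R} (ha : a ∈ I) : iv a = 1 - iv a * a := by
  have := iv_mul hI ha
  rw [mul_add, mul_one] at this
  exact eq_sub_of_add_eq this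

theorem iv_eq' (hI : Rad I) {a : R} (ha : a ∈ I) : iv a = 1 - a * iv a := by
  have := mul_iv hI ha
  rw [add_mul, one_mul] at this
  exact eq_sub_of_add_eq this

/-- `b (1 + a b)⁻¹ = (1 + b a)⁻¹ b` -/
theorem mul_iv_comm (hI : Rad I) {a b : R} (hab : a * b ∈ I) (hba : b * a ∈ I) :
    b * iv (a * b) = iv (b * a) * b := by
  have h1 : (1 + b * a) * b = b * (1 + a * b) := by noncomm_ring
  calc b * iv (a * b) = iv (b * a) * ((1 + b * a) * b) * iv (a * b) := by
        rw [← mul_assoc, iv_mul hI hba, one_mul]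
    _ = iv (b * a) * b * ((1 + a * b) * iv (a * b)) := by rw [h1]; noncomm_ring
    _ = _ := by rw [mul_iv hI hab, mul_one]

/-- `(1 + b a)⁻¹ = 1 - b (1 + a b)⁻¹ a` -/
theorem iv_swap (hI : Rad I) {a b : R} (hab : a * b ∈ I) (hba : b * a ∈ I) :
    iv (b * a) = 1 - b * iv (a * b) * a := by
  rw [mul_iv_comm hI hab hba, mul_assoc]; exact iv_eq hI hba

theorem MNil.rad (hI : MNil I) : Rad I := fun a ha => by
  obtain ⟨k, hk⟩ := hI 1 (Matrix.of fun _ _ => a) fun _ _ => ha
  have h1 : (Matrix.of fun _ _ => a : Matrix (Fin 1) (Fin 1) R) = Matrix.scalar (Fin 1) a := by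
    ext i j; simp [Subsingleton.elim i j]
  rw [h1, ← map_pow] at hk
  have h2 : a ^ k = 0 := by simpa using congrFun (congrFun hk 0) 0
  exact IsNilpotent.isUnit_one_add ⟨k, h2⟩

end Un

end Crest.Agent.R176
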