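import Crest.Agent.R176.Iface

/-!
# Row 176 B: finite presentation of `St (Fin 5) I`  (subtask BFP)

`words_of_base` (pure group theory in a group `G`).  `Val i j w := i ≠ j ∧ (i < j ∨ w ≠ [])`.
Given `g₀ i j` (the value at `[]`, used for `i<j`) and `g₁ i j a` (the value at `[a]`), define
`yw i j [] = g₀ i j`, `yw i j [a] = g₁ i j a`, `yw i j (a :: w) = ⁅g₁ i s a, yw s j w⁆`, `s = spare i j`.
Induction on `D ≥ 1` of the statement `W D`: (S0) `yw i j w ^ 2 = 1`, (S1) commutation for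
`|w|, |w'| ≤ D`, (S2) for `|w| + |w'| ≤ D`.  Step `D → D+1`:
* `assoc_comm`: if `A, C` commute, `E = ⁅A,B⁆`, `F = ⁅B,C⁆`, `F` commutes with `E` and `C`, then
  `⁅A,F⁆ = ⁅E,C⁆` (conjugate `⁅B,C⁆` by `A`: `⁅E B, C⁆ = E ⁅B,C⁆ E⁻¹ ⁅E,C⁆`).
* with `A = y i s a`, `B = y s t b`, `C = y t j c` (`i,j,s,t` distinct, `a, c ≠ []`, `b ≠ []` or
  `s < t`, `|abc| = D+1`): `⁅y i s a, y s j (bc)⁆ = ⁅y i t (ab), y t j c⁆`.  So
  `⁅y i s a, y s j c⁆` (`a, c ≠ []`) is independent of `s` (take `b = []`) and of the cut (go through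
  another `t`), i.e. equals `y i j (ac)`: (S2) for nonempty words.
* (S1) for lengths `≤ D+1`: write a word of length `D+1` as a commutator through a spare index
  `t ∉ {i,j,k,l}` (five indices!); first one long word, then two.
* (S2) with an empty word: `assoc_comm` with `a = []` resp. `c = []`.
* (S0): `⁅A², F⁆ = A ⁅A,F⁆ A⁻¹ ⁅A,F⁆` and `⁅A,F⁆` commutes with `A` by (S1).

`fp`.  `G₀ = PresentedGroup` on the finite type `Fin 5 × Fin 5 × Option Y` with the finitely many
relations: generator `= 1` if not `Val`; (S0), (S1) for lengths `≤ 1`, (S2) for total length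
`≤ 1`; `yw i j [a,b] = 1` if `Z a b`; `yw i j [a,b] = yw i j [c,d]` if `Mv a b c d` (finite: the
relators are images of finite types; `yw` can be defined in the free group and mapped).
`yw i j (u ++ a :: b :: v)` is trivial resp. invariant by (S2) (peel `u`, `v` if nonempty).
For `i ≠ j` let `A i j` = subgroup generated by the valid `yw i j w` (commutative, exponent 2);
`WordPres.univ` (with value `0` at `[]` if `j < i`) gives additive `F i j : R → A i j`.
(S1), (S2) extend to `F` by `AddSubgroup.closure_induction` (`spanR` if `i<j`, `spanI` otherwise;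
the commutator is bi-additive because its values commute with both factors).  `lift` gives
`St → G₀`, inverse to `G₀ → St` (`PresentedGroup.toGroup`; `yw i j w ↦ x i j (wd w)`).
-/

set_option autoImplicit false
set_option linter.unusedSectionVars false

open scoped commutatorElement

namespace Crest.Agent.R176

def Val {Y : Type} (i j : Fin 5) (w : List Y) : Prop := i ≠ j ∧ (i < j ∨ w ≠ [])

/-- an index different from `i` and `j` -/
def spare (i j : Fin 5) : Fin 5 := if i ≠ 0 ∧ j ≠ 0 then 0 else if i ≠ 1 ∧ j ≠ 1 then 1 else 2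

def yw {Y G : Type} [Group G] (g₀ : Fin 5 → Fin 5 → G) (g₁ : Fin 5 → Fin 5 → Y → G) :
    List Y → Fin 5 → Fin 5 → G
  | [], i, j => g₀ i j
  | [a], i, j => g₁ i j a
  | a :: b :: w, i, j => ⁅g₁ i (spare i j) a, yw g₀ g₁ (b :: w) (spare i j) j⁆

theorem assoc_comm {G : Type} [Group G] {A B C : G} (hAC : Commute A C)
    (hEF : Commute ⁅A, B⁆ ⁅B, C⁆) (hCF : Commute C ⁅B, C⁆) : ⁅A, ⁅B, C⁆⁆ = ⁅⁅A, B⁆, C⁆ := by
  have h1 : A * ⁅B, C⁆ * A⁻¹ = ⁅A, B⁆ * ⁅B, C⁆ * (C * ⁅A, B⁆⁻¹ * C⁻¹) := by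
    have h2 : A * C * A⁻¹ = C := by rw [hAC.eq]; group
    calc A * ⁅B, C⁆ * A⁻¹ = (A * B * A⁻¹) * (A * C * A⁻¹) * (A * B * A⁻¹)⁻¹ * (A * C * A⁻¹)⁻¹ := by
          rw [commutatorElement_def]; group
      _ = _ := by rw [h2]; simp only [commutatorElement_def]; group
  have h3 : Commute ⁅B, C⁆ ⁅⁅A, B⁆, C⁆ := by
    rw [commutatorElement_def ⁅A, B⁆ C]
    exact ((hEF.symm.mul_right hCF.symm).mul_right hEF.symm.inv_right).mul_right hCF.symm.inv_right
  calc ⁅A, ⁅B, C⁆⁆ = (A * ⁅B, C⁆ * A⁻¹) * ⁅B, C⁆⁻¹ := by rw [commutatorElement_def A]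
    _ = ⁅B, C⁆ * ⁅⁅A, B⁆, C⁆ * ⁅B, C⁆⁻¹ := by
      rw [h1, hEF.eq, commutatorElement_def ⁅A, B⁆ C]; group
    _ = _ := by rw [h3.eq]; group

/-- the Steinberg relations for words of length `≤ D` -/
def StW {Y G : Type} [Group G] (y : List Y → Fin 5 → Fin 5 → G) (D : ℕ) : Prop :=
  (∀ i j w, Val i j w → w.length ≤ D → y w i j * y w i j = 1) ∧
  (∀ i j k l w w', Val i j w → Val k l w' → j ≠ k → i ≠ l → w.length ≤ D → w'.length ≤ D →
    Commute (y w i j) (y w' k l)) ∧
  ∀ i j k w w', Val i j w → Val j k w' → i ≠ k → w.length + w'.length ≤ D →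
    ⁅y w i j, y w' j k⁆ = y (w ++ w') i k

theorem fp_spare_ne (i j : Fin 5) : spare i j ≠ i ∧ spare i j ≠ j := by
  revert i j; decide

theorem fp_exists_ne (i j k l : Fin 5) : ∃ t : Fin 5, t ≠ i ∧ t ≠ j ∧ t ≠ k ∧ t ≠ l := by
  revert i j k l; decide

theorem Val.ne {Y : Type} {i j : Fin 5} {w : List Y} (h : Val i j w) : i ≠ j := h.1

theorem fp_val {Y : Type} {i j : Fin 5} {w : List Y} (h : i ≠ j) (hw : w ≠ []) : Val i j w :=
  ⟨h, Or.inr hw⟩

theorem fp_val_nil {Y : Type} {i j : Fin 5} (h : i < j) : Val i j ([] : List Y) :=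
  ⟨h.ne, Or.inl h⟩

theorem Val.append {Y : Type} {i j k : Fin 5} {w w' : List Y} (h : Val i j w) (h' : Val j k w')
    (hik : i ≠ k) : Val i k (w ++ w') := by
  refine ⟨hik, ?_⟩
  rcases h.2 with h1 | h1
  · rcases h'.2 with h2 | h2
    · exact Or.inl (h1.trans h2)
    · exact Or.inr (by simp [h2])
  · exact Or.inr (by simp [h1])

section Step

variable {Y G : Type} [Group G] {y : List Y → Fin 5 → Fin 5 → G} {D : ℕ}

/-- moving the cut and the intermediate index -/
theorem fp_move (h : StW y D) {i j s t : Fin 5} {a b c : List Y} (ha : a ≠ []) (hc : c ≠ [])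
    (hb : Val s t b) (hij : i ≠ j) (his : i ≠ s) (hit : i ≠ t) (hsj : s ≠ j) (htj : t ≠ j)
    (hl : a.length + b.length + c.length ≤ D + 1) :
    ⁅y a i s, y (b ++ c) s j⁆ = ⁅y (a ++ b) i t, y c t j⁆ := by
  have ha' := List.length_pos_iff.2 ha
  have hc' := List.length_pos_iff.2 hc
  have hA := fp_val his ha
  have hC := fp_val htj hc
  have hE := h.2.2 i s t a b hA hb hit (by omega)
  have hF := h.2.2 s t j b c hb hC hsj (by omega)
  have hst := hb.ne
  rw [← hE, ← hF]
  refine assoc_comm (h.2.1 _ _ _ _ _ _ hA hC hst hij (by omega) (by omega)) ?_ ?_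
  · rw [hE, hF]
    exact h.2.1 _ _ _ _ _ _ (hA.append hb hit) (hb.append hC hsj) hst.symm hij
      (by simp; omega) (by simp; omega)
  · rw [hF]
    exact h.2.1 _ _ _ _ _ _ hC (hb.append hC hsj) hsj.symm htj (by omega) (by simp; omega)

theorem fp_indep (h : StW y D) {i j s t : Fin 5} {a c : List Y} (ha : a ≠ []) (hc : c ≠ [])
    (hij : i ≠ j) (his : i ≠ s) (hit : i ≠ t) (hsj : s ≠ j) (htj : t ≠ j)
    (hl : a.length + c.length ≤ D + 1) : ⁅y a i s, y c s j⁆ = ⁅y a i t, y c t j⁆ := by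
  rcases lt_trichotomy s t with h1 | h1 | h1
  · simpa using fp_move h ha hc (fp_val_nil h1) hij his hit hsj htj (by simpa using hl)
  · rw [h1]
  · simpa using (fp_move h ha hc (fp_val_nil h1) hij hit his htj hsj (by simpa using hl)).symm

theorem fp_step (hy : ∀ a b w i j, y (a :: b :: w) i j = ⁅y [a] i (spare i j),
    y (b :: w) (spare i j) j⁆) (hD : 1 ≤ D) (h : StW y D) : StW y (D + 1) := by
  -- (S2) for nonempty words
  have h2 : ∀ i j s a c, a ≠ [] → c ≠ [] → i ≠ j → i ≠ s → s ≠ j → a.length + c.length ≤ D + 1 →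
      ⁅y a i s, y c s j⁆ = y (a ++ c) i j := by
    intro i j s a c ha hc hij his hsj hl
    obtain ⟨a0, a', rfl⟩ := List.exists_cons_of_ne_nil ha
    have hsp := fp_spare_ne i j
    have e : ∀ w : List Y, w ≠ [] → y (a0 :: w) i j =
        ⁅y [a0] i (spare i j), y w (spare i j) j⁆ := by
      intro w hw
      obtain ⟨b, w', rfl⟩ := List.exists_cons_of_ne_nil hw
      exact hy _ _ _ _ _
    rw [List.cons_append, e _ (by simp [hc])]
    by_cases ha' : a' = []
    · subst ha'
      exact fp_indep h ha hc hij his hsp.1.symm hsj hsp.2 hl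
    · obtain ⟨t, ht1, ht2, ht3, -⟩ := fp_exists_ne i j (spare i j) i
      rw [fp_move h (a := [a0]) (by simp) hc (fp_val ht3.symm ha') hij hsp.1.symm ht1.symm hsp.2 ht2
        (by simp at hl ⊢; omega)]
      exact fp_indep h ha hc hij his ht1.symm hsj ht2 hl
  -- splitting a long word
  have sp : ∀ w : List Y, w.length = D + 1 →
      ∃ a c, a ≠ [] ∧ c ≠ [] ∧ w = a ++ c ∧ a.length ≤ D ∧ c.length ≤ D := by
    intro w hw
    match w, hw with
    | a :: c, hw =>
      simp only [List.length_cons, add_left_inj] at hw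
      exact ⟨[a], c, by simp, by rintro rfl; simp at hw; omega, rfl, by simpa using hD, hw.le⟩
  have cc : ∀ {A B C : G}, Commute A C → Commute B C → Commute ⁅A, B⁆ C := fun hA hB => by
    rw [commutatorElement_def]
    exact ((hA.mul_left hB).mul_left hA.inv_left).mul_left hB.inv_left
  have red : ∀ E : ℕ, (∀ i j k l w w', Val i j w → Val k l w' → j ≠ k → i ≠ l → w.length ≤ D →
      w'.length ≤ E → Commute (y w i j) (y w' k l)) →
      ∀ i j k l w w', Val i j w → Val k l w' → j ≠ k → i ≠ l → w.length ≤ D + 1 →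
      w'.length ≤ E → Commute (y w i j) (y w' k l) := by
    intro E hE i j k l w w' hw hw' hjk hil hl hl'
    rcases Nat.lt_or_eq_of_le hl with h3 | h3
    · exact hE i j k l w w' hw hw' hjk hil (by omega) hl'
    obtain ⟨a, c, ha, hc, rfl, hla, hlc⟩ := sp w h3
    obtain ⟨t, ht1, ht2, ht3, ht4⟩ := fp_exists_ne i j k l
    rw [← h2 i j t a c ha hc hw.ne ht1.symm ht2 (by simpa using hl)]
    exact cc (hE _ _ _ _ _ _ (fp_val ht1.symm ha) hw' ht3 hil hla hl')
      (hE _ _ _ _ _ _ (fp_val ht2 hc) hw' hjk ht4 hlc hl')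
  have h1 := red (D + 1) fun i j k l w w' hw hw' hjk hil hl hl' =>
    (red D h.2.1 k l i j w' w hw' hw hil.symm hjk.symm hl' hl).symm
  refine ⟨fun i j w hw hl => ?_, h1, fun i j k w w' hw hw' hik hl => ?_⟩
  · rcases Nat.lt_or_eq_of_le hl with h3 | h3
    · exact h.1 i j w hw (by omega)
    obtain ⟨a, c, ha, hc, rfl, hla, hlc⟩ := sp w h3
    obtain ⟨t, ht1, ht2, -⟩ := fp_exists_ne i j i i
    have e := h2 i j t a c ha hc hw.ne ht1.symm ht2 (by simpa using hl)
    have hA := h.1 i t a (fp_val ht1.symm ha) hla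
    have hc' := h1 i j i t _ a hw (fp_val ht1.symm ha) hw.ne.symm ht1.symm hl (by omega)
    rw [← e] at hc' ⊢
    generalize y a i t = A at *
    generalize y c t j = F at *
    have e2 : ⁅A, F⁆ * ⁅A, F⁆ = A⁻¹ * ((A * ⁅A, F⁆ * A⁻¹) * ⁅A, F⁆) * A := by
      rw [← hc'.eq, mul_inv_cancel_right, mul_assoc, mul_assoc, hc'.eq, ← mul_assoc ⁅A, F⁆, hc'.eq]
      group
    have e3 : A * ⁅A, F⁆ * A⁻¹ * ⁅A, F⁆ = ⁅A * A, F⁆ := by
      simp only [commutatorElement_def]; group
    rw [e2, e3, hA]; simp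
  · rcases Nat.lt_or_eq_of_le hl with h3 | h3
    · exact h.2.2 i j k w w' hw hw' hik (by omega)
    obtain ⟨t, ht1, ht2, ht3, -⟩ := fp_exists_ne i j k i
    by_cases hn : w = []
    · subst hn
      obtain ⟨b, c, hb, hc, rfl, hlb, hlc⟩ := sp w' (by simpa using h3)
      have hB := fp_val ht2.symm hb
      have hC := fp_val ht3 hc
      have hl' : b.length + c.length ≤ D + 1 := by simpa using hl
      have eF := h2 j k t b c hb hc hw'.ne ht2.symm ht3 hl'
      have eE := h.2.2 i j t [] b hw hB ht1.symm (by simpa using hlb)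
      rw [List.nil_append] at eE ⊢
      rw [← h2 i k t b c hb hc hik ht1.symm ht3 hl', ← eF, ← eE]
      refine assoc_comm (h.2.1 _ _ _ _ _ _ hw hC ht2.symm hik (by simp) hlc) ?_ ?_
      · rw [eE, eF]
        exact h1 _ _ _ _ _ _ (fp_val ht1.symm hb) hw' ht2 hik (by omega) (by simpa using hl')
      · rw [eF]
        exact h1 _ _ _ _ _ _ hC hw' hw'.ne.symm ht3 (by omega) (by simpa using hl')
    by_cases hn' : w' = []
    · subst hn'
      obtain ⟨a, b, ha, hb, rfl, hla, hlb⟩ := sp w (by simpa using h3)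
      have hA := fp_val ht1.symm ha
      have hB := fp_val ht2 hb
      have hl' : a.length + b.length ≤ D + 1 := by simpa using hl
      have eE := h2 i j t a b ha hb hw.ne ht1.symm ht2 hl'
      have eF := h.2.2 t j k b [] hB hw' ht3 (by simpa using hlb)
      rw [List.append_nil] at eF ⊢
      rw [← h2 i k t a b ha hb hik ht1.symm ht3 hl', ← eF, ← eE]
      refine (assoc_comm (h.2.1 _ _ _ _ _ _ hA hw' ht2 hik hla (by simp)) ?_ ?_).symm
      · rw [eE, eF]
        exact h1 _ _ _ _ _ _ hw (fp_val ht3 hb) ht2.symm hik (by simpa using hl') (by omega)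
      · rw [eF]
        exact h.2.1 _ _ _ _ _ _ hw' (fp_val ht3 hb) ht3.symm hw'.ne (by simp) hlb
    exact h2 i k j w w' hn hn' hik hw.ne hw'.ne hl

end Step

theorem words_of_base {Y G : Type} [Group G] (g₀ : Fin 5 → Fin 5 → G)
    (g₁ : Fin 5 → Fin 5 → Y → G) (h : StW (yw g₀ g₁) 1) (D : ℕ) : StW (yw g₀ g₁) D := by
  have h1 : ∀ D, StW (yw g₀ g₁) (D + 1) := by
    intro D
    induction D with
    | zero => exact h
    | succ D ih => exact fp_step (fun _ _ _ _ _ => rfl) (by omega) ih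
  have h2 := h1 D
  exact ⟨fun i j w hw hl => h2.1 i j w hw (by omega),
    fun i j k l w w' hw hw' h3 h4 hl hl' => h2.2.1 i j k l w w' hw hw' h3 h4 (by omega) (by omega),
    fun i j k w w' hw hw' h3 hl => h2.2.2 i j k w w' hw hw' h3 (by omega)⟩

theorem fp_yw_map {Y G H : Type} [Group G] [Group H] (f : G →* H) (g₀ : Fin 5 → Fin 5 → G)
    (g₁ : Fin 5 → Fin 5 → Y → G) : ∀ (w : List Y) (i j : Fin 5),
    f (yw g₀ g₁ w i j) = yw (fun i j => f (g₀ i j)) (fun i j a => f (g₁ i j a)) w i j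
  | [], _, _ => rfl
  | [_], _, _ => rfl
  | a :: b :: w, i, j => by
    rw [yw, yw, map_commutatorElement, fp_yw_map f g₀ g₁ (b :: w)]

theorem fp_ok {R : Type} [Ring R] {I : Ideal R} {Y : Type} (P : WordPres Y I) {i j : Fin 5}
    {w : List Y} (h : Val i j w) : Ok I i j (P.wd w) :=
  ⟨h.1, h.2.imp id (P.mem_I w)⟩

theorem fp_yw_x {R : Type} [Ring R] {I : Ideal R} [I.IsTwoSided] {Y : Type} (P : WordPres Y I)
    (g₀ : Fin 5 → Fin 5 → St (Fin 5) I) (h₀ : ∀ i j, i < j → g₀ i j = x I i j (P.wd [])) :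
    ∀ (w : List Y) (i j : Fin 5), Val i j w →
      yw g₀ (fun i j a => x I i j (P.wd [a])) w i j = x I i j (P.wd w)
  | [], i, j, h => h₀ i j (h.2.resolve_right (by simp))
  | [_], _, _, _ => rfl
  | a :: b :: w, i, j, h => by
    have hs := fp_spare_ne i j
    rw [yw, fp_yw_x P g₀ h₀ (b :: w) _ _ (fp_val hs.2 (by simp)),
      x_mul (fp_ok P (fp_val hs.1.symm (by simp))) (fp_ok P (fp_val hs.2 (by simp))) h.ne,
      ← P.wd_append]
    rfl

theorem fp_closure {R : Type} [Ring R] {I : Ideal R} {Y : Type} (P : WordPres Y I) {i j : Fin 5}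
    {r : R} (h : Ok I i j r) : r ∈ AddSubgroup.closure {r | ∃ w, Val i j w ∧ r = P.wd w} := by
  rcases h.2 with h1 | h1
  · refine AddSubgroup.closure_mono ?_ (P.spanR r)
    rintro _ ⟨w, rfl⟩
    exact ⟨w, ⟨h.1, Or.inl h1⟩, rfl⟩
  · refine AddSubgroup.closure_mono ?_ (P.spanI r h1)
    rintro _ ⟨w, hw, rfl⟩
    exact ⟨w, fp_val h.1 hw, rfl⟩

theorem fp_ind {R : Type} [Ring R] [Two R] {I : Ideal R} {Y : Type} (P : WordPres Y I)
    {i j : Fin 5} {Q : R → Prop} (h0 : Q 0) (hw : ∀ w, Val i j w → Q (P.wd w))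
    (hadd : ∀ r s, Ok I i j r → Ok I i j s → Q r → Q s → Q (r + s)) {r : R} (h : Ok I i j r) :
    Q r := by
  have h1 := fp_closure P h
  have : Ok I i j r ∧ Q r := by
    induction h1 using AddSubgroup.closure_induction with
    | mem _ hr => obtain ⟨w, hw', rfl⟩ := hr; exact ⟨fp_ok P hw', hw w hw'⟩
    | zero => exact ⟨Ok.zero h.1, h0⟩
    | add r s hr hs ihr ihs =>
      have key : ∀ t ∈ AddSubgroup.closure {r | ∃ w, Val i j w ∧ r = P.wd w}, Ok I i j t := by
        intro t ht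
        induction ht using AddSubgroup.closure_induction with
        | mem _ hr => obtain ⟨w, hw', rfl⟩ := hr; exact fp_ok P hw'
        | zero => exact Ok.zero h.1
        | add _ _ _ _ h1 h2 => exact h1.add h2
        | neg _ _ h1 => rwa [neg_eq2]
      exact ⟨h, hadd r s (key r hr) (key s hs) (ihr (key r hr)).2 (ihs (key s hs)).2⟩
    | neg r _ ih => rw [neg_eq2] at h ⊢; exact ih h
  exact this.2

theorem fp_exists_F {R : Type} [Ring R] {I : Ideal R} {Y G : Type} [Group G] (P : WordPres Y I)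
    (f : List Y → G) (hc : ∀ w w', Commute (f w) (f w')) (h2 : ∀ w, f w * f w = 1)
    (hZ : ∀ u v a b, P.Z a b → f (u ++ a :: b :: v) = 1)
    (hM : ∀ u v a b c d, P.Mv a b c d → f (u ++ a :: b :: v) = f (u ++ c :: d :: v)) :
    ∃ F : R → G, F 0 = 1 ∧ (∀ r s, F (r + s) = F r * F s) ∧ ∀ w, F (P.wd w) = f w := by
  have hcomm : ∀ a ∈ Set.range f, ∀ b ∈ Set.range f, a * b = b * a := by
    rintro _ ⟨w, rfl⟩ _ ⟨w', rfl⟩; exact (hc w w').eq
  letI : CommGroup (Subgroup.closure (Set.range f)) := Subgroup.closureCommGroupOfComm hcomm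
  have hsq : ∀ a : Subgroup.closure (Set.range f), a * a = 1 := by
    rintro ⟨a, ha⟩
    induction ha using Subgroup.closure_induction with
    | mem _ h => obtain ⟨w, rfl⟩ := h; exact Subtype.ext (h2 w)
    | one => exact Subtype.ext (one_mul 1)
    | mul a b ha hb iha ihb =>
      show (⟨a, ha⟩ * ⟨b, hb⟩ : Subgroup.closure (Set.range f)) * (⟨a, ha⟩ * ⟨b, hb⟩) = 1
      rw [mul_mul_mul_comm, iha, ihb, one_mul]
    | inv a ha iha =>
      show (⟨a, ha⟩ : Subgroup.closure (Set.range f))⁻¹ * (⟨a, ha⟩)⁻¹ = 1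
      rw [← mul_inv, iha, inv_one]
  obtain ⟨F, hF⟩ := P.univ (Additive (Subgroup.closure (Set.range f))) hsq
    (fun w => Additive.ofMul ⟨f w, Subgroup.subset_closure ⟨w, rfl⟩⟩)
    (fun u v a b h => congrArg Additive.ofMul (Subtype.ext (hZ u v a b h)))
    (fun u v a b c d h => congrArg Additive.ofMul (Subtype.ext (hM u v a b c d h)))
  refine ⟨fun r => (Additive.toMul (F r) : Subgroup.closure (Set.range f)), ?_, fun r s => ?_,
    fun w => ?_⟩
  · simp only [map_zero]; rfl
  · simp only [map_add]; rfl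
  · simp only [hF]; rfl

/-- the inverse homomorphism -/
theorem fp_hom {R : Type} [Ring R] [Two R] {I : Ideal R} [I.IsTwoSided] {Y G : Type} [Group G]
    (P : WordPres Y I) (y : List Y → Fin 5 → Fin 5 → G) (hy : ∀ D, StW y D)
    (hZ : ∀ i j a b, i ≠ j → P.Z a b → y [a, b] i j = 1)
    (hM : ∀ i j a b c d, i ≠ j → P.Mv a b c d → y [a, b] i j = y [c, d] i j) :
    ∃ ψ : St (Fin 5) I →* G, ∀ i j w, Val i j w → ψ (x I i j (P.wd w)) = y w i j := by
  classical
  have S1 : ∀ i j k l w w', Val i j w → Val k l w' → j ≠ k → i ≠ l →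
      Commute (y w i j) (y w' k l) := fun i j k l w w' h1 h2 h3 h4 =>
    (hy (w.length + w'.length)).2.1 i j k l w w' h1 h2 h3 h4 (by omega) (by omega)
  have S2 : ∀ i j k w w', Val i j w → Val j k w' → i ≠ k →
      ⁅y w i j, y w' j k⁆ = y (w ++ w') i k := fun i j k w w' h1 h2 h3 =>
    (hy _).2.2 i j k w w' h1 h2 h3 le_rfl
  have cut : ∀ i j w w', i ≠ j → w ≠ [] → w' ≠ [] →
      y (w ++ w') i j = ⁅y w i (spare i j), y w' (spare i j) j⁆ := fun i j w w' h h1 h2 =>
    (S2 _ _ _ _ _ (fp_val (fp_spare_ne i j).1.symm h1) (fp_val (fp_spare_ne i j).2 h2) h).symm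
  have peel0 : ∀ m : List Y, m ≠ [] → (∀ i j, i ≠ j → y m i j = 1) →
      ∀ u v i j, i ≠ j → y (u ++ (m ++ v)) i j = 1 := by
    intro m hm h u v
    have h1 : ∀ i j, i ≠ j → y (m ++ v) i j = 1 := fun i j hij => by
      by_cases hv : v = []
      · simpa [hv] using h i j hij
      · rw [cut i j m v hij hm hv, h _ _ (fp_spare_ne i j).1.symm]; simp
    intro i j hij
    by_cases hu : u = []
    · simpa [hu] using h1 i j hij
    · rw [cut i j u _ hij hu (by simp [hm]), h1 _ _ (fp_spare_ne i j).2]; simp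
  have peel : ∀ m m' : List Y, m ≠ [] → m' ≠ [] → (∀ i j, i ≠ j → y m i j = y m' i j) →
      ∀ u v i j, i ≠ j → y (u ++ (m ++ v)) i j = y (u ++ (m' ++ v)) i j := by
    intro m m' hm hm' h u v
    have h1 : ∀ i j, i ≠ j → y (m ++ v) i j = y (m' ++ v) i j := fun i j hij => by
      by_cases hv : v = []
      · simpa [hv] using h i j hij
      · rw [cut i j m v hij hm hv, cut i j m' v hij hm' hv, h _ _ (fp_spare_ne i j).1.symm]
    intro i j hij
    by_cases hu : u = []
    · simpa [hu] using h1 i j hij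
    · rw [cut i j u _ hij hu (by simp [hm]), cut i j u _ hij hu (by simp [hm']),
        h1 _ _ (fp_spare_ne i j).2]
  let z : List Y → Fin 5 → Fin 5 → G := fun w i j => if Val i j w then y w i j else 1
  have z1 : ∀ i j k l w w', j ≠ k → i ≠ l → Commute (z w i j) (z w' k l) := by
    intro i j k l w w' h1 h2
    simp only [z]
    split_ifs with h3 h4
    · exact S1 _ _ _ _ _ _ h3 h4 h1 h2
    · exact Commute.one_right _
    · exact Commute.one_left _
    · exact Commute.one_left _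
  have hF : ∀ i j, ∃ F : R → G, F 0 = 1 ∧ (∀ r s, F (r + s) = F r * F s) ∧
      ∀ w, F (P.wd w) = z w i j := by
    intro i j
    by_cases hij : i = j
    · exact ⟨fun _ => 1, rfl, by simp, fun w => by simp [z, Val, hij]⟩
    refine fp_exists_F P (fun w => z w i j) (fun w w' => z1 _ _ _ _ _ _ (Ne.symm hij) hij)
      (fun w => ?_) (fun u v a b h => ?_) (fun u v a b c d h => ?_)
    · simp only [z]
      split_ifs with h3
      · exact (hy _).1 i j w h3 le_rfl
      · exact one_mul 1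
    · simp only [z]
      rw [if_pos (fp_val hij (by simp))]
      exact peel0 [a, b] (by simp) (fun i j hij => hZ i j a b hij h) u v i j hij
    · simp only [z]
      rw [if_pos (fp_val hij (by simp)), if_pos (fp_val hij (by simp))]
      exact peel [a, b] [c, d] (by simp) (by simp) (fun i j hij => hM i j a b c d hij h) u v i j hij
  choose F F0 Fadd Fw using hF
  have Fv : ∀ i j w, Val i j w → F i j (P.wd w) = y w i j := fun i j w h => by
    rw [Fw]; exact if_pos h
  have C1 : ∀ i j k l r s, Ok I i j r → Ok I k l s → j ≠ k → i ≠ l →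
      Commute (F i j r) (F k l s) := by
    intro i j k l r s hr hs h1 h2
    refine fp_ind P (Q := fun r => Commute (F i j r) (F k l s)) ?_ (fun w _ => ?_)
      (fun r r' _ _ a b => ?_) hr
    · rw [F0]; exact Commute.one_left _
    · refine fp_ind P (Q := fun s => Commute (F i j (P.wd w)) (F k l s)) ?_ (fun w' _ => ?_)
        (fun r r' _ _ a b => ?_) hs
      · rw [F0]; exact Commute.one_right _
      · rw [Fw, Fw]; exact z1 _ _ _ _ _ _ h1 h2
      · rw [Fadd]; exact a.mul_right b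
    · rw [Fadd]; exact a.mul_left b
  have C2 : ∀ i j k r s, Ok I i j r → Ok I j k s → i ≠ k →
      F i j r * F j k s = F i k (r * s) * F j k s * F i j r := by
    intro i j k r s hr hs hik
    refine fp_ind P (Q := fun r => F i j r * F j k s = F i k (r * s) * F j k s * F i j r) ?_
      (fun w hw => ?_) (fun r r' hr hr' a b => ?_) hr
    · simp [F0]
    · refine fp_ind P (Q := fun s => F i j (P.wd w) * F j k s =
        F i k (P.wd w * s) * F j k s * F i j (P.wd w)) ?_ (fun w' hw' => ?_)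
        (fun s s' hs hs' a b => ?_) hs
      · simp [F0]
      · rw [← P.wd_append, Fv _ _ _ hw, Fv _ _ _ hw', Fv _ _ _ (hw.append hw' hik),
          ← S2 _ _ _ _ _ hw hw' hik, commutatorElement_def]
        group
      · have hc := C1 j k i k s _ hs ((fp_ok P hw).mul hs' hik) hik.symm hs.ne
        rw [mul_add, Fadd, Fadd, ← mul_assoc, a, mul_assoc _ (F i j _), b]
        simp only [mul_assoc]
        rw [← mul_assoc (F j k s), hc.eq, mul_assoc]
    · have hc := C1 i j i k r _ hr (hr'.mul hs hik) hr.ne.symm hik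
      rw [add_mul, add_comm (r * s), Fadd, Fadd, mul_assoc, b, ← mul_assoc, ← mul_assoc, hc.eq,
        mul_assoc _ (F i j r), a]
      simp only [mul_assoc]
  refine ⟨lift F (fun i j r s _ _ => (Fadd i j r s).symm) C2 C1, fun i j w hw => ?_⟩
  rw [lift_x _ _ _ _ (fp_ok P hw), Fv _ _ _ hw]

theorem fp {R : Type} [Ring R] [Two R] {I : Ideal R} [I.IsTwoSided] {Y : Type} [Finite Y]
    (P : WordPres Y I) : Group.IsFinitelyPresented (St (Fin 5) I) := by
  classical
  let Γ := Fin 5 × Fin 5 × Option Y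
  let φ : FreeGroup Γ →* St (Fin 5) I := FreeGroup.lift fun t =>
    t.2.2.elim (if t.1 < t.2.1 then x I t.1 t.2.1 (P.wd []) else 1)
      fun a => x I t.1 t.2.1 (P.wd [a])
  let y₀ : List Y → Fin 5 → Fin 5 → FreeGroup Γ :=
    yw (fun i j => FreeGroup.of (i, j, none)) fun i j a => FreeGroup.of (i, j, some a)
  have hφ : ∀ i j w, Val i j w → φ (y₀ w i j) = x I i j (P.wd w) := by
    intro i j w hw
    simp only [y₀, fp_yw_map, φ, FreeGroup.lift_apply_of, Option.elim]
    exact fp_yw_x P _ (fun i j h => if_pos h) w i j hw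
  let T : Set (FreeGroup Γ) :=
    insert 1 ((fun t : List Y × Fin 5 × Fin 5 => y₀ t.1 t.2.1 t.2.2) ''
      ({w | w.length ≤ 2} ×ˢ Set.univ))
  have hT : T.Finite := (((List.finite_length_le Y 2).prod Set.finite_univ).image _).insert 1
  have T1 : (1 : FreeGroup Γ) ∈ T := Set.mem_insert _ _
  have Ty : ∀ w i j, w.length ≤ 2 → y₀ w i j ∈ T := fun w i j h =>
    Set.mem_insert_of_mem _ ⟨(w, i, j), ⟨h, trivial⟩, rfl⟩
  let S : Set (FreeGroup Γ) := {g | φ g = 1} ∩
    ((fun t : FreeGroup Γ × FreeGroup Γ × FreeGroup Γ × FreeGroup Γ × FreeGroup Γ =>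
      t.1 * t.2.1 * (t.2.2.1 * t.2.2.2.1 * t.2.2.2.2)⁻¹) '' (T ×ˢ T ×ˢ T ×ˢ T ×ˢ T))
  have hS : S.Finite :=
    ((hT.prod (hT.prod (hT.prod (hT.prod hT)))).image _).subset Set.inter_subset_right
  let π := PresentedGroup.mk S
  have key : ∀ a ∈ T, ∀ b ∈ T, ∀ c ∈ T, ∀ d ∈ T, ∀ e ∈ T, φ a * φ b = φ c * φ d * φ e →
      π a * π b = π c * π d * π e := by
    intro a ha b hb c hc d hd e he h
    have : a * b * (c * d * e)⁻¹ ∈ S :=
      ⟨by simp only [Set.mem_setOf_eq, map_mul, map_inv, h, mul_inv_cancel],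
        (a, b, c, d, e), ⟨ha, hb, hc, hd, he⟩, rfl⟩
    simpa only [map_mul] using PresentedGroup.mk_eq_mk_of_mul_inv_mem this
  have hW : ∀ D, StW (fun w i j => π (y₀ w i j)) D := by
    have e : (fun w i j => π (y₀ w i j)) = yw (fun i j => π (FreeGroup.of (i, j, none)))
        fun i j a => π (FreeGroup.of (i, j, some a)) := by
      funext w i j; exact fp_yw_map π _ _ w i j
    rw [e]
    refine words_of_base _ _ ?_
    rw [← e]
    refine ⟨fun i j w hw hl => ?_, fun i j k l w w' hw hw' h1 h2 hl hl' => ?_,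
      fun i j k w w' hw hw' h1 hl => ?_⟩
    · simpa using key _ (Ty w i j (by omega)) _ (Ty w i j (by omega)) _ T1 _ T1 _ T1
        (by simp [hφ _ _ _ hw])
    · have := key _ (Ty w i j (by omega)) _ (Ty w' k l (by omega)) _ (Ty w' k l (by omega)) _
        (Ty w i j (by omega)) _ T1
        (by rw [hφ _ _ _ hw, hφ _ _ _ hw', map_one, mul_one]; exact (x_comm _ _ h1 h2).eq)
      rw [map_one, mul_one] at this
      exact this
    · have := key _ (Ty w i j (by omega)) _ (Ty w' j k (by omega)) _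
        (Ty (w ++ w') i k (by simp; omega)) _ (Ty w' j k (by omega)) _ (Ty w i j (by omega))
        (by rw [hφ _ _ _ hw, hφ _ _ _ hw', hφ _ _ _ (hw.append hw' h1), P.wd_append]
            exact x_mul' (fp_ok P hw) (fp_ok P hw') h1)
      show ⁅π _, π _⁆ = π _
      rw [commutatorElement_def, this]; group
  obtain ⟨ψ, hψ⟩ := fp_hom P _ hW
    (fun i j a b hij h => by
      simpa using key _ (Ty [a, b] i j le_rfl) _ T1 _ T1 _ T1 _ T1
        (by simp [hφ _ _ _ (fp_val hij (List.cons_ne_nil a [b])), P.hZ a b h]))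
    (fun i j a b c d hij h => by
      simpa using key _ (Ty [a, b] i j le_rfl) _ T1 _ (Ty [c, d] i j le_rfl) _ T1 _ T1
        (by simp [hφ _ _ _ (fp_val hij (List.cons_ne_nil a [b])),
          hφ _ _ _ (fp_val hij (List.cons_ne_nil c [d])), P.hM a b c d h]))
  have hcomp : ψ.comp φ = π := by
    ext ⟨i, j, o⟩
    have h1 : ∀ w, w.length ≤ 2 → (Val i j w ∨ φ (y₀ w i j) = 1) →
        ψ (φ (y₀ w i j)) = π (y₀ w i j) := by
      intro w hl h
      by_cases hw : Val i j w
      · rw [hφ _ _ _ hw, hψ _ _ _ hw]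
      · have h2 := h.resolve_left hw
        rw [h2, map_one]
        simpa using (key _ (Ty w i j hl) _ T1 _ T1 _ T1 _ T1 (by simp [h2])).symm
    cases o with
    | none =>
      refine h1 [] (by simp) ?_
      by_cases h : i < j
      · exact Or.inl (fp_val_nil h)
      · exact Or.inr (by simp [φ, y₀, yw, h])
    | some a =>
      refine h1 [a] (by simp) ?_
      by_cases h : i = j
      · exact Or.inr (by simp [φ, y₀, yw, h, x_self])
      · exact Or.inl (fp_val h (by simp))
  refine Group.IsFinitelyPresented.of_surjective φ ?_ ⟨S, hS, le_antisymm ?_ fun g hg => ?_⟩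
  · rw [← MonoidHom.range_eq_top, eq_top_iff, ← closure_x, Subgroup.closure_le]
    rintro _ ⟨i, j, r, hr, rfl⟩
    refine fp_ind P (Q := fun r => x I i j r ∈ φ.range) ?_ (fun w hw => ⟨_, hφ _ _ _ hw⟩)
      (fun r s hr hs a b => ?_) hr
    · rw [x_zero]; exact one_mem _
    · rw [← x_add hr hs]; exact mul_mem a b
  · exact Subgroup.normalClosure_le_normal fun g hg => hg.1
  · have : π g = 1 := by rw [← hcomp, MonoidHom.comp_apply, MonoidHom.mem_ker.1 hg, map_one]
    exact (QuotientGroup.eq_one_iff g).1 this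

end Crest.Agent.R176
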