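import Crest.Agent.R176.BBlock
import Crest.Agent.R176.Iface

/-!
# Row 176 B: the linking lemma  (subtask BLink)

`link_core`.  All `X` below are of bipartite matrices, so `phi (X n) = 1 + n` and they are
involutions.  Let `u = X c`.
(1) for `b` in the list: `X (b c) * X b * u = u * X (c b) * X b` (`U_ext_rk` with
`rk p = (if lv p = i then 0 else 2) + (if p ∈ A then 0 else 1)`; on matrices use `b c b = 0`,
`c c = 0`, `b b = 0`, `c b c`-terms cancel: both sides are `1 + c + b + c b + ...`; note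
`(b c) (b c) = 0`, `(c b) (c b) = 0` by levels).
(2) induction over the list: `∏ (X (c b) * X b) = α * X (acc)`, where `α = ∏ X (c b) ∈ HS A`,
`phi α = 1 + c * acc` (`conj_X_right`, `X_add`); and `∏ (X (b c) * X b) = κ * X b''` for some `b''`
with `Supp b'' C A`, entries in `I`, `κ = ∏ X (b c) ∈ HS C` (`conj_X_left`).
So `κ * X b'' * u = u * α * X (z t)`.
(3) `phi α = 1 + c z t = 1`, so `α` commutes with `u` (`conj_X_left`).
`X (z t) = ⁅X z, X t⁆` (ranks `C<D<A`), `u * X z * u⁻¹ = X z` (ranks `A<C<D`, `c z = 0`),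
`u * X t * u⁻¹ = X t * X (t c)` (ranks `D<A<C`).
(4) with `S = C ∪ D`, `HS S` normalises `{X n | Supp n S A}` (`conj_X_left`), so
`⁅X z, X t * X (t c)⁆ = ⁅X z, X (t c)⁆ * X n₁`.  Hence `α * κ' * X n₁ = κ * X b''`,
`κ⁻¹ * α * κ' = X n` with `Supp n S A`; entries `(S, A)` of the matrix (`HS_supp`, `phi α = 1`)
give `n = 0`.  (`α` commutes with `HS S`: `HS_commute`.)

`link`.  Choose `G_t` by `Syz.gen`.  With `C = range fC`, etc.:
`c = emb fA fC (of fun (i,a) (k,o,β) => if i = k then lam (w o) a β else 0)`,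
`b_t = emb fC fA (rhoHat G̃_t)`, `rhoHat G̃ ((k,o,β)) ((j,a)) = rho (G̃ (k,o) j) β a`,
`G̃_t (k,o) j = if k = i_t ∧ j = j_t then G_t o else 0`; `lv` = first coordinate (any value off the
ranges).  Then `c b_t = emb (fA (i_t,·)) (fA (j_t,·)) (al r_t)` (`lam_rho`, `al_add`),
`rhoHat G * ĉ * rhoHat G' = rhoHat (G Ŵ G')` (`rho_lam`, `rho_mul`), so `acc = emb fC fA (rhoHat G')`
where `G'` follows the recursion `G' ↦ G' + G̃_t + G' Ŵ G̃_t` independent of the datum, with
`1 + Ŵ G' = phi (∏ x i_t j_t r_t) = 1`.  `Syz.syz` for each `(k, j)` gives `T`;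
`z = emb fC fD (Z ⊗ 1)`, `t = emb fD fA (rhoHat T)`, `c z = 0` (`lam_mul`, `wZ`).
`b_t c = emb fC fC (G̃_t Ŵ ⊗ 1)` and `t c = emb fD fC (T Ŵ ⊗ 1)` do not depend on the datum.
-/

set_option autoImplicit false
set_option linter.unusedSectionVars false

open Matrix
open scoped commutatorElement

namespace Crest.Agent.R176

section Core

variable {κ : Type} [LinearOrder κ] [Fintype κ] {R : Type} [Ring R] [Two R] {I : Ideal R}
  [I.IsTwoSided]

/-- accumulated lower block -/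
def acc (c : Matrix κ κ R) (bs : List (Matrix κ κ R)) : Matrix κ κ R :=
  bs.foldl (fun b' b => b' + b + b' * c * b) 0

theorem lk_ex {n m : Matrix κ κ R} {p q : κ} (h : (n * m) p q ≠ 0) :
    ∃ k, n p k ≠ 0 ∧ m k q ≠ 0 := by
  by_contra h'
  push Not at h'
  refine h ?_
  rw [Matrix.mul_apply]
  refine Finset.sum_eq_zero fun k _ => ?_
  by_cases hk : n p k = 0
  · rw [hk, zero_mul]
  · rw [h' k hk, mul_zero]

theorem lk_mem_left (n : Matrix κ κ R) {m : Matrix κ κ R} (h : ∀ p q, m p q ∈ I) (p q : κ) :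
    (n * m) p q ∈ I := by
  rw [Matrix.mul_apply]
  exact I.sum_mem fun k _ => I.mul_mem_left _ (h k q)

theorem lk_mem_right {n : Matrix κ κ R} (m : Matrix κ κ R) (h : ∀ p q, n p q ∈ I) (p q : κ) :
    (n * m) p q ∈ I := by
  rw [Matrix.mul_apply]
  exact I.sum_mem fun k _ => I.mul_mem_right _ (h p k)

theorem lk_phi {n : Matrix κ κ R} {S T : Set κ} (hST : Disjoint S T) (hn : Supp n S T)
    (h : ∀ p q, n p q ∈ I) : phi I (X I n) = 1 + n :=
  phi_X_of_supp hST hn (mok_of_mem hST hn h)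

/-- `g = X n` with `n` supported on `S × T`, entries in `I` -/
def IsX (I : Ideal R) (S T : Set κ) (g : St κ I) : Prop :=
  ∃ n, Supp n S T ∧ (∀ p q, n p q ∈ I) ∧ g = X I n

theorem IsX.mul {S T : Set κ} (hST : Disjoint S T) {g g' : St κ I} (h : IsX I S T g)
    (h' : IsX I S T g') : IsX I S T (g * g') := by
  obtain ⟨n, h1, h2, rfl⟩ := h
  obtain ⟨m, h3, h4, rfl⟩ := h'
  exact ⟨n + m, h1.add h3, fun p q => I.add_mem (h2 p q) (h4 p q),
    X_add hST h1 h3 (mok_of_mem hST h1 h2) (mok_of_mem hST h3 h4)⟩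

theorem IsX.inv {S T : Set κ} (hST : Disjoint S T) {g : St κ I} (h : IsX I S T g) :
    IsX I S T g⁻¹ := by
  obtain ⟨n, h1, h2, rfl⟩ := h
  exact ⟨n, h1, h2, X_inv hST h1 (mok_of_mem hST h1 h2)⟩

theorem IsX.conj {S T : Set κ} (hST : Disjoint S T) {g k : St κ I} (h : IsX I S T g)
    (hk : k ∈ HS I S) : IsX I S T (k * g * k⁻¹) := by
  obtain ⟨n, h1, h2, rfl⟩ := h
  exact ⟨_, supp_mul_left hST hk h1, lk_mem_left _ h2,
    conj_X_left hST hk h1 (mok_of_mem hST h1 h2)⟩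

theorem lk_levels {P : Type} (lv : κ → P) {A C : Set κ} {c b : Matrix κ κ R} (hc : Supp c A C)
    (hcl : ∀ p q, c p q ≠ 0 → lv p = lv q) (hb : Supp b C A) {i j : P}
    (hl : ∀ p q, b p q ≠ 0 → lv p = i ∧ lv q = j) :
    Supp (c * b) (A ∩ {p | lv p = i}) (A ∩ {p | lv p = j}) ∧
      Supp (b * c) (C ∩ {p | lv p = i}) (C ∩ {p | lv p = j}) := by
  constructor
  · intro p q h
    obtain ⟨k, h1, h2⟩ := lk_ex h
    exact ⟨⟨(hc _ _ h1).1, (hcl _ _ h1).trans (hl _ _ h2).1⟩, (hb _ _ h2).2, (hl _ _ h2).2⟩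
  · intro p q h
    obtain ⟨k, h1, h2⟩ := lk_ex h
    exact ⟨⟨(hb _ _ h1).1, (hl _ _ h1).1⟩, (hc _ _ h2).2, (hcl _ _ h2).symm.trans (hl _ _ h1).2⟩

theorem lk_disj {P : Type} (lv : κ → P) (A : Set κ) {i j : P} (hij : i ≠ j) :
    Disjoint (A ∩ {p | lv p = i}) (A ∩ {p | lv p = j}) :=
  Set.disjoint_left.2 fun _ h h' => hij (h.2.symm.trans h'.2)

theorem lk_step {P : Type} (lv : κ → P) {A C : Set κ} (hAC : Disjoint A C) {c b : Matrix κ κ R}
    (hc : Supp c A C) (hcI : ∀ p q, c p q ∈ I) (hcl : ∀ p q, c p q ≠ 0 → lv p = lv q)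
    (hb : Supp b C A) (hbI : ∀ p q, b p q ∈ I) {i j : P} (hij : i ≠ j)
    (hl : ∀ p q, b p q ≠ 0 → lv p = i ∧ lv q = j) :
    X I (b * c) * X I b * X I c = X I c * (X I (c * b) * X I b) := by
  classical
  obtain ⟨h1, h2⟩ := lk_levels lv hc hcl hb hl
  have hA : ∀ p ∈ C, p ∉ A := fun p h h' => Set.disjoint_left.1 hAC h' h
  set rk : κ → ℕ := fun p => (if lv p = i then 0 else 2) + if p ∈ A then 0 else 1 with hrk
  have mb : X I b ∈ U I fun p q => rk p < rk q := X_mem_U fun p q h => by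
    simp [hrk, (hl p q h).1, (hl p q h).2, hij.symm, (hb p q h).2, hA p (hb p q h).1]
  have mc : X I c ∈ U I fun p q => rk p < rk q := X_mem_U fun p q h => by
    simp [hrk, hcl p q h, (hc p q h).1, hA q (hc p q h).2]
  have mcb : X I (c * b) ∈ U I fun p q => rk p < rk q := X_mem_U fun p q h => by
    obtain ⟨⟨a1, a2⟩, a3, a4⟩ := h1 p q h
    simp only [Set.mem_ofPred_eq] at a2 a4
    simp [hrk, a1, a2, a3, a4, hij.symm]
  have mbc : X I (b * c) ∈ U I fun p q => rk p < rk q := X_mem_U fun p q h => by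
    obtain ⟨⟨a1, a2⟩, a3, a4⟩ := h2 p q h
    simp only [Set.mem_ofPred_eq] at a2 a4
    simp [hrk, hA p a1, a2, hA q a3, a4, hij.symm]
  refine U_ext_rk rk (mul_mem (mul_mem mbc mb) mc) (mul_mem mc (mul_mem mcb mb)) ?_
  have e1 : b * b = 0 := supp_mul_eq_zero hb hb hAC
  have e2 : c * c = 0 := supp_mul_eq_zero hc hc hAC.symm
  have e3 : b * c * b = 0 := supp_mul_eq_zero h2
    (fun p q h => ⟨⟨(hb p q h).1, (hl p q h).1⟩, (hb p q h).2⟩ : Supp b (C ∩ {p | lv p = i}) A)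
    (lk_disj lv C hij.symm)
  simp only [map_mul, lk_phi hAC hc hcI, lk_phi hAC.symm hb hbI,
    lk_phi (lk_disj lv A hij) h1 (lk_mem_left _ hbI),
    lk_phi (lk_disj lv C hij) h2 (lk_mem_left _ hcI)]
  have l1 : (1 + b * c) * (1 + b) * (1 + c) =
      1 + b + c + (b * c + b * c) + b * c * b * (1 + c) + b * (c * c) := by noncomm_ring
  have l2 : (1 + c) * ((1 + c * b) * (1 + b)) =
      1 + b + c + (c * b + c * b) + c * c * b * (1 + b) + c * (b * b) := by noncomm_ring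
  rw [l1, l2, add_self2, add_self2, e1, e2, e3]
  simp

theorem lk_comm {C D A : Set κ} (hAC : Disjoint A C) (hAD : Disjoint A D) (hCD : Disjoint C D)
    {z t : Matrix κ κ R} (hz : Supp z C D) (hzI : ∀ p q, z p q ∈ I) (ht : Supp t D A)
    (htI : ∀ p q, t p q ∈ I) : X I z * X I t = X I t * X I (z * t) * X I z := by
  classical
  have h1 : ∀ p ∈ D, p ∉ C := fun p h h' => Set.disjoint_left.1 hCD h' h
  have h2 : ∀ p ∈ A, p ∉ C := fun p h h' => Set.disjoint_left.1 hAC h h'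
  have h3 : ∀ p ∈ A, p ∉ D := fun p h h' => Set.disjoint_left.1 hAD h h'
  have hzt := supp_mul hz ht
  set rk : κ → ℕ := fun p => if p ∈ C then 0 else if p ∈ D then 1 else 2 with hrk
  have mz : X I z ∈ U I fun p q => rk p < rk q := X_mem_U fun p q h => by
    simp [hrk, (hz p q h).1, (hz p q h).2, h1 q (hz p q h).2]
  have mt : X I t ∈ U I fun p q => rk p < rk q := X_mem_U fun p q h => by
    simp [hrk, (ht p q h).1, h1 p (ht p q h).1, h2 q (ht p q h).2, h3 q (ht p q h).2]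
  have mzt : X I (z * t) ∈ U I fun p q => rk p < rk q := X_mem_U fun p q h => by
    simp [hrk, (hzt p q h).1, h2 q (hzt p q h).2, h3 q (hzt p q h).2]
  refine U_ext_rk rk (mul_mem mz mt) (mul_mem (mul_mem mt mzt) mz) ?_
  have e1 : t * z = 0 := supp_mul_eq_zero ht hz hAC
  simp only [map_mul, lk_phi hCD hz hzI, lk_phi hAD.symm ht htI,
    lk_phi hAC.symm hzt (lk_mem_left _ htI)]
  have l1 : (1 + t) * (1 + z * t) * (1 + z) =
      (1 + z) * (1 + t) + t * z + z * (t * z) + t * z * t * (1 + z) := by noncomm_ring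
  rw [l1, e1]
  simp

theorem link_core {P : Type} (lv : κ → P) {A C D : Set κ} (hAC : Disjoint A C)
    (hAD : Disjoint A D) (hCD : Disjoint C D) {c : Matrix κ κ R} (hc : Supp c A C)
    (hcI : ∀ p q, c p q ∈ I) (hcl : ∀ p q, c p q ≠ 0 → lv p = lv q) (bs : List (Matrix κ κ R))
    (hb : ∀ b ∈ bs, Supp b C A ∧ (∀ p q, b p q ∈ I) ∧
      ∃ i j, i ≠ j ∧ ∀ p q, b p q ≠ 0 → lv p = i ∧ lv q = j)
    {z t : Matrix κ κ R} (hz : Supp z C D) (hzI : ∀ p q, z p q ∈ I) (ht : Supp t D A)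
    (htI : ∀ p q, t p q ∈ I) (hcz : c * z = 0) (hacc : acc c bs = z * t) :
    (bs.map fun b => X I (c * b)).prod =
      (bs.map fun b => X I (b * c)).prod * ⁅X I z, X I (t * c)⁆⁻¹ := by
  have key : Supp (acc c bs) C A ∧ (∀ p q, acc c bs p q ∈ I) ∧
      (bs.map fun b => X I (c * b)).prod ∈ HS I A ∧ (bs.map fun b => X I (b * c)).prod ∈ HS I C ∧
      phi I (bs.map fun b => X I (c * b)).prod = 1 + c * acc c bs ∧
      ∃ g, IsX I C A g ∧ (bs.map fun b => X I (b * c)).prod * g * X I c =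
        X I c * ((bs.map fun b => X I (c * b)).prod * X I (acc c bs)) := by
    clear hacc
    induction bs using List.reverseRecOn with
    | nil =>
      refine ⟨fun _ _ h => absurd rfl h, fun _ _ => I.zero_mem, one_mem _, one_mem _,
        by simp [acc], 1, ⟨0, fun _ _ h => absurd rfl h, fun _ _ => I.zero_mem, X_zero.symm⟩, ?_⟩
      simp [acc, X_zero]
    | append_singleton bs b ih =>
      obtain ⟨a1, a2, a3, a4, a5, g, a6, a7⟩ := ih fun b hb' => hb b (List.mem_append_left _ hb')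
      obtain ⟨b1, b2, i, j, hij, b3⟩ := hb b (by simp)
      obtain ⟨h1, h2⟩ := lk_levels lv hc hcl b1 b3
      have m1 : X I (c * b) ∈ HS I A := X_mem_HS h1 Set.inter_subset_left Set.inter_subset_left
      have m2 : X I (b * c) ∈ HS I C := X_mem_HS h2 Set.inter_subset_left Set.inter_subset_left
      have p1 := lk_phi (lk_disj lv A hij) h1 (lk_mem_left _ b2)
      have hacc' : acc c (bs ++ [b]) = acc c bs + b + acc c bs * c * b := by
        simp [acc, List.foldl_append]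
      have s1 : Supp (acc c bs * c * b) C A := supp_mul (supp_mul a1 hc) b1
      have s2 : Supp (acc c bs * (1 + c * b)) C A := by
        rw [mul_add, mul_one, ← mul_assoc]; exact a1.add s1
      have c1 := conj_X_right hAC.symm m1 a1 (mok_of_mem hAC.symm a1 a2)
      rw [p1] at c1
      have c2 := X_add hAC.symm s2 b1 (mok_of_mem hAC.symm s2 (lk_mem_right _ a2))
        (mok_of_mem hAC.symm b1 b2)
      have c3 : acc c bs * (1 + c * b) + b = acc c bs + b + acc c bs * c * b := by noncomm_ring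
      simp only [List.map_append, List.prod_append, List.map_cons, List.map_nil, List.prod_cons,
        List.prod_nil, mul_one, hacc']
      refine ⟨(a1.add b1).add s1,
        fun p q => I.add_mem (I.add_mem (a2 p q) (b2 p q)) (lk_mem_left _ b2 p q),
        mul_mem a3 m1, mul_mem a4 m2, by rw [map_mul, a5, p1]; noncomm_ring,
        (X I (b * c))⁻¹ * g * (X I (b * c))⁻¹⁻¹ * X I b,
        (a6.conj hAC.symm (inv_mem m2)).mul hAC.symm ⟨b, b1, b2, rfl⟩, ?_⟩
      have c4 := lk_step lv hAC hc hcI hcl b1 b2 hij b3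
      rw [← c3, ← c2, ← c1]
      calc _ = (bs.map fun b => X I (b * c)).prod * g * (X I (b * c) * X I b * X I c) := by group
        _ = (bs.map fun b => X I (b * c)).prod * g * X I c * (X I (c * b) * X I b) := by
          rw [c4]; group
        _ = _ := by rw [a7]; group
  obtain ⟨-, -, a3, a4, a5, g, a6, a7⟩ := key
  set α := (bs.map fun b => X I (c * b)).prod
  set k := (bs.map fun b => X I (b * c)).prod
  rw [hacc, ← mul_assoc, hcz, zero_mul, add_zero] at a5
  rw [hacc] at a7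
  have hS : Disjoint (C ∪ D) A := Set.disjoint_union_left.2 ⟨hAC.symm, hAD.symm⟩
  have d1 := conj_X_left hAC a3 hc (mok_of_mem hAC hc hcI)
  rw [a5, one_mul] at d1
  have d2 := lk_comm hAC hAD hCD hz hzI ht htI
  have d3 := lk_comm hAD.symm hCD.symm hAC hc hcI hz hzI
  rw [hcz, X_zero, mul_one] at d3
  have d4 := lk_comm hCD hAC.symm hAD.symm ht htI hc hcI
  have htc := supp_mul ht hc
  have hzt := supp_mul hz ht
  have i1 := X_inv hAC.symm hzt (mok_of_mem hAC.symm hzt (lk_mem_left _ htI))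
  have mz : X I z ∈ HS I (C ∪ D) := X_mem_HS hz Set.subset_union_left Set.subset_union_right
  have mw : X I (t * c) ∈ HS I (C ∪ D) :=
    X_mem_HS htc Set.subset_union_right Set.subset_union_left
  have mk : k ∈ HS I (C ∪ D) := HS_mono Set.subset_union_left a4
  have xt : IsX I (C ∪ D) A (X I t) := ⟨t, ht.mono Set.subset_union_right le_rfl, htI, rfl⟩
  have xg : IsX I (C ∪ D) A g := by
    obtain ⟨n, h1, h2, rfl⟩ := a6
    exact ⟨n, h1.mono Set.subset_union_left le_rfl, h2, rfl⟩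
  have xc : Commute (X I (t * c)) (X I c) := by
    have h1 : Supp (t * c) (D ∪ A) C := htc.mono Set.subset_union_left le_rfl
    have h2 : Supp c (D ∪ A) C := hc.mono Set.subset_union_right le_rfl
    have h3 : Disjoint (D ∪ A) C := Set.disjoint_union_left.2 ⟨hCD.symm, hAC⟩
    have h4 := mok_of_mem h3 h1 (lk_mem_left _ hcI)
    have h5 := mok_of_mem h3 h2 hcI
    exact (X_add h3 h1 h2 h4 h5).trans ((congrArg _ (add_comm _ _)).trans
      (X_add h3 h2 h1 h5 h4).symm)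
  generalize X I c = u at *
  generalize X I z = Z at *
  generalize X I t = T at *
  generalize X I (t * c) = V at *
  generalize X I (z * t) = Y at *
  have f1 : u * T * u⁻¹ = V⁻¹ * T := by
    have : T = u * V * T * u⁻¹ := by
      calc T = T * u * u⁻¹ := by group
        _ = _ := by rw [d4]
    calc u * T * u⁻¹ = V⁻¹ * (V * u) * T * u⁻¹ := by group
      _ = V⁻¹ * (u * V * T * u⁻¹) := by rw [xc.eq]; group
      _ = _ := by rw [← this]
  have f2 : u * Z * u⁻¹ = Z := by rw [d3]; group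
  have f3 : Y = Z * T⁻¹ * Z⁻¹ * T := by
    calc Y = Y⁻¹ := i1.symm
      _ = (T⁻¹ * (T * Y * Z) * Z⁻¹)⁻¹ := by group
      _ = _ := by rw [← d2]; group
  have f4 : k * g = α * (Z * (V⁻¹ * T)⁻¹ * Z⁻¹ * (V⁻¹ * T)) := by
    calc k * g = k * g * u * u⁻¹ := by group
      _ = u * α * Y * u⁻¹ := by rw [a7]; group
      _ = α * u * α⁻¹ * α * Y * u⁻¹ := by rw [d1]
      _ = α * ((u * Z * u⁻¹) * (u * T * u⁻¹)⁻¹ * (u * Z * u⁻¹)⁻¹ * (u * T * u⁻¹)) := by
        rw [f3]; group
      _ = _ := by rw [f1, f2]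
  have mk' : ⁅Z, V⁆ ∈ HS I (C ∪ D) := by
    rw [commutatorElement_def]
    exact mul_mem (mul_mem (mul_mem mz mw) (inv_mem mz)) (inv_mem mw)
  obtain ⟨n, n1, n2, n3⟩ := xg.mul hS
    (((((xt.inv hS).conj hS mz).conj hS (inv_mem mk')).mul hS xt).inv hS)
  have hcom : Commute k⁻¹ α := HS_commute hS (inv_mem mk) a3
  have f5 : α * (k⁻¹ * ⁅Z, V⁆) = X I n := by
    rw [← n3, ← mul_assoc, ← hcom.eq, mul_assoc, inv_mul_eq_iff_eq_mul, ← mul_assoc k, f4,
      commutatorElement_def]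
    group
  have f6 : phi I (k⁻¹ * ⁅Z, V⁆) = 1 + n := by
    rw [← lk_phi hS n1 n2, ← f5, map_mul (phi I) α, a5, one_mul]
  have f7 : n = 0 := by
    ext p q
    by_contra h
    have h1 := HS_supp (mul_mem (inv_mem mk) mk') (i := p) (j := q)
      fun h' => Set.disjoint_left.1 hS h'.2 (n1 p q h).2
    rw [f6, Matrix.add_apply, add_eq_left] at h1
    exact h h1
  rw [f7, X_zero] at f5
  have f8 : k⁻¹ * α * ⁅Z, V⁆ = 1 := by rw [hcom.eq, mul_assoc]; exact f5
  generalize ⁅Z, V⁆ = w at *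
  calc α = k * (k⁻¹ * α * w) * w⁻¹ := by group
    _ = _ := by rw [f8, mul_one]

end Core

variable {R : Type} [Ring R] [Algebra (ZMod 2) R] (𝒜 : ℕ → Submodule (ZMod 2) R)
  [GradedAlgebra 𝒜]
variable {ι κ : Type} [LinearOrder ι] [Fintype ι] [LinearOrder κ] [Fintype κ]

section Blocks

variable {𝒜} {M : ℕ} {A B U V : Type} [Fintype A] [Fintype B] [DecidableEq B] [Fintype U]
  [Fintype V] {al : R → Matrix A A R} (D : Datum 𝒜 M A B al)

def rhoH (G : Matrix U ι R) : Matrix (U × B) (ι × A) R :=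
  Matrix.of fun s t => D.rho (G s.1 t.1) s.2 t.2

def lamH (H : Matrix ι U R) : Matrix (ι × A) (U × B) R :=
  Matrix.of fun s t => D.lam (H s.1 t.1) s.2 t.2

def ten (B : Type) [DecidableEq B] (H : Matrix U V R) : Matrix (U × B) (V × B) R :=
  Matrix.of fun s t => if s.2 = t.2 then H s.1 t.1 else 0

def alH (al : R → Matrix A A R) (N : Matrix ι ι R) : Matrix (ι × A) (ι × A) R :=
  Matrix.of fun s t => al (N s.1 t.1) s.2 t.2

theorem rhoH_mul_lamH {G : Matrix U ι R} {H : Matrix ι V R} (hG : ∀ s t, G s t ∈ J 𝒜 M)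
    (hH : ∀ s t, H s t ∈ J 𝒜 M) : rhoH D G * lamH D H = ten B (G * H) := by
  ext s t
  simp only [rhoH, lamH, ten, Matrix.mul_apply, Matrix.of_apply, Fintype.sum_prod_type]
  have h : ∀ i, ∑ a, D.rho (G s.1 i) s.2 a * D.lam (H i t.1) a t.2 =
      if s.2 = t.2 then G s.1 i * H i t.1 else 0 := fun i => by
    rw [← Matrix.mul_apply, D.rho_lam _ (hG _ _) _ (hH _ _), Matrix.diagonal_apply]
  simp only [h]
  split_ifs <;> simp

theorem ten_mul_rhoH (H : Matrix U V R) {G : Matrix V ι R} (hG : ∀ s t, G s t ∈ J 𝒜 M) :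
    ten B H * rhoH D G = rhoH D (H * G) := by
  ext s t
  simp only [rhoH, ten, Matrix.mul_apply, Matrix.of_apply, Fintype.sum_prod_type, ite_mul, zero_mul,
    Finset.sum_ite_eq, Finset.mem_univ, if_true, map_sum, Matrix.sum_apply]
  exact Finset.sum_congr rfl fun v _ => (D.rho_mul _ (hG _ _) _ _ _).symm

theorem lamH_mul_ten {H : Matrix ι U R} (hH : ∀ s t, H s t ∈ J 𝒜 M) (Z : Matrix U V R) :
    lamH D H * ten B Z = lamH D (H * Z) := by
  ext s t
  simp only [lamH, ten, Matrix.mul_apply, Matrix.of_apply, Fintype.sum_prod_type, mul_ite, mul_zero,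
    Finset.sum_ite_eq', Finset.mem_univ, if_true, map_sum, Matrix.sum_apply]
  exact Finset.sum_congr rfl fun v _ => (D.lam_mul _ (hH _ _) _ _ _).symm

theorem lamH_mul_rhoH {H : Matrix ι U R} {G : Matrix U ι R} (hH : ∀ s t, H s t ∈ J 𝒜 M)
    (hG : ∀ s t, G s t ∈ J 𝒜 M) : lamH D H * rhoH D G = alH al (H * G) := by
  ext s t
  simp only [rhoH, lamH, alH, Matrix.mul_apply, Matrix.of_apply, Fintype.sum_prod_type]
  have h : ∀ u, ∑ b, D.lam (H s.1 u) s.2 b * D.rho (G u t.1) b t.2 =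
      al (H s.1 u * G u t.1) s.2 t.2 := fun u => by
    rw [← Matrix.mul_apply, D.lam_rho _ (hH _ _) _ (hG _ _)]
  simp only [h]
  have h2 := map_sum (AddMonoidHom.mk' al D.al_add) (fun u => H s.1 u * G u t.1) Finset.univ
  simp only [AddMonoidHom.mk'_apply] at h2
  rw [h2, Matrix.sum_apply]

theorem rhoH_add (G G' : Matrix U ι R) : rhoH D (G + G') = rhoH D G + rhoH D G' := by
  ext s t; simp [rhoH]

theorem rhoH_zero : rhoH D (0 : Matrix U ι R) = 0 := by
  ext s t; simp [rhoH]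

theorem lamH_zero : lamH D (0 : Matrix ι U R) = 0 := by
  ext s t; simp [lamH]

include D in
theorem emb_alH (fA : ι × A → κ) (i j : ι) (r : R) :
    emb fA fA (alH al (single i j r)) = emb (fun a => fA (i, a)) (fun a => fA (j, a)) (al r) := by
  have h0 : al 0 = 0 := (AddMonoidHom.mk' al D.al_add).map_zero
  simp only [emb, alH, Matrix.of_apply, Fintype.sum_prod_type]
  rw [Finset.sum_eq_single i]
  · refine Finset.sum_congr rfl fun a _ => ?_
    rw [Finset.sum_eq_single j]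
    · simp
    · intro k _ hk
      simp [single_apply_of_col_ne _ _ hk.symm, h0]
    · simp
  · intro k _ hk
    simp [single_apply_of_row_ne hk.symm, h0]
  · simp

variable {W Zi : Type} [Fintype W] [Fintype Zi] (sy : Syz 𝒜 M W Zi)

def wH (ι : Type) [LinearOrder ι] : Matrix ι (ι × W) R :=
  Matrix.of fun i s => if i = s.1 then sy.w s.2 else 0

def zH (ι : Type) [LinearOrder ι] : Matrix (ι × W) (ι × Zi) R :=
  Matrix.of fun s t => if s.1 = t.1 then sy.Z s.2 t.2 else 0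

def gH (G : ι × ι × R → W → R) (t : ι × ι × R) : Matrix (ι × W) ι R :=
  Matrix.of fun s j => if s.1 = t.1 ∧ j = t.2.1 then G t s.2 else 0

def accG (G : ι × ι × R → W → R) (y : List (ι × ι × R)) : Matrix (ι × W) ι R :=
  y.foldl (fun G' t => G' + gH G t + G' * wH sy ι * gH G t) 0

theorem wH_mem (s : ι) (t : ι × W) : wH sy ι s t ∈ J 𝒜 M := by
  simp only [wH, Matrix.of_apply]
  split_ifs
  exacts [sy.w_mem _, zero_mem _]

theorem wH_mul_apply (G : Matrix (ι × W) ι R) (i j : ι) :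
    (wH sy ι * G) i j = ∑ o, sy.w o * G (i, o) j := by
  simp [wH, Matrix.mul_apply, Fintype.sum_prod_type]

theorem wH_mul_zH : wH sy ι * zH sy ι = 0 := by
  ext i t
  simp only [wH, zH, Matrix.mul_apply, Fintype.sum_prod_type, Matrix.of_apply, ite_mul, zero_mul,
    Matrix.zero_apply]
  rw [Finset.sum_eq_single i]
  · by_cases h : i = t.1 <;> simp [h, sy.wZ]
  · intro k _ hk; simp [hk.symm]
  · simp

theorem gH_mem {N : ℕ} {G : ι × ι × R → W → R} {t : ι × ι × R} (h : ∀ o, G t o ∈ J 𝒜 N)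
    (s : ι × W) (j : ι) : gH G t s j ∈ J 𝒜 N := by
  simp only [gH, Matrix.of_apply]
  split_ifs
  exacts [h _, zero_mem _]

theorem wH_mul_gH {G : ι × ι × R → W → R} {t : ι × ι × R} (h : t.2.2 = ∑ o, sy.w o * G t o) :
    wH sy ι * gH G t = single t.1 t.2.1 t.2.2 := by
  ext i j
  rw [wH_mul_apply]
  by_cases hij : i = t.1 ∧ j = t.2.1
  · obtain ⟨rfl, rfl⟩ := hij
    simp [gH, ← h]
  · rw [single_apply_of_ne _ _ _ _ _ fun h' => hij ⟨h'.1.symm, h'.2.symm⟩]
    simp [gH, hij]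

theorem accG_snoc (G : ι × ι × R → W → R) (y : List (ι × ι × R)) (t : ι × ι × R) :
    accG sy G (y ++ [t]) = accG sy G y + gH G t + accG sy G y * wH sy ι * gH G t := by
  simp [accG, List.foldl_append]

theorem accG_mem {N : ℕ} {G : ι × ι × R → W → R} {y : List (ι × ι × R)}
    (h : ∀ t ∈ y, ∀ o, G t o ∈ J 𝒜 N) (s : ι × W) (j : ι) : accG sy G y s j ∈ J 𝒜 N := by
  induction y using List.reverseRecOn generalizing s j with
  | nil => exact zero_mem _
  | append_singleton y t ih =>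
    have h1 := gH_mem (h t (by simp))
    rw [accG_snoc, Matrix.add_apply, Matrix.add_apply, Matrix.mul_apply]
    exact add_mem (add_mem (ih (fun t' ht' => h t' (List.mem_append_left _ ht')) s j) (h1 s j))
      (Ideal.sum_mem _ fun k _ => Ideal.mul_mem_left _ _ (h1 k j))

theorem phi_accG {G : ι × ι × R → W → R} {y : List (ι × ι × R)}
    (h : ∀ t ∈ y, Ok (J 𝒜 1) t.1 t.2.1 t.2.2 ∧ t.2.2 = ∑ o, sy.w o * G t o) :
    phi (J 𝒜 1) (y.map fun t => x (J 𝒜 1) t.1 t.2.1 t.2.2).prod = 1 + wH sy ι * accG sy G y := by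
  induction y using List.reverseRecOn with
  | nil => simp [accG]
  | append_singleton y t ih =>
    obtain ⟨h1, h2⟩ := h t (by simp)
    simp only [List.map_append, List.prod_append, List.map_cons, List.map_nil, List.prod_cons,
      List.prod_nil, mul_one]
    rw [map_mul, ih fun t' ht' => h t' (List.mem_append_left _ ht'), phi_x h1,
      ← wH_mul_gH sy h2, accG_snoc]
    simp only [Matrix.mul_add, Matrix.add_mul, Matrix.mul_assoc, Matrix.one_mul, Matrix.mul_one]
    abel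

include D in
theorem link_aux {fA : ι × A → κ} {fC : (ι × W) × B → κ} {fD : (ι × Zi) × B → κ}
    (hA : Function.Injective fA) (hC : Function.Injective fC) (hD : Function.Injective fD)
    (hAC : ∀ s t, fA s ≠ fC t) (hAD : ∀ s t, fA s ≠ fD t) (hCD : ∀ s t, fC s ≠ fD t)
    {y : List (ι × ι × R)} {G : ι × ι × R → W → R}
    (hy : ∀ t ∈ y, t.1 ≠ t.2.1 ∧ (∀ o, G t o ∈ J 𝒜 M) ∧ t.2.2 = ∑ o, sy.w o * G t o)
    {T : Matrix (ι × Zi) ι R} (hT : ∀ s j, T s j ∈ J 𝒜 M) (hGT : accG sy G y = zH sy ι * T) :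
    (y.map fun t => X (J 𝒜 1) (emb (fun a => fA (t.1, a)) (fun a => fA (t.2.1, a)) (al t.2.2))).prod =
    (y.map fun t => X (J 𝒜 1) (emb fC fC (ten B (gH G t * wH sy ι)))).prod *
      ⁅X (J 𝒜 1) (emb fC fD (ten B (zH sy ι))), X (J 𝒜 1) (emb fD fC (ten B (T * wH sy ι)))⁆⁻¹ := by
  classical
  have dis : ∀ {α β : Type} {f : α → κ} {g : β → κ}, (∀ s t, f s ≠ g t) →
      Disjoint (Set.range f) (Set.range g) := fun h =>
    Set.disjoint_left.2 (by rintro _ ⟨s, rfl⟩ ⟨t, ht⟩; exact h s t ht.symm)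
  set lv : κ → Option ι := Function.extend fA (fun s => some s.1)
    (Function.extend fC (fun s => some s.1.1) fun _ => none) with hlv
  have lvA : ∀ s, lv (fA s) = some s.1 := fun s => hA.extend_apply _ _ s
  have lvC : ∀ s, lv (fC s) = some s.1.1 := fun s => by
    rw [hlv, Function.extend_apply' _ _ _ (by rintro ⟨t, ht⟩; exact hAC t s ht)]
    exact hC.extend_apply _ _ s
  set c := emb fA fC (lamH D (wH sy ι)) with hc
  have hacc : ∀ y : List (ι × ι × R), (∀ t ∈ y, ∀ o, G t o ∈ J 𝒜 M) →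
      acc c (y.map fun t => emb fC fA (rhoH D (gH G t))) = emb fC fA (rhoH D (accG sy G y)) := by
    intro y hy
    induction y using List.reverseRecOn with
    | nil => simp [acc, accG, rhoH_zero, emb_zero]
    | append_singleton y t ih =>
      have h1 := fun t' ht' => hy t' (List.mem_append_left [t] ht')
      have h2 := ih h1
      unfold acc at h2 ⊢
      rw [List.map_append, List.foldl_append, h2, accG_snoc, rhoH_add, rhoH_add, emb_add, emb_add]
      simp only [List.map_cons, List.map_nil, List.foldl_cons, List.foldl_nil]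
      rw [hc, emb_mul_emb _ hA, emb_mul_emb _ hC, rhoH_mul_lamH D (accG_mem sy h1) (wH_mem sy),
        ten_mul_rhoH D _ (gH_mem (hy t (by simp)))]
  have key := link_core (I := J 𝒜 1) lv (dis hAC) (dis hAD) (dis hCD) (c := c) (supp_emb _ _ _)
    (emb_mem fun s t => D.lam_mem _ (wH_mem sy _ _) _ _)
    (fun p q h => by
      obtain ⟨s, t, rfl, rfl, h0⟩ := emb_ne_zero h
      rw [lvA, lvC]
      by_contra h'
      refine h0 ?_
      have : s.1 ≠ t.1.1 := fun h'' => h' (by rw [h''])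
      simp [lamH, wH, this])
    (y.map fun t => emb fC fA (rhoH D (gH G t)))
    (fun b hb => by
      obtain ⟨t, ht, rfl⟩ := List.mem_map.1 hb
      refine ⟨supp_emb _ _ _, emb_mem fun s t' => D.rho_mem _ (gH_mem (hy t ht).2.1 _ _) _ _,
        some t.1, some t.2.1, fun h => (hy t ht).1 (Option.some_injective _ h), fun p q h => ?_⟩
      obtain ⟨s, t', rfl, rfl, h0⟩ := emb_ne_zero h
      rw [lvA, lvC]
      by_contra h'
      refine h0 ?_
      have : ¬ (s.1.1 = t.1 ∧ t'.1 = t.2.1) := fun h'' => h' (by rw [h''.1, h''.2]; simp)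
      simp [rhoH, gH, this])
    (z := emb fC fD (ten B (zH sy ι))) (supp_emb _ _ _)
    (emb_mem fun s t => by
      simp only [ten, zH, Matrix.of_apply]
      split_ifs
      exacts [sy.Z_mem _ _, zero_mem _, zero_mem _])
    (t := emb fD fA (rhoH D T)) (supp_emb _ _ _) (emb_mem fun s t => D.rho_mem _ (hT _ _) _ _)
    (by rw [hc, emb_mul_emb _ hC, lamH_mul_ten D (wH_mem sy), wH_mul_zH, lamH_zero, emb_zero])
    (by rw [hacc y fun t ht => (hy t ht).2.1, emb_mul_emb _ hD, ten_mul_rhoH D _ hT, hGT])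
  rw [List.map_map, List.map_map, hc, emb_mul_emb _ hA, rhoH_mul_lamH D hT (wH_mem sy)] at key
  refine Eq.trans ?_ (key.trans ?_)
  · congr 1
    refine List.map_congr_left fun t ht => ?_
    rw [Function.comp_apply, emb_mul_emb _ hC,
      lamH_mul_rhoH D (wH_mem sy) (gH_mem (hy t ht).2.1), wH_mul_gH sy (hy t ht).2.2, emb_alH D]
  · congr 2
    refine List.map_congr_left fun t ht => ?_
    rw [Function.comp_apply, emb_mul_emb _ hA, rhoH_mul_lamH D (gH_mem (hy t ht).2.1) (wH_mem sy)]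

end Blocks

theorem link {M : ℕ} (hM : 1 ≤ M) {W Zi A A' B : Type} [Fintype W] [Fintype Zi] [Fintype A]
    [Fintype A'] [Fintype B] [DecidableEq B] (sy : Syz 𝒜 M W Zi) {al : R → Matrix A A R}
    {al' : R → Matrix A' A' R} (D : Datum 𝒜 M A B al) (D' : Datum 𝒜 M A' B al')
    {fA : ι × A → κ} {fA' : ι × A' → κ} {fC : ι × W × B → κ} {fD : ι × Zi × B → κ}
    (hA : Function.Injective fA) (hA' : Function.Injective fA') (hC : Function.Injective fC)
    (hD : Function.Injective fD) (hAC : ∀ s t, fA s ≠ fC t) (hAD : ∀ s t, fA s ≠ fD t)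
    (hA'C : ∀ s t, fA' s ≠ fC t) (hA'D : ∀ s t, fA' s ≠ fD t) (hCD : ∀ s t, fC s ≠ fD t)
    (y : List (ι × ι × R)) (hy : ∀ t ∈ y, t.1 ≠ t.2.1 ∧ t.2.2 ∈ J 𝒜 (2 * M + 1))
    (h1 : phi (J 𝒜 1) (y.map fun t => x (J 𝒜 1) t.1 t.2.1 t.2.2).prod = 1) :
    (y.map fun t => X (J 𝒜 1) (emb (fun a => fA (t.1, a)) (fun a => fA (t.2.1, a)) (al t.2.2))).prod =
    (y.map fun t =>
      X (J 𝒜 1) (emb (fun a => fA' (t.1, a)) (fun a => fA' (t.2.1, a)) (al' t.2.2))).prod := by
  have hG : ∀ t : ι × ι × R, ∃ G : W → R, t.2.2 ∈ J 𝒜 (2 * M + 1) →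
      (∀ o, G o ∈ J 𝒜 (M + 1)) ∧ t.2.2 = ∑ o, sy.w o * G o := by
    intro t
    by_cases h : t.2.2 ∈ J 𝒜 (2 * M + 1)
    · obtain ⟨G, h1⟩ := sy.gen _ h
      exact ⟨G, fun _ => h1⟩
    · exact ⟨0, fun h' => absurd h' h⟩
  choose G hG using hG
  rw [phi_accG sy (G := G) fun t ht => ⟨Ok.of_mem (hy t ht).1
    (J_anti 𝒜 (by omega) (hy t ht).2), (hG t (hy t ht).2).2⟩, add_eq_left] at h1
  have hT : ∀ k j : ι, ∃ T : Zi → R, (∀ z, T z ∈ J 𝒜 M) ∧
      ∀ o, accG sy G y (k, o) j = ∑ z, sy.Z o z * T z := fun k j =>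
    sy.syz _ (fun o => accG_mem sy (fun t ht => (hG t (hy t ht).2).1) _ _)
      (by rw [← wH_mul_apply, h1]; rfl)
  choose T hT1 hT2 using hT
  set T' : Matrix (ι × Zi) ι R := Matrix.of fun s j => T s.1 j s.2 with hT'
  have hGT : accG sy G y = zH sy ι * T' := by
    ext ⟨k, o⟩ j
    rw [hT2, Matrix.mul_apply, Fintype.sum_prod_type, Finset.sum_eq_single k]
    · simp [zH, hT']
    · intro k' _ hk; simp [zH, hk.symm]
    · simp
  have hy' : ∀ t ∈ y, t.1 ≠ t.2.1 ∧ (∀ o, G t o ∈ J 𝒜 M) ∧ t.2.2 = ∑ o, sy.w o * G t o :=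
    fun t ht => ⟨(hy t ht).1, fun o => J_anti 𝒜 (Nat.le_succ M) ((hG t (hy t ht).2).1 o),
      (hG t (hy t ht).2).2⟩
  have hC' := hC.comp (Equiv.prodAssoc ι W B).injective
  have hD' := hD.comp (Equiv.prodAssoc ι Zi B).injective
  rw [link_aux D sy hA hC' hD' (fun s t => hAC s _) (fun s t => hAD s _) (fun s t => hCD _ _) hy'
      (fun s j => hT1 _ _ _) hGT,
    link_aux D' sy hA' hC' hD' (fun s t => hA'C s _) (fun s t => hA'D s _) (fun s t => hCD _ _) hy'
      (fun s j => hT1 _ _ _) hGT]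

end Crest.Agent.R176
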