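import Crest.Agent.R176.BBlock
import Crest.Agent.R176.Iface

/-!
# Row 176 B: the transfer homomorphism and its locality  (subtask BTheta)

* `theta_mul`: `DirectSum.Decomposition.inductionOn` on both factors, `theta_of_mem`.
* `exists_thetaSt`: `lift`; the three relations by `X_add` / `U_ext_rk` (rank `0,1,2` on the ranges
  of `f (i,·)`, `f (j,·)`, `f (k,·)`; for commutation rank `0` on `f (i,·), f (k,·)`, `1` on
  `f (j,·), f (l,·)`, or `X_add` twice), `emb_mul_emb`, `emb_mul_emb_disj`, `theta_mul`.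
* `phi_thetaSt`: `induction_left`; `blow` is multiplicative in the sense
  `blow A * blow B = blow (A * B)`, additive.
* `theta_loc`: write `g = ∏_{t<ℓ} x i_t j_t r_t` with homogeneous `r_t ∈ 𝒜 d_t`, `d_t < E`
  (`exists_homog_list`).  Let `m ≥ m₀ = (2ℓ+2) E`, `L = m - E`.  For `S : Finset (ZMod m)` let
  `Θ t S = X (emb (f (i_t,·)) (f (j_t,·)) (of fun a b => if a ∈ S ∧ b = a + d_t then r_t else 0))`;
  `θ (x i_t j_t r_t) = Θ t A_t * Θ t A_tᶜ` (`X_add`), `A_t = {a | t E ≤ a.val < L - t E}`.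
  For `t < t'`, `Θ t A_tᶜ` commutes with `Θ t' A_{t'}`: both lie in `HS` of disjoint sets?  Not
  quite: use generators: `x (f (i,a)) (f (j,a+d)) _` with `a ∉ A_t` and `x (f (i',a')) (f (j',a'+d')) _`
  with `a' ∈ A_{t'}` commute by `x_comm` since `a + d ≠ a'` and `a ≠ a' + d'`.
  Hence `θ g = W_A * W_B`, `W_A = ∏ Θ t A_t`, `W_B = ∏ Θ t A_tᶜ` (list lemma `prod_mul_split`).
  `W_A ∈ U Rl₁`, `Rl₁ (f (i,a)) (f (j,b)) :⇔ a.val < b.val ∨ (a = b ∧ i < j)` (if `d_t = 0` then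
  `i_t < j_t` or `r_t = 0`, as `𝒜 0 ∩ J 1 = 0`); `W_B ∈ U Rl₂`, the same with `(a - c).val`,
  `c = L - ℓ E`.  `phi W_A * phi W_B = 1` (`phi_thetaSt`), so `phi W_A = phi W_B⁻¹` is `1 + n` with `n`
  supported on `Rl₁ ∧ Rl₂` (`U_supp`, `phi_ok`); `U_surj` gives `ζ ∈ U (Rl₁ ∧ Rl₂)` with that
  matrix, `U_ext` gives `W_A = ζ = W_B⁻¹`.
-/

set_option autoImplicit false
set_option linter.unusedSectionVars false

open Matrix

namespace Crest.Agent.R176

variable {R : Type} [Ring R] [Algebra (ZMod 2) R] (𝒜 : ℕ → Submodule (ZMod 2) R)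
  [GradedAlgebra 𝒜]

theorem theta_mul (m : ℕ) [NeZero m] (r s : R) :
    theta 𝒜 m (r * s) = theta 𝒜 m r * theta 𝒜 m s := by
  induction r using DirectSum.Decomposition.inductionOn 𝒜 with
  | zero => simp
  | add r r' h h' => rw [add_mul, map_add, map_add, h, h', add_mul]
  | @homogeneous d r =>
    induction s using DirectSum.Decomposition.inductionOn 𝒜 with
    | zero => simp
    | add s s' h h' => rw [mul_add, map_add, map_add, h, h', mul_add]
    | @homogeneous e s =>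
      ext a c
      rw [theta_of_mem 𝒜 m (SetLike.mul_mem_graded r.2 s.2), Matrix.mul_apply,
        Finset.sum_eq_single (a + (d : ZMod m))]
      · rw [theta_of_mem 𝒜 m r.2, theta_of_mem 𝒜 m s.2, if_pos rfl, Nat.cast_add, add_assoc]
        split_ifs <;> simp
      · intro b _ hb
        rw [theta_of_mem 𝒜 m r.2, if_neg hb, zero_mul]
      · simp

theorem theta_one (m : ℕ) [NeZero m] : theta 𝒜 m 1 = 1 := by
  ext a b
  rw [theta_of_mem 𝒜 m (SetLike.one_mem_graded 𝒜), Matrix.one_apply]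
  simp [eq_comm]

theorem bth_comp_mem {r : R} (h : r ∈ J 𝒜 1) (d : ℕ) :
    (DirectSum.decompose 𝒜 r d : R) ∈ J 𝒜 1 := by
  rcases Nat.eq_zero_or_pos d with rfl | hd
  · have := h 0 Nat.one_pos
    rw [GradedRing.proj_apply] at this
    rw [this]; exact Ideal.zero_mem _
  · exact mem_J_of_mem 𝒜 (DirectSum.decompose 𝒜 r d).2 hd

theorem bth_zero_of_mem {r : R} (h0 : r ∈ 𝒜 0) (h : r ∈ J 𝒜 1) : r = 0 := by
  have := h 0 Nat.one_pos
  rwa [GradedRing.proj_apply, DirectSum.decompose_of_mem_same 𝒜 h0] at this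

theorem theta_mem (m : ℕ) {r : R} {a b : ZMod m} (h : r ∈ J 𝒜 1 ∨ a ≠ b) :
    theta 𝒜 m r a b ∈ J 𝒜 1 := by
  classical
  rw [← DirectSum.sum_support_decompose 𝒜 r, map_sum, Matrix.sum_apply]
  refine Ideal.sum_mem _ fun d _ => ?_
  rw [theta_of_mem 𝒜 m (DirectSum.decompose 𝒜 r d).2]
  split_ifs with hb
  · rcases h with h | h
    · exact bth_comp_mem 𝒜 h d
    · rcases Nat.eq_zero_or_pos d with rfl | hd
      · exact absurd (by simpa using hb.symm) h
      · exact mem_J_of_mem 𝒜 (DirectSum.decompose 𝒜 r d).2 hd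
  · exact Ideal.zero_mem _

variable {ι κ : Type} [LinearOrder ι] [Fintype ι] [LinearOrder κ] [Fintype κ]

/-- `f` places the `m` copies of `ι` -/
def Places {A : Type} (f : ι × A → κ) : Prop :=
  Function.Injective f ∧ ∀ i j a, i < j → f (i, a) < f (j, a)

/-- `θ` is the transfer homomorphism at the places `f` -/
def IsTheta (m : ℕ) [NeZero m] (f : ι × ZMod m → κ) (θ : St ι (J 𝒜 1) →* St κ (J 𝒜 1)) : Prop :=
  ∀ i j r, Ok (J 𝒜 1) i j r → θ (x (J 𝒜 1) i j r) =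
    X (J 𝒜 1) (emb (fun a => f (i, a)) (fun a => f (j, a)) (theta 𝒜 m r))

section Blk

variable {A : Type} [Fintype A] {f : ι × A → κ} {I : Ideal R} [I.IsTwoSided]

theorem bth_inj (hf : Places f) (i : ι) : Function.Injective fun a => f (i, a) :=
  fun _ _ h => (Prod.ext_iff.1 (hf.1 h)).2

theorem bth_ne (hf : Places f) {i j : ι} (h : i ≠ j) (a b : A) : f (i, a) ≠ f (j, b) :=
  fun e => h (Prod.ext_iff.1 (hf.1 e)).1

theorem bth_disj (hf : Places f) {i j : ι} (h : i ≠ j) :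
    Disjoint (Set.range fun a => f (i, a)) (Set.range fun a => f (j, a)) := by
  rw [Set.disjoint_left]
  rintro _ ⟨a, rfl⟩ ⟨b, hb⟩
  exact bth_ne hf h a b hb.symm

theorem bth_mok (hf : Places f) {i j : ι} (h : i ≠ j) {n : Matrix A A R}
    (hn : ∀ a b, n a b ∈ I ∨ (a = b ∧ i < j)) :
    MOk I (emb (fun a => f (i, a)) (fun a => f (j, a)) n) := by
  intro p q hpq
  obtain ⟨a, b, rfl, rfl, -⟩ := emb_ne_zero hpq
  rw [emb_apply (bth_inj hf i) (bth_inj hf j) n a b]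
  rcases hn a b with h1 | ⟨rfl, h1⟩
  · exact Ok.of_mem (bth_ne hf h a b) h1
  · exact Ok.of_lt (hf.2 i j a h1) _

theorem bth_phi (hf : Places f) {i j : ι} (h : i ≠ j) {n : Matrix A A R}
    (hn : ∀ a b, n a b ∈ I ∨ (a = b ∧ i < j)) :
    phi I (X I (emb (fun a => f (i, a)) (fun a => f (j, a)) n)) =
      1 + emb (fun a => f (i, a)) (fun a => f (j, a)) n :=
  phi_X_of_supp (bth_disj hf h) (supp_emb _ _ _) (bth_mok hf h hn)

theorem bth_add (hf : Places f) {i j : ι} (h : i ≠ j) {n n' : Matrix A A R}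
    (hn : ∀ a b, n a b ∈ I ∨ (a = b ∧ i < j)) (hn' : ∀ a b, n' a b ∈ I ∨ (a = b ∧ i < j)) :
    X I (emb (fun a => f (i, a)) (fun a => f (j, a)) n) *
      X I (emb (fun a => f (i, a)) (fun a => f (j, a)) n') =
      X I (emb (fun a => f (i, a)) (fun a => f (j, a)) (n + n')) := by
  rw [emb_add]
  exact X_add (bth_disj hf h) (supp_emb _ _ _) (supp_emb _ _ _) (bth_mok hf h hn)
    (bth_mok hf h hn')

theorem bth_mem_rk (hf : Places f) (ρ : ι → ℕ) {i j : ι} (h : ρ i < ρ j) (n : Matrix A A R) :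
    X I (emb (fun a => f (i, a)) (fun a => f (j, a)) n) ∈
      U I fun p q => Function.extend f (fun P => ρ P.1) 0 p < Function.extend f (fun P => ρ P.1) 0 q := by
  refine X_mem_U fun p q hpq => ?_
  obtain ⟨a, b, rfl, rfl, -⟩ := emb_ne_zero hpq
  rw [hf.1.extend_apply, hf.1.extend_apply]
  exact h

theorem bth_mul0 (hf : Places f) (i : ι) {j k : ι} (h : j ≠ k) (l : ι) (n n' : Matrix A A R) :
    emb (fun a => f (i, a)) (fun a => f (j, a)) n *
      emb (fun a => f (k, a)) (fun a => f (l, a)) n' = 0 :=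
  emb_mul_emb_disj _ (fun b c => bth_ne hf h b c) _ _ _

theorem bth_commute {n n' : Matrix κ κ R}
    (h : ∀ p q p' q', n p q ≠ 0 → n' p' q' ≠ 0 → q ≠ p' ∧ p ≠ q') :
    Commute (X I n) (X I n') := by
  unfold X
  refine Commute.list_prod_left _ _ fun g hg => Commute.list_prod_right _ _ fun g' hg' => ?_
  obtain ⟨p, -, rfl⟩ := List.mem_map.1 hg
  obtain ⟨p', -, rfl⟩ := List.mem_map.1 hg'
  by_cases h1 : n p.1 p.2 = 0
  · rw [h1, x_zero]; exact Commute.one_left _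
  by_cases h2 : n' p'.1 p'.2 = 0
  · rw [h2, x_zero]; exact Commute.one_right _
  exact x_comm _ _ (h _ _ _ _ h1 h2).1 (h _ _ _ _ h1 h2).2

/-- the order relation on the places given by a height function `v` -/
def bthR (f : ι × A → κ) (v : A → ℕ) (p q : κ) : Prop :=
  ∃ P Q : ι × A, f P = p ∧ f Q = q ∧ (v P.2 < v Q.2 ∨ (P.2 = Q.2 ∧ P.1 < Q.1))

theorem bthR_trans (hf : Places f) (v : A → ℕ) (p q s : κ) (h : bthR f v p q)
    (h' : bthR f v q s) : bthR f v p s := by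
  obtain ⟨P, Q, rfl, rfl, h⟩ := h
  obtain ⟨Q', S, e, rfl, h'⟩ := h'
  obtain rfl := hf.1 e
  refine ⟨P, S, rfl, rfl, ?_⟩
  rcases h with h | ⟨h, h2⟩ <;> rcases h' with h' | ⟨h', h2'⟩
  · exact Or.inl (h.trans h')
  · exact Or.inl (h' ▸ h)
  · exact Or.inl (h ▸ h')
  · exact Or.inr ⟨h.trans h', h2.trans h2'⟩

theorem bthR_irr (hf : Places f) (v : A → ℕ) (p : κ) : ¬ bthR f v p p := by
  rintro ⟨P, Q, rfl, e, h⟩
  obtain rfl := hf.1 e
  rcases h with h | ⟨-, h⟩ <;> exact lt_irrefl _ h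

/-- two unipotent factors of a trivial matrix -/
theorem bth_two {R₁ R₂ : κ → κ → Prop} (t₁ : ∀ a b c, R₁ a b → R₁ b c → R₁ a c)
    (i₁ : ∀ a, ¬ R₁ a a) (t₂ : ∀ a b c, R₂ a b → R₂ b c → R₂ a c) (i₂ : ∀ a, ¬ R₂ a a)
    {u w : St κ I} (hu : u ∈ U I R₁) (hw : w ∈ U I R₂) (h : phi I (u * w) = 1) : u * w = 1 := by
  have e : phi I u = phi I w⁻¹ := by
    rw [← mul_one (phi I u), ← phi_mul_inv w, ← mul_assoc, ← map_mul, h, one_mul]
  have s₁ : ∀ p q, (phi I u - 1) p q ≠ 0 → R₁ p q := fun p q hpq => by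
    by_contra hn
    exact hpq (by rw [Matrix.sub_apply, U_supp t₁ hu hn, sub_self])
  have s₂ : ∀ p q, (phi I u - 1) p q ≠ 0 → R₂ p q := fun p q hpq => by
    by_contra hn
    exact hpq (by rw [e, Matrix.sub_apply, U_supp t₂ (inv_mem hw) hn, sub_self])
  obtain ⟨ζ, hζ, hz⟩ := U_surj (I := I) (Rl := fun p q => R₁ p q ∧ R₂ p q)
    (fun a b c h h' => ⟨t₁ a b c h.1 h'.1, t₂ a b c h.2 h'.2⟩) (fun a h => i₁ a h.1)
    (n := phi I u - 1) (fun p q h => ⟨s₁ p q h, s₂ p q h⟩) (fun p q hpq => by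
      have hne : p ≠ q := fun e => i₁ p (by have := s₁ p q hpq; rwa [← e] at this)
      rw [Matrix.sub_apply, Matrix.one_apply_ne hne, sub_zero]
      exact phi_ok u hne)
  rw [add_sub_cancel] at hz
  have e₁ : u = ζ := U_ext t₁ i₁ hu (U_mono (fun _ _ h => h.1) hζ) hz.symm
  have e₂ : w⁻¹ = ζ := U_ext t₂ i₂ (inv_mem hw) (U_mono (fun _ _ h => h.2) hζ) (by rw [hz, e])
  rw [e₁, ← e₂, inv_mul_cancel]

end Blk

theorem bth_theta_ok (m : ℕ) {i j : ι} {r : R} (h : Ok (J 𝒜 1) i j r) (a b : ZMod m) :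
    theta 𝒜 m r a b ∈ J 𝒜 1 ∨ (a = b ∧ i < j) := by
  by_cases hab : a = b
  · rcases h.2 with h | h
    · exact Or.inr ⟨hab, h⟩
    · exact Or.inl (theta_mem 𝒜 m (Or.inl h))
  · exact Or.inl (theta_mem 𝒜 m (Or.inr hab))

theorem exists_thetaSt (m : ℕ) [NeZero m] {f : ι × ZMod m → κ} (hf : Places f) :
    ∃ θ, IsTheta 𝒜 m f θ := by
  refine ⟨lift (fun i j r =>
    X (J 𝒜 1) (emb (fun a => f (i, a)) (fun a => f (j, a)) (theta 𝒜 m r))) ?_ ?_ ?_,
    fun i j r h => lift_x _ _ _ _ h⟩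
  · intro i j r s hr hs
    rw [map_add]
    exact bth_add hf hr.1 (bth_theta_ok 𝒜 m hr) (bth_theta_ok 𝒜 m hs)
  · intro i j k r s hr hs hik
    have hij := hr.1
    have hjk := hs.1
    let ρ : ι → ℕ := fun t => if t = i then 0 else if t = j then 1 else 2
    have h1 : ρ i < ρ j := by simp [ρ, hij.symm]
    have h2 : ρ j < ρ k := by simp [ρ, hij.symm, hik.symm, hjk.symm]
    refine U_ext_rk _ (mul_mem (bth_mem_rk hf ρ h1 _) (bth_mem_rk hf ρ h2 _))
      (mul_mem (mul_mem (bth_mem_rk hf ρ (h1.trans h2) _) (bth_mem_rk hf ρ h2 _))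
        (bth_mem_rk hf ρ h1 _)) ?_
    rw [map_mul, map_mul, map_mul, bth_phi hf hij (bth_theta_ok 𝒜 m hr),
      bth_phi hf hjk (bth_theta_ok 𝒜 m hs), bth_phi hf hik (bth_theta_ok 𝒜 m (hr.mul hs hik))]
    simp only [add_mul, mul_add, one_mul, mul_one, bth_mul0 hf _ hik.symm, bth_mul0 hf _ hjk.symm,
      add_zero, emb_mul_emb _ (bth_inj hf j), theta_mul]
    abel
  · intro i j k l r s hr hs hjk hil
    have hij := hr.1
    have hkl := hs.1
    let ρ : ι → ℕ := fun t => if t = i ∨ t = k then 0 else 1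
    have h1 : ρ i < ρ j := by simp [ρ, hij.symm, hjk]
    have h2 : ρ k < ρ l := by simp [ρ, hil.symm, hkl.symm]
    refine U_ext_rk _ (mul_mem (bth_mem_rk hf ρ h1 _) (bth_mem_rk hf ρ h2 _))
      (mul_mem (bth_mem_rk hf ρ h2 _) (bth_mem_rk hf ρ h1 _)) ?_
    rw [map_mul, map_mul, bth_phi hf hij (bth_theta_ok 𝒜 m hr),
      bth_phi hf hkl (bth_theta_ok 𝒜 m hs)]
    simp only [add_mul, mul_add, one_mul, mul_one, bth_mul0 hf _ hjk, bth_mul0 hf _ hil.symm,
      add_zero]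
    abel

/-- apply `theta` entrywise -/
noncomputable def blow (m : ℕ) (A : Matrix ι ι R) : Matrix (ι × ZMod m) (ι × ZMod m) R :=
  Matrix.of fun p q => theta 𝒜 m (A p.1 q.1) p.2 q.2

theorem bth_blow_add (m : ℕ) (A B : Matrix ι ι R) :
    blow 𝒜 m (A + B) = blow 𝒜 m A + blow 𝒜 m B := by
  ext p q
  simp [blow]

theorem bth_blow_zero (m : ℕ) : blow 𝒜 m (0 : Matrix ι ι R) = 0 := by
  ext p q
  simp [blow]

theorem bth_blow_mul (m : ℕ) [NeZero m] (A B : Matrix ι ι R) :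
    blow 𝒜 m A * blow 𝒜 m B = blow 𝒜 m (A * B) := by
  ext p q
  simp only [blow, Matrix.mul_apply, Matrix.of_apply, map_sum, Matrix.sum_apply, theta_mul,
    Fintype.sum_prod_type]

theorem bth_blow_single (m : ℕ) [NeZero m] (f : ι × ZMod m → κ) (i j : ι) (r : R) :
    emb f f (blow 𝒜 m (single i j r)) =
      emb (fun a => f (i, a)) (fun a => f (j, a)) (theta 𝒜 m r) := by
  unfold emb
  rw [Fintype.sum_prod_type, Finset.sum_eq_single i]
  · refine Finset.sum_congr rfl fun a _ => ?_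
    rw [Fintype.sum_prod_type, Finset.sum_eq_single j]
    · simp [blow]
    · intro j' _ hj
      simp [blow, single_apply_of_col_ne _ _ hj.symm]
    · simp
  · intro i' _ hi
    simp [blow, single_apply_of_row_ne hi.symm]
  · simp

theorem phi_thetaSt {m : ℕ} [NeZero m] {f : ι × ZMod m → κ} (hf : Places f)
    {θ : St ι (J 𝒜 1) →* St κ (J 𝒜 1)} (hθ : IsTheta 𝒜 m f θ) (g : St ι (J 𝒜 1)) :
    phi (J 𝒜 1) (θ g) = 1 + emb f f (blow 𝒜 m (phi (J 𝒜 1) g - 1)) := by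
  induction g using induction_left with
  | h1 => rw [map_one, map_one, map_one, sub_self, bth_blow_zero, emb_zero, add_zero]
  | hx i j r g hr ih =>
    have e : phi (J 𝒜 1) (x (J 𝒜 1) i j r * g) - 1 =
        single i j r + (phi (J 𝒜 1) g - 1) + single i j r * (phi (J 𝒜 1) g - 1) := by
      rw [map_mul, phi_x hr]; noncomm_ring
    rw [e, map_mul, map_mul, ih, hθ i j r hr, bth_phi hf hr.1 (bth_theta_ok 𝒜 m hr),
      ← bth_blow_single, bth_blow_add, bth_blow_add, ← bth_blow_mul, emb_add, emb_add,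
      ← emb_mul_emb _ hf.1]
    noncomm_ring

theorem exists_homog_list (g : St ι (J 𝒜 1)) :
    ∃ y : List (ι × ι × R × ℕ), (∀ t ∈ y, Ok (J 𝒜 1) t.1 t.2.1 t.2.2.1 ∧ t.2.2.1 ∈ 𝒜 t.2.2.2) ∧
      g = (y.map fun t => x (J 𝒜 1) t.1 t.2.1 t.2.2.1).prod := by
  classical
  induction g using induction_left with
  | h1 => exact ⟨[], by simp, by simp⟩
  | hx i j r g hr ih =>
    obtain ⟨y, hy, rfl⟩ := ih
    have hd : ∀ d, Ok (J 𝒜 1) i j (DirectSum.decompose 𝒜 r d : R) := fun d =>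
      ⟨hr.1, hr.2.imp id fun h => bth_comp_mem 𝒜 h d⟩
    have key : ∀ s : Finset ℕ, Ok (J 𝒜 1) i j (∑ d ∈ s, (DirectSum.decompose 𝒜 r d : R)) ∧
        ∃ z : List (ι × ι × R × ℕ),
          (∀ t ∈ z, Ok (J 𝒜 1) t.1 t.2.1 t.2.2.1 ∧ t.2.2.1 ∈ 𝒜 t.2.2.2) ∧
          x (J 𝒜 1) i j (∑ d ∈ s, (DirectSum.decompose 𝒜 r d : R)) =
            (z.map fun t => x (J 𝒜 1) t.1 t.2.1 t.2.2.1).prod := by
      intro s
      induction s using Finset.induction_on with
      | empty => exact ⟨by simpa using Ok.zero hr.1, [], by simp, by simp⟩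
      | insert d s hds ih =>
        obtain ⟨h1, z, hz, e⟩ := ih
        rw [Finset.sum_insert hds]
        refine ⟨(hd d).add h1, (i, j, (DirectSum.decompose 𝒜 r d : R), d) :: z, ?_, ?_⟩
        · intro t ht
          rcases List.mem_cons.1 ht with rfl | ht
          · exact ⟨hd d, (DirectSum.decompose 𝒜 r d).2⟩
          · exact hz t ht
        · rw [← x_add (hd d) h1, e]; simp
    obtain ⟨-, z, hz, e⟩ := key (DirectSum.decompose 𝒜 r).support
    rw [DirectSum.sum_support_decompose 𝒜 r] at e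
    refine ⟨z ++ y, fun t ht => (List.mem_append.1 ht).elim (hz t) (hy t), ?_⟩
    rw [e, List.map_append, List.prod_append]

theorem prod_mul_split {G : Type} [Group G] (ℓ : ℕ) (a b : ℕ → G)
    (h : ∀ t t', t < t' → Commute (b t) (a t')) :
    ((List.range ℓ).map fun t => a t * b t).prod =
      ((List.range ℓ).map a).prod * ((List.range ℓ).map b).prod := by
  induction ℓ with
  | zero => simp
  | succ ℓ ih =>
    have hc : Commute ((List.range ℓ).map b).prod (a ℓ) :=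
      Commute.list_prod_left _ _ fun g hg => by
        obtain ⟨t, ht, rfl⟩ := List.mem_map.1 hg
        exact h t ℓ (List.mem_range.1 ht)
    simp only [List.range_succ, List.map_append, List.prod_append, List.map_cons, List.map_nil,
      List.prod_cons, List.prod_nil, mul_one, ih]
    rw [mul_assoc, ← mul_assoc _ (a ℓ), hc.eq]
    simp only [mul_assoc]

theorem bth_val_add {m : ℕ} [NeZero m] (a : ZMod m) {d : ℕ} (hd : d < m) :
    ((a + (d : ZMod m)).val = a.val + d ∧ a.val + d < m) ∨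
      ((a + (d : ZMod m)).val + m = a.val + d) := by
  have ha := ZMod.val_lt a
  rw [ZMod.val_add, ZMod.val_natCast, Nat.mod_eq_of_lt hd]
  by_cases h : a.val + d < m
  · exact Or.inl ⟨Nat.mod_eq_of_lt h, h⟩
  · right
    rw [Nat.mod_eq_sub_mod (not_lt.1 h), Nat.mod_eq_of_lt (by omega)]
    omega

/-- the rows of `theta r` in `P` -/
noncomputable def bthPart (m : ℕ) (P : ZMod m → Prop) [DecidablePred P] (r : R) :
    Matrix (ZMod m) (ZMod m) R :=
  Matrix.of fun a b => if P a then theta 𝒜 m r a b else 0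

theorem bthPart_ok (m : ℕ) (P : ZMod m → Prop) [DecidablePred P] {i j : ι} {r : R}
    (h : Ok (J 𝒜 1) i j r) (a b : ZMod m) :
    bthPart 𝒜 m P r a b ∈ J 𝒜 1 ∨ (a = b ∧ i < j) := by
  unfold bthPart
  rw [Matrix.of_apply]
  split_ifs
  · exact bth_theta_ok 𝒜 m h a b
  · exact Or.inl (Ideal.zero_mem _)

theorem bthPart_add (m : ℕ) (P : ZMod m → Prop) [DecidablePred P] (r : R) :
    bthPart 𝒜 m P r + bthPart 𝒜 m (fun a => ¬ P a) r = theta 𝒜 m r := by
  ext a b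
  by_cases h : P a <;> simp [bthPart, h]

theorem bthPart_ne (m : ℕ) (P : ZMod m → Prop) [DecidablePred P] {r : R} {d : ℕ} (hr : r ∈ 𝒜 d)
    {a b : ZMod m} (h : bthPart 𝒜 m P r a b ≠ 0) : P a ∧ b = a + d ∧ r ≠ 0 := by
  unfold bthPart at h
  rw [Matrix.of_apply, theta_of_mem 𝒜 m hr] at h
  split_ifs at h with h1 h2
  · exact ⟨h1, h2, h⟩
  · exact absurd rfl h
  · exact absurd rfl h

theorem bthPart_mem {m : ℕ} [NeZero m] {f : ι × ZMod m → κ} (P : ZMod m → Prop) [DecidablePred P]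
    {i j : ι} {r : R} {d : ℕ} (h : Ok (J 𝒜 1) i j r) (hr : r ∈ 𝒜 d) (v : ZMod m → ℕ)
    (hv : ∀ a, P a → 0 < d → v a < v (a + d)) :
    X (J 𝒜 1) (emb (fun a => f (i, a)) (fun a => f (j, a)) (bthPart 𝒜 m P r)) ∈
      U (J 𝒜 1) (bthR f v) := by
  refine X_mem_U fun p q hpq => ?_
  obtain ⟨a, b, rfl, rfl, hab⟩ := emb_ne_zero hpq
  obtain ⟨h1, rfl, h3⟩ := bthPart_ne 𝒜 m P hr hab
  refine ⟨(i, a), (j, a + d), rfl, rfl, ?_⟩
  rcases Nat.eq_zero_or_pos d with rfl | hd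
  · exact Or.inr ⟨by simp, h.2.resolve_right fun h' => h3 (bth_zero_of_mem 𝒜 hr h')⟩
  · exact Or.inl (hv a h1 hd)

theorem theta_loc (g : St ι (J 𝒜 1)) (hg : phi (J 𝒜 1) g = 1) :
    ∃ m₀ : ℕ, ∀ (m : ℕ) [NeZero m], m₀ ≤ m → ∀ (κ : Type) [LinearOrder κ] [Fintype κ]
      (f : ι × ZMod m → κ) (θ : St ι (J 𝒜 1) →* St κ (J 𝒜 1)), Places f → IsTheta 𝒜 m f θ →
      θ g = 1 := by
  obtain ⟨y, hy, hgy⟩ := exists_homog_list 𝒜 g
  rcases y with _ | ⟨t₀, y'⟩
  · exact ⟨0, fun m _ _ κ _ _ f θ _ _ => by rw [hgy]; simp⟩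
  set y := t₀ :: y' with hy0
  set ℓ := y.length with hℓ
  let z : ℕ → ι × ι × R × ℕ := fun t => y.getD t t₀
  have hz : ∀ t, z t ∈ y := fun t => by
    by_cases ht : t < y.length
    · simp only [z, List.getD_eq_getElem _ _ ht]; exact List.getElem_mem _
    · simp only [z, List.getD_eq_default _ _ (not_lt.1 ht)]; exact List.mem_cons_self
  have hyz : y = (List.range ℓ).map z := by
    refine List.ext_getElem (by simp [hℓ]) fun n h1 h2 => ?_
    simp only [List.getElem_map, List.getElem_range, z, List.getD_eq_getElem _ _ h1]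
  obtain ⟨E, hE⟩ : ∃ E : ℕ, ∀ t, (z t).2.2.2 < E :=
    ⟨(y.map fun t => t.2.2.2).sum + 1, fun t => Nat.lt_succ_of_le
      (List.single_le_sum (fun _ _ => Nat.zero_le _) _ (List.mem_map_of_mem (hz t)))⟩
  clear_value z ℓ
  refine ⟨(2 * ℓ + 2) * E, fun m _ hm κ _ _ f θ hf hθ => ?_⟩
  have hEm : E ≤ m := by nlinarith
  let P : ℕ → ZMod m → Prop := fun t a => t * E ≤ a.val ∧ a.val + t * E + E < m
  let a : ℕ → St κ (J 𝒜 1) := fun t => X (J 𝒜 1) (emb (fun a => f ((z t).1, a))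
    (fun a => f ((z t).2.1, a)) (bthPart 𝒜 m (P t) (z t).2.2.1))
  let b : ℕ → St κ (J 𝒜 1) := fun t => X (J 𝒜 1) (emb (fun a => f ((z t).1, a))
    (fun a => f ((z t).2.1, a)) (bthPart 𝒜 m (fun a => ¬ P t a) (z t).2.2.1))
  have e1 : θ g = ((List.range ℓ).map fun t => a t * b t).prod := by
    rw [hgy, hyz, map_list_prod, List.map_map, List.map_map]
    congr 1
    refine List.map_congr_left fun t _ => ?_
    have hok := (hy _ (hz t)).1
    simp only [Function.comp_apply, a, b]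
    rw [hθ _ _ _ hok, bth_add hf hok.1 (bthPart_ok 𝒜 m _ hok) (bthPart_ok 𝒜 m _ hok),
      bthPart_add]
  have hc : ∀ t t', t < t' → Commute (b t) (a t') := by
    intro t t' htt
    refine bth_commute fun p q p' q' h h' => ?_
    obtain ⟨c, _, rfl, rfl, k⟩ := emb_ne_zero h
    obtain ⟨c', _, rfl, rfl, k'⟩ := emb_ne_zero h'
    obtain ⟨h1, rfl, -⟩ := bthPart_ne 𝒜 m _ (hy _ (hz t)).2 k
    obtain ⟨⟨h2, h3⟩, rfl, -⟩ := bthPart_ne 𝒜 m _ (hy _ (hz t')).2 k'
    have h4 : t * E + E ≤ t' * E := by nlinarith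
    have d1 := hE t
    have d2 := hE t'
    have hc := ZMod.val_lt c
    constructor
    · intro e
      have e' : c + ((z t).2.2.2 : ZMod m) = c' := (Prod.ext_iff.1 (hf.1 e)).2
      have := bth_val_add c (d := (z t).2.2.2) (by omega)
      rw [e'] at this
      exact h1 ⟨by omega, by omega⟩
    · intro e
      have e' : c = c' + ((z t').2.2.2 : ZMod m) := (Prod.ext_iff.1 (hf.1 e)).2
      have := bth_val_add c' (d := (z t').2.2.2) (by omega)
      rw [← e'] at this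
      exact h1 ⟨by omega, by omega⟩
  have e2 : phi (J 𝒜 1) (θ g) = 1 := by
    rw [phi_thetaSt 𝒜 hf hθ, hg, sub_self, bth_blow_zero, emb_zero, add_zero]
  rw [e1, prod_mul_split ℓ a b hc] at e2 ⊢
  refine bth_two (bthR_trans hf ZMod.val) (bthR_irr hf _)
    (bthR_trans hf fun c => (c + ((ℓ * E + E : ℕ) : ZMod m)).val) (bthR_irr hf _)
    (Subgroup.list_prod_mem _ fun w hw => ?_) (Subgroup.list_prod_mem _ fun w hw => ?_) e2
  · obtain ⟨t, -, rfl⟩ := List.mem_map.1 hw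
    refine bthPart_mem 𝒜 _ (hy _ (hz t)).1 (hy _ (hz t)).2 _ fun c hc hd => ?_
    have d1 := hE t
    have := bth_val_add c (d := (z t).2.2.2) (by omega)
    have h3 := hc.2
    omega
  · obtain ⟨t, ht, rfl⟩ := List.mem_map.1 hw
    have h4 : t * E + E ≤ ℓ * E := by have := List.mem_range.1 ht; nlinarith
    refine bthPart_mem 𝒜 _ (hy _ (hz t)).1 (hy _ (hz t)).2 _ fun c hc hd => ?_
    have d1 := hE t
    have hm' : 2 * (ℓ * E) + 2 * E ≤ m := by nlinarith
    have h5 := bth_val_add c (d := ℓ * E + E) (by omega)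
    have h6 := bth_val_add (c + ((ℓ * E + E : ℕ) : ZMod m)) (d := (z t).2.2.2) (by omega)
    have h7 := ZMod.val_lt c
    have h8 : ¬ (t * E ≤ c.val ∧ c.val + t * E + E < m) := hc
    rw [add_right_comm c]
    omega

end Crest.Agent.R176
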