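import Crest.Agent.R176.BStab2
import Crest.Agent.R176.BTheta
import Crest.Agent.R176.BLink
import Crest.Agent.R176.BFP

/-!
# Row 176 B: assembly  (subtask BMain)

`pow_eq_one_of_deep`: take `exists_big` with `A = ZMod m`, `E = (Fin 5 × W × ZMod m) ⊕ (Fin 5 × Zi × ZMod m)`,
`θ` from `exists_thetaSt`, `y` from `exists_list_of_mem_EL`.  `1 = θ g = ∏ X (emb .. (theta r))`;
`link` (data `theta` and `diagD` at the same places `fA`) turns it into
`∏_t X (emb .. (diagonal r_t)) = ∏_t ∏_a x (fA (i_t,a)) (fA (j_t,a)) r_t = ∏_a g_a` with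
`g_a = ∏_t x (fA (i_t,a)) (fA (j_t,a)) r_t` (different `a` commute), and `link` with `A = B = Unit`
(places `fA (·,a)` and `f₀`, `fC`, `fD` restricted to `β = 0`) gives `g_a = map f₀ g`.
So `map f₀ (g^m) = 1`.
`group_main`: `G = St (Fin 5) (J 1)`.  Infinite: `r ↦ x 0 1 r` is injective (`phi_x`).
`R ⧸ J M` is finite (`finite_quot_J`).  For `g` with `phi g = 1` take `m₀` (`theta_loc`), `k` with
`2^k, 3^k ≥ m₀`, `M₂`, `M₃` the levels, `M = 2 max M₂ M₃ + 1`; if `g^(2^s) ∈ NL (J (2M))` then it lies in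
`EL (J M)` (`NL_le_EL`), is killed by `2^k` and `3^k`, hence is `1`.
2-group: `phi_pow`, then `finite_quot` gives such an `s`.  Residually finite: if `g` lies in all
`NL (J M)` then `phi g = 1` (`phi_NL`, `eq_zero_of_mem_J`) and `s = 0` works.
-/

set_option autoImplicit false
set_option linter.unusedSectionVars false

open Matrix

namespace Crest.Agent.R176

variable {R : Type} [Ring R] [Algebra (ZMod 2) R] (𝒜 : ℕ → Submodule (ZMod 2) R)
  [GradedAlgebra 𝒜]

theorem eq_zero_of_mem_J {r : R} (h : ∀ M, r ∈ J 𝒜 M) : r = 0 := by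
  classical
  rw [← DirectSum.sum_support_decompose 𝒜 r]
  refine Finset.sum_eq_zero fun d _ => ?_
  have := h (d + 1) d (Nat.lt_succ_self d)
  rwa [GradedRing.proj_apply] at this

theorem finite_quot_J (h : ∀ d, Finite (𝒜 d)) (M : ℕ) : Finite (R ⧸ J 𝒜 M) := by
  refine Finite.of_injective
    (fun (q : R ⧸ J 𝒜 M) (d : Fin M) => DirectSum.decompose 𝒜 (Quotient.out q) d) ?_
  intro q q' hq
  rw [← Ideal.Quotient.mk_out q, ← Ideal.Quotient.mk_out q', Ideal.Quotient.eq]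
  intro d hd
  have h1 := congrFun hq ⟨d, hd⟩
  simp only at h1
  rw [map_sub, GradedRing.proj_apply, GradedRing.proj_apply, h1, sub_self]

namespace BMain

/-- the constant diagonal matrix, as an additive map -/
def dg (R : Type) [Ring R] (B : Type) [DecidableEq B] : R →+ Matrix B B R where
  toFun r := Matrix.diagonal fun _ => r
  map_zero' := by simp
  map_add' r s := by rw [diagonal_add]

theorem dg_apply {B : Type} [DecidableEq B] (r : R) (a b : B) :
    dg R B r a b = if a = b then r else 0 := by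
  simp [dg, diagonal_apply]

theorem list_prod_mul {α G : Type} [Monoid G] (f g h : α → G) (l : List α)
    (hc : ∀ a b, Commute (f a) (g b)) (hm : ∀ a ∈ l, f a * g a = h a) :
    (l.map f).prod * (l.map g).prod = (l.map h).prod := by
  rw [list_prod_mul_of_commute f g (fun a => f a * g a) hc (fun _ => rfl)]
  exact congrArg List.prod (List.map_congr_left hm)

section Diag

variable {ι κ A : Type} [LinearOrder ι] [Fintype ι] [LinearOrder κ] [Fintype κ] [Fintype A]
  [DecidableEq A] {I : Ideal R} [I.IsTwoSided]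

/-- the diagonal matrix cut down to `S` -/
def dS (S : Finset A) (r : R) : Matrix A A R := Matrix.diagonal fun a => if a ∈ S then r else 0

theorem emb_single {α β : Type} [Fintype α] [Fintype β] [DecidableEq α] [DecidableEq β]
    (f : α → κ) (g : β → κ) (a : α) (b : β) (r : R) :
    emb f g (single a b r) = single (f a) (g b) r := by
  unfold emb
  rw [Finset.sum_eq_single a, Finset.sum_eq_single b, single_apply_same]
  · intro b' _ hb
    rw [single_apply_of_ne _ _ _ _ _ (fun h => hb h.2.symm), single_zero]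
  · simp
  · intro a' _ ha
    refine Finset.sum_eq_zero fun b' _ => ?_
    rw [single_apply_of_ne _ _ _ _ _ (fun h => ha h.1.symm), single_zero]
  · simp

theorem dS_insert {S : Finset A} {a : A} (ha : a ∉ S) (r : R) :
    dS (insert a S) r = dS S r + single a a r := by
  ext p q
  simp only [dS, Matrix.add_apply, diagonal_apply, single_apply, Finset.mem_insert]
  by_cases hpq : p = q
  · subst hpq
    by_cases hp : p = a
    · subst hp; simp [ha]
    · simp [hp, Ne.symm hp]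
  · have : ¬ (a = p ∧ a = q) := fun h => hpq (h.1.symm.trans h.2)
    simp [hpq, this]

theorem prod_dS {fA : ι × A → κ} (hA : Function.Injective fA) (y : List (ι × ι × R))
    (hy : ∀ t ∈ y, t.1 ≠ t.2.1 ∧ t.2.2 ∈ I) (γ : St κ I)
    (hγ : ∀ a, (y.map fun t => x I (fA (t.1, a)) (fA (t.2.1, a)) t.2.2).prod = γ) (S : Finset A) :
    (y.map fun t => X I (emb (fun a => fA (t.1, a)) (fun a => fA (t.2.1, a)) (dS S t.2.2))).prod =
      γ ^ S.card := by
  induction S using Finset.induction_on with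
  | empty =>
    rw [Finset.card_empty, pow_zero]
    refine List.prod_eq_one fun g hg => ?_
    obtain ⟨t, -, rfl⟩ := List.mem_map.1 hg
    have : dS (∅ : Finset A) t.2.2 = 0 := by simp [dS]
    rw [this, emb_zero, X_zero]
  | insert a S ha ih =>
    rw [Finset.card_insert_of_notMem ha, pow_succ, ← ih, ← hγ a]
    symm
    refine list_prod_mul _ _ _ y (fun t t' => ?_) (fun t ht => ?_)
    · refine HS_commute (S := {p | ∃ i, ∃ b ∈ S, p = fA (i, b)}) (T := {p | ∃ i, p = fA (i, a)})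
        ?_ (X_mem_U fun p q hpq => ?_) (x_mem_HS (by exact ⟨_, rfl⟩) (by exact ⟨_, rfl⟩) _)
      · refine Set.disjoint_left.2 ?_
        rintro _ ⟨i, b, hb, rfl⟩ ⟨j, hj⟩
        have := congrArg Prod.snd (hA hj)
        simp only at this
        exact ha (this ▸ hb)
      · obtain ⟨b, c, rfl, rfl, h⟩ := emb_ne_zero hpq
        have hbc : b = c := by
          by_contra hne
          exact h (diagonal_apply_ne _ hne)
        subst hbc
        have hb : b ∈ S := by
          by_contra hne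
          exact h (by simp [dS, hne])
        exact ⟨⟨_, b, hb, rfl⟩, ⟨_, b, hb, rfl⟩⟩
    · have hd : Disjoint (Set.range fun a => fA (t.1, a)) (Set.range fun a => fA (t.2.1, a)) := by
        refine Set.disjoint_left.2 ?_
        rintro _ ⟨b, rfl⟩ ⟨c, hc⟩
        exact (hy t ht).1 (congrArg Prod.fst (hA hc)).symm
      rw [dS_insert ha, emb_add, ← X_add hd (supp_emb _ _ _) (supp_emb _ _ _), emb_single,
        X_single]
      · refine mok_of_mem hd (supp_emb _ _ _) (emb_mem fun b c => ?_)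
        simp only [dS, diagonal_apply]
        split_ifs
        exacts [(hy t ht).2, I.zero_mem, I.zero_mem]
      · refine mok_of_mem hd (supp_emb _ _ _) (emb_mem fun b c => ?_)
        simp only [single_apply]
        split_ifs
        exacts [(hy t ht).2, I.zero_mem]

theorem emb_unit (p q : κ) (r : R) :
    emb (fun _ : Unit => p) (fun _ : Unit => q) (Matrix.diagonal fun _ => r) = single p q r := by
  simp [emb]

end Diag

end BMain

/-- the diagonal datum -/
theorem diagD {M : ℕ} (hM : 1 ≤ M) (B : Type) [Fintype B] [DecidableEq B] :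
    Nonempty (Datum 𝒜 M B B fun r => Matrix.diagonal fun _ => r) := by
  refine ⟨⟨BMain.dg R B, BMain.dg R B, fun j hj a b => ?_, fun j hj a b => ?_, fun j _ j' _ => ?_,
    fun j _ j' _ => ?_, fun j _ r a b => ?_, fun j _ r a b => ?_, fun j j' => ?_⟩⟩
  · rw [BMain.dg_apply]; split_ifs
    exacts [J_anti 𝒜 hM hj, Ideal.zero_mem _]
  · rw [BMain.dg_apply]; split_ifs
    exacts [J_anti 𝒜 hM hj, Ideal.zero_mem _]
  · exact diagonal_mul_diagonal _ _
  · exact diagonal_mul_diagonal _ _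
  · simp only [BMain.dg_apply]; split_ifs <;> simp
  · simp only [BMain.dg_apply]; split_ifs <;> simp
  · rw [diagonal_add]

theorem pow_eq_one_of_deep (hI : Rad (J 𝒜 1)) {m M : ℕ} [NeZero m] (hM : 1 ≤ M) {W Zi : Type}
    [Fintype W] [Fintype Zi] (sy : Syz 𝒜 M W Zi)
    (D : Datum 𝒜 M (ZMod m) (ZMod m) (theta 𝒜 m)) {M' : ℕ} (hM' : 2 * M + 1 ≤ M')
    {g : St (Fin 5) (J 𝒜 1)} (hg : g ∈ EL (J 𝒜 1) (J 𝒜 M')) (h1 : phi (J 𝒜 1) g = 1)
    (hθ : ∀ (κ : Type) [LinearOrder κ] [Fintype κ] (f : Fin 5 × ZMod m → κ)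
      (θ : St (Fin 5) (J 𝒜 1) →* St κ (J 𝒜 1)), Places f → IsTheta 𝒜 m f θ → θ g = 1) :
    g ^ m = 1 := by
  classical
  obtain ⟨κ, _, _, f₀, fA, fE, h₀, hA, hE, hmono, hEA, hE0⟩ :=
    exists_big hI (ZMod m) ((Fin 5 × W × ZMod m) ⊕ (Fin 5 × Zi × ZMod m))
  obtain ⟨θ, hθ'⟩ := exists_thetaSt 𝒜 m (f := fA) ⟨hA, hmono⟩
  have hg1 := hθ κ fA θ ⟨hA, hmono⟩ hθ'
  obtain ⟨y, hy, rfl⟩ := exists_list_of_mem_EL hg
  have hy' : ∀ t ∈ y, t.1 ≠ t.2.1 ∧ t.2.2 ∈ J 𝒜 (2 * M + 1) :=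
    fun t ht => ⟨(hy t ht).1, J_anti 𝒜 hM' (hy t ht).2⟩
  have hy1 : ∀ t ∈ y, t.1 ≠ t.2.1 ∧ t.2.2 ∈ J 𝒜 1 :=
    fun t ht => ⟨(hy t ht).1, J_anti 𝒜 (by omega) (hy t ht).2⟩
  obtain ⟨D₁⟩ := diagD 𝒜 hM (ZMod m)
  obtain ⟨D₀⟩ := diagD 𝒜 hM Unit
  have e1 := link 𝒜 hM sy D D₁ (fA := fA) (fA' := fA) (fC := fun s => fE (Sum.inl s))
    (fD := fun s => fE (Sum.inr s)) hA hA (hE.comp Sum.inl_injective) (hE.comp Sum.inr_injective)
    (fun s t => (hEA _ _).symm) (fun s t => (hEA _ _).symm) (fun s t => (hEA _ _).symm)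
    (fun s t => (hEA _ _).symm) (fun s t h => Sum.inl_ne_inr (hE h)) y hy' h1
  have e2 : ∀ a : ZMod m, (y.map fun t => x (J 𝒜 1) (fA (t.1, a)) (fA (t.2.1, a)) t.2.2).prod =
      map (J 𝒜 1) f₀ (y.map fun t => x (J 𝒜 1) t.1 t.2.1 t.2.2).prod := by
    intro a
    have e := link 𝒜 hM sy D₀ D₀ (fA := fun s : Fin 5 × Unit => fA (s.1, a))
      (fA' := fun s : Fin 5 × Unit => f₀ s.1)
      (fC := fun s : Fin 5 × W × Unit => fE (Sum.inl (s.1, s.2.1, 0)))
      (fD := fun s : Fin 5 × Zi × Unit => fE (Sum.inr (s.1, s.2.1, 0)))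
      (fun s t h => Prod.ext (Prod.ext_iff.1 (hA h)).1 rfl)
      (fun s t h => Prod.ext (f₀.injective h) rfl)
      (fun s t h => by
        have := Sum.inl_injective (hE h)
        simp only [Prod.mk.injEq] at this
        exact Prod.ext this.1 (Prod.ext this.2.1 rfl))
      (fun s t h => by
        have := Sum.inr_injective (hE h)
        simp only [Prod.mk.injEq] at this
        exact Prod.ext this.1 (Prod.ext this.2.1 rfl))
      (fun s t => (hEA _ _).symm) (fun s t => (hEA _ _).symm) (fun s t => (hE0 _ _).symm)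
      (fun s t => (hE0 _ _).symm) (fun s t h => Sum.inl_ne_inr (hE h)) y hy' h1
    simp only [BMain.emb_unit, X_single] at e
    rw [e, map_list_prod, List.map_map]
    exact congrArg List.prod (List.map_congr_left fun t _ => by simp)
  have e3 := BMain.prod_dS hA y hy1 _ e2 Finset.univ
  have e4 : ∀ r : R, BMain.dS (Finset.univ : Finset (ZMod m)) r = Matrix.diagonal fun _ => r :=
    fun r => by simp [BMain.dS]
  simp only [e4] at e3
  rw [← e1, Finset.card_univ, ZMod.card] at e3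
  apply h₀
  rw [map_pow, map_one, ← e3, ← hg1, map_list_prod, List.map_map]
  refine congrArg List.prod (List.map_congr_left fun t ht => ?_)
  exact (hθ' _ _ _ (Ok.of_mem (hy1 t ht).1 (hy1 t ht).2)).symm

theorem BMain.key (h : Nice 𝒜) {g : St (Fin 5) (J 𝒜 1)} (hg : phi (J 𝒜 1) g = 1) :
    ∃ L, 1 ≤ L ∧ ∀ n : ℕ, g ^ n ∈ NL (J 𝒜 1) (J 𝒜 L) → g ^ n = 1 := by
  have hI := h.nil.rad
  obtain ⟨k, hk⟩ := theta_loc 𝒜 g hg
  obtain ⟨M₂, h₂, ⟨D₂⟩⟩ := h.odo2 k
  obtain ⟨M₃, h₃, ⟨D₃⟩⟩ := h.odo3 k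
  obtain ⟨W₂, Z₂, _, _, ⟨s₂⟩⟩ := h.syz M₂
  obtain ⟨W₃, Z₃, _, _, ⟨s₃⟩⟩ := h.syz M₃
  refine ⟨2 * (2 * max M₂ M₃ + 1), by omega, fun n hn => ?_⟩
  have hE : g ^ n ∈ EL (J 𝒜 1) (J 𝒜 (2 * max M₂ M₃ + 1)) :=
    NL_le_EL hI (by simp) _ _ (J_anti 𝒜 (by omega)) (J_anti 𝒜 (by omega)) (h.prod _) hn
  have hp : phi (J 𝒜 1) (g ^ n) = 1 := by rw [map_pow, hg, one_pow]
  have e2 := pow_eq_one_of_deep 𝒜 hI h₂ s₂ D₂ (by omega) hE hp fun κ _ _ f θ hf hθ => by
    rw [map_pow, hk _ (Nat.lt_pow_self (by norm_num)).le κ f θ hf hθ, one_pow]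
  have e3 := pow_eq_one_of_deep 𝒜 hI h₃ s₃ D₃ (by omega) hE hp fun κ _ _ f θ hf hθ => by
    rw [map_pow, hk _ (Nat.lt_pow_self (by norm_num)).le κ f θ hf hθ, one_pow]
  have hc : Nat.Coprime (2 ^ k) (3 ^ k) := Nat.Coprime.pow k k (by norm_num)
  have hd := Nat.dvd_gcd (orderOf_dvd_of_pow_eq_one e2) (orderOf_dvd_of_pow_eq_one e3)
  rw [hc.gcd_eq_one, Nat.dvd_one] at hd
  exact orderOf_eq_one_iff.1 hd

theorem group_main (h : Nice 𝒜) :
    ∃ (G : Type) (_ : Group G),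
      Infinite G ∧ Group.IsFinitelyPresented G ∧ Group.ResiduallyFinite G ∧ IsPGroup 2 G := by
  obtain ⟨Y, _, ⟨P⟩⟩ := h.pres
  have := h.inf
  have hq : ∀ L, 1 ≤ L → Finite (St (Fin 5) (J 𝒜 1) ⧸ NL (J 𝒜 1) (J 𝒜 L)) ∧
      IsPGroup 2 (St (Fin 5) (J 𝒜 1) ⧸ NL (J 𝒜 1) (J 𝒜 L)) := fun L hL => by
    have := finite_quot_J 𝒜 h.fin L
    exact finite_quot h.nil (by simp) _ (J_anti 𝒜 hL)
  refine ⟨St (Fin 5) (J 𝒜 1), inferInstance, ?_, fp P, ?_, ?_⟩
  · refine Infinite.of_injective (fun r : R => x (J 𝒜 1) (0 : Fin 5) 1 r) fun r s hrs => ?_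
    have h1 := congrArg (phi (J 𝒜 1)) hrs
    simp only at h1
    rw [phi_x (Ok.of_lt (by decide) r), phi_x (Ok.of_lt (by decide) s), add_right_inj] at h1
    simpa using congrFun (congrFun h1 0) 1
  · refine Group.residuallyFinite_iff_forall_finiteIndex.2 fun g hg => ?_
    have hN : ∀ L, 1 ≤ L → g ∈ NL (J 𝒜 1) (J 𝒜 L) := fun L hL => by
      have := (hq L hL).1
      have : (NL (ι := Fin 5) (J 𝒜 1) (J 𝒜 L)).FiniteIndex :=
        Subgroup.finiteIndex_of_finite_quotient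
      exact hg _
    have h1 : phi (J 𝒜 1) g = 1 := by
      rw [← sub_eq_zero]
      ext i j
      exact eq_zero_of_mem_J 𝒜 fun M => J_anti 𝒜 (Nat.le_succ M)
        (phi_NL _ (hN (M + 1) (by omega)) i j)
    obtain ⟨L, hL, hk⟩ := BMain.key 𝒜 h h1
    simpa using hk 1 (by simpa using hN L hL)
  · intro g
    obtain ⟨s, hs⟩ := phi_pow h.nil g
    obtain ⟨L, hL, hk⟩ := BMain.key 𝒜 h hs
    obtain ⟨s', hs'⟩ := (hq L hL).2 (QuotientGroup.mk (g ^ 2 ^ s))
    rw [← QuotientGroup.mk_pow, QuotientGroup.eq_one_iff] at hs'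
    exact ⟨s + s', by rw [pow_add, pow_mul]; exact hk _ hs'⟩

end Crest.Agent.R176
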