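import Crest.Agent.R176.BCentral

/-!
# Row 176 B: the stability model, one carrier  (subtask BStab1)

A new index `*` is inserted into `ι`; `sd r` says `r < *`.  Points `(c, m, v)` model
`col_*(c) · (lift of diag(A, v))` modulo `Row_*`, where `m ∈ St ι I` lifts `d_p(v) A`
(`p` = carrier, a twin of `*`).  `midP`, `colA`, `rowP` are left multiplication by
`g ∈ St ι I`, `x r * a`, `x * q b`.

Write `u = 1 + b c_q`, `w = 1 + c_q b`, `T v = tau (mulSingle p v)`, `hh = h p q b c_q`.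
`h_conj`: `hh * g = tau (hd p q b c_q) g * hh`, and `tau_mul`:
`tau (hd ..) ∘ T v ∘ tau (mulSingle q w) = T (u v)` (pointwise: at `p`: `u v`, at `q`: `w⁻¹ w`).
* `Rd`: `c`-part `(c + a e_r) u⁻¹ + a b c_q u⁻¹ e_r = c u⁻¹ + a e_r`; `m`-part:
  `T (u v) (x r q (a b)) * hh = hh * T v (x r q (a b w⁻¹))`, `b w⁻¹ = u⁻¹ b` (`mul_iv_comm`),
  `colE_add`, `colE_single`.
* `Rf`: `c' = c + t c_s e_r`, `c'_q = c_q`.  `s ≠ q`: `T (u v) (x r s t) * hh = hh * T v (x r s t)` and
  `x r s t * colE q z = colE q (z + t z_s e_r) * x r s t` (`conj_colE`).  `s = q`: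
  `t + t c_q u⁻¹ b = t w⁻¹` (`iv_swap`).
* `Rb`, `Rc`, `Re`: first for `ξ.c p = 0` (`*_zero` versions).  Then `T v` fixes everything
  (`tau_of_mem_HS`), `colE q (c u⁻¹ b) = colE q (update .. p 0)`, and the model is the formula
  `bruhat` in `St ι I` itself with `p` in the role of `*`:
  `x p q b * (colE p c * M * rowE p β) = colE p (c u⁻¹) * (μ M) * rowE p β'` for `M ∈ Mid p`
  (`bruhat`, `mid_row`, `rowE_add`), `x q r t * (colE p c * M * ..) = colE p (phi x *ᵥ c) * (x M) * ..`.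
  Apply both sides of the Steinberg relation of `St ι I` to `colE p c` and use `mid_unique`
  to get the equality of the multipliers `μ`; the `v`-parts by ring identities (or as the `(p,p)`
  entry of `phi μ`).  General case: `ξ = colA p a ξ₀`, `a = ξ.c p`, and move `colA p a` to the
  left on both sides with `Rd`, `Rf`, `Ra'` (`colA p a ∘ colA p a = id`, `midP` is an action):
  `rowP q b (colA p a ξ) = midP (x p q (a b)) (colA p a (rowP q b ξ))`.
-/

set_option autoImplicit false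
set_option linter.unusedSectionVars false

open Matrix

namespace Crest.Agent.R176

@[ext] structure Pt (ι : Type) [LinearOrder ι] {R : Type} [Ring R] (I : Ideal R) where
  c : ι → R
  m : St ι I
  v : Rˣ

variable {ι : Type} [LinearOrder ι] [Fintype ι] {R : Type} [Ring R] [Two R] {I : Ideal R}
  [I.IsTwoSided]

/-- legal entry at `(r, *)` -/
def OkC (I : Ideal R) (sd : ι → Prop) (r : ι) (a : R) : Prop := sd r ∨ a ∈ I

/-- legal entry at `(*, q)` -/
def OkR (I : Ideal R) (sd : ι → Prop) (q : ι) (b : R) : Prop := ¬ sd q ∨ b ∈ I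

def Twin (sd : ι → Prop) (p : ι) : Prop := ∀ q, q ≠ p → (sd q ↔ q < p)

def Gd (sd : ι → Prop) (ξ : Pt ι I) : Prop := (∀ r, OkC I sd r (ξ.c r)) ∧ (ξ.v : R) - 1 ∈ I

noncomputable def midP (p : ι) (g : St ι I) (ξ : Pt ι I) : Pt ι I :=
  ⟨phi I g *ᵥ ξ.c, tau I (Pi.mulSingle p ξ.v) g * ξ.m, ξ.v⟩

noncomputable def colA (r : ι) (a : R) (ξ : Pt ι I) : Pt ι I :=
  ⟨ξ.c + Pi.single r a, ξ.m, ξ.v⟩

noncomputable def rowP (p q : ι) (b : R) (ξ : Pt ι I) : Pt ι I :=
  ⟨fun r => ξ.c r * iv (b * ξ.c q),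
    h I p q b (ξ.c q) * tau I (Pi.mulSingle p ξ.v) (colE I q fun r => ξ.c r * iv (b * ξ.c q) * b)
      * ξ.m,
    un (b * ξ.c q) * ξ.v⟩

variable {sd : ι → Prop} {p : ι}

theorem Twin.lt (hp : Twin sd p) {r q : ι} (hr : sd r) (hq : ¬ sd q) : r < q := by
  by_cases h1 : r = p
  · subst h1
    have h2 : q ≠ r := fun h => hq (h ▸ hr)
    exact lt_of_le_of_ne (not_lt.1 fun h => hq ((hp q h2).2 h)) h2.symm
  · by_cases h2 : q = p
    · subst h2; exact (hp r h1).1 hr
    · exact lt_of_lt_of_le ((hp r h1).1 hr) (not_lt.1 fun h => hq ((hp q h2).2 h))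

theorem OkC.ok (hp : Twin sd p) {r : ι} {a : R} (ha : OkC I sd r a) (hr : r ≠ p) : Ok I r p a :=
  ⟨hr, ha.imp (hp r hr).1 id⟩

theorem OkR.ok (hp : Twin sd p) {q : ι} {b : R} (hb : OkR I sd q b) (hq : q ≠ p) : Ok I p q b :=
  ⟨hq.symm, hb.imp (fun h => lt_of_le_of_ne (not_lt.1 fun h' => h ((hp q hq).2 h')) hq.symm) id⟩

theorem OkC.add {r : ι} {a a' : R} (ha : OkC I sd r a) (ha' : OkC I sd r a') :
    OkC I sd r (a + a') :=
  ha.elim Or.inl fun h => ha'.elim Or.inl fun h' => Or.inr (I.add_mem h h')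

theorem OkR.add {r : ι} {a a' : R} (ha : OkR I sd r a) (ha' : OkR I sd r a') :
    OkR I sd r (a + a') :=
  ha.elim Or.inl fun h => ha'.elim Or.inl fun h' => Or.inr (I.add_mem h h')

theorem OkC.mul_right {r : ι} {a : R} (ha : OkC I sd r a) (t : R) : OkC I sd r (a * t) :=
  ha.imp id fun h => I.mul_mem_right t h

theorem OkR.mul_mem {q : ι} {b c : R} (hb : OkR I sd q b) (hc : OkC I sd q c) : b * c ∈ I :=
  hb.elim (fun h => hc.elim (fun h' => absurd h' h) fun h' => I.mul_mem_left _ h')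
    fun h => I.mul_mem_right _ h

theorem OkC.mul_mem {q : ι} {b c : R} (hc : OkC I sd q c) (hb : OkR I sd q b) : c * b ∈ I :=
  hb.elim (fun h => hc.elim (fun h' => absurd h' h) fun h' => I.mul_mem_right _ h')
    fun h => I.mul_mem_left _ h

theorem OkC.mul (hp : Twin sd p) {r q : ι} {a b : R} (ha : OkC I sd r a) (hb : OkR I sd q b)
    (hrq : r ≠ q) : Ok I r q (a * b) :=
  ⟨hrq, ha.elim (fun h => hb.elim (fun h' => Or.inl (hp.lt h h')) fun h' =>
    Or.inr (I.mul_mem_left _ h')) fun h => Or.inr (I.mul_mem_right _ h)⟩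

theorem OkR.mul (hp : Twin sd p) {q r : ι} {b t : R} (hb : OkR I sd q b) (ht : Ok I q r t) :
    OkR I sd r (b * t) := by
  by_cases hr : sd r
  · refine Or.inr (hb.elim (fun h => I.mul_mem_left _ ?_) fun h => I.mul_mem_right _ h)
    exact ht.2.resolve_left (not_lt.2 (hp.lt hr h).le)
  · exact Or.inl hr

theorem OkC.mul' (hp : Twin sd p) {r s : ι} {a t : R} (ha : OkC I sd s a) (ht : Ok I r s t) :
    OkC I sd r (t * a) := by
  by_cases hr : sd r
  · exact Or.inl hr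
  · refine Or.inr (ha.elim (fun h => I.mul_mem_right _ ?_) fun h => I.mul_mem_left _ h)
    exact ht.2.resolve_left (not_lt.2 (hp.lt h hr).le)

theorem phi_x_mulVec {r s : ι} {t : R} (ht : Ok I r s t) (c : ι → R) :
    phi I (x I r s t) *ᵥ c = c + Pi.single r (t * c s) := by
  rw [phi_x ht, add_mulVec, one_mulVec, single_mulVec]
  rfl

theorem gd_midP (hp : Twin sd p) (g : St ι I) {ξ : Pt ι I} (hξ : Gd sd ξ) :
    Gd sd (midP p g ξ) := by
  refine ⟨fun r => ?_, hξ.2⟩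
  by_cases hr : sd r
  · exact Or.inl hr
  · refine Or.inr ?_
    simp only [midP, mulVec, dotProduct]
    refine I.sum_mem fun s _ => ?_
    rcases hξ.1 s with hs | hs
    · have h1 := hp.lt hs hr
      exact I.mul_mem_right _ ((phi_ok g h1.ne').2.resolve_left (not_lt.2 h1.le))
    · exact I.mul_mem_left _ hs

theorem gd_colA {r : ι} {a : R} (ha : OkC I sd r a) {ξ : Pt ι I} (hξ : Gd sd ξ) :
    Gd sd (colA r a ξ) := by
  refine ⟨fun s => ?_, hξ.2⟩
  by_cases h : s = r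
  · subst h
    simpa [colA] using (hξ.1 s).add ha
  · simpa [colA, h] using hξ.1 s

theorem gd_rowP (hI : Rad I) {q : ι} {b : R} (hb : OkR I sd q b) {ξ : Pt ι I} (hξ : Gd sd ξ) :
    Gd sd (rowP p q b ξ) := by
  refine ⟨fun r => (hξ.1 r).mul_right _, ?_⟩
  have h1 := hb.mul_mem (hξ.1 q)
  have : ((rowP p q b ξ).v : R) - 1 = (ξ.v - 1) + b * ξ.c q * ξ.v := by
    simp only [rowP, Units.val_mul, un_val hI h1]; noncomm_ring
  rw [this]
  exact I.add_mem hξ.2 (I.mul_mem_right _ h1)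

theorem midP_one (ξ : Pt ι I) : midP p 1 ξ = ξ := by
  ext1 <;> simp [midP]

theorem midP_mul (g g' : St ι I) (ξ : Pt ι I) : midP p (g * g') ξ = midP p g (midP p g' ξ) := by
  ext1 <;> simp [midP, mul_assoc]

theorem colA_add (r : ι) (a a' : R) (ξ : Pt ι I) : colA r a (colA r a' ξ) = colA r (a + a') ξ := by
  ext1
  · simp only [colA, Pi.single_add]; abel
  · rfl
  · rfl

theorem colA_zero (r : ι) (ξ : Pt ι I) : colA r 0 ξ = ξ := by
  ext1 <;> simp [colA]

theorem colA_comm (r s : ι) (a a' : R) (ξ : Pt ι I) :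
    colA r a (colA s a' ξ) = colA s a' (colA r a ξ) := by
  ext1
  · simp only [colA]; abel
  · rfl
  · rfl

theorem rowP_zero (q : ι) (ξ : Pt ι I) : rowP p q 0 ξ = ξ := by
  ext1
  · simp [rowP, iv_zero]
  · have : (fun r => ξ.c r * iv (0 * ξ.c q) * 0) = 0 := by funext r; simp
    simp only [rowP, h_zero_left, this, colE_zero, map_one, one_mul]
  · simp [rowP, un_zero]

theorem Ra {r s : ι} {t : R} (ht : Ok I r s t) (a : R) (ξ : Pt ι I) :
    midP p (x I r s t) (colA s a ξ) = colA r (t * a) (colA s a (midP p (x I r s t) ξ)) := by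
  ext1
  · simp only [midP, colA, phi_x_mulVec ht, Pi.add_apply, Pi.single_eq_same, mul_add, Pi.single_add]
    abel
  · rfl
  · rfl

theorem Ra' {k l r : ι} (hlr : l ≠ r) (t a : R) (ξ : Pt ι I) :
    midP p (x I k l t) (colA r a ξ) = colA r a (midP p (x I k l t) ξ) := by
  by_cases ht : Ok I k l t
  · ext1
    · simp only [midP, colA, phi_x_mulVec ht, Pi.add_apply, Pi.single_eq_of_ne hlr, add_zero]
      abel
    · rfl
    · rfl
  · rw [x_of_not ht, midP_one, midP_one]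

theorem T_hh (hI : Rad I) (h3 : 3 ≤ Fintype.card ι) {q : ι} {b c : R} (hb : Ok I p q b)
    (hc : Ok I q p c) (v : Rˣ) (g : St ι I) :
    tau I (Pi.mulSingle p (un (b * c) * v)) g * h I p q b c =
      h I p q b c * tau I (Pi.mulSingle p v) (tau I (Pi.mulSingle q (un (c * b))) g) := by
  have h1 := h_conj hI h3 hb hc (tau I (Pi.mulSingle p v) (tau I (Pi.mulSingle q (un (c * b))) g))
  rw [mul_inv_eq_iff_eq_mul] at h1
  rw [h1, ← tau_mul, ← tau_mul]
  congr 3
  funext k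
  have hpq := hb.ne
  by_cases h1 : k = p
  · subst h1; simp [hd_left hpq, hpq]
  · by_cases h2 : k = q
    · subst h2; simp [hd_right hpq, Pi.mulSingle_eq_of_ne hpq.symm]
    · simp [hd_other h1 h2, h1, h2]

theorem colOk_row (hp : Twin sd p) {q : ι} {b : R} (hb : OkR I sd q b) {c : ι → R}
    (hc : ∀ r, OkC I sd r (c r)) (w : R) : ColOk I q fun r => c r * w * b :=
  fun r hr => ((hc r).mul_right w).mul hp hb hr

theorem Rd (hI : Rad I) (h3 : 3 ≤ Fintype.card ι) (hp : Twin sd p) {q r : ι} (hq : q ≠ p)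
    (hrq : r ≠ q) {a b : R} (ha : OkC I sd r a) (hb : OkR I sd q b) {ξ : Pt ι I} (hξ : Gd sd ξ) :
    colA r a (rowP p q b ξ) = midP p (x I r q (a * b)) (rowP p q b (colA r a ξ)) := by
  have hc := hξ.1 q
  have m1 := hb.mul_mem hc
  have m2 := hc.mul_mem hb
  have hab := ha.mul hp hb hrq
  have hcq : (colA r a ξ).c q = ξ.c q := by simp [colA, hrq.symm]
  ext1
  · simp only [midP, rowP, phi_x_mulVec hab, hcq]
    funext s
    by_cases h : s = r
    · subst h
      have := mul_iv hI m1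
      simp only [colA, Pi.add_apply, Pi.single_eq_same]
      nth_rewrite 1 [← mul_one a, ← this]
      noncomm_ring
    · simp [colA, h]
  · simp only [midP, rowP, hcq]
    simp only [colA]
    rw [← mul_assoc, ← mul_assoc, T_hh hI h3 (hb.ok hp hq) (hc.ok hp hq),
      mul_assoc (h I p q b _) (tau I _ (tau I _ _)),
      ← map_mul, tau_x, Pi.mulSingle_eq_of_ne hrq, Pi.mulSingle_eq_same]
    congr 3
    have o1 : Ok I r q (((1 : Rˣ) : R) * (a * b) * ((un (ξ.c q * b))⁻¹ : Rˣ)) :=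
      (hab.mul_left _).mul_right _
    have o2 := colOk_row hp hb (gd_colA ha hξ).1 (iv (b * ξ.c q))
    simp only [colA] at o2
    rw [← colE_single, colE_add (colOk_single o1) o2]
    refine colE_congr fun s _ => ?_
    by_cases h : s = r
    · subst h
      have h1 : b * ((un (ξ.c q * b))⁻¹ : Rˣ) = iv (b * ξ.c q) * b := mul_iv_comm hI m2 m1
      simp only [Pi.add_apply, Pi.single_eq_same, Units.val_one, one_mul, mul_assoc, h1, add_mul]
      rw [add_comm, add_assoc, add_self2, add_zero]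
    · simp [h]
  · simp only [midP, rowP, hcq]
    rfl

theorem Rf (hI : Rad I) (h3 : 3 ≤ Fintype.card ι) (hp : Twin sd p) {q r s : ι} (hq : q ≠ p)
    (hrq : r ≠ q) {b : R} (hb : OkR I sd q b) (t : R) {ξ : Pt ι I} (hξ : Gd sd ξ) :
    rowP p q b (midP p (x I r s t) ξ) = midP p (x I r s t) (rowP p q b ξ) := by
  by_cases ht : Ok I r s t
  swap
  · rw [x_of_not ht, midP_one, midP_one]
  have hc := hξ.1 q
  have m1 := hb.mul_mem hc
  have m2 := hc.mul_mem hb
  have hcq : (midP p (x I r s t) ξ).c q = ξ.c q := by simp [midP, phi_x_mulVec ht, hrq.symm]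
  ext1
  · simp only [rowP, hcq]
    simp only [midP, phi_x_mulVec ht]
    funext k
    by_cases h : k = r
    · subst h; simp [add_mul, mul_assoc]
    · simp [h]
  · have hz := colOk_row hp hb hξ.1 (iv (b * ξ.c q))
    have hz' := colOk_row hp hb (gd_midP hp (x I r s t) hξ).1 (iv (b * ξ.c q))
    simp only [rowP, hcq]
    simp only [midP, phi_x_mulVec ht] at hz' ⊢
    rw [← mul_assoc, ← mul_assoc, ← mul_assoc, T_hh hI h3 (hb.ok hp hq) (hc.ok hp hq),
      mul_assoc (h I p q b _) (tau I _ (tau I _ _)), mul_assoc (h I p q b _) (tau I _ (colE I _ _)),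
      ← map_mul, ← map_mul, tau_x, Pi.mulSingle_eq_of_ne hrq]
    congr 3
    by_cases hs : s = q
    · subst hs
      rw [Pi.mulSingle_eq_same, ← colE_single, ← colE_single, colE_add hz' (colOk_single ht),
        colE_add (colOk_single ((ht.mul_left _).mul_right _)) hz]
      refine colE_congr fun k _ => ?_
      by_cases h : k = r
      · subst h
        have h1 : (((un (ξ.c s * b))⁻¹ : Rˣ) : R) = 1 - ξ.c s * iv (b * ξ.c s) * b :=
          iv_swap hI m1 m2
        simp only [Pi.add_apply, Pi.single_eq_same, h1, sub_eq2, Units.val_one]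
        noncomm_ring
      · simp [h]
    · have hm : x I r s t ∈ HS I {q}ᶜ := x_mem_HS hrq hs t
      have h1 := conj_colE hm hz
      rw [mul_inv_eq_iff_eq_mul] at h1
      rw [Pi.mulSingle_eq_of_ne hs, inv_one, Units.val_one, one_mul, mul_one, h1]
      congr 1
      refine colE_congr fun k _ => ?_
      rw [phi_x_mulVec ht]
      by_cases h : k = r
      · subst h; simp [add_mul, mul_assoc]
      · simp [h]
  · simp only [rowP, hcq]
    rfl

/-- right multiplication of the lifts -/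
def sh (m : St ι I) (v : Rˣ) (ξ : Pt ι I) : Pt ι I := ⟨ξ.c, ξ.m * m, ξ.v * v⟩

theorem eq_sh (ξ : Pt ι I) : ξ = sh ξ.m ξ.v ⟨ξ.c, 1, 1⟩ := by
  ext1 <;> simp [sh]

theorem T_fix {g : St ι I} (hg : g ∈ HS I {p}ᶜ) (v : Rˣ) : tau I (Pi.mulSingle p v) g = g :=
  tau_of_mem_HS (fun i hi => by
    have : i ≠ p := hi
    simp [this]) hg

theorem colE_mem_zero {q : ι} (hq : q ≠ p) {z : ι → R} (hz : z p = 0) : colE I q z ∈ HS I {p}ᶜ :=
  colE_mem_U (Rl := fun i j => i ∈ ({p}ᶜ : Set ι) ∧ j ∈ ({p}ᶜ : Set ι))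
    fun r _ hr => ⟨by rintro rfl; exact hr hz, hq⟩

theorem rowP_sh {q : ι} (hq : q ≠ p) {ξ : Pt ι I} (hz : ξ.c p = 0) (b : R) (m : St ι I) (v : Rˣ) :
    rowP p q b (sh m v ξ) = sh m v (rowP p q b ξ) := by
  have hm : colE I q (fun r => ξ.c r * iv (b * ξ.c q) * b) ∈ HS I {p}ᶜ :=
    colE_mem_zero hq (by simp [hz])
  ext1
  · rfl
  · simp only [rowP, sh, T_fix hm, mul_assoc (G := St ι I)]
  · simp only [rowP, sh, mul_assoc]

theorem midP_sh {g : St ι I} (hg : g ∈ HS I {p}ᶜ) (ξ : Pt ι I) (m : St ι I) (v : Rˣ) :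
    midP p g (sh m v ξ) = sh m v (midP p g ξ) := by
  ext1
  · rfl
  · simp only [midP, sh, T_fix hg, mul_assoc]
  · rfl

theorem HS_mul_apply {g : St ι I} (hg : g ∈ HS I {p}ᶜ) (A : Matrix ι ι R) (s : ι) :
    (phi I g * A) p s = A p s := by
  rw [mul_apply, Finset.sum_eq_single p, HS_supp hg (by simp), one_apply_eq, one_mul]
  · intro t _ ht
    rw [HS_supp hg (by simp), one_apply_ne ht.symm, zero_mul]
  · simp

theorem HS_mulVec_apply {g : St ι I} (hg : g ∈ HS I {p}ᶜ) (c : ι → R) :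
    (phi I g *ᵥ c) p = c p := by
  rw [mulVec, dotProduct, Finset.sum_eq_single p, HS_supp hg (by simp), one_apply_eq, one_mul]
  · intro t _ ht
    rw [HS_supp hg (by simp), one_apply_ne ht.symm, zero_mul]
  · simp

variable (sd p) in
/-- the point `ξ` (with `ξ.c p = 0`) is the Bruhat decomposition of `g` at `p` -/
structure Rep (g : St ι I) (ξ : Pt ι I) : Prop where
  gd : ∀ r, OkC I sd r (ξ.c r)
  z : ξ.c p = 0
  mid : ξ.m ∈ Mid I p
  v : (ξ.v : R) = phi I ξ.m p p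
  eq : ∃ β, RowOk I p β ∧ g = colE I p ξ.c * ξ.m * rowE I p β

theorem Rep.base {c : ι → R} (hc : ∀ r, OkC I sd r (c r)) (hz : c p = 0) :
    Rep sd p (colE I p c) ⟨c, 1, 1⟩ :=
  ⟨hc, hz, one_mem _, by simp, 0, fun _ hs => Ok.zero hs.symm, by simp [rowE_zero]⟩

theorem Rep.colOk (hp : Twin sd p) {g : St ι I} {ξ : Pt ι I} (h : Rep sd p g ξ) : ColOk I p ξ.c :=
  fun r hr => (h.gd r).ok hp hr

theorem Rep.unique (hI : Rad I) (hp : Twin sd p) {g : St ι I} {ξ ξ' : Pt ι I} (h : Rep sd p g ξ)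
    (h' : Rep sd p g ξ') : ξ = ξ' := by
  obtain ⟨β, hβ, e⟩ := h.eq
  obtain ⟨β', hβ', e'⟩ := h'.eq
  obtain ⟨h1, h2, -⟩ := mid_unique hI h.mid h'.mid (h.colOk hp) (h'.colOk hp) hβ hβ' (e.symm.trans e')
  ext1
  · funext r
    by_cases hr : r = p
    · rw [hr, h.z, h'.z]
    · exact h1 r hr
  · exact h2
  · exact Units.ext (by rw [h.v, h'.v, h2])

theorem Rep.mul (hp : Twin sd p) {g g' : St ι I} {ξ : Pt ι I} (h : Rep sd p g ξ)
    (hg' : g' ∈ HS I {p}ᶜ) : Rep sd p (g' * g) (midP p g' ξ) := by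
  obtain ⟨β, hβ, e⟩ := h.eq
  refine ⟨(gd_midP (ξ := ⟨ξ.c, 1, 1⟩) hp g' ⟨h.gd, by simp⟩).1, ?_, ?_, ?_, β, hβ, ?_⟩
  · simp only [midP, HS_mulVec_apply hg', h.z]
  · simp only [midP, T_fix hg']
    exact mul_mem (HS_le_Mid p hg') h.mid
  · simp only [midP, T_fix hg', map_mul, HS_mul_apply hg', h.v]
  · simp only [midP, T_fix hg']
    rw [e, ← conj_colE hg' (h.colOk hp)]
    group

theorem Rep.row (hI : Rad I) (h3 : 3 ≤ Fintype.card ι) (hp : Twin sd p) {q : ι} (hq : q ≠ p)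
    {b : R} (hb : OkR I sd q b) {g : St ι I} {ξ : Pt ι I} (h : Rep sd p g ξ) :
    Rep sd p (x I p q b * g) (rowP p q b ξ) := by
  obtain ⟨β, hβ, e⟩ := h.eq
  have hb' := hb.ok hp hq
  have hc' := (h.gd q).ok hp hq
  have hm : colE I q (fun r => ξ.c r * iv (b * ξ.c q) * b) ∈ HS I {p}ᶜ :=
    colE_mem_zero hq (by simp [h.z])
  obtain ⟨β', hβ', e'⟩ := mid_row hI h3 h.mid (rowOk_single (hb'.mul_left (iv (b * ξ.c q))))
  refine ⟨fun r => (h.gd r).mul_right _, by simp [rowP, h.z], ?_, ?_, β' + β,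
    fun s hs => (hβ' s hs).add (hβ s hs), ?_⟩
  · simp only [rowP, T_fix hm]
    exact mul_mem (mul_mem (h_mem_Mid hb' hc') (HS_le_Mid p hm)) h.mid
  · simp only [rowP, T_fix hm, map_mul, mul_assoc (G := Matrix ι ι R), phi_h hI hb' hc',
      diagonal_mul, HS_mul_apply hm, hd_left hq.symm, Units.val_mul, h.v]
  · simp only [rowP, T_fix hm]
    have e1 : colE I q (Function.update (fun r => ξ.c r * iv (b * ξ.c q) * b) p 0) =
        colE I q fun r => ξ.c r * iv (b * ξ.c q) * b := by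
      refine colE_congr fun r _ => ?_
      by_cases hr : r = p
      · subst hr; simp [h.z]
      · simp [hr]
    rw [e, ← mul_assoc, ← mul_assoc, bruhat hI hb' (h.colOk hp), e1, ← rowE_single,
      mul_assoc _ _ ξ.m, e', ← rowE_add hβ' hβ]
    simp only [mul_assoc (G := St ι I)]

theorem colA_self (r : ι) (a : R) (ξ : Pt ι I) : colA r a (colA r a ξ) = ξ := by
  rw [colA_add, add_self2, colA_zero]

theorem midP_self (k l : ι) (t : R) (ξ : Pt ι I) :
    midP p (x I k l t) (midP p (x I k l t) ξ) = ξ := by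
  rw [← midP_mul, x_mul_self, midP_one]

theorem exists_zero {ξ : Pt ι I} (hξ : Gd sd ξ) :
    ∃ a η, OkC I sd p a ∧ Gd sd η ∧ η.c p = 0 ∧ ξ = colA p a η :=
  ⟨ξ.c p, colA p (ξ.c p) ξ, hξ.1 p, gd_colA (hξ.1 p) hξ, by simp [colA, add_self2],
    (colA_self _ _ _).symm⟩

theorem row_col (hI : Rad I) (h3 : 3 ≤ Fintype.card ι) (hp : Twin sd p) {q : ι} (hq : q ≠ p)
    {a b : R} (ha : OkC I sd p a) (hb : OkR I sd q b) {ξ : Pt ι I} (hξ : Gd sd ξ) :
    rowP p q b (colA p a ξ) = midP p (x I p q (a * b)) (colA p a (rowP p q b ξ)) := by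
  rw [Rd hI h3 hp hq hq.symm ha hb hξ, midP_self]

theorem Rb (hI : Rad I) (h3 : 3 ≤ Fintype.card ι) (hp : Twin sd p) {q : ι} (hq : q ≠ p)
    {b b' : R} (hb : OkR I sd q b) (hb' : OkR I sd q b') {ξ : Pt ι I} (hξ : Gd sd ξ) :
    rowP p q b (rowP p q b' ξ) = rowP p q (b + b') ξ := by
  obtain ⟨a, η, ha, hη, hz, rfl⟩ := exists_zero (p := p) hξ
  have g1 := gd_rowP (p := p) hI hb' hη
  rw [row_col hI h3 hp hq ha hb' hη, Rf hI h3 hp hq hq.symm hb _ (gd_colA ha g1),
    row_col hI h3 hp hq ha hb g1, row_col hI h3 hp hq ha (hb.add hb') hη, ← midP_mul,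
    x_add (ha.mul hp hb' hq.symm) (ha.mul hp hb hq.symm), mul_add, add_comm (a * b)]
  congr 2
  have r0 := Rep.base hη.1 hz
  rw [eq_sh η, rowP_sh hq r0.z, rowP_sh hq r0.z, rowP_sh hq (by simp [rowP, hz])]
  congr 1
  refine Rep.unique hI hp ((r0.row hI h3 hp hq hb').row hI h3 hp hq hb) ?_
  rw [← mul_assoc, x_add (hb.ok hp hq) (hb'.ok hp hq)]
  exact r0.row hI h3 hp hq (hb.add hb')

theorem Rc (hI : Rad I) (h3 : 3 ≤ Fintype.card ι) (hp : Twin sd p) {q r : ι} (hq : q ≠ p)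
    (hr : r ≠ p) (hqr : q ≠ r) {b b' : R} (hb : OkR I sd q b) (hb' : OkR I sd r b') {ξ : Pt ι I}
    (hξ : Gd sd ξ) : rowP p q b (rowP p r b' ξ) = rowP p r b' (rowP p q b ξ) := by
  obtain ⟨a, η, ha, hη, hz, rfl⟩ := exists_zero (p := p) hξ
  have g1 := gd_rowP (p := p) hI hb' hη
  have g2 := gd_rowP (p := p) hI hb hη
  rw [row_col hI h3 hp hr ha hb' hη, Rf hI h3 hp hq hq.symm hb _ (gd_colA ha g1),
    row_col hI h3 hp hq ha hb g1, row_col hI h3 hp hq ha hb hη,
    Rf hI h3 hp hr hr.symm hb' _ (gd_colA ha g2), row_col hI h3 hp hr ha hb' g2, ← midP_mul,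
    ← midP_mul, (x_comm _ _ hr hq.symm).eq]
  congr 2
  have r0 := Rep.base hη.1 hz
  rw [eq_sh η, rowP_sh hq r0.z, rowP_sh hr r0.z, rowP_sh hq (by simp [rowP, hz]),
    rowP_sh hr (by simp [rowP, hz])]
  congr 1
  refine Rep.unique hI hp ((r0.row hI h3 hp hr hb').row hI h3 hp hq hb) ?_
  rw [← mul_assoc, (x_comm _ _ hq hr.symm).eq, mul_assoc]
  exact (r0.row hI h3 hp hq hb).row hI h3 hp hr hb'

theorem Re (hI : Rad I) (h3 : 3 ≤ Fintype.card ι) (hp : Twin sd p) {q r : ι} (hq : q ≠ p)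
    (hr : r ≠ p) {b t : R} (hb : OkR I sd q b) (ht : Ok I q r t) {ξ : Pt ι I} (hξ : Gd sd ξ) :
    rowP p q b (midP p (x I q r t) ξ) =
      rowP p r (b * t) (midP p (x I q r t) (rowP p q b ξ)) := by
  obtain ⟨a, η, ha, hη, hz, rfl⟩ := exists_zero (p := p) hξ
  have hbt := hb.mul hp ht
  have hab := ha.mul hp hb hq.symm
  have g1 := gd_rowP (p := p) hI hb hη
  have g2 := gd_midP hp (x I q r t) g1
  have e1 : x I q r t * x I p q (a * b) =
      x I p r (a * b * t) * (x I p q (a * b) * x I q r t) := by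
    rw [x_mul' hab ht hr.symm, ← mul_assoc, ← mul_assoc, x_mul_self, one_mul]
  rw [Ra' hr, row_col hI h3 hp hq ha hb (gd_midP hp _ hη), row_col hI h3 hp hq ha hb hη,
    ← midP_mul, e1, midP_mul, midP_mul, Ra' hr,
    Rf hI h3 hp hr hr.symm hbt _ (gd_midP hp _ (gd_colA ha g2)),
    Rf hI h3 hp hr hr.symm hbt _ (gd_colA ha g2), row_col hI h3 hp hr ha hbt g2, ← midP_mul,
    ← midP_mul, (x_comm _ _ hr hq.symm).eq, mul_assoc, ← mul_assoc a b t, x_mul_self, mul_one]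
  congr 2
  have hm : x I q r t ∈ HS I {p}ᶜ := x_mem_HS hq hr t
  have r0 := Rep.base hη.1 hz
  have r1 := r0.mul hp hm
  have r2 := (r0.row hI h3 hp hq hb).mul hp hm
  rw [eq_sh η, midP_sh hm, rowP_sh hq r0.z, rowP_sh hq r1.z, midP_sh hm, rowP_sh hr r2.z]
  congr 1
  refine Rep.unique hI hp (r1.row hI h3 hp hq hb) ?_
  rw [← mul_assoc, x_mul' (hb.ok hp hq) ht hr.symm, mul_assoc, mul_assoc]
  exact r2.row hI h3 hp hr hbt

end Crest.Agent.R176
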