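import Crest.Agent.R176.BStab1

/-!
# Row 176 B: injective stability  (subtask BStab2)

`k < p₁ < p₂` in `ι`, `p₁, p₂` adjacent, the new index `*` between them: `sd r := r ≤ p₁`; both
`p₁` and `p₂` are twins.  Change of carrier `trT ξ = (c, η v * m, v)`, `η v = h p₂ p₁ (v - 1) 1`.
* `eta_h` (I1) is `h_triple p₂ q p₁` with third argument `1`:
  `h p₂ q a (β * 1) = h p₂ p₁ (a β) 1 * h p₁ q (1 * a) β`.
* `eta_mul` (I2): with `q = k`, `c = 1`, `b' = u' - 1`, `b = (u - 1) u'`, `c' = iv b'`: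
  `η (u u') = h p₂ k (b+b') 1 * (h p₁ k (b+b') 1)⁻¹` (I1), `h_add_left` twice, so
  `η (u u') = h p₂ k b c' * η u' * (h p₁ k b c')⁻¹ = η u * (hh * η u' * hh⁻¹)`, `hh = h p₁ k b c'`,
  and `hh * η u' * hh⁻¹ = tau (hd ..) (η u') = tau (mulSingle p₁ u) (η u')` since `η u' ∈ HS {p₂,p₁}`.
* `trT_mid`: `h_conj` for `η v` (`hd p₂ p₁ (v-1) 1 = mulSingle p₂ v * mulSingle p₁ v⁻¹`).
* `trT_row`: `η (u v) * h p₁ q b c = h p₂ q b c * η v` from I1, I2, `h_conj`.
* `map_injective_step`: act on `{ξ // Gd sd ξ}` by permutations (all generators are involutions: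
  `Function.Involutive.toPerm`, from `Rb`/`colA_add`/`midP_mul` and `add_self2`).
  `row q b := rowP p₁ q b` for `q ≠ p₁`, `row p₁ b := trT⁻¹ ∘ rowP p₂ p₁ b ∘ trT`; so
  `row q b = trT⁻¹ ∘ rowP p₂ q b ∘ trT` for every `q ≠ p₂`.  Every relation whose row indices avoid
  `p₁` (resp. `p₂`) follows from BStab1 for the carrier `p₁` (resp. `p₂`, transported).  The three
  relations with row indices `{p₁, p₂}` are derived in the permutation group (write `ρ q b`,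
  `μ g`): for `b ∈ I`, `ρ p₁ b = ⁅ρ k b, μ (x k p₁ 1)⁆` (Re, carrier `p₂`).
  (c) `ρ p₂ b'` commutes with `ρ k b` and `μ (x k p₁ 1)`, hence with `ρ p₁ b`.
  (e, p₁→p₂) conjugate that commutator by `μ (x p₁ p₂ t)`: `ρ k b` is fixed (Rf),
  `x k p₁ 1 ↦ x k p₁ 1 * x k p₂ t`; then Re for `(k,p₂)` and the commutations.
  (e, p₂→p₁) `t ∈ I`, `x p₂ p₁ t = ⁅x p₂ k t, x k p₁ 1⁆`; conjugation by `μ (x p₂ k t)` sends
  `ρ p₂ b ↦ ρ p₂ b * ρ k (b t)` and fixes `ρ k`, `ρ p₁`; by `μ (x k p₁ 1)` it sends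
  `ρ k s ↦ ρ k s * ρ p₁ s` and fixes `ρ p₂`, `ρ p₁`.
  Finally `lift` on `κ` (case distinction `z = *` or `z = f i`), and the image of `map f g` sends
  the point `(0, 1, 1)` to `(0, g, 1)`.
* `map_injective_gap`: induction on `card κ`; pick `* ∉ range f`, `κ' = {z // z ≠ *}`, the
  inclusion `κ' ↪o κ` is one step with `p₁' = max {z < *}`, `p₂' = min {z > *}`, `k' = f k`.
* `exists_big`: `κ = Fin 2 ⊕ₗ (Mid ⊕ₗ Fin 3)` or `Fin (2 + N + 3)`, where `Mid` orders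
  `(A × Fin 5) ⊕ E` (lexicographic on `A × Fin 5` after `A ≃ Fin a`).
-/

set_option autoImplicit false
set_option linter.unusedSectionVars false

open Matrix

namespace Crest.Agent.R176

variable {ι : Type} [LinearOrder ι] [Fintype ι] {R : Type} [Ring R] [Two R] {I : Ideal R}
  [I.IsTwoSided]

noncomputable def eta (I : Ideal R) (p₁ p₂ : ι) (v : Rˣ) : St ι I := h I p₂ p₁ (v - 1) 1

noncomputable def trT (p₁ p₂ : ι) (ξ : Pt ι I) : Pt ι I := ⟨ξ.c, eta I p₁ p₂ ξ.v * ξ.m, ξ.v⟩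

theorem three_le {k p₁ p₂ : ι} (hk : k < p₁) (h12 : p₁ < p₂) : 3 ≤ Fintype.card ι := by
  have h : ({k, p₁, p₂} : Finset ι).card = 3 :=
    Finset.card_eq_three.2 ⟨k, p₁, p₂, hk.ne, (hk.trans h12).ne, h12.ne, rfl⟩
  rw [← h]
  exact Finset.card_le_univ _

theorem un_sub (hI : Rad I) {v : Rˣ} (hv : (v : R) - 1 ∈ I) : un ((v : R) - 1) = v :=
  Units.ext (by rw [un_val hI hv, add_sub_cancel])

theorem h_mul_eta (hI : Rad I) (h3 : 3 ≤ Fintype.card ι) {p₁ p₂ q : ι} (h2 : q ≠ p₂) {a β : R}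
    (ha : Ok I p₁ q a) (hβ : Ok I q p₁ β) (v : Rˣ) :
    h I p₁ q a β * eta I p₁ p₂ v =
      tau I (Pi.mulSingle p₁ (un (a * β))) (eta I p₁ p₂ v) * h I p₁ q a β := by
  have h1 := h_conj hI h3 ha hβ (eta I p₁ p₂ v)
  rw [mul_inv_eq_iff_eq_mul] at h1
  have hm : eta I p₁ p₂ v ∈ HS I {p₂, p₁} := h_mem_HS _ _ _ _
  have h4 : tau I (Pi.mulSingle q (un (β * a))⁻¹) (eta I p₁ p₂ v) = eta I p₁ p₂ v := by
    refine tau_of_mem_HS ?_ hm
    rintro i (rfl | rfl)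
    · simp [h2.symm]
    · simp [ha.ne]
  rw [h1, hd, tau_mul, h4]

theorem eta_h (hI : Rad I) {p₁ p₂ q : ι} (h12 : p₁ < p₂) {a β : R} (ha : Ok I p₂ q a)
    (hβ : Ok I q p₁ β) (hm : a * β ∈ I) :
    h I p₂ q a β = eta I p₁ p₂ (un (a * β)) * h I p₁ q a β := by
  have := h_triple hI ha hβ (Ok.of_lt h12 (1 : R))
  rw [mul_one, one_mul] at this
  rw [this, eta, un_val hI hm, add_sub_cancel_left]

theorem eta_mul (hI : Rad I) {k p₁ p₂ : ι} (hk : k < p₁) (h12 : p₁ < p₂) {u u' : Rˣ}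
    (hu : (u : R) - 1 ∈ I) (hu' : (u' : R) - 1 ∈ I) :
    eta I p₁ p₂ (u * u') = eta I p₁ p₂ u * tau I (Pi.mulSingle p₁ u) (eta I p₁ p₂ u') := by
  have h3 := three_le hk h12
  have hk2 := hk.trans h12
  set b' : R := u' - 1 with hb'
  set b : R := (u - 1) * u' with hb
  have hbI : b ∈ I := I.mul_mem_right _ hu
  have hs : b + b' = (u * u' : Rˣ) - 1 := by simp only [hb, hb', Units.val_mul]; noncomm_ring
  have hsI : b + b' ∈ I := I.add_mem hbI hu'
  have hc : b * (1 * iv (b' * 1)) = u - 1 := by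
    rw [mul_one, one_mul, iv, un_sub hI hu', hb, mul_assoc, Units.mul_inv, mul_one]
  have o1 : Ok I k p₁ (1 : R) := Ok.of_lt hk _
  have a2 := h_add_left hI h3 (Ok.of_mem hk2.ne' hbI) (Ok.of_mem hk2.ne' hu') (Ok.of_lt hk2 (1 : R))
  have a1 := h_add_left hI h3 (Ok.of_mem hk.ne' hbI) (Ok.of_mem hk.ne' hu') o1
  rw [eta_h hI h12 (Ok.of_mem hk2.ne' hsI) o1 (by simpa using hsI),
    eta_h hI h12 (Ok.of_mem hk2.ne' hu') o1 (by simpa using hu'),
    eta_h hI h12 (Ok.of_mem hk2.ne' hbI) (o1.mul_right _) (by rw [hc]; exact hu), ← a1,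
    ← mul_assoc (G := St ι I), ← mul_assoc (G := St ι I), mul_left_inj, mul_assoc (G := St ι I),
    h_mul_eta hI h3 hk2.ne (Ok.of_mem hk.ne' hbI) (o1.mul_right _), ← mul_assoc (G := St ι I),
    mul_left_inj,
    hc, mul_one, mul_one, hs, un_sub hI hu, un_sub hI hu', un_sub hI (hs ▸ hsI)] at a2
  exact a2.symm

theorem eta_conj (hI : Rad I) {k p₁ p₂ : ι} (hk : k < p₁) (h12 : p₁ < p₂) {v : Rˣ}
    (hv : (v : R) - 1 ∈ I) (g : St ι I) :
    eta I p₁ p₂ v * tau I (Pi.mulSingle p₁ v) g = tau I (Pi.mulSingle p₂ v) g * eta I p₁ p₂ v := by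
  have h1 := h_conj hI (three_le hk h12) (Ok.of_mem h12.ne' hv) (Ok.of_lt h12 (1 : R))
    (tau I (Pi.mulSingle p₁ v) g)
  rw [mul_inv_eq_iff_eq_mul] at h1
  unfold eta
  rw [h1, ← tau_mul, hd, mul_one, one_mul, un_sub hI hv, mul_assoc, ← Pi.mulSingle_mul,
    inv_mul_cancel, Pi.mulSingle_one, mul_one]

theorem twin_left (p₁ : ι) : Twin (· ≤ p₁) p₁ := fun _ hq => ⟨fun h => lt_of_le_of_ne h hq, le_of_lt⟩

theorem twin_right {p₁ p₂ : ι} (h12 : p₁ < p₂) (hadj : ∀ q, q ≤ p₁ ∨ p₂ ≤ q) :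
    Twin (· ≤ p₁) p₂ := fun q _ =>
  ⟨fun h => lt_of_le_of_lt h h12, fun h => (hadj q).resolve_right (not_le.2 h)⟩

theorem trT_mid (hI : Rad I) {k p₁ p₂ : ι} (hk : k < p₁) (h12 : p₁ < p₂) (g : St ι I)
    {ξ : Pt ι I} (hv : (ξ.v : R) - 1 ∈ I) :
    trT p₁ p₂ (midP p₁ g ξ) = midP p₂ g (trT p₁ p₂ ξ) := by
  ext1
  · rfl
  · simp only [trT, midP]
    rw [← mul_assoc, eta_conj hI hk h12 hv, mul_assoc]
  · rfl

theorem trT_row (hI : Rad I) {k p₁ p₂ : ι} (hk : k < p₁) (h12 : p₁ < p₂)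
    (hadj : ∀ q, q ≤ p₁ ∨ p₂ ≤ q) {q : ι} (h1 : q ≠ p₁) (h2 : q ≠ p₂) {b : R}
    (hb : OkR I (· ≤ p₁) q b) {ξ : Pt ι I} (hξ : Gd (· ≤ p₁) ξ) :
    trT p₁ p₂ (rowP p₁ q b ξ) = rowP p₂ q b (trT p₁ p₂ ξ) := by
  have t1 := twin_left p₁
  have t2 := twin_right h12 hadj
  have hc := hξ.1 q
  have m1 := hb.mul_mem hc
  ext1
  · rfl
  · simp only [trT, rowP]
    rw [mul_assoc (h I p₂ q b _), ← mul_assoc (tau I _ _), ← eta_conj hI hk h12 hξ.2,
      eta_mul hI hk h12 (by rw [un_val hI m1, add_sub_cancel_left]; exact m1) hξ.2,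
      eta_h hI h12 (hb.ok t2 h2) (hc.ok t1 h1) m1]
    simp only [← mul_assoc (G := St ι I)]
    rw [mul_assoc (eta I p₁ p₂ _) (h I p₁ q b _),
      h_mul_eta hI (three_le hk h12) h2 (hb.ok t1 h1) (hc.ok t1 h1), ← mul_assoc]
  · rfl

theorem grp_aux1 {G : Type} [Group G] {A P Q y z w : G} (hA : A * A = 1) (hy : y * y = 1)
    (hw : w * w = 1) (h1 : A * y = P * y * A) (h2 : y * z = w * z * y) (h3 : A * z = z * A)
    (h4 : A * w = Q * w * A) (h5 : Q * z = z * Q) (h6 : w * y = y * w) (h7 : w * z = z * w)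
    (h8 : P * w = w * P) : P * z = Q * z * P := by
  have e1 : A * y * A = P * y := by rw [h1, mul_assoc, hA, mul_one]
  calc P * z = P * (y * y) * z := by rw [hy, mul_one]
    _ = (P * y) * (y * z) := by group
    _ = A * y * A * (z * w * y) := by rw [← e1, h2, h7]
    _ = A * y * (A * z) * w * y := by group
    _ = A * (y * z) * A * w * y := by rw [h3]; group
    _ = (A * z) * w * y * A * w * y := by rw [h2, h7]; group
    _ = z * (A * w) * y * A * w * y := by rw [h3]; group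
    _ = z * Q * w * (A * y * A) * w * y := by rw [h4]; group
    _ = z * Q * w * P * (y * w) * y := by rw [e1]; group
    _ = z * Q * w * (P * w) * (y * y) := by rw [← h6]; group
    _ = z * Q * (w * w) * P := by rw [h8, hy]; group
    _ = Q * z * P := by rw [hw, h5, mul_one]

theorem grp_aux2 {G : Type} [Group G] {A B P u y z : G} (hA : A * A = 1) (hy : y * y = 1)
    (hu : u * u = 1) (h1 : A * y = P * y * A) (h2 : u * y = z * y * u) (h3 : B * u = A * u * B)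
    (h4 : B * y = y * B) (h5 : A * u = u * A) (h6 : P * u = u * P) : B * z = P * z * B := by
  have e1 : A * y * A = P * y := by rw [h1, mul_assoc, hA, mul_one]
  have e2 : z = u * y * u * y := by
    rw [h2, mul_assoc _ u u, hu, mul_one, mul_assoc, hy, mul_one]
  calc B * z = (B * u) * y * u * y := by rw [e2]; group
    _ = A * u * (B * y) * u * y := by rw [h3]; group
    _ = A * u * y * (B * u) * y := by rw [h4]; group
    _ = (A * u) * y * A * u * (B * y) := by rw [h3]; group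
    _ = u * (A * y * A) * u * y * B := by rw [h5, h4]; group
    _ = (u * P) * y * u * y * B := by rw [e1]; group
    _ = P * z * B := by rw [← h6, e2]; group

variable (I) in
/-- the good points -/
abbrev Om (p₁ : ι) : Type := {ξ : Pt ι I // Gd (· ≤ p₁) ξ}

/-- an involution of the good points -/
def mkP {p₁ : ι} (F : Pt ι I → Pt ι I) (hF : ∀ ξ, Gd (· ≤ p₁) ξ → Gd (· ≤ p₁) (F ξ))
    (hi : ∀ ξ, Gd (· ≤ p₁) ξ → F (F ξ) = ξ) : Equiv.Perm (Om I p₁) :=
  Function.Involutive.toPerm (fun ξ => ⟨F ξ.1, hF _ ξ.2⟩) fun ξ => Subtype.ext (hi _ ξ.2)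

noncomputable def mu (p₁ : ι) : St ι I →* Equiv.Perm (Om I p₁) :=
  MonoidHom.toHomPerm
    { toFun := fun g ξ => ⟨midP p₁ g ξ.1, gd_midP (twin_left p₁) g ξ.2⟩
      map_one' := funext fun ξ => Subtype.ext (midP_one ξ.1)
      map_mul' := fun g g' => funext fun ξ => Subtype.ext (midP_mul g g' ξ.1) }

theorem mu_val {p₁ : ι} (g : St ι I) (ξ : Om I p₁) : (mu p₁ g ξ).1 = midP p₁ g ξ.1 := rfl

open Classical in
noncomputable def co (p₁ r : ι) (a : R) : Equiv.Perm (Om I p₁) :=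
  if h : OkC I (· ≤ p₁) r a then mkP (colA r a) (fun _ => gd_colA h) fun ξ _ => colA_self r a ξ
  else 1

theorem co_val {p₁ r : ι} {a : R} (h : OkC I (· ≤ p₁) r a) (ξ : Om I p₁) :
    (co p₁ r a ξ).1 = colA r a ξ.1 := by
  rw [co, dif_pos h]; rfl

theorem co_add {p₁ r : ι} {a a' : R} (h : OkC I (· ≤ p₁) r a) (h' : OkC I (· ≤ p₁) r a') :
    co (I := I) p₁ r a * co p₁ r a' = co p₁ r (a + a') := by
  ext1 ξ
  refine Subtype.ext ?_
  rw [Equiv.Perm.mul_apply, co_val h, co_val h', co_val (h.add h'), colA_add]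

theorem co_comm {p₁ r s : ι} {a a' : R} (h : OkC I (· ≤ p₁) r a) (h' : OkC I (· ≤ p₁) s a') :
    Commute (co (I := I) p₁ r a) (co p₁ s a') := by
  ext1 ξ
  refine Subtype.ext ?_
  simp only [Equiv.Perm.mul_apply, co_val h, co_val h', colA_comm r s]

theorem ra {p₁ r s : ι} {t a : R} (ht : Ok I r s t) (ha : OkC I (· ≤ p₁) s a) :
    mu p₁ (x I r s t) * co p₁ s a = co p₁ r (t * a) * co p₁ s a * mu p₁ (x I r s t) := by
  ext1 ξ
  refine Subtype.ext ?_
  simp only [Equiv.Perm.mul_apply, co_val ha, co_val (ha.mul' (twin_left p₁) ht), mu_val, Ra ht]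

theorem ra' {p₁ l r : ι} (hlr : l ≠ r) {a : R} (ha : OkC I (· ≤ p₁) r a) (k : ι) (t : R) :
    Commute (mu p₁ (x I k l t)) (co p₁ r a) := by
  ext1 ξ
  refine Subtype.ext ?_
  simp only [Equiv.Perm.mul_apply, co_val ha, mu_val, Ra' hlr]

variable (I) in
structure Dat (k p₁ p₂ : ι) : Prop where
  rad : Rad I
  hk : k < p₁
  h12 : p₁ < p₂
  adj : ∀ q, q ≤ p₁ ∨ p₂ ≤ q

noncomputable def trI (p₁ p₂ : ι) (ξ : Pt ι I) : Pt ι I := ⟨ξ.c, (eta I p₁ p₂ ξ.v)⁻¹ * ξ.m, ξ.v⟩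

theorem trT_trI (p₁ p₂ : ι) (ξ : Pt ι I) : trT p₁ p₂ (trI p₁ p₂ ξ) = ξ := by
  ext1 <;> simp [trT, trI]

theorem trI_trT (p₁ p₂ : ι) (ξ : Pt ι I) : trI p₁ p₂ (trT p₁ p₂ ξ) = ξ := by
  ext1 <;> simp [trT, trI]

noncomputable def row (p₁ p₂ q : ι) (b : R) (ξ : Pt ι I) : Pt ι I :=
  if q = p₁ then trI p₁ p₂ (rowP p₂ p₁ b (trT p₁ p₂ ξ)) else rowP p₁ q b ξ

/-- `T` transports the model to the carrier `p` -/
structure Car (p₁ p₂ p : ι) (T : Pt ι I → Pt ι I) : Prop where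
  twin : Twin (· ≤ p₁) p
  inj : Function.Injective T
  gd : ∀ ξ, Gd (· ≤ p₁) ξ → Gd (· ≤ p₁) (T ξ)
  col : ∀ r a ξ, T (colA r a ξ) = colA r a (T ξ)
  mid : ∀ g ξ, Gd (· ≤ p₁) ξ → T (midP p₁ g ξ) = midP p g (T ξ)
  row : ∀ q b ξ, q ≠ p → OkR I (· ≤ p₁) q b → Gd (· ≤ p₁) ξ →
    T (row p₁ p₂ q b ξ) = rowP p q b (T ξ)

theorem car_left (p₁ p₂ : ι) : Car (I := I) p₁ p₂ p₁ id :=
  ⟨twin_left p₁, Function.injective_id, fun _ h => h, fun _ _ _ => rfl, fun _ _ _ => rfl,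
    fun _ _ _ hq _ _ => if_neg hq⟩

namespace Dat

variable {k p₁ p₂ : ι} (D : Dat I k p₁ p₂)
include D

theorem h3 : 3 ≤ Fintype.card ι := three_le D.hk D.h12

theorem car_right : Car (I := I) p₁ p₂ p₂ (trT p₁ p₂) := by
  refine ⟨twin_right D.h12 D.adj, Function.LeftInverse.injective (trI_trT p₁ p₂), fun _ h => h,
    fun _ _ _ => rfl, fun g ξ h => trT_mid D.rad D.hk D.h12 g h.2, fun q b ξ hq hb hξ => ?_⟩
  unfold row
  split_ifs with h
  · rw [trT_trI, h]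
  · exact trT_row D.rad D.hk D.h12 D.adj h hq hb hξ

theorem car (q : ι) : ∃ p T, Car (I := I) p₁ p₂ p T ∧ q ≠ p := by
  by_cases h : q = p₁
  · exact ⟨p₂, _, D.car_right, h ▸ D.h12.ne⟩
  · exact ⟨p₁, _, car_left p₁ p₂, h⟩

theorem gd_row {q : ι} {b : R} (hb : OkR I (· ≤ p₁) q b) (ξ : Pt ι I) (hξ : Gd (· ≤ p₁) ξ) :
    Gd (· ≤ p₁) (row p₁ p₂ q b ξ) := by
  unfold row
  split_ifs with h
  · subst h
    exact gd_rowP (p := p₂) (ξ := trT q p₂ ξ) D.rad hb hξ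
  · exact gd_rowP D.rad hb hξ

theorem row_add {q : ι} {b b' : R} (hb : OkR I (· ≤ p₁) q b) (hb' : OkR I (· ≤ p₁) q b')
    {ξ : Pt ι I} (hξ : Gd (· ≤ p₁) ξ) :
    row p₁ p₂ q b (row p₁ p₂ q b' ξ) = row p₁ p₂ q (b + b') ξ := by
  obtain ⟨p, T, C, hq⟩ := D.car q
  refine C.inj ?_
  rw [C.row _ _ _ hq hb (D.gd_row hb' _ hξ), C.row _ _ _ hq hb' hξ, C.row _ _ _ hq (hb.add hb') hξ,
    Rb D.rad D.h3 C.twin hq hb hb' (C.gd _ hξ)]

theorem row_self {q : ι} {b : R} (hb : OkR I (· ≤ p₁) q b) (ξ : Pt ι I) (hξ : Gd (· ≤ p₁) ξ) :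
    row p₁ p₂ q b (row p₁ p₂ q b ξ) = ξ := by
  obtain ⟨p, T, C, hq⟩ := D.car q
  refine C.inj ?_
  rw [D.row_add hb hb hξ, C.row _ _ _ hq (hb.add hb) hξ, add_self2, rowP_zero]

open Classical in
noncomputable def ro (q : ι) (b : R) : Equiv.Perm (Om I p₁) :=
  if h : OkR I (· ≤ p₁) q b then mkP (row p₁ p₂ q b) (D.gd_row h) (D.row_self h) else 1

theorem ro_val {q : ι} {b : R} (h : OkR I (· ≤ p₁) q b) (ξ : Om I p₁) :
    (D.ro q b ξ).1 = row p₁ p₂ q b ξ.1 := by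
  rw [ro, dif_pos h]; rfl

theorem rb {q : ι} {b b' : R} (hb : OkR I (· ≤ p₁) q b) (hb' : OkR I (· ≤ p₁) q b') :
    D.ro q b * D.ro q b' = D.ro q (b + b') := by
  ext1 ξ
  refine Subtype.ext ?_
  rw [Equiv.Perm.mul_apply, D.ro_val hb, D.ro_val hb', D.ro_val (hb.add hb'), D.row_add hb hb' ξ.2]

theorem ro_self {q : ι} {b : R} (hb : OkR I (· ≤ p₁) q b) : D.ro q b * D.ro q b = 1 := by
  ext1 ξ
  refine Subtype.ext ?_
  rw [Equiv.Perm.mul_apply, D.ro_val hb, D.ro_val hb, D.row_self hb _ ξ.2]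
  rfl

theorem rd {q r : ι} (hrq : r ≠ q) {a b : R} (ha : OkC I (· ≤ p₁) r a) (hb : OkR I (· ≤ p₁) q b) :
    co p₁ r a * D.ro q b = mu p₁ (x I r q (a * b)) * D.ro q b * co p₁ r a := by
  obtain ⟨p, T, C, hq⟩ := D.car q
  ext1 ξ
  refine Subtype.ext (C.inj ?_)
  simp only [Equiv.Perm.mul_apply, co_val ha, D.ro_val hb, mu_val]
  rw [C.col, C.row _ _ _ hq hb ξ.2, C.mid _ _ (D.gd_row hb _ (gd_colA ha ξ.2)),
    C.row _ _ _ hq hb (gd_colA ha ξ.2), C.col, Rd D.rad D.h3 C.twin hq hrq ha hb (C.gd _ ξ.2)]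

theorem rf {q r : ι} (hrq : r ≠ q) {b : R} (hb : OkR I (· ≤ p₁) q b) (s : ι) (t : R) :
    Commute (D.ro q b) (mu p₁ (x I r s t)) := by
  obtain ⟨p, T, C, hq⟩ := D.car q
  ext1 ξ
  refine Subtype.ext (C.inj ?_)
  simp only [Equiv.Perm.mul_apply, D.ro_val hb, mu_val]
  rw [C.row _ _ _ hq hb (gd_midP (twin_left p₁) _ ξ.2), C.mid _ _ ξ.2,
    C.mid _ _ (D.gd_row hb _ ξ.2), C.row _ _ _ hq hb ξ.2,
    Rf D.rad D.h3 C.twin hq hrq hb t (C.gd _ ξ.2)]

theorem rc_car {p : ι} {T : Pt ι I → Pt ι I} (C : Car p₁ p₂ p T) {q r : ι} (hq : q ≠ p)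
    (hr : r ≠ p) (hqr : q ≠ r) {b b' : R} (hb : OkR I (· ≤ p₁) q b) (hb' : OkR I (· ≤ p₁) r b') :
    Commute (D.ro q b) (D.ro r b') := by
  ext1 ξ
  refine Subtype.ext (C.inj ?_)
  simp only [Equiv.Perm.mul_apply, D.ro_val hb, D.ro_val hb']
  rw [C.row _ _ _ hq hb (D.gd_row hb' _ ξ.2), C.row _ _ _ hr hb' ξ.2,
    C.row _ _ _ hr hb' (D.gd_row hb _ ξ.2), C.row _ _ _ hq hb ξ.2,
    Rc D.rad D.h3 C.twin hq hr hqr hb hb' (C.gd _ ξ.2)]

theorem re_car {p : ι} {T : Pt ι I → Pt ι I} (C : Car p₁ p₂ p T) {q r : ι} (hq : q ≠ p)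
    (hr : r ≠ p) {b t : R} (hb : OkR I (· ≤ p₁) q b) (ht : Ok I q r t) :
    D.ro q b * mu p₁ (x I q r t) = D.ro r (b * t) * mu p₁ (x I q r t) * D.ro q b := by
  have hbt := hb.mul (twin_left p₁) ht
  ext1 ξ
  refine Subtype.ext (C.inj ?_)
  simp only [Equiv.Perm.mul_apply, D.ro_val hb, D.ro_val hbt, mu_val]
  rw [C.row _ _ _ hq hb (gd_midP (twin_left p₁) _ ξ.2), C.mid _ _ ξ.2,
    C.row _ _ _ hr hbt (gd_midP (twin_left p₁) _ (D.gd_row hb _ ξ.2)),
    C.mid _ _ (D.gd_row hb _ ξ.2), C.row _ _ _ hq hb ξ.2,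
    Re D.rad D.h3 C.twin hq hr hb ht (C.gd _ ξ.2)]

theorem re_k {b : R} (hb : b ∈ I) :
    D.ro k b * mu p₁ (x I k p₁ 1) = D.ro p₁ b * mu p₁ (x I k p₁ 1) * D.ro k b := by
  have := D.re_car D.car_right (D.hk.trans D.h12).ne D.h12.ne (Or.inr hb) (Ok.of_lt D.hk (1 : R))
  rwa [mul_one] at this

theorem rc_12 {b b' : R} (hb : OkR I (· ≤ p₁) p₁ b) (hb' : OkR I (· ≤ p₁) p₂ b') :
    Commute (D.ro p₁ b) (D.ro p₂ b') := by
  have hbI : b ∈ I := hb.resolve_left fun h => h le_rfl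
  have hk2 := D.hk.trans D.h12
  have e : D.ro p₁ b = D.ro k b * mu p₁ (x I k p₁ 1) * (D.ro k b)⁻¹ * (mu p₁ (x I k p₁ 1))⁻¹ := by
    rw [D.re_k hbI]; group
  have c1 : Commute (D.ro k b) (D.ro p₂ b') :=
    D.rc_car (car_left p₁ p₂) D.hk.ne D.h12.ne' hk2.ne (Or.inr hbI) hb'
  have c2 : Commute (mu p₁ (x I k p₁ 1)) (D.ro p₂ b') := (D.rf hk2.ne hb' _ _).symm
  rw [e]
  exact ((c1.mul_left c2).mul_left c1.inv_left).mul_left c2.inv_left

theorem rc {q r : ι} {b b' : R} (hb : OkR I (· ≤ p₁) q b) (hb' : OkR I (· ≤ p₁) r b') :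
    Commute (D.ro q b) (D.ro r b') := by
  by_cases hqr : q = r
  · subst hqr
    show _ * _ = _ * _
    rw [D.rb hb hb', D.rb hb' hb, add_comm]
  by_cases hq : q = p₁
  · by_cases hr : r = p₂
    · subst hq hr; exact D.rc_12 hb hb'
    · exact D.rc_car D.car_right (hq ▸ D.h12.ne) hr hqr hb hb'
  · by_cases hr : r = p₁
    · by_cases hq2 : q = p₂
      · subst hr hq2; exact (D.rc_12 hb' hb).symm
      · exact D.rc_car D.car_right hq2 (hr ▸ D.h12.ne) hqr hb hb'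
    · exact D.rc_car (car_left p₁ p₂) hq hr hqr hb hb'

omit D in
theorem mu_self (i j : ι) (r : R) : mu p₁ (x I i j r) * mu p₁ (x I i j r) = 1 := by
  rw [← map_mul, x_mul_self, map_one]

theorem re_12 {b t : R} (hb : OkR I (· ≤ p₁) p₁ b) (ht : Ok I p₁ p₂ t) :
    D.ro p₁ b * mu p₁ (x I p₁ p₂ t) = D.ro p₂ (b * t) * mu p₁ (x I p₁ p₂ t) * D.ro p₁ b := by
  have hbI : b ∈ I := hb.resolve_left fun h => h le_rfl
  have hk2 := D.hk.trans D.h12
  have hbt := hb.mul (twin_left p₁) ht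
  refine grp_aux1 (A := D.ro k b) (y := mu p₁ (x I k p₁ 1)) (w := mu p₁ (x I k p₂ t))
    (D.ro_self (Or.inr hbI)) (mu_self _ _ _) (mu_self _ _ _) (D.re_k hbI) ?_
    (D.rf D.hk.ne' (Or.inr hbI) _ _).eq
    (D.re_car (car_left p₁ p₂) D.hk.ne D.h12.ne' (Or.inr hbI) (Ok.of_lt hk2 t))
    (D.rf D.h12.ne hbt _ _).eq ((x_comm _ _ hk2.ne' D.hk.ne).map _).eq
    ((x_comm _ _ D.h12.ne' hk2.ne).map _).eq (D.rf D.hk.ne hb _ _).eq
  rw [← map_mul, x_mul' (Ok.of_lt D.hk 1) ht hk2.ne, one_mul, map_mul, map_mul]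

theorem re_21 {b t : R} (hb : OkR I (· ≤ p₁) p₂ b) (ht : Ok I p₂ p₁ t) :
    D.ro p₂ b * mu p₁ (x I p₂ p₁ t) = D.ro p₁ (b * t) * mu p₁ (x I p₂ p₁ t) * D.ro p₂ b := by
  have htI : t ∈ I := ht.2.resolve_left (not_lt.2 D.h12.le)
  have hk2 := D.hk.trans D.h12
  have hbt : b * t ∈ I := I.mul_mem_left _ htI
  have o : Ok I p₂ k t := Ok.of_mem hk2.ne' htI
  refine grp_aux2 (A := D.ro k (b * t)) (y := mu p₁ (x I k p₁ 1)) (u := mu p₁ (x I p₂ k t))
    (D.ro_self (Or.inr hbt)) (mu_self _ _ _) (mu_self _ _ _) (D.re_k hbt) ?_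
    (D.re_car (car_left p₁ p₂) D.h12.ne' D.hk.ne hb o) (D.rf hk2.ne hb _ _).eq
    (D.rf hk2.ne' (Or.inr hbt) _ _).eq (D.rf D.h12.ne' (Or.inr hbt) _ _).eq
  rw [← map_mul, x_mul' o (Ok.of_lt D.hk 1) D.h12.ne', mul_one, map_mul, map_mul]

theorem re {q r : ι} {b t : R} (hb : OkR I (· ≤ p₁) q b) (ht : Ok I q r t) :
    D.ro q b * mu p₁ (x I q r t) = D.ro r (b * t) * mu p₁ (x I q r t) * D.ro q b := by
  by_cases hq : q = p₁
  · by_cases hr : r = p₂
    · subst hq hr; exact D.re_12 hb ht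
    · exact D.re_car D.car_right (hq ▸ D.h12.ne) hr hb ht
  · by_cases hr : r = p₁
    · by_cases hq2 : q = p₂
      · subst hr hq2; exact D.re_21 hb ht
      · exact D.re_car D.car_right hq2 (hr ▸ D.h12.ne) hb ht
    · exact D.re_car (car_left p₁ p₂) hq hr hb ht

end Dat

theorem map_injective_step (hI : Rad I) {κ : Type} [LinearOrder κ] (f : ι ↪o κ) (s : κ)
    (hs : ∀ z, z = s ∨ z ∈ Set.range f) {k p₁ p₂ : ι} (hk : k < p₁) (h1 : f p₁ < s) (h2 : s < f p₂)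
    (hadj : ∀ q, q ≤ p₁ ∨ p₂ ≤ q) : Function.Injective (map I f) := by
  classical
  have h12 : p₁ < p₂ := f.lt_iff_lt.1 (h1.trans h2)
  have D : Dat I k p₁ p₂ := ⟨hI, hk, h12, hadj⟩
  have hlt : ∀ r, f r < s ↔ r ≤ p₁ := fun r =>
    ⟨fun h => (hadj r).resolve_right fun h' => absurd (h2.trans_le (f.monotone h')) (not_lt.2 h.le),
      fun h => (f.monotone h).trans_lt h1⟩
  have hgt : ∀ r, s < f r ↔ ¬ r ≤ p₁ := fun r =>
    ⟨fun h h' => absurd ((hlt r).2 h') (not_lt.2 h.le),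
      fun h => h2.trans_le (f.monotone ((hadj r).resolve_left h))⟩
  have hne : ∀ r, f r ≠ s := fun r => by
    by_cases h : r ≤ p₁
    · exact ((hlt r).2 h).ne
    · exact ((hgt r).2 h).ne'
  have okR : ∀ {q} {b : R}, Ok I s (f q) b → OkR I (· ≤ p₁) q b := fun h => h.2.imp (hgt _).1 id
  have okC : ∀ {r} {a : R}, Ok I (f r) s a → OkC I (· ≤ p₁) r a := fun h => h.2.imp (hlt _).1 id
  have : Nonempty ι := ⟨k⟩
  set g := Function.invFun f with hg
  have hgf : ∀ i, g (f i) = i := Function.leftInverse_invFun f.injective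
  set F : κ → κ → R → Equiv.Perm (Om I p₁) := fun z z' r =>
    if z = s then D.ro (g z') r else if z' = s then co p₁ (g z) r else mu p₁ (x I (g z) (g z') r)
    with hF
  have F1 : ∀ q b, F s (f q) b = D.ro q b := fun q b => by simp [hF, hgf]
  have F2 : ∀ r a, F (f r) s a = co p₁ r a := fun r a => by simp [hF, hgf, hne]
  have F3 : ∀ i j r, F (f i) (f j) r = mu p₁ (x I i j r) := fun i j r => by simp [hF, hgf, hne]
  have hadd : ∀ i j r t, Ok I i j r → Ok I i j t → F i j r * F i j t = F i j (r + t) := by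
    intro i j r t hr ht
    rcases hs i with rfl | ⟨i, rfl⟩ <;> rcases hs j with rfl | ⟨j, rfl⟩
    · exact absurd rfl hr.ne
    · rw [F1, F1, F1, D.rb (okR hr) (okR ht)]
    · rw [F2, F2, F2, co_add (okC hr) (okC ht)]
    · rw [F3, F3, F3, ← map_mul, x_add ((ok_map I f).1 hr) ((ok_map I f).1 ht)]
  have hmul : ∀ i j l r t, Ok I i j r → Ok I j l t → i ≠ l →
      F i j r * F j l t = F i l (r * t) * F j l t * F i j r := by
    intro i j l r t hr ht hil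
    rcases hs i with rfl | ⟨i, rfl⟩ <;> rcases hs j with rfl | ⟨j, rfl⟩ <;>
      rcases hs l with rfl | ⟨l, rfl⟩
    · exact absurd rfl hr.ne
    · exact absurd rfl hr.ne
    · exact absurd rfl hil
    · rw [F1, F1, F3, D.re (okR hr) ((ok_map I f).1 ht)]
    · exact absurd rfl ht.ne
    · rw [F1, F2, F3, D.rd (fun h => hil (by rw [h])) (okC hr) (okR ht)]
    · rw [F2, F2, F3, ra ((ok_map I f).1 hr) (okC ht)]
    · rw [F3, F3, F3, ← map_mul, ← map_mul, ← map_mul,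
        x_mul' ((ok_map I f).1 hr) ((ok_map I f).1 ht) fun h => hil (by rw [h])]
  have hcomm : ∀ i j l m r t, Ok I i j r → Ok I l m t → j ≠ l → i ≠ m →
      Commute (F i j r) (F l m t) := by
    intro i j l m r t hr ht hjl him
    rcases hs i with rfl | ⟨i, rfl⟩
    · obtain ⟨j, rfl⟩ := (hs j).resolve_left hr.ne.symm
      obtain ⟨m, rfl⟩ := (hs m).resolve_left him.symm
      rcases hs l with rfl | ⟨l, rfl⟩
      · rw [F1, F1]; exact D.rc (okR hr) (okR ht)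
      · rw [F1, F3]; exact D.rf (fun h => hjl (by rw [h])) (okR hr) _ _
    · rcases hs j with rfl | ⟨j, rfl⟩
      · obtain ⟨l, rfl⟩ := (hs l).resolve_left hjl.symm
        rcases hs m with rfl | ⟨m, rfl⟩
        · rw [F2, F2]; exact co_comm (okC hr) (okC ht)
        · rw [F2, F3]; exact (ra' (fun h => him (by rw [h])) (okC hr) _ _).symm
      · rcases hs l with rfl | ⟨l, rfl⟩
        · obtain ⟨m, rfl⟩ := (hs m).resolve_left ht.ne.symm
          rw [F3, F1]; exact (D.rf (fun h => him (by rw [h])) (okR ht) _ _).symm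
        · rcases hs m with rfl | ⟨m, rfl⟩
          · rw [F3, F2]; exact ra' (fun h => hjl (by rw [h])) (okC ht) _ _
          · rw [F3, F3]
            exact (x_comm r t (fun h => hjl (by rw [h])) fun h => him (by rw [h])).map _
  have key : (lift F hadd hmul hcomm).comp (map I f) = mu p₁ := by
    refine hom_ext fun i j r hr => ?_
    rw [MonoidHom.comp_apply, map_x, lift_x _ _ _ _ ((ok_map I f).2 hr), F3]
  intro y y' hy
  have e : mu p₁ y = mu p₁ y' := by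
    rw [← key, MonoidHom.comp_apply, MonoidHom.comp_apply, hy]
  have e' := congrArg (fun σ : Equiv.Perm (Om I p₁) =>
    (σ ⟨⟨0, 1, 1⟩, fun _ => Or.inr I.zero_mem, by simp⟩).1.m) e
  simpa [mu_val, midP, tau_one] using e'

theorem map_comp {κ μ : Type} [LinearOrder κ] [LinearOrder μ] (f : ι ↪o κ) (g : κ ↪o μ)
    (y : St ι I) : map I g (map I f y) = map I (f.trans g) y := by
  have : (map I g).comp (map I f) = map I (f.trans g) := hom_ext fun i j r _ => by simp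
  exact DFunLike.congr_fun this y

theorem map_injective_gap (hI : Rad I) {κ : Type} [LinearOrder κ] [Fintype κ] (f : ι ↪o κ)
    {k p₁ p₂ : ι} (hk : k < p₁) (h12 : p₁ < p₂) (hadj : ∀ q, q ≤ p₁ ∨ p₂ ≤ q)
    (hgap : ∀ z, z ∈ Set.range f ∨ (f p₁ < z ∧ z < f p₂)) : Function.Injective (map I f) := by
  obtain ⟨n, hn⟩ : ∃ n, Fintype.card κ = n := ⟨_, rfl⟩
  induction n using Nat.strong_induction_on generalizing κ with
  | _ n ih =>
    classical
    by_cases hsurj : Function.Surjective f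
    · let e : ι ≃o κ := RelIso.ofSurjective f hsurj
      refine Function.LeftInverse.injective (g := map I e.symm.toOrderEmbedding) fun y => ?_
      rw [map_comp]
      have : map I (f.trans e.symm.toOrderEmbedding) = MonoidHom.id _ := by
        refine hom_ext fun i j r _ => ?_
        have h1 : ∀ i, (f.trans e.symm.toOrderEmbedding) i = i := fun i => e.symm_apply_apply i
        rw [map_x, h1, h1]; rfl
      rw [this]; rfl
    · obtain ⟨s, hs⟩ : ∃ s, s ∉ Set.range f := by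
        by_contra hcon
        exact hsurj fun s => by by_contra h; exact hcon ⟨s, h⟩
      have hs' := (hgap s).resolve_left hs
      let f' : ι ↪o {z : κ // z ≠ s} :=
        OrderEmbedding.ofMapLEIff (fun i => ⟨f i, fun h => hs ⟨i, h⟩⟩) fun a b => f.le_iff_le
      let inc : {z : κ // z ≠ s} ↪o κ := OrderEmbedding.subtype _
      have hcard : Fintype.card {z : κ // z ≠ s} < n := by
        rw [← hn]; exact Fintype.card_subtype_lt (x := s) (by simp)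
      have i1 : Function.Injective (map I f') := by
        refine ih _ hcard f' (fun z => (hgap z.1).imp ?_ id) rfl
        rintro ⟨i, hi⟩
        exact ⟨i, Subtype.ext hi⟩
      obtain ⟨q₁, hq₁, hm₁⟩ := Finset.exists_max_image
        (Finset.univ.filter fun z : {z : κ // z ≠ s} => z.1 < s) id
        ⟨f' p₁, Finset.mem_filter.2 ⟨Finset.mem_univ _, hs'.1⟩⟩
      obtain ⟨q₂, hq₂, hm₂⟩ := Finset.exists_min_image
        (Finset.univ.filter fun z : {z : κ // z ≠ s} => s < z.1) id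
        ⟨f' p₂, Finset.mem_filter.2 ⟨Finset.mem_univ _, hs'.2⟩⟩
      have i2 : Function.Injective (map I inc) := by
        refine map_injective_step hI inc s (fun z => ?_) (k := f' k) (p₁ := q₁) (p₂ := q₂) ?_
          (Finset.mem_filter.1 hq₁).2 (Finset.mem_filter.1 hq₂).2 fun q => ?_
        · by_cases h : z = s
          · exact Or.inl h
          · exact Or.inr ⟨⟨z, h⟩, rfl⟩
        · exact (f'.strictMono hk).trans_le
            (hm₁ (f' p₁) (Finset.mem_filter.2 ⟨Finset.mem_univ _, hs'.1⟩))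
        · rcases lt_or_gt_of_ne q.2 with h | h
          · exact Or.inl (hm₁ q (by simpa using h))
          · exact Or.inr (hm₂ q (by simpa using h))
      intro y y' hy
      refine i1 (i2 ?_)
      rw [map_comp, map_comp]
      exact hy

theorem exists_big (hI : Rad I) (A E : Type) [Finite A] [Finite E] :
    ∃ (κ : Type) (_ : LinearOrder κ) (_ : Fintype κ) (f₀ : Fin 5 ↪o κ) (fA : Fin 5 × A → κ)
      (fE : E → κ), Function.Injective (map I f₀) ∧ Function.Injective fA ∧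
      Function.Injective fE ∧ (∀ i j a, i < j → fA (i, a) < fA (j, a)) ∧
      (∀ e t, fE e ≠ fA t) ∧ ∀ e i, fE e ≠ f₀ i := by
  obtain ⟨a, ⟨eA⟩⟩ := Finite.exists_equiv_fin A
  obtain ⟨e, ⟨eE⟩⟩ := Finite.exists_equiv_fin E
  let f₀ : Fin 5 ↪o Fin (5 * a + e + 5) := OrderEmbedding.ofStrictMono
    (fun i => ⟨if i.val < 2 then i.val else 5 * a + e + i.val, by split_ifs <;> omega⟩) (by
      intro i j hij
      have : i.val < j.val := hij
      simp only [Fin.mk_lt_mk]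
      split_ifs <;> omega)
  have hf₀ : ∀ i, (f₀ i).val = if i.val < 2 then i.val else 5 * a + e + i.val := fun i => rfl
  refine ⟨Fin (5 * a + e + 5), inferInstance, inferInstance, f₀,
    fun t => ⟨2 + 5 * (eA t.2).val + t.1.val, by omega⟩,
    fun ε => ⟨2 + 5 * a + (eE ε).val, by omega⟩, ?_, ?_, ?_, ?_, ?_, ?_⟩
  · refine map_injective_gap hI f₀ (k := 0) (p₁ := 1) (p₂ := 2) (by decide) (by decide)
      (by decide) fun z => ?_
    by_cases h1 : z.val < 2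
    · exact Or.inl ⟨⟨z.val, by omega⟩, Fin.ext (by rw [hf₀]; simp [h1])⟩
    · by_cases h2 : z.val < 5 * a + e + 2
      · refine Or.inr ⟨?_, ?_⟩
        · rw [Fin.lt_def, hf₀]; simp; omega
        · rw [Fin.lt_def, hf₀]; simp; omega
      · refine Or.inl ⟨⟨z.val - (5 * a + e), by omega⟩, Fin.ext ?_⟩
        rw [hf₀]
        simp only
        split_ifs <;> omega
  · rintro ⟨i, α⟩ ⟨j, β⟩ h
    simp only [Fin.mk.injEq] at h
    have h1 : i = j := Fin.ext (by omega)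
    have h2 : eA α = eA β := Fin.ext (by omega)
    rw [h1, eA.injective h2]
  · intro α β h
    simp only [Fin.mk.injEq] at h
    exact eE.injective (Fin.ext (by omega))
  · intro i j α hij
    have : i.val < j.val := hij
    simp only [Fin.mk_lt_mk]
    omega
  · intro ε t h
    simp only [Fin.mk.injEq] at h
    omega
  · intro ε i h
    have h1 := congrArg Fin.val h
    rw [hf₀] at h1
    simp only at h1
    split_ifs at h1 <;> omega

end Crest.Agent.R176
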