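import Crest.Agent.R176.BBlock

/-!
# Row 176 B: Dennis-Stein symbols  (subtask BSym)

Notation `u = 1 + a b`.  All signs vanish (`Two R`).
* `x_mul_x_opp` is the definition of `h` (generators are involutions).
* `h_conj_easy`: if `k, l ∉ {i,j}` use `HS_commute`; if `l ∉ {i,j}` use `colE_single`,
  `conj_colE` (`h ∈ HS {l}ᶜ`) and `phi_h`; if `k ∉ {i,j}` use rows (apply `conj_rowE` to `h⁻¹`).
* `bruhat`: `colE p c = x q p (c q) * colE p c°` (`c° = update c q 0`); `x_mul_x_opp`;
  `x p q β * colE p c° = colE p c° * colE q (update (c° β) p 0) * x p q β` (`U_ext_rk`, ranks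
  `r ↦ 0, p ↦ 1, q ↦ 2`); `h * colE p c° = colE p (c° u⁻¹) * h`, because `colE p c° ∈` the group
  generated by `x r p _` with `r ∉ {p,q}` on which conjugation by `h` is `tau (hd ..)`
  (`h_conj_easy`; `MonoidHom.eqOn_closure` or `closure_induction_x`), and `tau_colE`.
* `h_triple`: compute `x i j a * x j k b * x k i c` in two ways.  With `c' = c e_k + (b c) e_j`,
  `u = 1 + a b c`:
  (1) `x j k b * x k i c = colE i c' * x j k b`, `bruhat` gives
  `colE i (c' u⁻¹) * h i j a (b c) * x k j (c u⁻¹ a) * x i j (u⁻¹ a) * x j k b`;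
  (2) `x_mul'` first: `x i k (a b) * x j k b * x i j a * x k i c`,
  `x i j a * x k i c = x k i c * x k j (c a) * x i j a`, then (1)-like steps and `bruhat` give
  `colE i (c' u⁻¹) * h i k (a b) c * x j k (b c u⁻¹ a b) * x i k (u⁻¹ a b) * x j k b * x k j (c a) * x i j a`.
  Move the row elements `x i _ _` to the right (`conj_rowE`): `h i j a (bc) * M₁ * rowE i β₁ =
  h i k (ab) c * M₂ * rowE i β₂` with `M₁ = x k j (c u⁻¹ a) * x j k b`,
  `M₂ = x j k (b + b c u⁻¹ a b) * x k j (c a)`.  Row `i` of the matrices (`phi_h`, `HS_supp`) gives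
  `β₁ = β₂` off `i` (`row_cancel`), and `M₂ * M₁⁻¹ = h k j (c a) b` (`iv_swap`, `mul_iv_comm`).
* `h_conj`: enough for generators; the easy case covers `{k,l} ≠ {i,j}`.  Otherwise pick
  `m ∉ {i,j}`.  If `b = β γ` with `Ok j m β`, `Ok m i γ`: `h i j a b = h i m (a β) γ * h m j (γ a) β`.
  If `a = α β` with `Ok i m α`, `Ok m j β`: `h i j a b = h i m α (β b) * (h j m (b α) β)⁻¹`
  (`h_triple i m j`).  Both factors act by the easy case, and the diagonals multiply correctly
  (compare `phi`, or directly).  Cases: `i<j` (so `b ∈ I`): `m<i`: `b = b*1`; `j<m`: `b = 1*b`;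
  `i<m<j`: `a = 1*a`.  `j<i` (so `a ∈ I`): `m<j`: `a = a*1`; `i<m`: `a = 1*a`; `j<m<i`: `b = 1*b`.
* `h_add_left`: compute `x i j a * x i j a' * x j i c` in two ways with `x_mul_x_opp`, move `x i j _`
  to the right with `h_conj`, cancel (compare the arguments directly or with `phi`).
  `h_add_right`: the same with `x i j a * x j i c * x j i c'`.
-/

set_option autoImplicit false
set_option linter.unusedSectionVars false

open Matrix

namespace Crest.Agent.R176

variable {ι : Type} [LinearOrder ι] [Fintype ι] {R : Type} [Ring R] [Two R] {I : Ideal R}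
  [I.IsTwoSided]

theorem iv_unique (hI : Rad I) {a y : R} (ha : a ∈ I) (hy : (1 + a) * y = 1) : iv a = y :=
  left_inv_eq_right_inv (iv_mul hI ha) hy

theorem iv_conj (hI : Rad I) {a : R} (ha : a ∈ I) (d : Rˣ) :
    iv (d * a * (d⁻¹ : Rˣ)) = d * iv a * (d⁻¹ : Rˣ) := by
  refine iv_unique hI (I.mul_mem_right _ (I.mul_mem_left _ ha)) ?_
  have : (1 + d * a * (d⁻¹ : Rˣ) : R) = d * (1 + a) * (d⁻¹ : Rˣ) := by
    rw [mul_add, add_mul, mul_one, Units.mul_inv]
  rw [this]
  calc (d * (1 + a) * (d⁻¹ : Rˣ) * (d * iv a * (d⁻¹ : Rˣ)) : R)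
      = d * ((1 + a) * (((d⁻¹ : Rˣ) * d) * iv a)) * (d⁻¹ : Rˣ) := by noncomm_ring
    _ = 1 := by rw [Units.inv_mul, one_mul, mul_iv hI ha, mul_one, Units.mul_inv]

theorem hd_left {i j : ι} (hij : i ≠ j) (a b : R) : hd i j a b i = un (a * b) := by
  simp [hd, hij]

theorem hd_right {i j : ι} (hij : i ≠ j) (a b : R) : hd i j a b j = (un (b * a))⁻¹ := by
  simp [hd, hij.symm]

theorem hd_other {i j k : ι} (hi : k ≠ i) (hj : k ≠ j) (a b : R) : hd i j a b k = 1 := by
  simp [hd, hi, hj]

theorem colOk_single {k r : ι} {t : R} (ht : Ok I r k t) : ColOk I k (Pi.single r t) := by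
  intro s hs
  by_cases h : s = r
  · subst h; simpa using ht
  · rw [Pi.single_eq_of_ne h]; exact Ok.zero hs

theorem rowOk_single {k s : ι} {t : R} (ht : Ok I k s t) : RowOk I k (Pi.single s t) := by
  intro r hr
  by_cases h : r = s
  · subst h; simpa using ht
  · rw [Pi.single_eq_of_ne h]; exact Ok.zero hr.symm

theorem phi_inv_diag {g : St ι I} {d : ι → Rˣ} (hg : phi I g = diagonal fun k => (d k : R)) :
    phi I g⁻¹ = diagonal fun k => (((d k)⁻¹ : Rˣ) : R) := by
  refine left_inv_eq_right_inv (phi_inv_mul g) ?_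
  rw [hg, diagonal_mul_diagonal]
  simp

theorem diag_units_inj {d d' : ι → Rˣ}
    (h : (diagonal fun k => (d k : R)) = diagonal fun k => (d' k : R)) : d = d' := by
  funext k
  exact Units.ext (congrFun (diagonal_injective h) k)

theorem row_triv {p : ι} {g g' : St ι I} {d : ι → R} (hg : phi I g = diagonal d)
    (hg' : g' ∈ HS I {p}ᶜ) (s : ι) (hs : s ≠ p) : phi I (g * g') p s = 0 := by
  rw [map_mul, hg, diagonal_mul, HS_supp hg' (by simp), one_apply_ne hs.symm, mul_zero]

theorem h_mem_HS (i j : ι) (a b : R) : h I i j a b ∈ HS I {i, j} := by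
  unfold h
  exact mul_mem (mul_mem (mul_mem (x_mem_HS (by simp) (by simp) _) (x_mem_HS (by simp) (by simp) _))
    (x_mem_HS (by simp) (by simp) _)) (x_mem_HS (by simp) (by simp) _)

theorem h_zero_left (i j : ι) (b : R) : h I i j 0 b = 1 := by
  simp [h, iv_zero]

theorem h_zero_right (i j : ι) (a : R) : h I i j a 0 = 1 := by
  simp [h, iv_zero]

theorem x_mul_x_opp (i j : ι) (a b : R) :
    x I i j a * x I j i b = x I j i (b * iv (a * b)) * h I i j a b * x I i j (iv (a * b) * a) := by
  unfold h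
  simp only [← mul_assoc, x_mul_self, one_mul]
  rw [mul_assoc _ _ (x I i j (iv (a * b) * a)), x_mul_self, mul_one]

theorem phi_h (hI : Rad I) {i j : ι} {a b : R} (ha : Ok I i j a) (hb : Ok I j i b) :
    phi I (h I i j a b) = diagonal fun k => (hd i j a b k : R) := by
  have hij := ha.ne
  have hab := ha.mul_mem hb
  have hba := hb.mul_mem ha
  unfold h
  rw [map_mul, map_mul, map_mul, phi_x (hb.mul_right _), phi_x ha, phi_x hb, phi_x (ha.mul_left _)]
  have key : ∀ β α : R, ((1 + single j i β) * (1 + single i j a) * (1 + single j i b) *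
      (1 + single i j α) : Matrix ι ι R) = 1 + single i i (a * b) +
        single j j (β * a + (β * (1 + a * b) + b) * α) +
        single i j (a + (1 + a * b) * α) + single j i (β * (1 + a * b) + b) := by
    intro β α
    simp only [add_mul, mul_add, one_mul, mul_one, single_mul_single_same,
      single_mul_single_of_ne _ _ _ _ hij, single_mul_single_of_ne _ _ _ _ hij.symm, add_zero,
      single_add, mul_assoc]
    abel
  have h1 : b * iv (a * b) * (1 + a * b) + b = 0 := by
    rw [mul_assoc, iv_mul hI hab, mul_one, add_self2]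
  have h2 : a + (1 + a * b) * (iv (a * b) * a) = 0 := by
    rw [← mul_assoc, mul_iv hI hab, one_mul, add_self2]
  rw [key, h1, h2, zero_mul, add_zero, single_zero, single_zero, add_zero, add_zero]
  ext k l
  by_cases hkl : k = l
  · subst hkl
    rw [diagonal_apply_eq]
    by_cases hi : k = i
    · subst hi
      rw [hd_left hij, un_val hI hab]
      simp [hij.symm]
    · by_cases hj : k = j
      · subst hj
        rw [hd_right hij]
        have := iv_swap hI hab hba
        rw [sub_eq2] at this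
        simp only [Matrix.add_apply, one_apply_eq, single_apply_same]
        rw [single_apply_of_ne _ _ _ _ _ (by simp [hij]), add_zero]
        exact this.symm
      · rw [hd_other hi hj]
        simp [Ne.symm hi, Ne.symm hj]
  · rw [diagonal_apply_ne _ hkl]
    simp only [Matrix.add_apply, one_apply_ne hkl]
    rw [single_apply_of_ne, single_apply_of_ne, add_zero, add_zero]
    · rintro ⟨rfl, rfl⟩; exact hkl rfl
    · rintro ⟨rfl, rfl⟩; exact hkl rfl

theorem tau_h (hI : Rad I) (d : ι → Rˣ) {i j : ι} {a b : R} (ha : Ok I i j a) (hb : Ok I j i b) :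
    tau I d (h I i j a b) =
      h I i j (d i * a * ((d j)⁻¹ : Rˣ)) (d j * b * ((d i)⁻¹ : Rˣ)) := by
  have hab := ha.mul_mem hb
  have h1 : (d i * a * ((d j)⁻¹ : Rˣ) * (d j * b * ((d i)⁻¹ : Rˣ)) : R) =
      d i * (a * b) * ((d i)⁻¹ : Rˣ) := by simp [mul_assoc]
  unfold h
  rw [h1, iv_conj hI hab]
  simp [mul_assoc]

theorem h_conj_easy (hI : Rad I) {i j : ι} {a b : R} (ha : Ok I i j a) (hb : Ok I j i b)
    {k l : ι} (h1 : ¬ (k = i ∧ l = j)) (h2 : ¬ (k = j ∧ l = i)) (r : R) :
    h I i j a b * x I k l r * (h I i j a b)⁻¹ = tau I (hd i j a b) (x I k l r) := by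
  by_cases hr : Ok I k l r
  swap
  · rw [x_of_not hr]; simp
  have hij := ha.ne
  by_cases hl : l ≠ i ∧ l ≠ j
  · have hm : h I i j a b ∈ HS I {l}ᶜ := HS_mono (by
      intro s hs
      rcases hs with rfl | rfl
      · exact hl.1.symm
      · exact hl.2.symm) (h_mem_HS i j a b)
    rw [← colE_single, conj_colE hm (colOk_single hr), tau_colE, phi_h hI ha hb]
    refine colE_congr fun s _ => ?_
    rw [mulVec_diagonal, hd_other hl.1 hl.2]
    simp
  · have hk : k ≠ i ∧ k ≠ j := by
      have := hr.ne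
      constructor
      · rintro rfl
        exact hl ⟨this.symm, fun h => h1 ⟨rfl, h⟩⟩
      · rintro rfl
        exact hl ⟨fun h => h2 ⟨rfl, h⟩, this.symm⟩
    have hm : (h I i j a b)⁻¹ ∈ HS I {k}ᶜ := inv_mem (HS_mono (by
      intro s hs
      rcases hs with rfl | rfl
      · exact hk.1.symm
      · exact hk.2.symm) (h_mem_HS i j a b))
    have := conj_rowE hm (rowOk_single hr)
    rw [inv_inv] at this
    rw [← rowE_single, this, tau_rowE, phi_inv_diag (phi_h hI ha hb)]
    refine rowE_congr fun s _ => ?_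
    rw [vecMul_diagonal, hd_other hk.1 hk.2]
    simp

theorem h_conj_U (hI : Rad I) {i j : ι} {a b : R} (ha : Ok I i j a) (hb : Ok I j i b)
    {Rl : ι → ι → Prop} (hRl : ∀ k l, Rl k l → ¬ (k = i ∧ l = j) ∧ ¬ (k = j ∧ l = i))
    {g : St ι I} (hg : g ∈ U I Rl) :
    h I i j a b * g * (h I i j a b)⁻¹ = tau I (hd i j a b) g := by
  refine MonoidHom.eqOn_closure (f := (MulAut.conj (h I i j a b)).toMonoidHom)
    (g := tau I (hd i j a b)) ?_ hg
  rintro _ ⟨k, l, r, hkl, rfl⟩
  exact h_conj_easy hI ha hb (hRl k l hkl).1 (hRl k l hkl).2 r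

/-- cancellation of row elements: `g`, `g'` have trivial `p`-th row off the diagonal -/
theorem row_cancel (hI : Rad I) {p : ι} {g g' : St ι I} {b b' : ι → R} (hb : RowOk I p b)
    (hb' : RowOk I p b') (hg : ∀ s, s ≠ p → phi I g p s = 0) (hg' : ∀ s, s ≠ p → phi I g' p s = 0)
    (h : g * rowE I p b = g' * rowE I p b') : g = g' ∧ ∀ s, s ≠ p → b s = b' s := by
  have key : ∀ (g : St ι I) (b : ι → R), RowOk I p b → (∀ s, s ≠ p → phi I g p s = 0) → ∀ s,
      phi I (g * rowE I p b) p s = phi I g p p * (if s = p then 1 else b s) := by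
    intro g b hb hg s
    rw [map_mul, mul_apply, Finset.sum_eq_single p, phi_rowE hb]
    · by_cases hs : s = p
      · subst hs; simp
      · simp [hs, one_apply_ne (Ne.symm hs)]
    · intro t _ ht; rw [hg t ht, zero_mul]
    · simp
  have h0 : phi I g p p = phi I g' p p := by
    have h1 := key g b hb hg p
    rw [h, key g' b' hb' hg' p] at h1
    simpa using h1.symm
  have hu : IsUnit (phi I g p p) := by simpa using hI _ (phi_diag g p)
  have h2 : ∀ s, s ≠ p → b s = b' s := by
    intro s hs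
    have h1 := key g b hb hg s
    rw [h, key g' b' hb' hg' s, if_neg hs, if_neg hs, ← h0] at h1
    exact (hu.mul_left_cancel h1).symm
  rw [rowE_congr h2] at h
  exact ⟨mul_right_cancel h, h2⟩

theorem bruhat (hI : Rad I) {p q : ι} {b : R} {c : ι → R} (hb : Ok I p q b) (hc : ColOk I p c) :
    x I p q b * colE I p c =
      colE I p (fun r => c r * iv (b * c q)) * h I p q b (c q) *
        colE I q (Function.update (fun r => c r * iv (b * c q) * b) p 0) *
          x I p q (iv (b * c q) * b) := by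
  have hpq := hb.ne
  have hβ : Ok I q p (c q) := hc q hpq.symm
  set w := iv (b * c q) with hw
  set c0 := Function.update c q 0 with hc0
  have hc0ok : ColOk I p c0 := by
    intro r hr
    by_cases h : r = q
    · subst h; simpa [hc0] using Ok.zero hr
    · simpa [hc0, h] using hc r hr
  have h1 : colE I p c = x I q p (c q) * colE I p c0 := by
    rw [← colE_single, colE_add (colOk_single hβ) hc0ok]
    refine colE_congr fun r _ => ?_
    by_cases h : r = q
    · subst h; simp [hc0]
    · simp [hc0, h]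
  have hne : ∀ r, c0 r ≠ 0 → r ≠ q := by
    rintro r hr rfl
    exact hr (by simp [hc0])
  have hα : Ok I p q (w * b) := hb.mul_left w
  have hDok : ColOk I q (Function.update (fun r => c r * w * b) p 0) := by
    intro r hr
    by_cases h : r = p
    · subst h; simpa using Ok.zero hr
    · rw [Function.update_of_ne h, mul_assoc]
      exact (hc r h).mul hα hr
  have h2 : x I p q (w * b) * colE I p c0 =
      colE I p c0 * colE I q (Function.update (fun r => c r * w * b) p 0) * x I p q (w * b) := by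
    have hm : colE I p c0 ∈ HS I {q}ᶜ :=
      colE_mem_U (Rl := fun i j => i ∈ ({q}ᶜ : Set ι) ∧ j ∈ ({q}ᶜ : Set ι))
        fun r _ hr => ⟨hne r hr, hpq⟩
    have h3 := conj_colE hm (colOk_single hα)
    have h4 : colE I q (phi I (colE I p c0) *ᵥ Pi.single p (w * b)) =
        colE I q (Function.update (fun r => c r * w * b) p 0) * x I p q (w * b) := by
      rw [← colE_single, colE_add hDok (colOk_single hα)]
      refine colE_congr fun r hr => ?_
      rw [phi_colE hc0ok, mulVec_single]
      by_cases h : r = p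
      · subst h; simp
      · simp [h, hr, hc0, one_apply_ne h, mul_assoc]
    rw [h4, colE_single, colE_inv hc0ok] at h3
    rw [mul_assoc, ← h3, ← mul_assoc, ← mul_assoc]
    nth_rewrite 2 [← colE_inv hc0ok]
    rw [inv_mul_cancel, one_mul]
  have h3 : h I p q b (c q) * colE I p c0 = colE I p (fun r => c0 r * w) * h I p q b (c q) := by
    have hm : colE I p c0 ∈ U I fun r s => r ≠ p ∧ r ≠ q :=
      colE_mem_U fun r hr hr' => ⟨hr, hne r hr'⟩
    have h4 := h_conj_U hI hb hβ (fun k l hkl => ⟨fun h => hkl.1 h.1, fun h => hkl.2 h.1⟩) hm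
    rw [mul_inv_eq_iff_eq_mul] at h4
    rw [h4, tau_colE]
    congr 1
    refine colE_congr fun r hr => ?_
    by_cases h : r = q
    · subst h; simp [hc0]
    · rw [hd_other hr h, hd_left hpq]
      simp [hw, iv]
  have h4 : x I q p (c q * w) * colE I p (fun r => c0 r * w) = colE I p fun r => c r * w := by
    rw [← colE_single, colE_add (colOk_single (hβ.mul_right w)) fun r hr => (hc0ok r hr).mul_right w]
    refine colE_congr fun r _ => ?_
    by_cases h : r = q
    · subst h; simp [hc0]
    · simp [hc0, h]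
  rw [h1, ← mul_assoc, x_mul_x_opp, ← hw, mul_assoc, h2, ← h4]
  simp only [← mul_assoc]
  rw [mul_assoc _ (h I p q b (c q)), h3]
  simp only [mul_assoc]

theorem h_triple (hI : Rad I) {i j k : ι} {a b c : R} (ha : Ok I i j a) (hb : Ok I j k b)
    (hc : Ok I k i c) : h I i j a (b * c) = h I i k (a * b) c * h I k j (c * a) b := by
  have hij := ha.ne
  have hjk := hb.ne
  have hki := hc.ne
  have hab := ha.mul hb hki.symm
  have hbc := hb.mul hc hij.symm
  have hca := hc.mul ha hjk.symm
  have habc := hab.mul_mem hc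
  have hcab := hc.mul_mem hab
  set w := iv (a * b * c) with hw
  set c' : ι → R := Pi.single j (b * c) + Pi.single k c with hc'
  have hc'j : c' j = b * c := by simp [hc', hjk]
  have hc'k : c' k = c := by simp [hc', hjk.symm]
  have hc'o : ∀ r, r ≠ j → r ≠ k → c' r = 0 := fun r h1 h2 => by simp [hc', h1, h2]
  have hc'ok : ColOk I i c' := fun r hr => (colOk_single hbc r hr).add (colOk_single hc r hr)
  have e1 : x I j k b * x I k i c = colE I i c' * x I j k b := by
    rw [x_mul' hb hc hij.symm, hc', ← colE_add (colOk_single hbc) (colOk_single hc), colE_single,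
      colE_single]
  have b1 := bruhat hI ha hc'ok
  have b2 := bruhat hI hab hc'ok
  rw [hc'j, ← mul_assoc a b c, ← hw] at b1
  rw [hc'k, ← hw] at b2
  have f1 : colE I j (Function.update (fun r => c' r * w * a) i 0) = x I k j (c * w * a) := by
    rw [← colE_single]
    refine colE_congr fun r hr => ?_
    by_cases h1 : r = i
    · subst h1; simp [hki.symm]
    · by_cases h2 : r = k
      · subst h2; simp [h1, hc'k]
      · simp [h1, h2, hc'o r hr h2]
  have f2 : colE I k (Function.update (fun r => c' r * w * (a * b)) i 0) =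
      x I j k (b * c * w * (a * b)) := by
    rw [← colE_single]
    refine colE_congr fun r hr => ?_
    by_cases h1 : r = i
    · subst h1; simp [hij]
    · by_cases h2 : r = j
      · subst h2; simp [h1, hc'j]
      · simp [h1, h2, hc'o r h2 hr]
  rw [f1] at b1
  rw [f2] at b2
  have e2 : x I i j a * x I k i c = x I k i c * x I k j (c * a) * x I i j a := by
    rw [(x_comm c (c * a) hki.symm hjk.symm).eq, mul_assoc, x_mul' hc ha hjk.symm, ← mul_assoc,
      ← mul_assoc, x_mul_self, one_mul]
  have e3 : x I i j a * (x I j k b * x I k i c) =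
      x I i k (a * b) * (x I j k b * x I k i c) * (x I k j (c * a) * x I i j a) := by
    rw [← mul_assoc, x_mul' ha hb hki.symm, mul_assoc, e2]
    simp only [mul_assoc]
  rw [e1, ← mul_assoc (x I i j a), ← mul_assoc (x I i k _), b1, b2] at e3
  simp only [mul_assoc] at e3
  have e4 := mul_left_cancel e3
  have hj : j ∈ ({i}ᶜ : Set ι) := hij.symm
  have hk : k ∈ ({i}ᶜ : Set ι) := hki
  have m1 : x I j k b ∈ HS I {i}ᶜ := x_mem_HS hj hk _
  have m2 : x I j k b * x I k j (c * a) ∈ HS I {i}ᶜ := mul_mem m1 (x_mem_HS hk hj _)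
  have o1 := rowOk_single (ha.mul_left w)
  have o2 := rowOk_single (hab.mul_left w)
  have r1 := conj_rowE m1 o1
  have r2 := conj_rowE m2 o2
  rw [rowE_single, mul_assoc, inv_mul_eq_iff_eq_mul] at r1 r2
  have o3 := rowOk_vecMul m2 o2
  have o4 : RowOk I i (Pi.single k (w * (a * b)) ᵥ* phi I (x I j k b * x I k j (c * a)) +
      Pi.single j a) := fun s hs => (o3 s hs).add (rowOk_single ha s hs)
  rw [r1, ← mul_assoc (x I j k b) (x I k j (c * a)), ← mul_assoc (x I i k _), r2,
    ← rowE_single i j a, mul_assoc, rowE_add o3 (rowOk_single ha)] at e4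
  have e5 := (row_cancel hI (g := h I i j a (b * c) * (x I k j (c * (w * a)) * x I j k b))
    (g' := h I i k (a * b) c * (x I j k (b * (c * (w * (a * b)))) * (x I j k b * x I k j (c * a))))
    (rowOk_vecMul m1 o1) o4
    (row_triv (phi_h hI ha hbc) (mul_mem (x_mem_HS hk hj _) m1))
    (row_triv (phi_h hI hab hc) (mul_mem (x_mem_HS hj hk _) m2))
    (by simpa only [mul_assoc] using e4)).1
  have g1 : b * iv (c * a * b) = b * (c * (w * (a * b))) + b := by
    rw [mul_assoc c, iv_swap hI habc hcab, sub_eq2, ← hw]; noncomm_ring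
  have g2 : iv (c * a * b) * (c * a) = c * (w * a) := by
    rw [mul_assoc c, ← mul_assoc, ← mul_iv_comm hI habc hcab, ← hw, mul_assoc]
  have okb : Ok I j k (b * (c * (w * (a * b)))) := hb.mul_right _
  rw [← eq_mul_inv_iff_mul_eq] at e5
  rw [e5, mul_assoc]
  congr 1
  unfold h
  rw [g1, g2, ← x_add okb hb, _root_.mul_inv_rev, x_inv, x_inv]
  simp only [mul_assoc]

variable (I) in
/-- `g` acts on the root group `(k, l)` like the diagonal matrix `d` -/
def Act (g : St ι I) (d : ι → Rˣ) (k l : ι) : Prop :=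
  ∀ r, g * x I k l r * g⁻¹ = tau I d (x I k l r)

theorem Act.mul {g g' : St ι I} {d d' : ι → Rˣ} {k l : ι} (h : Act I g d k l)
    (h' : Act I g' d' k l) : Act I (g * g') (d * d') k l := by
  intro r
  rw [tau_mul, tau_x I d', ← h, ← tau_x, ← h']
  group

theorem Act.inv {g : St ι I} {d : ι → Rˣ} {k l : ι} (h : Act I g d k l) :
    Act I g⁻¹ d⁻¹ k l := by
  intro r
  have h1 := h ((d⁻¹ k : Rˣ) * r * ((d⁻¹ l)⁻¹ : Rˣ))
  rw [← tau_x, ← tau_mul, mul_inv_cancel, tau_one] at h1
  rw [← h1]
  nth_rewrite 2 [h1]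
  group

theorem h_conj (hI : Rad I) (h3 : 3 ≤ Fintype.card ι) {i j : ι} {a b : R} (ha : Ok I i j a)
    (hb : Ok I j i b) (g : St ι I) :
    h I i j a b * g * (h I i j a b)⁻¹ = tau I (hd i j a b) g := by
  have hij := ha.ne
  obtain ⟨m, hmi, hmj⟩ : ∃ m, m ≠ i ∧ m ≠ j := by
    by_contra hcon
    have h1 : (Finset.univ : Finset ι) ⊆ {i, j} := fun m _ => by
      by_contra hm
      simp only [Finset.mem_insert, Finset.mem_singleton, not_or] at hm
      exact hcon ⟨m, hm⟩
    have h2 := (Finset.card_le_card h1).trans Finset.card_le_two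
    rw [Finset.card_univ] at h2
    omega
  have key : ∀ k l, (k = i ∧ l = j) ∨ (k = j ∧ l = i) →
      Act I (h I i j a b) (hd i j a b) k l := by
    intro k l hkl
    have n1 : ∀ p, ¬ (k = p ∧ l = m) := fun p hp => by
      rcases hkl with hkl | hkl
      · exact hmj (hp.2.symm.trans hkl.2)
      · exact hmi (hp.2.symm.trans hkl.2)
    have n2 : ∀ p, ¬ (k = m ∧ l = p) := fun p hp => by
      rcases hkl with hkl | hkl
      · exact hmi (hp.1.symm.trans hkl.1)
      · exact hmj (hp.1.symm.trans hkl.1)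
    have cA : ∀ β γ, Ok I j m β → Ok I m i γ → b = β * γ →
        Act I (h I i j a b) (hd i j a b) k l := by
      intro β γ hβ hγ hb'
      have t := h_triple hI ha hβ hγ
      rw [← hb'] at t
      have o1 := ha.mul hβ hmi.symm
      have o2 := hγ.mul ha hmj
      have hdd : hd i j a b = hd i m (a * β) γ * hd m j (γ * a) β := by
        refine diag_units_inj ?_
        rw [← phi_h hI ha hb, t, map_mul, phi_h hI o1 hγ, phi_h hI o2 hβ, diagonal_mul_diagonal]
        simp
      rw [t, hdd]
      exact Act.mul (h_conj_easy hI o1 hγ (n1 i) (n2 i)) (h_conj_easy hI o2 hβ (n2 j) (n1 j))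
    have cB : ∀ α β, Ok I i m α → Ok I m j β → a = α * β →
        Act I (h I i j a b) (hd i j a b) k l := by
      intro α β hα hβ ha'
      have t := h_triple hI hα hβ hb
      rw [← ha', ← mul_inv_eq_iff_eq_mul] at t
      have o1 := hβ.mul hb hmi
      have o2 := hb.mul hα hmj.symm
      have hdd : hd i j a b = hd i m α (β * b) * (hd j m (b * α) β)⁻¹ := by
        refine diag_units_inj ?_
        rw [← phi_h hI ha hb, ← t, map_mul, phi_h hI hα o1, phi_inv_diag (phi_h hI o2 hβ),
          diagonal_mul_diagonal]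
        simp
      rw [← t, hdd]
      exact Act.mul (h_conj_easy hI hα o1 (n1 i) (n2 i))
        (Act.inv (h_conj_easy hI o2 hβ (n1 j) (n2 j)))
    rcases lt_or_gt_of_ne hij with h1 | h1
    · have hbI : b ∈ I := hb.2.resolve_left (not_lt.2 h1.le)
      rcases lt_or_gt_of_ne hmi with h2 | h2
      · exact cA b 1 (Ok.of_mem hmj.symm hbI) (Ok.of_lt h2 _) (mul_one b).symm
      · rcases lt_or_gt_of_ne hmj with h3 | h3
        · exact cB 1 a (Ok.of_lt h2 _) (Ok.of_lt h3 _) (one_mul a).symm
        · exact cA 1 b (Ok.of_lt h3 _) (Ok.of_mem hmi hbI) (one_mul b).symm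
    · have haI : a ∈ I := ha.2.resolve_left (not_lt.2 h1.le)
      rcases lt_or_gt_of_ne hmj with h2 | h2
      · exact cB a 1 (Ok.of_mem hmi.symm haI) (Ok.of_lt h2 _) (mul_one a).symm
      · rcases lt_or_gt_of_ne hmi with h3 | h3
        · exact cA 1 b (Ok.of_lt h2 _) (Ok.of_lt h3 _) (one_mul b).symm
        · exact cB 1 a (Ok.of_lt h3 _) (Ok.of_mem hmj haI) (one_mul a).symm
  have : (MulAut.conj (h I i j a b)).toMonoidHom = tau I (hd i j a b) := by
    refine hom_ext fun k l r _ => ?_
    by_cases h1 : k = i ∧ l = j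
    · exact key k l (Or.inl h1) r
    · by_cases h2 : k = j ∧ l = i
      · exact key k l (Or.inr h2) r
      · exact h_conj_easy hI ha hb h1 h2 r
  exact DFunLike.congr_fun this g

theorem h_add_left (hI : Rad I) (h3 : 3 ≤ Fintype.card ι) {i j : ι} {a a' c : R}
    (ha : Ok I i j a) (ha' : Ok I i j a') (hc : Ok I j i c) :
    h I i j a (c * iv (a' * c)) * h I i j a' c = h I i j (a + a') c := by
  have hij := ha.ne
  have m1 := ha'.mul_mem hc
  have m2 := ha.mul_mem (hc.mul_right (iv (a' * c)))
  have m3 := (ha.add ha').mul_mem hc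
  have hW : iv ((a + a') * c) = iv (a' * c) * iv (a * (c * iv (a' * c))) := by
    refine iv_unique hI m3 ?_
    have : 1 + (a + a') * c = (1 + a * (c * iv (a' * c))) * (1 + a' * c) := by
      rw [add_mul 1, one_mul, mul_assoc, mul_assoc, iv_mul hI m1]; noncomm_ring
    rw [this, mul_assoc, ← mul_assoc (1 + a' * c), mul_iv hI m1, one_mul, mul_iv hI m2]
  have e1 := x_mul_x_opp (I := I) i j (a + a') c
  have e2 := h_conj hI h3 ha' hc (tau I (hd i j a' c)⁻¹ (x I i j (iv (a * (c * iv (a' * c))) * a)))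
  rw [← tau_mul, mul_inv_cancel, tau_one, tau_x, mul_inv_eq_iff_eq_mul] at e2
  rw [← x_add ha ha', mul_assoc, x_mul_x_opp, ← mul_assoc, ← mul_assoc, x_mul_x_opp,
    mul_assoc _ _ (h I i j a' c), ← e2, hW, ← mul_assoc c] at e1
  simp only [mul_assoc (G := St ι I)] at e1
  have e3 := mul_left_cancel e1
  have o1 := (ok_tau I (hd i j a' c)⁻¹).2 (ha.mul_left (iv (a * c * iv (a' * c))))
  rw [mul_assoc a] at o1
  have o2 := o1.add (ha'.mul_left (iv (a' * c)))
  rw [x_add o1 (ha'.mul_left _), ← mul_assoc, ← rowE_single, ← rowE_single] at e3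
  refine (row_cancel hI (rowOk_single o2) (rowOk_single ((ha.add ha').mul_left _)) ?_ ?_ e3).1
  · intro s hs
    rw [map_mul, phi_h hI ha (hc.mul_right _), phi_h hI ha' hc, diagonal_mul_diagonal,
      diagonal_apply_ne _ hs.symm]
  · intro s hs
    rw [phi_h hI (ha.add ha') hc, diagonal_apply_ne _ hs.symm]

theorem h_add_right (hI : Rad I) (h3 : 3 ≤ Fintype.card ι) {i j : ι} {a c c' : R}
    (ha : Ok I i j a) (hc : Ok I j i c) (hc' : Ok I j i c') :
    h I i j a (c + c') = h I i j a c * h I i j (iv (a * c) * a) c' := by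
  have hij := ha.ne
  have m1 := ha.mul_mem hc
  have m1' := hc.mul_mem ha
  have oa := ha.mul_left (iv (a * c))
  have m2 := oa.mul_mem hc'
  have m3 := ha.mul_mem (hc.add hc')
  set w := iv (a * c) with hw
  set w₂ := iv (w * a * c') with hw₂
  have hW : iv (a * (c + c')) = w₂ * w := by
    refine iv_unique hI m3 ?_
    have : 1 + a * (c + c') = (1 + a * c) * (1 + w * a * c') := by
      rw [mul_add (1 + a * c), mul_one, mul_assoc w, ← mul_assoc _ w, mul_iv hI m1]; noncomm_ring
    rw [this, mul_assoc, ← mul_assoc (1 + w * a * c'), mul_iv hI m2, one_mul, mul_iv hI m1]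
  have e1 := x_mul_x_opp (I := I) i j a (c + c')
  have e2 := h_conj hI h3 ha hc (x I j i (c' * w₂))
  rw [tau_x, mul_inv_eq_iff_eq_mul, hd_left hij, hd_right hij] at e2
  have o1 : Ok I j i (((un (c * a))⁻¹ : Rˣ) * (c' * w₂) * ((un (a * c))⁻¹ : Rˣ)) :=
    ((hc'.mul_right _).mul_left _).mul_right _
  have g1 : c * w + ((un (c * a))⁻¹ : Rˣ) * (c' * w₂) * ((un (a * c))⁻¹ : Rˣ) =
      (c + c') * (w₂ * w) := by
    have a1 : (((un (c * a))⁻¹ : Rˣ) : R) = 1 - c * w * a := iv_swap hI m1 m1'
    have a2 : (((un (a * c))⁻¹ : Rˣ) : R) = w := rfl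
    have a3 : w₂ = 1 - w * a * c' * w₂ := iv_eq' hI m2
    have a4 : c * (w₂ * w) = c * w - c * w * a * c' * w₂ * w := by
      nth_rewrite 1 [a3]; noncomm_ring
    rw [a1, a2, add_mul, a4]; noncomm_ring
  rw [← x_add hc hc', ← mul_assoc, x_mul_x_opp, mul_assoc, x_mul_x_opp, ← hw, ← hw₂,
    ← mul_assoc, ← mul_assoc, mul_assoc _ (h I i j a c), e2, ← mul_assoc,
    x_add (hc.mul_right _) o1, g1, hW] at e1
  simp only [mul_assoc (G := St ι I)] at e1
  have e3 := mul_left_cancel e1
  rw [← mul_assoc, ← rowE_single, ← rowE_single] at e3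
  refine (row_cancel hI (rowOk_single (oa.mul_left _)) (rowOk_single (ha.mul_left _)) ?_ ?_ e3).1.symm
  · intro s hs
    rw [map_mul, phi_h hI ha hc, phi_h hI oa hc', diagonal_mul_diagonal,
      diagonal_apply_ne _ hs.symm]
  · intro s hs
    rw [phi_h hI ha (hc.add hc'), diagonal_apply_ne _ hs.symm]

theorem h_inv (hI : Rad I) (h3 : 3 ≤ Fintype.card ι) {i j : ι} {a c : R}
    (ha : Ok I i j a) (hc : Ok I j i c) : (h I i j a c)⁻¹ = h I i j a (c * iv (a * c)) := by
  have := h_add_left hI h3 ha ha hc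
  rw [add_self2, h_zero_left] at this
  exact inv_eq_of_mul_eq_one_left this

end Crest.Agent.R176
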