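import Crest.Agent.R176.BDefs

/-!
# Row 176 B: unipotent subgroups inject into matrices  (subtask BUnip)

Main point `U_inj`: for a transitive irreflexive relation `Rl` the group `U I Rl` injects into
matrices.  Proof: strong induction on the finite set `T` of indices `p` with some `Rl p q`
(prove it for all `Rl` with sources inside `T`).  If there is an edge, take a source `p₀` without
incoming edge (`Rl` is well founded on the finite type: `Finite.wellFounded_of_trans_of_irrefl`;
take a minimal element among the sources; an incoming edge `r → p₀` would make `r` a smaller source).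
Let `Rl' i j := Rl i j ∧ i ≠ p₀`.  Row elements `ρ b := ∏_q x p₀ q (b q)` (for `b` with
`b q ≠ 0 → Rl p₀ q ∧ Ok p₀ q (b q)`; list product or `Finset.noncommProd`) commute and add,
`x r s t` (`Rl' r s`, so `r,s ≠ p₀`) normalises them (`x_mul'`, `x_comm`; transitivity),
so every `g ∈ U Rl` is `ρ b * g'` with `g' ∈ U Rl'` (`closure_induction_x`).
Row `p₀` of `phi (ρ b * g')` is `(e_{p₀} + b) ᵥ* phi g'`, row `p₀` of `phi g'` is `e_{p₀}`
(`U_supp`), so `phi g = 1` gives `b ᵥ* phi g' = 0`, `b = 0` (`phi_mul_inv`).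
`U_surj`: same induction (peel off row `p₀`: `1 + n = (1 + n') * (1 + row)` since column `p₀` of
`n'` is zero).
`phi_X`: induction over the list of pairs (nodup, all products of two terms vanish by `hsq`).
After that every identity is `U_ext` plus a matrix computation.
-/

set_option autoImplicit false
set_option linter.unusedSectionVars false

open Matrix

namespace Crest.Agent.R176

variable {ι : Type} [LinearOrder ι] [Fintype ι] {R : Type} [Ring R] [Two R] {I : Ideal R}
  [I.IsTwoSided]

theorem x_mem_U {Rl : ι → ι → Prop} {i j : ι} (h : Rl i j) (r : R) : x I i j r ∈ U I Rl :=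
  Subgroup.subset_closure ⟨i, j, r, h, rfl⟩

theorem U_mono {Rl Rl' : ι → ι → Prop} (h : ∀ i j, Rl i j → Rl' i j) : U I Rl ≤ U I Rl' :=
  Subgroup.closure_mono (by rintro _ ⟨i, j, r, hij, rfl⟩; exact ⟨i, j, r, h i j hij, rfl⟩)

theorem x_mem_HS {S : Set ι} {i j : ι} (hi : i ∈ S) (hj : j ∈ S) (r : R) : x I i j r ∈ HS I S :=
  x_mem_U (Rl := fun i j => i ∈ S ∧ j ∈ S) ⟨hi, hj⟩ r

theorem HS_mono {S T : Set ι} (h : S ⊆ T) : HS I S ≤ HS I T :=
  U_mono fun _ _ hij => ⟨h hij.1, h hij.2⟩

theorem X_mem_U {Rl : ι → ι → Prop} {n : Matrix ι ι R} (h : ∀ p q, n p q ≠ 0 → Rl p q) :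
    X I n ∈ U I Rl := by
  refine Subgroup.list_prod_mem _ fun g hg => ?_
  obtain ⟨p, -, rfl⟩ := List.mem_map.1 hg
  by_cases h0 : n p.1 p.2 = 0
  · rw [h0, x_zero]; exact one_mem _
  · exact x_mem_U (h _ _ h0) _

theorem phi_x_mul_apply {a b : ι} {r : R} (h : Ok I a b r) (g : St ι I) (i j : ι) :
    phi I (x I a b r * g) i j = phi I g i j + if i = a then r * phi I g b j else 0 := by
  rw [map_mul, phi_x h, add_mul, one_mul, Matrix.add_apply]
  split_ifs with hi
  · rw [hi, single_mul_apply_same]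
  · rw [single_mul_apply_of_ne _ _ _ _ _ hi]

theorem phi_low (g : St ι I) : ∀ i j, ¬ i < j → phi I g i j - (1 : Matrix ι ι R) i j ∈ I := by
  induction g using induction_left with
  | h1 => intro i j _; rw [map_one, sub_self]; exact I.zero_mem
  | hx a b r g hr ih =>
    intro i j hij
    rw [phi_x_mul_apply hr, add_sub_right_comm]
    refine I.add_mem (ih i j hij) ?_
    split_ifs with hi
    · rcases hr.2 with h | h
      · subst hi
        have h1 : j < b := (not_lt.1 hij).trans_lt h
        have h2 := ih b j (not_lt.2 h1.le)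
        rw [Matrix.one_apply_ne h1.ne', sub_zero] at h2
        exact I.mul_mem_left r h2
      · exact I.mul_mem_right _ h
    · exact I.zero_mem

theorem list_prod_mul_of_commute {α G : Type} [Monoid G] (f g h : α → G)
    (hc : ∀ a b, Commute (f a) (g b)) (hm : ∀ a, f a * g a = h a) (l : List α) :
    (l.map f).prod * (l.map g).prod = (l.map h).prod := by
  induction l with
  | nil => simp
  | cons a l ih =>
    have h1 : Commute (l.map f).prod (g a) := Commute.list_prod_left _ _ fun y hy => by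
      obtain ⟨b, -, rfl⟩ := List.mem_map.1 hy
      exact hc b a
    simp only [List.map_cons, List.prod_cons]
    rw [← ih, ← hm, mul_assoc, ← mul_assoc (l.map f).prod, h1.eq, mul_assoc, mul_assoc]

theorem mok_add' {n m : Matrix ι ι R} (hn : MOk I n) (hm : MOk I m) : MOk I (n + m) := by
  intro p q h
  rw [Matrix.add_apply] at h ⊢
  by_cases h1 : n p q = 0
  · rw [h1, zero_add] at h ⊢; exact hm p q h
  · by_cases h2 : m p q = 0
    · rw [h2, add_zero]; exact hn p q h1
    · exact (hn p q h1).add (hm p q h2)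

theorem supp_add' {n m : Matrix ι ι R} {S T : Set ι} (hn : Supp n S T) (hm : Supp m S T) :
    Supp (n + m) S T := by
  intro p q h
  rw [Matrix.add_apply] at h
  by_cases h1 : n p q = 0
  · rw [h1, zero_add] at h; exact hm p q h
  · exact hn p q h1

theorem X_zero' : X I (0 : Matrix ι ι R) = 1 := by
  unfold X
  refine List.prod_eq_one fun g hg => ?_
  obtain ⟨p, -, rfl⟩ := List.mem_map.1 hg
  simp

theorem X_single' (i j : ι) (r : R) : X I (single i j r) = x I i j r := by
  unfold X
  rw [List.prod_map_eq_pow_single (i, j),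
    @List.count_eq_one_of_mem _ (_) (_) _ _ (Finset.nodup_toList _) (by simp), pow_one,
    single_apply_same]
  · infer_instance
  rintro ⟨p, q⟩ hpq -
  rw [single_apply_of_ne, x_zero]
  rintro ⟨rfl, rfl⟩
  exact hpq rfl

theorem X_add' {n m : Matrix ι ι R} {S T : Set ι} (hST : Disjoint S T) (hn : Supp n S T)
    (hm : Supp m S T) (hn' : MOk I n) (hm' : MOk I m) : X I n * X I m = X I (n + m) := by
  refine list_prod_mul_of_commute _ _ _ (fun a b => ?_) (fun a => ?_) _
  · by_cases h1 : n a.1 a.2 = 0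
    · rw [h1, x_zero]; exact Commute.one_left _
    · by_cases h2 : m b.1 b.2 = 0
      · rw [h2, x_zero]; exact Commute.one_right _
      · refine x_comm _ _ (fun h => ?_) fun h => ?_
        · exact Set.disjoint_left.1 hST (hm _ _ h2).1 (h ▸ (hn _ _ h1).2)
        · exact Set.disjoint_left.1 hST (hn _ _ h1).1 (h ▸ (hm _ _ h2).2)
  · rw [Matrix.add_apply]
    by_cases h1 : n a.1 a.2 = 0
    · rw [h1, x_zero, one_mul, zero_add]
    · by_cases h2 : m a.1 a.2 = 0
      · rw [h2, x_zero, mul_one, add_zero]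
      · exact x_add (hn' _ _ h1) (hm' _ _ h2)

theorem phi_X' {n : Matrix ι ι R} (hok : MOk I n) (hsq : ∀ p q s, n p q ≠ 0 → n q s = 0) :
    phi I (X I n) = 1 + n := by
  have key : ∀ l : List (ι × ι), phi I (l.map fun p => x I p.1 p.2 (n p.1 p.2)).prod =
      1 + (l.map fun p => single p.1 p.2 (n p.1 p.2)).sum := by
    intro l
    induction l with
    | nil => simp
    | cons a l ih =>
      simp only [List.map_cons, List.prod_cons, List.sum_cons]
      by_cases h0 : n a.1 a.2 = 0
      · rw [h0, x_zero, one_mul, ih, single_zero, zero_add]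
      · have h1 : single a.1 a.2 (n a.1 a.2) *
            (l.map fun p => single p.1 p.2 (n p.1 p.2)).sum = 0 := by
          rw [← List.sum_map_mul_left]
          refine List.sum_eq_zero fun y hy => ?_
          obtain ⟨b, -, rfl⟩ := List.mem_map.1 hy
          by_cases hb : a.2 = b.1
          · rw [← hb, hsq _ _ b.2 h0, single_zero, mul_zero]
          · exact single_mul_single_of_ne _ _ _ _ hb _
        rw [map_mul, ih, phi_x (hok _ _ h0), add_mul, one_mul, mul_add, mul_one, h1, add_zero]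
        abel
  unfold X
  rw [key, Finset.sum_map_toList, Fintype.sum_prod_type, ← matrix_eq_sum_single]

/-- off-diagonal entries of `phi g` are legal -/
theorem phi_ok (g : St ι I) {i j : ι} (h : i ≠ j) : Ok I i j (phi I g i j) := by
  by_cases hij : i < j
  · exact Ok.of_lt hij _
  · have := phi_low g i j hij
    rw [Matrix.one_apply_ne h, sub_zero] at this
    exact Ok.of_mem h this

theorem phi_diag (g : St ι I) (i : ι) : phi I g i i - 1 ∈ I := by
  have := phi_low g i i (lt_irrefl i)
  rwa [Matrix.one_apply_eq] at this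

theorem U_induction {Rl : ι → ι → Prop} {P : St ι I → Prop} (h1 : P 1)
    (hx : ∀ i j r g, Rl i j → Ok I i j r → P g → P (x I i j r * g)) {g : St ι I}
    (hg : g ∈ U I Rl) : P g := by
  refine closure_induction_x (by rintro _ ⟨i, j, r, -, rfl⟩; exact ⟨i, j, r, rfl⟩) h1 ?_ hg
  rintro _ ⟨i, j, r, hij, rfl⟩ g hg
  by_cases hr : Ok I i j r
  · exact hx i j r g hij hr hg
  · rwa [x_of_not hr, one_mul]

theorem U_supp {Rl : ι → ι → Prop} (htr : ∀ a b c, Rl a b → Rl b c → Rl a c) {g : St ι I}
    (hg : g ∈ U I Rl) {i j : ι} (h : ¬ Rl i j) : phi I g i j = (1 : Matrix ι ι R) i j := by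
  revert i j
  refine U_induction (P := fun g => ∀ {i j : ι}, ¬ Rl i j → phi I g i j = (1 : Matrix ι ι R) i j)
    (fun _ => by rw [map_one]) (fun a b r g hab hr ih i j hij => ?_) hg
  rw [phi_x_mul_apply hr, ih hij]
  split_ifs with hi
  · subst hi
    rw [ih fun h => hij (htr _ _ _ hab h), Matrix.one_apply_ne (i := b), mul_zero, add_zero]
    rintro rfl
    exact hij hab
  · exact add_zero _

theorem HS_supp {S : Set ι} {g : St ι I} (hg : g ∈ HS I S) {i j : ι} (h : ¬ (i ∈ S ∧ j ∈ S)) :
    phi I g i j = (1 : Matrix ι ι R) i j :=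
  U_supp (Rl := fun i j => i ∈ S ∧ j ∈ S) (fun _ _ _ h h' => ⟨h.1, h'.2⟩) hg h

theorem row_inj {Rl : ι → ι → Prop} {p₀ : ι} {g : St ι I}
    (hg : g ∈ U I fun i j => i = p₀ ∧ Rl i j) (h : phi I g = 1) : g = 1 := by
  have hd : Disjoint ({p₀} : Set ι) {q | q ≠ p₀} := Set.disjoint_left.2 fun _ h h' => h' h
  obtain ⟨m, h1, h2, rfl⟩ : ∃ m, Supp m {p₀} {q | q ≠ p₀} ∧ MOk I m ∧ g = X I m := by
    refine U_induction (P := fun g => ∃ m, Supp m {p₀} {q | q ≠ p₀} ∧ MOk I m ∧ g = X I m)
      ⟨0, fun _ _ h => absurd rfl h, fun _ _ h => absurd rfl h, X_zero'.symm⟩ ?_ hg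
    rintro i j r g ⟨rfl, -⟩ hr ⟨m, h1, h2, rfl⟩
    have h3 : ∀ p q, single i j r p q ≠ 0 → p = i ∧ q = j := by
      intro p q h
      by_contra h'
      exact h (single_apply_of_ne _ _ _ _ _ fun h'' => h' ⟨h''.1.symm, h''.2.symm⟩)
    have h4 : Supp (single i j r) {i} {q | q ≠ i} := fun p q h => by
      obtain ⟨rfl, rfl⟩ := h3 p q h
      exact ⟨rfl, hr.1.symm⟩
    have h5 : MOk I (single i j r) := fun p q h => by
      obtain ⟨rfl, rfl⟩ := h3 p q h
      rwa [single_apply_same]
    exact ⟨single i j r + m, supp_add' h4 h1, mok_add' h5 h2, by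
      rw [← X_add' hd h4 h1 h5 h2, X_single']⟩
  rw [phi_X' h2 fun p q s hpq => by
    by_contra h'
    exact (h1 p q hpq).2 (h1 q s h').1] at h
  rw [add_eq_left.1 h, X_zero']

theorem row_conj {Rl : ι → ι → Prop} (htr : ∀ a b c, Rl a b → Rl b c → Rl a c) {p₀ a b : ι}
    {r : R} (hab : Rl a b) (hr : Ok I a b r) (hb : b ≠ p₀) {g : St ι I}
    (hg : g ∈ U I fun i j => i = p₀ ∧ Rl i j) :
    x I a b r * g * (x I a b r)⁻¹ ∈ U I fun i j => i = p₀ ∧ Rl i j := by
  refine U_induction (P := fun g => x I a b r * g * (x I a b r)⁻¹ ∈ U I fun i j => i = p₀ ∧ Rl i j)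
    (by simp) ?_ hg
  rintro i q c g ⟨rfl, hq⟩ hc ih
  have h1 : x I a b r * (x I i q c * g) * (x I a b r)⁻¹ =
      (x I a b r * x I i q c * (x I a b r)⁻¹) * (x I a b r * g * (x I a b r)⁻¹) := by group
  rw [h1]
  refine mul_mem ?_ ih
  by_cases hqa : a = q
  · subst hqa
    have h2 := x_mul' hc hr hb.symm
    have h3 : x I a b r * x I i a c * (x I a b r)⁻¹ = (x I i b (c * r))⁻¹ * x I i a c := by
      rw [eq_inv_mul_iff_mul_eq, ← mul_assoc, ← mul_assoc, ← h2, mul_inv_cancel_right]
    rw [h3]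
    exact mul_mem (inv_mem (x_mem_U ⟨rfl, htr _ _ _ hq hab⟩ _)) (x_mem_U ⟨rfl, hq⟩ _)
  · rw [(x_comm r c hb hqa).eq, mul_inv_cancel_right]
    exact x_mem_U ⟨rfl, hq⟩ _

theorem exists_min_source {Rl : ι → ι → Prop} (htr : ∀ a b c, Rl a b → Rl b c → Rl a c)
    (hirr : ∀ a, ¬ Rl a a) {T : Finset ι} (hT : T.Nonempty) : ∃ p ∈ T, ∀ q ∈ T, ¬ Rl q p := by
  have : IsTrans ι Rl := ⟨htr⟩
  have : Std.Irrefl Rl := ⟨hirr⟩
  exact (Finite.wellFounded_of_trans_of_irrefl Rl).has_min (T : Set ι) hT

theorem U_inj {Rl : ι → ι → Prop} (htr : ∀ a b c, Rl a b → Rl b c → Rl a c)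
    (hirr : ∀ a, ¬ Rl a a) {g : St ι I} (hg : g ∈ U I Rl) (h : phi I g = 1) : g = 1 := by
  have key : ∀ T : Finset ι, ∀ Rl : ι → ι → Prop, (∀ a b c, Rl a b → Rl b c → Rl a c) →
      (∀ a, ¬ Rl a a) → (∀ a b, Rl a b → a ∈ T) → ∀ g ∈ U I Rl, phi I g = 1 → g = 1 := by
    intro T
    induction T using Finset.strongInduction with
    | H T ih =>
      intro Rl htr hirr hT g hg h
      rcases T.eq_empty_or_nonempty with rfl | hne
      · exact U_induction (P := fun g => g = 1) rfl
          (fun i j _ _ hij => absurd (hT i j hij) (by simp)) hg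
      obtain ⟨p₀, hp₀, hmin⟩ := exists_min_source htr hirr hne
      have hin : ∀ a b, Rl a b → b ≠ p₀ := fun a b hab hb => hmin a (hT a b hab) (hb ▸ hab)
      obtain ⟨n, hn, g', hg', rfl⟩ : ∃ n ∈ U I fun i j => i = p₀ ∧ Rl i j,
          ∃ g' ∈ U I fun i j => i ≠ p₀ ∧ Rl i j, g = n * g' := by
        refine U_induction (P := fun g => ∃ n ∈ U I fun i j => i = p₀ ∧ Rl i j,
          ∃ g' ∈ U I fun i j => i ≠ p₀ ∧ Rl i j, g = n * g')
          ⟨1, one_mem _, 1, one_mem _, (mul_one _).symm⟩ ?_ hg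
        rintro a b r _ hab hr ⟨n, hn, g', hg', rfl⟩
        by_cases ha : a = p₀
        · exact ⟨_, mul_mem (x_mem_U ⟨ha, hab⟩ r) hn, g', hg', (mul_assoc _ _ _).symm⟩
        · exact ⟨_, row_conj htr hab hr (hin a b hab) hn, _, mul_mem (x_mem_U ⟨ha, hab⟩ r) hg',
            by group⟩
      have htr' : ∀ a b c, a ≠ p₀ ∧ Rl a b → b ≠ p₀ ∧ Rl b c → a ≠ p₀ ∧ Rl a c :=
        fun a b c h h' => ⟨h.1, htr _ _ _ h.2 h'.2⟩
      have h1 : phi I n = phi I g'⁻¹ := by
        have : n = n * g' * g'⁻¹ := by group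
        rw [this, map_mul, h, one_mul]
      have h2 : n = 1 := by
        refine row_inj hn ?_
        ext i j
        by_cases hi : i = p₀
        · rw [h1]
          exact U_supp htr' (inv_mem hg') fun h' => h'.1 hi
        · exact U_supp (Rl := fun i j => i = p₀ ∧ Rl i j)
            (fun a b c h h' => ⟨h.1, htr _ _ _ h.2 h'.2⟩) hn fun h' => hi h'.1
      rw [h2, one_mul] at h ⊢
      exact ih (T.erase p₀) (Finset.erase_ssubset hp₀) _ htr' (fun a h => hirr a h.2)
        (fun a b h => Finset.mem_erase.2 ⟨h.1, hT a b h.2⟩) g' hg' h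
  exact key Finset.univ Rl htr hirr (fun _ _ _ => Finset.mem_univ _) g hg h

theorem U_ext {Rl : ι → ι → Prop} (htr : ∀ a b c, Rl a b → Rl b c → Rl a c)
    (hirr : ∀ a, ¬ Rl a a) {g g' : St ι I} (hg : g ∈ U I Rl) (hg' : g' ∈ U I Rl)
    (h : phi I g = phi I g') : g = g' := by
  have := U_inj htr hirr (mul_mem hg (inv_mem hg')) (by rw [map_mul, h, phi_mul_inv])
  exact mul_inv_eq_one.1 this

/-- the usual way to apply `U_ext`: a rank function -/
theorem U_ext_rk (rk : ι → ℕ) {g g' : St ι I} (hg : g ∈ U I fun p q => rk p < rk q)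
    (hg' : g' ∈ U I fun p q => rk p < rk q) (h : phi I g = phi I g') : g = g' :=
  U_ext (Rl := fun p q => rk p < rk q) (fun _ _ _ => lt_trans) (fun _ => lt_irrefl _) hg hg' h

theorem U_surj {Rl : ι → ι → Prop} (htr : ∀ a b c, Rl a b → Rl b c → Rl a c)
    (hirr : ∀ a, ¬ Rl a a) {n : Matrix ι ι R} (hn : ∀ p q, n p q ≠ 0 → Rl p q) (hok : MOk I n) :
    ∃ g ∈ U I Rl, phi I g = 1 + n := by
  have key : ∀ T : Finset ι, ∀ n : Matrix ι ι R, (∀ p q, n p q ≠ 0 → Rl p q ∧ p ∈ T) → MOk I n →
      ∃ g ∈ U I Rl, phi I g = 1 + n := by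
    intro T
    induction T using Finset.strongInduction with
    | H T ih =>
      intro n hn hok
      rcases T.eq_empty_or_nonempty with rfl | hne
      · refine ⟨1, one_mem _, ?_⟩
        have : n = 0 := by
          ext p q
          by_contra h
          simpa using (hn p q h).2
        rw [this, map_one, add_zero]
      obtain ⟨p₀, hp₀, hmin⟩ := exists_min_source htr hirr hne
      have hcol : ∀ p, n p p₀ = 0 := fun p => by
        by_contra h
        exact hmin p (hn p _ h).2 (hn p _ h).1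
      set n' : Matrix ι ι R := Matrix.of fun p q => if p = p₀ then 0 else n p q with hn'
      set m : Matrix ι ι R := Matrix.of fun p q => if p = p₀ then n p q else 0 with hm
      have e1 : ∀ p q, n' p q ≠ 0 → p ≠ p₀ ∧ n' p q = n p q := by
        intro p q h
        by_cases hp : p = p₀ <;> simp_all
      have e2 : ∀ p q, m p q ≠ 0 → p = p₀ ∧ m p q = n p q := by
        intro p q h
        by_cases hp : p = p₀ <;> simp_all
      obtain ⟨g', hg', h1⟩ := ih (T.erase p₀) (Finset.erase_ssubset hp₀) n'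
        (fun p q h => by
          obtain ⟨h2, h3⟩ := e1 p q h
          rw [h3] at h
          exact ⟨(hn p q h).1, Finset.mem_erase.2 ⟨h2, (hn p q h).2⟩⟩)
        (fun p q h => by
          obtain ⟨-, h3⟩ := e1 p q h
          rw [h3] at h ⊢
          exact hok p q h)
      have h2 : phi I (X I m) = 1 + m := by
        refine phi_X' (fun p q h => ?_) fun p q s h => ?_
        · obtain ⟨-, h3⟩ := e2 p q h
          rw [h3] at h ⊢
          exact hok p q h
        · by_contra h'
          obtain ⟨-, h3⟩ := e2 p q h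
          rw [h3, (e2 q s h').1] at h
          exact h (hcol p)
      refine ⟨g' * X I m, mul_mem hg' (X_mem_U fun p q h => ?_), ?_⟩
      · obtain ⟨-, h3⟩ := e2 p q h
        rw [h3] at h
        exact (hn p q h).1
      · have h3 : n' * m = 0 := by
          ext i j
          rw [Matrix.mul_apply, Matrix.zero_apply]
          refine Finset.sum_eq_zero fun k _ => ?_
          by_cases hk : k = p₀
          · subst hk; simp [hn', hcol]
          · simp [hm, hk]
        have h4 : n' + m = n := by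
          ext i j
          by_cases hi : i = p₀ <;> simp [hn', hm, hi]
        rw [map_mul, h1, h2, add_mul, one_mul, mul_add, mul_one, h3, add_zero, ← h4]
        abel
  exact key Finset.univ n (fun p q h => ⟨hn p q h, Finset.mem_univ _⟩) hok

theorem phi_X {n : Matrix ι ι R} (hok : MOk I n) (hsq : ∀ p q s, n p q ≠ 0 → n q s = 0) :
    phi I (X I n) = 1 + n :=
  phi_X' hok hsq

theorem phi_X_of_supp {n : Matrix ι ι R} {S T : Set ι} (hST : Disjoint S T) (hn : Supp n S T)
    (hok : MOk I n) : phi I (X I n) = 1 + n :=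
  phi_X hok fun p q s h => by
    by_contra h'
    exact Set.disjoint_left.1 hST (hn q s h').1 (hn p q h).2

theorem X_zero : X I (0 : Matrix ι ι R) = 1 := X_zero'

theorem X_single (i j : ι) (r : R) : X I (single i j r) = x I i j r := X_single' i j r

theorem X_add {n m : Matrix ι ι R} {S T : Set ι} (hST : Disjoint S T) (hn : Supp n S T)
    (hm : Supp m S T) (hn' : MOk I n) (hm' : MOk I m) : X I n * X I m = X I (n + m) :=
  X_add' hST hn hm hn' hm'

theorem X_inv {n : Matrix ι ι R} {S T : Set ι} (hST : Disjoint S T) (hn : Supp n S T)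
    (hn' : MOk I n) : (X I n)⁻¹ = X I n :=
  inv_eq_of_mul_eq_one_right (by rw [X_add hST hn hn hn' hn', add_self2, X_zero])

end Crest.Agent.R176
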